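import Vale.Agent.P358.Key
import Vale.Agent.P369.Defs

/-! Definitions shared by the proof files of P369 (none of them is used in the statement). -/

namespace Vale.Agent.P369

open Matrix Vale.Agent.P358 Complex
open scoped ComplexOrder Kronecker

/-- logarithmic mean -/
noncomputable def lm (p q : ℝ) : ℝ := if p = q then p else (p - q) / (Real.log p - Real.log q)

/-- inverse temperature of the thermal state with mean photon number `N` -/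
noncomputable def bet (N : ℝ) : ℝ := Real.log (N + 1) - Real.log N

def psi (N p q : ℝ) : ℝ := N * p - (N + 1) * q

noncomputable def vr (N p q : ℝ) : ℝ := (Real.log p - Real.log q) / bet N - 1

section

variable {m n : Type} [Fintype m] [Fintype n]

/-- squared Frobenius norm -/
noncomputable def fs (X : Matrix m n ℂ) : ℝ := ∑ i, ∑ j, normSq (X i j)

/-- expectation `Re Tr (ρ X)` -/
noncomputable def ex (ρ X : Matrix n n ℂ) : ℝ := (ρ * X).trace.re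

/-- contraction of weighted sums of squares -/
def Contr (M : Matrix m n ℂ) (f : m → ℝ) (g : n → ℝ) : Prop :=
  ∀ v : n → ℂ, ∑ i, f i * normSq ((M *ᵥ v) i) ≤ ∑ j, g j * normSq (v j)

/-- `N ρ a - (N+1) a ρ` -/
noncomputable def Psi (N : ℝ) (ρ a : Matrix n n ℂ) : Matrix n n ℂ :=
  (N : ℂ) • (ρ * a) - ((N + 1 : ℝ) : ℂ) • (a * ρ)

variable [DecidableEq n]

/-- `-log ρ` for `ρ = U diag(p) U†` -/
noncomputable def mlog (U : Matrix n n ℂ) (p : n → ℝ) : Matrix n n ℂ :=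
  U * diagonal (fun i => ((-Real.log (p i) : ℝ) : ℂ)) * Uᴴ

/-- BKM form on observables -/
noncomputable def bkm (U : Matrix n n ℂ) (p : n → ℝ) (Z : Matrix n n ℂ) : ℝ :=
  ∑ k, ∑ l, lm (p k) (p l) * normSq ((Uᴴ * Z * U) k l)

/-- BKM form on perturbations (minus the Hessian of the entropy) -/
noncomputable def Qf (U : Matrix n n ℂ) (p : n → ℝ) (X : Matrix n n ℂ) : ℝ :=
  ∑ k, ∑ l, normSq ((Uᴴ * X * U) k l) / lm (p k) (p l)

end

/-- functions `m` whose homogeneous extension `f₀ m (f₁ / f₀)` preserves contraction -/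
def IsMean (m : ℝ → ℝ) : Prop :=
  (∀ r, 0 < r → 0 < m r) ∧ ContinuousOn m (Set.Ioi 0) ∧
    ∀ (K C : Type) [Fintype K] [Fintype C] (M : Matrix K C ℂ) (f₀ f₁ : K → ℝ) (g₀ g₁ : C → ℝ),
      (∀ i, 0 < f₀ i) → (∀ i, 0 < f₁ i) → (∀ j, 0 < g₀ j) → (∀ j, 0 < g₁ j) →
        Contr M f₀ g₀ → Contr M f₁ g₁ →
          Contr M (fun i => f₀ i * m (f₁ i / f₀ i)) (fun j => g₀ j * m (g₁ j / g₀ j))

/-- the fixed-point iteration -/
noncomputable def wn : ℕ → ℝ → ℝ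
  | 0 => fun _ => 1
  | n + 1 => fun r => ∫ θ in (0 : ℝ)..1,
      (1 + (wn n ((1 - θ) * 1 + θ * r))⁻¹) / (2 * ((1 - θ) * 1 + θ * r))

noncomputable def Gn (n : ℕ) (r : ℝ) : ℝ := (1 + (wn n r)⁻¹) / (2 * r)

noncomputable def avg (n : ℕ) (r₁ r₂ : ℝ) : ℝ :=
  ∫ θ in (0 : ℝ)..1, Gn n ((1 - θ) * r₁ + θ * r₂)

theorem wn_succ (n : ℕ) (r : ℝ) : wn (n + 1) r = avg n 1 r := rfl

/-- `(φ, r) = (z coth z, (z / sinh z)²)` for some `z ≥ 0` -/
def OnCurve (φ r : ℝ) : Prop :=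
  (φ = 1 ∧ r = 1) ∨
    ∃ z : ℝ, 0 < z ∧ φ = z * Real.cosh z / Real.sinh z ∧ r = (z / Real.sinh z) ^ 2

section

variable {α β γ δ ω : Type} [Fintype α] [Fintype β] [Fintype γ] [Fintype δ] [Fintype ω]
  [DecidableEq α] [DecidableEq β] [DecidableEq γ] [DecidableEq δ] [DecidableEq ω]

/-- trace over the second factor -/
noncomputable def ptr (X : Matrix (γ × δ) (γ × δ) ℂ) : Matrix γ γ ℂ :=
  Matrix.of fun k k' => ∑ l, X (k, l) (k', l)

noncomputable def Phi (V : Matrix (γ × δ) ω ℂ) (X : Matrix ω ω ℂ) : Matrix γ γ ℂ :=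
  ptr (V * X * Vᴴ)

noncomputable def Gam (V : Matrix (γ × δ) ω ℂ) (Y : Matrix γ γ ℂ) : Matrix ω ω ℂ :=
  Vᴴ * (Y ⊗ₖ (1 : Matrix δ δ ℂ)) * V

noncomputable def piA (B : Matrix β β ℂ) (M : Matrix (α × β) (α × β) ℂ) : Matrix α α ℂ :=
  Matrix.of fun i k => ∑ j, ∑ l, B l j * M (i, j) (k, l)

noncomputable def piB (A : Matrix α α ℂ) (M : Matrix (α × β) (α × β) ℂ) : Matrix β β ℂ :=
  Matrix.of fun j l => ∑ i, ∑ k, A k i * M (i, j) (k, l)

/-- centered conditional expectation on the first factor -/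
noncomputable def cenA (A : Matrix α α ℂ) (B : Matrix β β ℂ) (M : Matrix (α × β) (α × β) ℂ) :
    Matrix α α ℂ := piA B M - ((A ⊗ₖ B) * M).trace • (1 : Matrix α α ℂ)

/-- centered conditional expectation on the second factor -/
noncomputable def cenB (A : Matrix α α ℂ) (B : Matrix β β ℂ) (M : Matrix (α × β) (α × β) ℂ) :
    Matrix β β ℂ := piB A M - ((A ⊗ₖ B) * M).trace • (1 : Matrix β β ℂ)

/-- the output mixed with a little white noise -/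
noncomputable def out (V : Matrix (γ × δ) (α × β) ℂ) (θ : ℝ) (A : Matrix α α ℂ)
    (B : Matrix β β ℂ) : Matrix γ γ ℂ :=
  ((1 - θ : ℝ) : ℂ) • Phi V (A ⊗ₖ B) + ((θ / Fintype.card γ : ℝ) : ℂ) • (1 : Matrix γ γ ℂ)

/-- the penalized functional -/
noncomputable def GG (V : Matrix (γ × δ) (α × β) ℂ) (θ τ la lb : ℝ) (FA : Matrix α α ℂ)
    (FB : Matrix β β ℂ) (A : Matrix α α ℂ) (B : Matrix β β ℂ) : ℝ :=
  τ * ent (out V θ A B) - la * ent A - lb * ent B + ex A FA + ex B FB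

/-- first- and second-order conditions at a minimizer -/
structure Crit (V : Matrix (γ × δ) (α × β) ℂ) (θ τ la lb : ℝ) (FA : Matrix α α ℂ)
    (FB : Matrix β β ℂ) (A : Matrix α α ℂ) (B : Matrix β β ℂ) (UA : Matrix α α ℂ) (pA : α → ℝ)
    (UB : Matrix β β ℂ) (pB : β → ℝ) (UC : Matrix γ γ ℂ) (pC : γ → ℝ) : Prop where
  sA : IsState A
  sB : IsState B
  dA : Dg A UA pA
  dB : Dg B UB pB
  dC : Dg (out V θ A B) UC pC
  posA : ∀ i, 0 < pA i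
  posB : ∀ i, 0 < pB i
  posC : ∀ i, 0 < pC i
  elA : ∀ X : Matrix α α ℂ, X.trace = 0 →
    ((τ * (1 - θ) : ℝ) : ℂ) * (Phi V (X ⊗ₖ B) * mlog UC pC).trace
      - (la : ℂ) * (X * mlog UA pA).trace + (X * FA).trace = 0
  elB : ∀ X : Matrix β β ℂ, X.trace = 0 →
    ((τ * (1 - θ) : ℝ) : ℂ) * (Phi V (A ⊗ₖ X) * mlog UC pC).trace
      - (lb : ℂ) * (X * mlog UB pB).trace + (X * FB).trace = 0
  qA : ∀ X : Matrix α α ℂ, X.trace = 0 →
    τ * (1 - θ) ^ 2 * Qf UC pC (Phi V (X ⊗ₖ B)) ≤ la * Qf UA pA X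
  qB : ∀ X : Matrix β β ℂ, X.trace = 0 →
    τ * (1 - θ) ^ 2 * Qf UC pC (Phi V (A ⊗ₖ X)) ≤ lb * Qf UB pB X

/-- the truncated beam-splitter relations for one mode -/
structure Mode (V : Matrix (γ × δ) (α × β) ℂ) (η : ℝ) (a : Matrix α α ℂ) (b : Matrix β β ℂ)
    (c : Matrix γ γ ℂ) (d : Matrix δ δ ℂ) (LA LB : Matrix (γ × δ) (α × β) ℂ) : Prop where
  lowA : V * (a ⊗ₖ (1 : Matrix β β ℂ))
    = (((√η : ℝ) : ℂ) • (c ⊗ₖ (1 : Matrix δ δ ℂ))
        - ((√(1 - η) : ℝ) : ℂ) • ((1 : Matrix γ γ ℂ) ⊗ₖ d)) * V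
  lowB : V * ((1 : Matrix α α ℂ) ⊗ₖ b)
    = (((√(1 - η) : ℝ) : ℂ) • (c ⊗ₖ (1 : Matrix δ δ ℂ))
        + ((√η : ℝ) : ℂ) • ((1 : Matrix γ γ ℂ) ⊗ₖ d)) * V
  upA : Vᴴ * (((√η : ℝ) : ℂ) • (c ⊗ₖ (1 : Matrix δ δ ℂ))
        - ((√(1 - η) : ℝ) : ℂ) • ((1 : Matrix γ γ ℂ) ⊗ₖ d))
    = (a ⊗ₖ (1 : Matrix β β ℂ)) * Vᴴ + LAᴴ
  upB : Vᴴ * (((√(1 - η) : ℝ) : ℂ) • (c ⊗ₖ (1 : Matrix δ δ ℂ))
        + ((√η : ℝ) : ℂ) • ((1 : Matrix γ γ ℂ) ⊗ₖ d))
    = ((1 : Matrix α α ℂ) ⊗ₖ b) * Vᴴ + LBᴴ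
  killA : LA * (a ⊗ₖ (1 : Matrix β β ℂ)) = 0
  killB : LB * ((1 : Matrix α α ℂ) ⊗ₖ b) = 0

end

/-- occupation numbers at most `K` in every mode -/
abbrev Box (n K : ℕ) : Type := Fin n → Fin (K + 1)

section

variable {n K : ℕ}

def emb (k : Box n K) : Occ n := fun j => k j

/-- truncated annihilation operator -/
noncomputable def low (n K : ℕ) (j : Fin n) : Matrix (Box n K) (Box n K) ℂ :=
  Matrix.of fun k l => if emb l = emb k + Pi.single j 1 then ((√(emb l j : ℝ) : ℝ) : ℂ) else 0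

/-- total photon number -/
noncomputable def nrg (n K : ℕ) : Matrix (Box n K) (Box n K) ℂ :=
  diagonal fun k => ((∑ j, (emb k j : ℝ) : ℝ) : ℂ)

/-- exponential penalty -/
noncomputable def pen (n K : ℕ) (w : ℝ) : Matrix (Box n K) (Box n K) ℂ :=
  diagonal fun k => ((∑ j, w ^ emb k j : ℝ) : ℂ)

/-- `K + 1` times the projection on the top level of mode `j` -/
noncomputable def top (n K : ℕ) (j : Fin n) : Matrix (Box n K) (Box n K) ℂ :=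
  diagonal fun k => if emb k j = K then (((K : ℝ) + 1 : ℝ) : ℂ) else 0

/-- extension by zero -/
noncomputable def ext (X : Matrix (Box n K) (Box n K) ℂ) (k l : Occ n) : ℂ :=
  ∑ k', ∑ l', if emb k' = k ∧ emb l' = l then X k' l' else 0

/-- a kernel cut at level `m`, as a matrix on the box `K` -/
noncomputable def cut (f : Occ n → Occ n → ℂ) (K m : ℕ) : Matrix (Box n K) (Box n K) ℂ :=
  Matrix.of fun k l => if (∀ i, emb k i ≤ m) ∧ (∀ i, emb l i ≤ m) then f (emb k) (emb l) else 0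

/-- matrix elements of a beam splitter -/
structure Coef (η : ℝ) (u : Occ n × Occ n → Occ n × Occ n → ℂ) : Prop where
  supp : ∀ x y, u x y ≠ 0 → x.1 + x.2 = y.1 + y.2
  orth : ∀ y y', HasSum (fun x => (starRingEnd ℂ) (u x y) * u x y') (if y = y' then 1 else 0)
  row : ∀ x (S : Finset (Occ n × Occ n)), ∑ y ∈ S, normSq (u x y) ≤ 1
  vac : u (0, 0) (0, 0) = 1
  lowA : ∀ (j : Fin n) x y, ((√(y.1 j : ℝ) : ℝ) : ℂ) * u x (y.1 - Pi.single j 1, y.2)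
    = ((√η : ℝ) : ℂ) * (((√((x.1 j : ℝ) + 1) : ℝ) : ℂ) * u (x.1 + Pi.single j 1, x.2) y)
      - ((√(1 - η) : ℝ) : ℂ) * (((√((x.2 j : ℝ) + 1) : ℝ) : ℂ) * u (x.1, x.2 + Pi.single j 1) y)
  lowB : ∀ (j : Fin n) x y, ((√(y.2 j : ℝ) : ℝ) : ℂ) * u x (y.1, y.2 - Pi.single j 1)
    = ((√(1 - η) : ℝ) : ℂ) * (((√((x.1 j : ℝ) + 1) : ℝ) : ℂ) * u (x.1 + Pi.single j 1, x.2) y)
      + ((√η : ℝ) : ℂ) * (((√((x.2 j : ℝ) + 1) : ℝ) : ℂ) * u (x.1, x.2 + Pi.single j 1) y)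
  upA : ∀ (j : Fin n) x y, ((√((y.1 j : ℝ) + 1) : ℝ) : ℂ) * u x (y.1 + Pi.single j 1, y.2)
    = ((√η : ℝ) : ℂ) * (((√(x.1 j : ℝ) : ℝ) : ℂ) * u (x.1 - Pi.single j 1, x.2) y)
      - ((√(1 - η) : ℝ) : ℂ) * (((√(x.2 j : ℝ) : ℝ) : ℂ) * u (x.1, x.2 - Pi.single j 1) y)
  upB : ∀ (j : Fin n) x y, ((√((y.2 j : ℝ) + 1) : ℝ) : ℂ) * u x (y.1, y.2 + Pi.single j 1)
    = ((√(1 - η) : ℝ) : ℂ) * (((√(x.1 j : ℝ) : ℝ) : ℂ) * u (x.1 - Pi.single j 1, x.2) y)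
      + ((√η : ℝ) : ℂ) * (((√(x.2 j : ℝ) : ℝ) : ℂ) * u (x.1, x.2 - Pi.single j 1) y)

/-- the truncated beam splitter -/
noncomputable def beam (u : Occ n × Occ n → Occ n × Occ n → ℂ) (K : ℕ) :
    Matrix (Box n (2 * K + 1) × Box n (2 * K + 1)) (Box n K × Box n K) ℂ :=
  Matrix.of fun x y => u (emb x.1, emb x.2) (emb y.1, emb y.2)

noncomputable def leakA (u : Occ n × Occ n → Occ n × Occ n → ℂ) (K : ℕ) (j : Fin n) :
    Matrix (Box n (2 * K + 1) × Box n (2 * K + 1)) (Box n K × Box n K) ℂ :=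
  Matrix.of fun x y => if emb y.1 j = K then
    ((√((K : ℝ) + 1) : ℝ) : ℂ) * u (emb x.1, emb x.2) (emb y.1 + Pi.single j 1, emb y.2) else 0

noncomputable def leakB (u : Occ n × Occ n → Occ n × Occ n → ℂ) (K : ℕ) (j : Fin n) :
    Matrix (Box n (2 * K + 1) × Box n (2 * K + 1)) (Box n K × Box n K) ℂ :=
  Matrix.of fun x y => if emb y.2 j = K then
    ((√((K : ℝ) + 1) : ℝ) : ℂ) * u (emb x.1, emb x.2) (emb y.1, emb y.2 + Pi.single j 1) else 0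

/-- thermal weights -/
noncomputable def therm (N : ℝ) (k : Occ n) : ℝ := ∏ j, (N / (N + 1)) ^ k j / (N + 1)

end

end Vale.Agent.P369
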