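import Vale.Agent.P369.BoxL

/-! P369 task Beam: the truncated beam splitter satisfies `Mode`.
Plan. `sum_orth`: for `y, y'` with `y.1 j + y.2 j ≤ 2K+1` for all `j`, the terms of `hu.orth y y'`
vanish outside the boxes (`hu.supp`), so the `HasSum` is the finite sum over
`Box (2K+1) × Box (2K+1)` (`hasSum_sum_of_ne_finset_zero`, `sum_box`, `HasSum.unique`). This gives
`beam_iso`, `leakA_sq`, `leakB_sq` (`emb_inj`, `add_left_injective`).
Products with Kronecker factors: `(V * (a ⊗ₖ 1)) x y = (V(x, (·, y.2)) * a) y.1`, so `mul_low` etc.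
apply to the slices (`Matrix.of fun i l => V i (l, y.2)`); or prove four slice lemmas once.
`lowA`: `hu.lowA`; when `emb x.1 j = 2K+1` the missing term `u (x.1 + e j, x.2) y` is `0` by `supp`.
`upA`: take conjugate transposes, `(x c₁ᴴ - y d₁ᴴ) V = V a₁ᴴ + LA`, use `hu.upA`, and split on
`emb y.1 j < K` or `= K`. `killA`: `mul_low` gives `√(l j) * [l j - 1 = K] ..`, zero as `l j ≤ K`
(if `l j = 0` the square root vanishes).
`out_nrg_le`: `sum_lowH_low`, `ex_sum`, `Mode.energy`, `normSq_mean_le`. -/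

namespace Vale.Agent.P369

open Matrix Vale.Agent.P358 Complex
open scoped ComplexOrder Kronecker

variable {n : ℕ} {η : ℝ} {u : Occ n × Occ n → Occ n × Occ n → ℂ}

section

variable {α β m : Type} [Fintype α] [Fintype β] [DecidableEq α] [DecidableEq β]

theorem mul_kl_beam (X : Matrix m (α × β) ℂ) (a : Matrix α α ℂ) (i : m) (y : α × β) :
    (X * (a ⊗ₖ (1 : Matrix β β ℂ))) i y = ((Matrix.of fun i l => X i (l, y.2)) * a) i y.1 := by
  simp [Matrix.mul_apply, Fintype.sum_prod_type, one_apply]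

theorem mul_kr_beam (X : Matrix m (α × β) ℂ) (b : Matrix β β ℂ) (i : m) (y : α × β) :
    (X * ((1 : Matrix α α ℂ) ⊗ₖ b)) i y = ((Matrix.of fun i l => X i (y.1, l)) * b) i y.2 := by
  simp [Matrix.mul_apply, Fintype.sum_prod_type, one_apply]

theorem kl_mul_beam (X : Matrix (α × β) m ℂ) (a : Matrix α α ℂ) (i : m) (x : α × β) :
    ((a ⊗ₖ (1 : Matrix β β ℂ)) * X) x i = (a * (Matrix.of fun k i => X (k, x.2) i)) x.1 i := by
  simp [Matrix.mul_apply, Fintype.sum_prod_type, one_apply]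

theorem kr_mul_beam (X : Matrix (α × β) m ℂ) (b : Matrix β β ℂ) (i : m) (x : α × β) :
    (((1 : Matrix α α ℂ) ⊗ₖ b) * X) x i = (b * (Matrix.of fun k i => X (x.1, k) i)) x.2 i := by
  simp [Matrix.mul_apply, Fintype.sum_prod_type, one_apply]

end

theorem sum_orth_beam (hu : Coef η u) (L : ℕ) {y : Occ n × Occ n} (y' : Occ n × Occ n)
    (hy : ∀ j, y.1 j + y.2 j ≤ L) :
    ∑ x : Box n L × Box n L, (starRingEnd ℂ) (u (emb x.1, emb x.2) y) * u (emb x.1, emb x.2) y'
      = if y = y' then 1 else 0 := by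
  refine HasSum.unique ?_ (hu.orth y y')
  have h : ∑ x : Box n L × Box n L,
      (starRingEnd ℂ) (u (emb x.1, emb x.2) y) * u (emb x.1, emb x.2) y'
      = ∑ x ∈ boxF n L ×ˢ boxF n L, (starRingEnd ℂ) (u x y) * u x y' := by
    rw [Fintype.sum_prod_type, Finset.sum_product]
    refine (Finset.sum_congr rfl fun k _ =>
      sum_box fun z => (starRingEnd ℂ) (u (emb k, z) y) * u (emb k, z) y').trans ?_
    exact sum_box fun w => ∑ z ∈ boxF n L, (starRingEnd ℂ) (u (w, z) y) * u (w, z) y'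
  rw [h]
  refine hasSum_sum_of_ne_finset_zero fun x hx => ?_
  have h0 : u x y = 0 := by
    by_contra h0
    have h1 := hu.supp x y h0
    refine hx (Finset.mem_product.2 ⟨mem_boxF.2 fun j => ?_, mem_boxF.2 fun j => ?_⟩)
    all_goals
      have h2 := congrFun h1 j
      have h3 := hy j
      simp only [Pi.add_apply] at h2
      omega
  rw [h0, map_zero, zero_mul]

theorem beam_iso (hu : Coef η u) (K : ℕ) : (beam u K)ᴴ * beam u K = 1 := by
  ext y y'
  rw [Matrix.mul_apply]
  refine (sum_orth_beam hu (2 * K + 1) (y := (emb y.1, emb y.2)) (emb y'.1, emb y'.2)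
    fun j => ?_).trans ?_
  · have h1 := emb_le y.1 j
    have h2 := emb_le y.2 j
    dsimp only
    omega
  · rw [one_apply]
    refine if_congr ?_ rfl rfl
    rw [Prod.mk.injEq, emb_inj.eq_iff, emb_inj.eq_iff, Prod.ext_iff]

theorem edge_beam (hu : Coef η u) {K : ℕ} (j : Fin n) (x : Occ n × Occ n) (y : Box n K × Box n K)
    (h : 2 * K + 1 ≤ x.1 j + x.2 j) : u x (emb y.1, emb y.2) = 0 := by
  by_contra h0
  have h1 := congrFun (hu.supp _ _ h0) j
  have h2 := emb_le y.1 j
  have h3 := emb_le y.2 j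
  simp only [Pi.add_apply] at h1
  omega

theorem c_beam (hu : Coef η u) (K : ℕ) (j : Fin n)
    (x : Box n (2 * K + 1) × Box n (2 * K + 1)) (y : Box n K × Box n K) :
    ((low n (2 * K + 1) j ⊗ₖ (1 : Matrix (Box n (2 * K + 1)) (Box n (2 * K + 1)) ℂ)) * beam u K) x y
      = ((√((emb x.1 j : ℝ) + 1) : ℝ) : ℂ)
        * u (emb x.1 + Pi.single j 1, emb x.2) (emb y.1, emb y.2) := by
  rw [kl_mul_beam, low_mul j _ y (fun z => u (z, emb x.2) (emb y.1, emb y.2)) fun _ => rfl]
  split_ifs with h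
  · rfl
  · rw [edge_beam hu j _ y, mul_zero]
    simp only [Pi.add_apply]
    omega

theorem d_beam (hu : Coef η u) (K : ℕ) (j : Fin n)
    (x : Box n (2 * K + 1) × Box n (2 * K + 1)) (y : Box n K × Box n K) :
    (((1 : Matrix (Box n (2 * K + 1)) (Box n (2 * K + 1)) ℂ) ⊗ₖ low n (2 * K + 1) j) * beam u K) x y
      = ((√((emb x.2 j : ℝ) + 1) : ℝ) : ℂ)
        * u (emb x.1, emb x.2 + Pi.single j 1) (emb y.1, emb y.2) := by
  rw [kr_mul_beam, low_mul j _ y (fun z => u (emb x.1, z) (emb y.1, emb y.2)) fun _ => rfl]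
  split_ifs with h
  · rfl
  · rw [edge_beam hu j _ y, mul_zero]
    simp only [Pi.add_apply]
    omega

theorem cH_beam (K : ℕ) (j : Fin n)
    (x : Box n (2 * K + 1) × Box n (2 * K + 1)) (y : Box n K × Box n K) :
    (((low n (2 * K + 1) j)ᴴ ⊗ₖ (1 : Matrix (Box n (2 * K + 1)) (Box n (2 * K + 1)) ℂ))
      * beam u K) x y
      = ((√(emb x.1 j : ℝ) : ℝ) : ℂ) * u (emb x.1 - Pi.single j 1, emb x.2) (emb y.1, emb y.2) := by
  rw [kl_mul_beam, lowH_mul j _ y (fun z => u (z, emb x.2) (emb y.1, emb y.2)) fun _ => rfl]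

theorem dH_beam (K : ℕ) (j : Fin n)
    (x : Box n (2 * K + 1) × Box n (2 * K + 1)) (y : Box n K × Box n K) :
    (((1 : Matrix (Box n (2 * K + 1)) (Box n (2 * K + 1)) ℂ) ⊗ₖ (low n (2 * K + 1) j)ᴴ)
      * beam u K) x y
      = ((√(emb x.2 j : ℝ) : ℝ) : ℂ) * u (emb x.1, emb x.2 - Pi.single j 1) (emb y.1, emb y.2) := by
  rw [kr_mul_beam, lowH_mul j _ y (fun z => u (emb x.1, z) (emb y.1, emb y.2)) fun _ => rfl]

theorem upA_beam (K : ℕ) (j : Fin n)
    (x : Box n (2 * K + 1) × Box n (2 * K + 1)) (y : Box n K × Box n K) :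
    (beam u K * ((low n K j)ᴴ ⊗ₖ (1 : Matrix (Box n K) (Box n K) ℂ)) + leakA u K j) x y
      = ((√((emb y.1 j : ℝ) + 1) : ℝ) : ℂ)
        * u (emb x.1, emb x.2) (emb y.1 + Pi.single j 1, emb y.2) := by
  rw [Matrix.add_apply, mul_kl_beam,
    mul_lowH j _ x (fun z => u (emb x.1, emb x.2) (z, emb y.2)) fun _ => rfl, leakA, of_apply]
  rcases (emb_le y.1 j).lt_or_eq with h | h
  · rw [if_pos h, if_neg h.ne, add_zero]
  · rw [if_neg h.not_lt, if_pos h, zero_add, h]

theorem upB_beam (K : ℕ) (j : Fin n)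
    (x : Box n (2 * K + 1) × Box n (2 * K + 1)) (y : Box n K × Box n K) :
    (beam u K * ((1 : Matrix (Box n K) (Box n K) ℂ) ⊗ₖ (low n K j)ᴴ) + leakB u K j) x y
      = ((√((emb y.2 j : ℝ) + 1) : ℝ) : ℂ)
        * u (emb x.1, emb x.2) (emb y.1, emb y.2 + Pi.single j 1) := by
  rw [Matrix.add_apply, mul_kr_beam,
    mul_lowH j _ x (fun z => u (emb x.1, emb x.2) (emb y.1, z)) fun _ => rfl, leakB, of_apply]
  rcases (emb_le y.2 j).lt_or_eq with h | h
  · rw [if_pos h, if_neg h.ne, add_zero]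
  · rw [if_neg h.not_lt, if_pos h, zero_add, h]

theorem kill_beam {K : ℕ} (j : Fin n) (l : Box n K) (z : ℂ) :
    ((√(emb l j : ℝ) : ℝ) : ℂ) * (if (emb l - Pi.single j 1 : Occ n) j = K then z else 0) = 0 := by
  by_cases h0 : emb l j = 0
  · simp [h0]
  · have h := emb_le l j
    rw [if_neg, mul_zero]
    simp only [Pi.sub_apply, Pi.single_eq_same]
    omega

theorem beam_mode (hu : Coef η u) (K : ℕ) (j : Fin n) :
    Mode (beam u K) η (low n K j) (low n K j) (low n (2 * K + 1) j) (low n (2 * K + 1) j)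
      (leakA u K j) (leakB u K j) where
  lowA := by
    ext x y
    rw [Matrix.sub_mul, Matrix.smul_mul, Matrix.smul_mul, Matrix.sub_apply, Matrix.smul_apply,
      Matrix.smul_apply, c_beam hu, d_beam hu, mul_kl_beam,
      mul_low j _ x (fun z => u (emb x.1, emb x.2) (z, emb y.2)) fun _ => rfl]
    exact hu.lowA j (emb x.1, emb x.2) (emb y.1, emb y.2)
  lowB := by
    ext x y
    rw [Matrix.add_mul, Matrix.smul_mul, Matrix.smul_mul, Matrix.add_apply, Matrix.smul_apply,
      Matrix.smul_apply, c_beam hu, d_beam hu, mul_kr_beam,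
      mul_low j _ x (fun z => u (emb x.1, emb x.2) (emb y.1, z)) fun _ => rfl]
    exact hu.lowB j (emb x.1, emb x.2) (emb y.1, emb y.2)
  upA := by
    apply conjTranspose_injective
    simp only [conjTranspose_mul, conjTranspose_add, conjTranspose_sub, conjTranspose_smul,
      conjTranspose_conjTranspose, conjTranspose_kronecker, conjTranspose_one, RCLike.star_def,
      conj_ofReal]
    ext x y
    rw [upA_beam, Matrix.sub_mul, Matrix.smul_mul, Matrix.smul_mul, Matrix.sub_apply,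
      Matrix.smul_apply, Matrix.smul_apply, cH_beam, dH_beam]
    exact (hu.upA j (emb x.1, emb x.2) (emb y.1, emb y.2)).symm
  upB := by
    apply conjTranspose_injective
    simp only [conjTranspose_mul, conjTranspose_add, conjTranspose_sub, conjTranspose_smul,
      conjTranspose_conjTranspose, conjTranspose_kronecker, conjTranspose_one, RCLike.star_def,
      conj_ofReal]
    ext x y
    rw [upB_beam, Matrix.add_mul, Matrix.smul_mul, Matrix.smul_mul, Matrix.add_apply,
      Matrix.smul_apply, Matrix.smul_apply, cH_beam, dH_beam]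
    exact (hu.upB j (emb x.1, emb x.2) (emb y.1, emb y.2)).symm
  killA := by
    ext x y
    rw [mul_kl_beam, mul_low j _ x (fun z => if z j = K then ((√((K : ℝ) + 1) : ℝ) : ℂ)
      * u (emb x.1, emb x.2) (z + Pi.single j 1, emb y.2) else 0) fun _ => rfl]
    exact kill_beam j y.1 _
  killB := by
    ext x y
    rw [mul_kr_beam, mul_low j _ x (fun z => if z j = K then ((√((K : ℝ) + 1) : ℝ) : ℂ)
      * u (emb x.1, emb x.2) (emb y.1, z + Pi.single j 1) else 0) fun _ => rfl]
    exact kill_beam j y.2 _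

theorem leak_beam (hu : Coef η u) (K : ℕ) {P P' : Prop} [Decidable P] [Decidable P']
    {y : Occ n × Occ n} (y' : Occ n × Occ n) (hy : ∀ j, y.1 j + y.2 j ≤ 2 * K + 1) :
    ∑ x : Box n (2 * K + 1) × Box n (2 * K + 1),
      star (if P then ((√((K : ℝ) + 1) : ℝ) : ℂ) * u (emb x.1, emb x.2) y else 0)
        * (if P' then ((√((K : ℝ) + 1) : ℝ) : ℂ) * u (emb x.1, emb x.2) y' else 0)
      = if P ∧ P' ∧ y = y' then (((K : ℝ) + 1 : ℝ) : ℂ) else 0 := by
  by_cases h : P
  swap
  · simp [h]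
  by_cases h' : P'
  swap
  · simp [h']
  have h1 : ((√((K : ℝ) + 1) : ℝ) : ℂ) * ((√((K : ℝ) + 1) : ℝ) : ℂ) = (((K : ℝ) + 1 : ℝ) : ℂ) := by
    rw [← ofReal_mul, Real.mul_self_sqrt (by positivity)]
  simp only [h, h', if_true, true_and, star_mul', RCLike.star_def, conj_ofReal]
  simp only [mul_mul_mul_comm ((√((K : ℝ) + 1) : ℝ) : ℂ), h1]
  rw [← Finset.mul_sum, sum_orth_beam hu _ y' hy, mul_ite, mul_one, mul_zero]

theorem single_le_beam (j i : Fin n) : (Pi.single j 1 : Occ n) i ≤ 1 := by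
  by_cases h : i = j
  · subst h; simp
  · simp [h]

theorem leakA_sq (hu : Coef η u) (K : ℕ) (j : Fin n) :
    (leakA u K j)ᴴ * leakA u K j = top n K j ⊗ₖ (1 : Matrix (Box n K) (Box n K) ℂ) := by
  ext y y'
  rw [Matrix.mul_apply]
  refine (leak_beam hu K (P := emb y.1 j = K) (P' := emb y'.1 j = K)
    (y := (emb y.1 + Pi.single j 1, emb y.2)) (emb y'.1 + Pi.single j 1, emb y'.2)
    fun i => ?_).trans ?_
  · have h1 := emb_le y.1 i
    have h2 := emb_le y.2 i
    have h3 := single_le_beam j i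
    simp only [Pi.add_apply]
    omega
  · simp only [Prod.mk.injEq, add_left_inj, emb_inj.eq_iff, kroneckerMap_apply, top,
      diagonal_apply, one_apply]
    by_cases h1 : y.1 = y'.1
    · by_cases h2 : y.2 = y'.2 <;> simp [h1, h2]
    · simp [h1]

theorem leakB_sq (hu : Coef η u) (K : ℕ) (j : Fin n) :
    (leakB u K j)ᴴ * leakB u K j = (1 : Matrix (Box n K) (Box n K) ℂ) ⊗ₖ top n K j := by
  ext y y'
  rw [Matrix.mul_apply]
  refine (leak_beam hu K (P := emb y.2 j = K) (P' := emb y'.2 j = K)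
    (y := (emb y.1, emb y.2 + Pi.single j 1)) (emb y'.1, emb y'.2 + Pi.single j 1)
    fun i => ?_).trans ?_
  · have h1 := emb_le y.1 i
    have h2 := emb_le y.2 i
    have h3 := single_le_beam j i
    simp only [Pi.add_apply]
    omega
  · simp only [Prod.mk.injEq, add_left_inj, emb_inj.eq_iff, kroneckerMap_apply, top,
      diagonal_apply, one_apply]
    by_cases h1 : y.1 = y'.1
    · by_cases h2 : y.2 = y'.2 <;> simp [h1, h2]
    · simp [h1]

theorem out_nrg_le (hu : Coef η u) (h0 : 0 ≤ η) (h1 : η ≤ 1) (K : ℕ)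
    {A B : Matrix (Box n K) (Box n K) ℂ} (hA : IsState A) (hB : IsState B) :
    ex (Phi (beam u K) (A ⊗ₖ B)) (nrg n (2 * K + 1))
      ≤ 2 * (ex A (nrg n K) + ex B (nrg n K)) := by
  rw [← sum_lowH_low, ← sum_lowH_low, ex_sum, ex_sum, ex_sum, ← Finset.sum_add_distrib,
    Finset.mul_sum]
  refine Finset.sum_le_sum fun j _ => ?_
  have h2 := (abs_le.1 ((beam_mode hu K j).energy (beam_iso hu K) h0 h1 hA hB)).2
  have h3 := normSq_mean_le hA (low n K j)
  have h4 := normSq_mean_le hB (low n K j)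
  have h5 := normSq_nonneg (A * low n K j).trace
  have h6 := normSq_nonneg (B * low n K j).trace
  nlinarith [mul_le_mul_of_nonneg_left h3 h0, mul_le_mul_of_nonneg_left h4 (sub_nonneg.2 h1),
    mul_nonneg h0 (h6.trans h4), mul_nonneg (sub_nonneg.2 h1) (h5.trans h3)]

end Vale.Agent.P369
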