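import Vale.Agent.P369.Mat

/-! P369 task BoxK: boxes of occupation numbers, ladder matrices entrywise, thermal sums.
Plan. `sum_box`: `Finset.sum_bij`/`sum_nbij` along `emb` (`Fintype.mem_piFinset`).
`tendsto_boxF`: `Filter.tendsto_atTop_finset_of_monotone` (or `tendsto_atTop_atTop`), every `y` lies in
the box `Finset.univ.sup y`. `low_mul` etc.: `Matrix.mul_apply`, `Finset.sum_eq_single` at the unique
`k'` with `emb k' = emb k + Pi.single j 1` (`exists_emb`, `emb_inj`); for `mul_low` split on
`emb l j = 0`. `sum_boxF_prod`: `Finset.prod_univ_sum`. `hasSum_prod`: partial sums over boxes are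
products of partial sums, bounded and convergent (`summable_of_sum_le`, `HasSum.comp`/uniqueness with
`tendsto_boxF`). `hasSum_therm`: `hasSum_geometric_of_lt_one`; `hasSum_therm_mode`:
`k j * therm N k` is a product with one modified factor
(`hasSum_coe_mul_geometric_of_norm_lt_one`: `∑ i ϑ^i = ϑ/(1-ϑ)²`). -/

namespace Vale.Agent.P369

open Matrix Vale.Agent.P358 Complex Filter Topology

variable {n K : ℕ}

/-- the box as a finite set of occupation lists -/
def boxF (n K : ℕ) : Finset (Occ n) := Fintype.piFinset fun _ => Finset.range (K + 1)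

theorem mem_boxF {y : Occ n} : y ∈ boxF n K ↔ ∀ j, y j ≤ K := by
  simp [boxF, Fintype.mem_piFinset, Nat.lt_succ_iff]

theorem emb_inj : Function.Injective (emb : Box n K → Occ n) := fun _ _ h =>
  funext fun j => Fin.ext (congrFun h j)

theorem emb_le (k : Box n K) (j : Fin n) : emb k j ≤ K := Nat.lt_succ_iff.1 (k j).2

theorem exists_emb {y : Occ n} (h : ∀ j, y j ≤ K) : ∃ k : Box n K, emb k = y :=
  ⟨fun j => ⟨y j, Nat.lt_succ_of_le (h j)⟩, rfl⟩

theorem card_box (n K : ℕ) : Fintype.card (Box n K) = (K + 1) ^ n := by simp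

theorem sum_box {M : Type} [AddCommMonoid M] (F : Occ n → M) :
    ∑ k : Box n K, F (emb k) = ∑ y ∈ boxF n K, F y :=
  Finset.sum_bij (fun k _ => emb k) (fun k _ => mem_boxF.2 (emb_le k))
    (fun _ _ _ _ h => emb_inj h)
    (fun _ hy => (exists_emb (mem_boxF.1 hy)).imp fun _ hk => ⟨Finset.mem_univ _, hk⟩)
    fun _ _ => rfl

theorem tendsto_boxF (n : ℕ) : Tendsto (boxF n) atTop atTop :=
  tendsto_atTop_finset_of_monotone
    (fun _ _ h _ hy => mem_boxF.2 fun j => (mem_boxF.1 hy j).trans h)
    fun y => ⟨Finset.univ.sup y, mem_boxF.2 fun j => Finset.le_sup (Finset.mem_univ j)⟩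

theorem eventually_le {M : ℕ → ℕ} (hM : Tendsto M atTop atTop) (y : Occ n) :
    ∀ᶠ m in atTop, ∀ j, y j ≤ M m :=
  eventually_all.2 fun j => hM.eventually_ge_atTop (y j)

theorem lt_sum_of_not_mem {y : Occ n} (h : y ∉ boxF n K) : (K : ℝ) + 1 ≤ ∑ j, (y j : ℝ) := by
  rw [mem_boxF] at h
  push Not at h
  obtain ⟨j, hj⟩ := h
  exact le_trans (by exact_mod_cast hj) (Finset.single_le_sum (f := fun j => (y j : ℝ))
    (fun _ _ => Nat.cast_nonneg _) (Finset.mem_univ j))

theorem ext_emb (X : Matrix (Box n K) (Box n K) ℂ) (k l : Box n K) :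
    ext X (emb k) (emb l) = X k l := by
  simp only [ext, emb_inj.eq_iff]
  rw [Finset.sum_eq_single k (fun k' _ h => by simp [h]) (by simp),
    Finset.sum_eq_single l (fun l' _ h => by simp [h]) (by simp)]
  simp

theorem sum_up_boxk (j : Fin n) (k : Box n K) (G : Occ n → ℂ) :
    ∑ k' : Box n K, (if emb k' = emb k + Pi.single j 1 then G (emb k') else 0) =
      if emb k j < K then G (emb k + Pi.single j 1) else 0 := by
  refine (sum_box fun y => if y = emb k + Pi.single j 1 then G y else 0).trans ?_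
  rw [Finset.sum_ite_eq']
  refine if_congr ?_ rfl rfl
  rw [mem_boxF]
  refine ⟨fun h => by simpa using h j, fun h i => ?_⟩
  by_cases hi : i = j
  · subst hi; simpa using h
  · simpa [hi] using emb_le k i

theorem sum_down_boxk (j : Fin n) (l : Box n K) (G : Occ n → ℂ) :
    ∑ l' : Box n K, (if emb l = emb l' + Pi.single j 1 then
      ((√(emb l j : ℝ) : ℝ) : ℂ) * G (emb l') else 0) =
      ((√(emb l j : ℝ) : ℝ) : ℂ) * G (emb l - Pi.single j 1) := by
  refine (sum_box fun y =>
    if emb l = y + Pi.single j 1 then ((√(emb l j : ℝ) : ℝ) : ℂ) * G y else 0).trans ?_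
  by_cases h0 : emb l j = 0
  · simp [h0]
  have h : ∀ y : Occ n, emb l = y + Pi.single j 1 ↔ y = emb l - Pi.single j 1 := fun y => by
    refine ⟨fun h => by rw [h, add_tsub_cancel_right], fun h => ?_⟩
    rw [h]
    funext i
    by_cases hi : i = j
    · subst hi; simp; omega
    · simp [hi]
  simp only [h]
  rw [Finset.sum_ite_eq']
  exact if_pos (mem_boxF.2 fun i => (Nat.sub_le _ _).trans (emb_le l i))

theorem low_mul {m : Type} (j : Fin n) (X : Matrix (Box n K) m ℂ) (l : m) (F : Occ n → ℂ)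
    (hF : ∀ k, X k l = F (emb k)) (k : Box n K) :
    (low n K j * X) k l = if emb k j < K then
      ((√((emb k j : ℝ) + 1) : ℝ) : ℂ) * F (emb k + Pi.single j 1) else 0 := by
  have := sum_up_boxk j k fun y => ((√(y j : ℝ) : ℝ) : ℂ) * F y
  simp only [Pi.add_apply, Pi.single_eq_same, Nat.cast_add, Nat.cast_one] at this
  rw [← this, Matrix.mul_apply]
  exact Finset.sum_congr rfl fun k' _ => by simp [low, hF]

theorem mul_low {m : Type} (j : Fin n) (X : Matrix m (Box n K) ℂ) (i : m) (F : Occ n → ℂ)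
    (hF : ∀ l, X i l = F (emb l)) (l : Box n K) :
    (X * low n K j) i l = ((√(emb l j : ℝ) : ℝ) : ℂ) * F (emb l - Pi.single j 1) := by
  rw [← sum_down_boxk, Matrix.mul_apply]
  exact Finset.sum_congr rfl fun k' _ => by simp [low, hF, mul_comm]

theorem lowH_mul {m : Type} (j : Fin n) (X : Matrix (Box n K) m ℂ) (l : m) (F : Occ n → ℂ)
    (hF : ∀ k, X k l = F (emb k)) (k : Box n K) :
    ((low n K j)ᴴ * X) k l = ((√(emb k j : ℝ) : ℝ) : ℂ) * F (emb k - Pi.single j 1) := by
  rw [← sum_down_boxk, Matrix.mul_apply]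
  refine Finset.sum_congr rfl fun k' _ => ?_
  rw [conjTranspose_apply, low, of_apply, hF]
  split_ifs <;> simp

theorem mul_lowH {m : Type} (j : Fin n) (X : Matrix m (Box n K) ℂ) (i : m) (F : Occ n → ℂ)
    (hF : ∀ l, X i l = F (emb l)) (l : Box n K) :
    (X * (low n K j)ᴴ) i l = if emb l j < K then
      ((√((emb l j : ℝ) + 1) : ℝ) : ℂ) * F (emb l + Pi.single j 1) else 0 := by
  have := sum_up_boxk j l fun y => ((√(y j : ℝ) : ℝ) : ℂ) * F y
  simp only [Pi.add_apply, Pi.single_eq_same, Nat.cast_add, Nat.cast_one] at this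
  rw [← this, Matrix.mul_apply]
  refine Finset.sum_congr rfl fun k' _ => ?_
  rw [conjTranspose_apply, low, of_apply, hF]
  split_ifs <;> simp [mul_comm]

theorem sum_boxF_prod (f : Fin n → ℕ → ℝ) :
    ∑ y ∈ boxF n K, ∏ j, f j (y j) = ∏ j, ∑ i ∈ Finset.range (K + 1), f j i :=
  (Finset.prod_univ_sum (fun _ => Finset.range (K + 1)) f).symm

theorem hasSum_prod {f : Fin n → ℕ → ℝ} {s : Fin n → ℝ} (h0 : ∀ j i, 0 ≤ f j i)
    (h : ∀ j, HasSum (f j) (s j)) : HasSum (fun y : Occ n => ∏ j, f j (y j)) (∏ j, s j) := by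
  have hn : ∀ y : Occ n, 0 ≤ ∏ j, f j (y j) := fun y => Finset.prod_nonneg fun j _ => h0 j _
  have hs : Summable fun y : Occ n => ∏ j, f j (y j) := by
    refine summable_of_sum_le (c := ∏ j, s j) hn fun S => ?_
    obtain ⟨K, hK⟩ := ((tendsto_boxF n).eventually_ge_atTop S).exists
    refine (Finset.sum_le_sum_of_subset_of_nonneg hK fun y _ _ => hn y).trans ?_
    rw [sum_boxF_prod]
    exact Finset.prod_le_prod (fun j _ => Finset.sum_nonneg fun i _ => h0 j i)
      fun j _ => sum_le_hasSum _ (fun i _ => h0 j i) (h j)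
  have h1 : Tendsto (fun K => ∑ y ∈ boxF n K, ∏ j, f j (y j)) atTop (𝓝 (∑' y : Occ n, ∏ j, f j (y j))) :=
    (show Tendsto (fun S : Finset (Occ n) => ∑ y ∈ S, ∏ j, f j (y j)) atTop _ from hs.hasSum).comp
      (tendsto_boxF n)
  have h2 : Tendsto (fun K => ∑ y ∈ boxF n K, ∏ j, f j (y j)) atTop (𝓝 (∏ j, s j)) := by
    simp only [sum_boxF_prod]
    exact tendsto_finsetProd _ fun j _ => (h j).tendsto_sum_nat.comp (tendsto_add_atTop_nat 1)
  rw [← tendsto_nhds_unique h1 h2]
  exact hs.hasSum

theorem summable_exp_neg {s : ℝ} (hs : 0 < s) :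
    Summable fun y : Occ n => Real.exp (-s * ∑ j, (y j : ℝ)) := by
  have h := hasSum_prod (n := n) (f := fun _ i => Real.exp (-s) ^ i) (fun _ _ => by positivity)
    fun _ => hasSum_geometric_of_lt_one (Real.exp_pos _).le (Real.exp_lt_one_iff.2 (by linarith))
  refine h.summable.congr fun y => ?_
  rw [Finset.mul_sum, Real.exp_sum]
  exact Finset.prod_congr rfl fun j _ => by rw [← Real.exp_nat_mul, mul_comm]

theorem therm_pos {N : ℝ} (hN : 0 < N) (k : Occ n) : 0 < therm N k :=
  Finset.prod_pos fun _ _ => by positivity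

theorem geom_boxk {N : ℝ} (hN : 0 < N) : HasSum (fun i : ℕ => (N / (N + 1)) ^ i / (N + 1)) 1 := by
  have := (hasSum_geometric_of_lt_one (r := N / (N + 1)) (by positivity)
    ((div_lt_one (by positivity)).2 (by linarith))).div_const (N + 1)
  rwa [show (1 - N / (N + 1))⁻¹ / (N + 1) = 1 by
    rw [show 1 - N / (N + 1) = (N + 1)⁻¹ by field_simp; ring]; field_simp] at this

theorem hasSum_therm {N : ℝ} (hN : 0 < N) : HasSum (therm N : Occ n → ℝ) 1 := by
  have := hasSum_prod (n := n) (f := fun _ i => (N / (N + 1)) ^ i / (N + 1))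
    (fun _ _ => by positivity) fun _ => geom_boxk hN
  rwa [Finset.prod_const_one] at this

theorem hasSum_therm_mode {N : ℝ} (hN : 0 < N) (j : Fin n) :
    HasSum (fun k : Occ n => (k j : ℝ) * therm N k) N := by
  have h1 : HasSum (fun i : ℕ => (i : ℝ) * ((N / (N + 1)) ^ i / (N + 1))) N := by
    have := (hasSum_coe_mul_geometric_of_norm_lt_one (r := N / (N + 1)) (by
      rw [Real.norm_of_nonneg (by positivity)]
      exact (div_lt_one (by positivity)).2 (by linarith))).div_const (N + 1)
    rw [show N / (N + 1) / (1 - N / (N + 1)) ^ 2 / (N + 1) = N by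
      rw [show 1 - N / (N + 1) = (N + 1)⁻¹ by field_simp; ring]; field_simp] at this
    simpa only [mul_div_assoc] using this
  have := hasSum_prod (n := n) (s := fun i => if i = j then N else 1)
    (f := fun i m => (if i = j then (m : ℝ) else 1) * ((N / (N + 1)) ^ m / (N + 1)))
    (fun _ _ => by positivity) fun i => by
      by_cases h : i = j
      · simpa only [h, if_true] using h1
      · simpa only [h, if_false, one_mul] using geom_boxk hN
  simpa only [therm, Finset.prod_mul_distrib, Finset.prod_ite_eq', Finset.mem_univ, if_true] using this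

theorem neg_log_therm {N : ℝ} (hN : 0 < N) (k : Occ n) :
    -Real.log (therm N k) = bet N * ∑ j, (k j : ℝ) + n * Real.log (1 + N) := by
  rw [therm, Real.log_prod fun _ _ => by positivity, ← Finset.sum_neg_distrib, Finset.mul_sum,
    show (n : ℝ) * Real.log (1 + N) = ∑ _j : Fin n, Real.log (1 + N) by simp,
    ← Finset.sum_add_distrib]
  refine Finset.sum_congr rfl fun j _ => ?_
  rw [Real.log_div (by positivity) (by positivity), Real.log_pow,
    Real.log_div hN.ne' (by positivity), bet, add_comm 1 N]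
  ring

theorem therm_succ {N : ℝ} (hN : 0 < N) (k : Occ n) (j : Fin n) :
    (N + 1) * therm N (k + Pi.single j 1) = N * therm N k := by
  have : therm N (k + Pi.single j 1) = (∏ i, if i = j then N / (N + 1) else 1) * therm N k := by
    rw [therm, therm, ← Finset.prod_mul_distrib]
    refine Finset.prod_congr rfl fun i _ => ?_
    by_cases h : i = j
    · subst h; simp only [Pi.add_apply, Pi.single_eq_same, if_true, pow_succ]; ring
    · simp [h]
  rw [this, Finset.prod_ite_eq', if_pos (Finset.mem_univ _)]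
  field_simp

end Vale.Agent.P369
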