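import Vale.Agent.P369.Net3

/-! P369 task Net4: the network theorem.
Plan. `M = LinearMap.toMatrix' T` (`M *ᵥ v = T v`). Pointwise put `L = lm p q`, `P = p`, `Q = q`,
`U = L * (bet N * (N+1))`, `U' = L * (bet N * N)`, `e = U - U' = L * bet N > 0`;
`lm U U' = L` (`lm_smul`, `lm_bet`).
Step 1 (`exists_sig`): there is `sig p q N > 0` (choose from `avg_tendsto` applied to `onCurve p q`
and `onCurve_ne U U'`; `sig = L / (2γ)`) with `sig * (P + Q - U - U') = U U' - P Q` and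
`L * (avg n (PQ/L / L) (UU'/L / L))⁻¹ → 2 sig`. From H1, H2: `Contr.lm`, `Contr.dlm` give `L` and
`PQ/L` (then `mono` to multiply the right side by `Θ ≥ 1`), from H4, H3 `Contr.dlm` gives
`UU'/L` against `Θ U₁U₁'/L₁` (`lm_smul`). `contr_avg` with right-hand weights `Θ L₁, Θ P₁Q₁/L₁,
Θ U₁U₁'/L₁`, then `Contr.limit`, `smul`: `Contr M sig (Θ * sig₁)`.
Step 2 (algebra). `vr N p q * e = P - Q - e` (`lm_mul_log`), `psi N p q * e = U' P - U Q`.
Let `y = vr * c`, `y' = ((U+U'-P-Q)/e) * c` on the right, `w = T y`, `z = T y'`;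
`y + y' = (2 (U'-Q)/e) c`, `y - y' = (2 (P-U)/e) c`. Pointwise on the left, for all complex `w z a`:
`2 psi Re (conj a * w) - psi vr |a|² ≤ (P+U)/4 |w+z|² + (Q+U')/4 |w-z|² + sig |z|²`
(expand the nonnegative form at `(w - w₀, z - z₀)`, `w₀ = vr a`, `z₀ = ((U+U'-P-Q)/e) a`; the
`w`-coefficient is `psi`, the `z`-coefficient vanishes by the identity for `sig`, and
`(P+U)(U'-Q)² + (Q+U')(P-U)² + (UU'-PQ)(P+Q-U-U') = (U'P-UQ)(P-Q-U+U')`).
Sum and use H1, H4 on `y + y'`, H2, H3 on `y - y'`, Step 1 on `y'`: the right side is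
`Θ ∑ psi vr |c|² - (Θ-1) ∑ (P (U'-Q)² + Q (P-U)²)/e² |c|²`, and
`(psi e)² = (P (U'-Q) + Q (P-U))² ≤ (P+Q) (P (U'-Q)² + Q (P-U)²)`. -/

namespace Vale.Agent.P369

open Matrix Complex

open Filter Topology

theorem lmU_net4 {p q N : ℝ} (hp : 0 < p) (hq : 0 < q) (hN : 0 < N) :
    lm (lm p q * (bet N * (N + 1))) (lm p q * (bet N * N)) = lm p q := by
  have hb := bet_pos hN
  rw [lm_smul (lm_pos hp hq) (by positivity) (by positivity), lm_bet hN, mul_one]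

theorem pt_net4 {p q N : ℝ} (hp : 0 < p) (hq : 0 < q) (hN : 0 < N) : ∃ s t : ℝ, 0 ≤ s ∧
    (p + lm p q * (bet N * (N + 1))) / 4 * (vr N p q + t) +
      (q + lm p q * (bet N * N)) / 4 * (vr N p q - t) = psi N p q ∧
    (p + lm p q * (bet N * (N + 1))) / 4 * (vr N p q + t) -
      (q + lm p q * (bet N * N)) / 4 * (vr N p q - t) + s * t = 0 ∧
    p * ((vr N p q + t) / 2) + q * ((vr N p q - t) / 2) = psi N p q ∧
    Tendsto (fun n => lm p q * (avg n (p * q / lm p q / lm p q)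
      (lm p q * (bet N * (N + 1)) * (lm p q * (bet N * N)) / lm p q / lm p q))⁻¹) atTop
      (𝓝 (2 * s)) := by
  have hb := bet_pos hN
  have hL := lm_pos hp hq
  have h1 := onCurve_ne (p := lm p q * (bet N * (N + 1))) (q := lm p q * (bet N * N))
    (by positivity) (by positivity) (ne_of_gt (by gcongr; linarith))
  rw [lmU_net4 hp hq hN] at h1
  obtain ⟨γ, hγ, h2, h3⟩ := avg_tendsto (onCurve hp hq) h1
  have hv : vr N p q = (p - q) / (lm p q * bet N) - 1 := by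
    rw [vr, ← lm_mul_log hp hq, mul_div_mul_left _ _ hL.ne']
  refine ⟨lm p q / (2 * γ), (lm p q * (bet N * (N + 1)) + lm p q * (bet N * N) - p - q) /
    (lm p q * bet N), by positivity, ?_, ?_, ?_, ?_⟩
  · rw [hv, psi]
    field_simp
    ring
  · rw [hv]
    field_simp at h3 ⊢
    linear_combination 4 * h3
  · rw [hv, psi]
    field_simp
    ring
  · simp only [div_div, ← sq]
    convert (h2.inv₀ hγ.ne').const_mul (lm p q) using 2
    field_simp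

theorem real_net4 {A B s ψ v t : ℝ} (hA : 0 ≤ A) (hB : 0 ≤ B) (hs : 0 ≤ s)
    (h1 : A * (v + t) + B * (v - t) = ψ) (h2 : A * (v + t) - B * (v - t) + s * t = 0)
    (w z a : ℝ) :
    2 * ψ * a * w - ψ * v * a ^ 2 ≤ A * (w + z) ^ 2 + B * (w - z) ^ 2 + s * z ^ 2 := by
  have : A * (w + z) ^ 2 + B * (w - z) ^ 2 + s * z ^ 2 - (2 * ψ * a * w - ψ * v * a ^ 2) =
      A * (w + z - (v + t) * a) ^ 2 + B * (w - z - (v - t) * a) ^ 2 + s * (z - t * a) ^ 2 := by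
    linear_combination (2 * w * a - a ^ 2 * v) * h1 + (2 * z * a - a ^ 2 * t) * h2
  rw [← sub_nonneg, this]
  positivity

theorem left_net4 {A B s ψ v t : ℝ} (hA : 0 ≤ A) (hB : 0 ≤ B) (hs : 0 ≤ s)
    (h1 : A * (v + t) + B * (v - t) = ψ) (h2 : A * (v + t) - B * (v - t) + s * t = 0)
    (w z a : ℂ) : 2 * (ψ * ((starRingEnd ℂ) a * w).re) - ψ * v * normSq a ≤
      A * normSq (w + z) + B * normSq (w - z) + s * normSq z := by
  have h3 := real_net4 hA hB hs h1 h2 w.re z.re a.re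
  have h4 := real_net4 hA hB hs h1 h2 w.im z.im a.im
  simp only [normSq_apply, mul_re, conj_re, conj_im, add_re, add_im, sub_re, sub_im]
  linarith

theorem right_net4 {p q U U' s ψ v t Θ : ℝ} (hp : 0 < p) (hq : 0 < q) (hΘ : 1 ≤ Θ)
    (h1 : (p + U) / 4 * (v + t) + (q + U') / 4 * (v - t) = ψ)
    (h2 : (p + U) / 4 * (v + t) - (q + U') / 4 * (v - t) + s * t = 0)
    (h3 : p * ((v + t) / 2) + q * ((v - t) / 2) = ψ) (c : ℂ) :
    4⁻¹ * (p * normSq (v * c + t * c)) + 4⁻¹ * Θ * (U * normSq (v * c + t * c)) +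
      4⁻¹ * (q * normSq (v * c - t * c)) + 4⁻¹ * Θ * (U' * normSq (v * c - t * c)) +
      2⁻¹ * (Θ * (2 * s) * normSq (t * c)) ≤
      Θ * (ψ * v * normSq c) - (Θ - 1) * (ψ ^ 2 / (p + q) * normSq c) := by
  have h4 : ψ ^ 2 / (p + q) ≤ p * ((v + t) / 2) ^ 2 + q * ((v - t) / 2) ^ 2 := by
    rw [div_le_iff₀ (by positivity), ← h3]
    nlinarith [mul_nonneg (mul_pos hp hq).le (sq_nonneg t)]
  have h5 := mul_le_mul_of_nonneg_left (mul_le_mul_of_nonneg_right h4 (normSq_nonneg c))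
    (sub_nonneg.2 hΘ)
  simp only [← add_mul, ← sub_mul, ← ofReal_add, ← ofReal_sub, map_mul, normSq_ofReal]
  have h6 : ψ * v = (p + U) / 4 * (v + t) ^ 2 + (q + U') / 4 * (v - t) ^ 2 + s * t ^ 2 := by
    linear_combination -v * h1 - t * h2
  rw [h6]
  linarith

theorem net {K C : Type} [Fintype K] [Fintype C] [DecidableEq C] (T : (C → ℂ) →ₗ[ℂ] (K → ℂ))
    {p q N : K → ℝ} {p₁ q₁ N₁ : C → ℝ} (hp : ∀ i, 0 < p i) (hq : ∀ i, 0 < q i)
    (hN : ∀ i, 0 < N i) (hp₁ : ∀ j, 0 < p₁ j) (hq₁ : ∀ j, 0 < q₁ j) (hN₁ : ∀ j, 0 < N₁ j)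
    {Θ : ℝ} (hΘ : 1 ≤ Θ)
    (H1 : ∀ v, ∑ i, p i * normSq (T v i) ≤ ∑ j, p₁ j * normSq (v j))
    (H2 : ∀ v, ∑ i, q i * normSq (T v i) ≤ ∑ j, q₁ j * normSq (v j))
    (H3 : ∀ v, ∑ i, lm (p i) (q i) * (bet (N i) * N i) * normSq (T v i)
      ≤ Θ * ∑ j, lm (p₁ j) (q₁ j) * (bet (N₁ j) * N₁ j) * normSq (v j))
    (H4 : ∀ v, ∑ i, lm (p i) (q i) * (bet (N i) * (N i + 1)) * normSq (T v i)
      ≤ Θ * ∑ j, lm (p₁ j) (q₁ j) * (bet (N₁ j) * (N₁ j + 1)) * normSq (v j))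
    (a : K → ℂ) (c : C → ℂ) :
    ∑ i, (2 * (psi (N i) (p i) (q i) *
          ((starRingEnd ℂ) (a i) * T (fun j => (vr (N₁ j) (p₁ j) (q₁ j) : ℂ) * c j) i).re)
        - psi (N i) (p i) (q i) * vr (N i) (p i) (q i) * normSq (a i))
      ≤ Θ * ∑ j, psi (N₁ j) (p₁ j) (q₁ j) * vr (N₁ j) (p₁ j) (q₁ j) * normSq (c j)
        - (Θ - 1) * ∑ j, psi (N₁ j) (p₁ j) (q₁ j) ^ 2 / (p₁ j + q₁ j) * normSq (c j) := by
  choose s t hs h1 h2 h3 h4 using fun i => pt_net4 (hp i) (hq i) (hN i)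
  choose s₁ t₁ hs₁ k1 k2 k3 k4 using fun j => pt_net4 (hp₁ j) (hq₁ j) (hN₁ j)
  have hΘ0 : 0 < Θ := one_pos.trans_le hΘ
  have hL := fun i => lm_pos (hp i) (hq i)
  have hL₁ := fun j => lm_pos (hp₁ j) (hq₁ j)
  have hb := fun i => bet_pos (hN i)
  have hb₁ := fun j => bet_pos (hN₁ j)
  have hU : ∀ i, 0 < lm (p i) (q i) * (bet (N i) * (N i + 1)) := fun i =>
    mul_pos (hL i) (mul_pos (hb i) (add_pos (hN i) one_pos))
  have hU' : ∀ i, 0 < lm (p i) (q i) * (bet (N i) * N i) := fun i =>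
    mul_pos (hL i) (mul_pos (hb i) (hN i))
  have hU₁ : ∀ j, 0 < lm (p₁ j) (q₁ j) * (bet (N₁ j) * (N₁ j + 1)) := fun j =>
    mul_pos (hL₁ j) (mul_pos (hb₁ j) (add_pos (hN₁ j) one_pos))
  have hU₁' : ∀ j, 0 < lm (p₁ j) (q₁ j) * (bet (N₁ j) * N₁ j) := fun j =>
    mul_pos (hL₁ j) (mul_pos (hb₁ j) (hN₁ j))
  have C1 : Contr (LinearMap.toMatrix' T) p p₁ := fun v => by
    simpa only [LinearMap.toMatrix'_mulVec] using H1 v
  have C2 : Contr (LinearMap.toMatrix' T) q q₁ := fun v => by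
    simpa only [LinearMap.toMatrix'_mulVec] using H2 v
  have C3 : Contr (LinearMap.toMatrix' T) (fun i => lm (p i) (q i) * (bet (N i) * N i))
      fun j => Θ * (lm (p₁ j) (q₁ j) * (bet (N₁ j) * N₁ j)) := fun v => by
    simpa only [LinearMap.toMatrix'_mulVec, Finset.mul_sum, mul_assoc] using H3 v
  have C4 : Contr (LinearMap.toMatrix' T) (fun i => lm (p i) (q i) * (bet (N i) * (N i + 1)))
      fun j => Θ * (lm (p₁ j) (q₁ j) * (bet (N₁ j) * (N₁ j + 1))) := fun v => by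
    simpa only [LinearMap.toMatrix'_mulVec, Finset.mul_sum, mul_assoc] using H4 v
  have C5 : Contr (LinearMap.toMatrix' T) (fun i => 2 * s i) fun j => Θ * (2 * s₁ j) := by
    refine Contr.limit h4 (fun j => (k4 j).const_mul Θ) fun n => ?_
    refine Contr.congr (fun i => rfl) (fun j => ?_) (contr_avg n
      (g₀ := fun j => Θ * lm (p₁ j) (q₁ j)) (g₁ := fun j => Θ * (p₁ j * q₁ j / lm (p₁ j) (q₁ j)))
      (g₂ := fun j => Θ * (lm (p₁ j) (q₁ j) * (bet (N₁ j) * (N₁ j + 1)) *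
        (lm (p₁ j) (q₁ j) * (bet (N₁ j) * N₁ j)) / lm (p₁ j) (q₁ j))) hL
      (fun i => div_pos (mul_pos (hp i) (hq i)) (hL i))
      (fun i => div_pos (mul_pos (hU i) (hU' i)) (hL i)) (fun j => mul_pos hΘ0 (hL₁ j))
      (fun j => mul_pos hΘ0 (div_pos (mul_pos (hp₁ j) (hq₁ j)) (hL₁ j)))
      (fun j => mul_pos hΘ0 (div_pos (mul_pos (hU₁ j) (hU₁' j)) (hL₁ j)))
      ((C1.lm hp hq hp₁ hq₁ C2).mono (fun _ => le_rfl) fun j =>
        le_mul_of_one_le_left (hL₁ j).le hΘ)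
      ((C1.dlm hp hq hp₁ hq₁ C2).mono (fun _ => le_rfl) fun j =>
        le_mul_of_one_le_left (div_pos (mul_pos (hp₁ j) (hq₁ j)) (hL₁ j)).le hΘ)
      ((C4.dlm hU hU' (fun j => mul_pos hΘ0 (hU₁ j)) (fun j => mul_pos hΘ0 (hU₁' j)) C3).congr
        (fun i => by rw [lmU_net4 (hp i) (hq i) (hN i)]) fun j => ?_))
    · rw [mul_div_mul_left _ _ hΘ0.ne', mul_div_mul_left _ _ hΘ0.ne', mul_assoc Θ]
    · rw [lm_smul hΘ0 (hU₁ j) (hU₁' j), lmU_net4 (hp₁ j) (hq₁ j) (hN₁ j)]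
      field_simp
  set y : C → ℂ := fun j => (vr (N₁ j) (p₁ j) (q₁ j) : ℂ) * c j
  set y' : C → ℂ := fun j => (t₁ j : ℂ) * c j
  have e1 := H1 (y + y')
  have e2 := H2 (y - y')
  have e3 := H3 (y - y')
  have e4 := H4 (y + y')
  have e5 := C5 y'
  have e6 := Finset.sum_le_sum fun i (_ : i ∈ Finset.univ) => left_net4
    (div_pos (add_pos (hp i) (hU i)) four_pos).le (div_pos (add_pos (hq i) (hU' i)) four_pos).le
    (hs i) (h1 i) (h2 i) (T y i) (T y' i) (a i)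
  have e7 := Finset.sum_le_sum fun j (_ : j ∈ Finset.univ) =>
    right_net4 (hp₁ j) (hq₁ j) hΘ (k1 j) (k2 j) (k3 j) (c j)
  simp only [LinearMap.toMatrix'_mulVec, map_add, map_sub, Pi.add_apply, Pi.sub_apply,
    mul_assoc (2 : ℝ), ← Finset.mul_sum] at e1 e2 e3 e4 e5
  simp only [Finset.sum_add_distrib, Finset.sum_sub_distrib, ← Finset.mul_sum] at e7
  simp only [div_mul_eq_mul_div, add_mul, add_div, Finset.sum_add_distrib,
    ← Finset.sum_div] at e6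
  refine e6.trans (le_trans ?_ e7)
  linarith

end Vale.Agent.P369
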