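import Vale.Agent.P369.Base

/-! P369 task Mat: Frobenius norm, expectations, Cauchy-Schwarz, eigen-coordinates.
Plan. `trace_cs`: `W = S * Sᴴ` (`P358.exists_factor`), `Tr (W Xᴴ Y) = Tr ((X S)ᴴ (Y S))`
`= ∑ conj ((X S) i j) * (Y S) i j`, then Cauchy-Schwarz for finite sums over pairs
(`Finset.inner_mul_le_norm_mul_norm`-type, or `Finset.sum_mul_sq_le_sq_mul_sq` with norms).
`ex_le_trace`: diagonalize `W` (`exists_dg`), eigenvalues in `[0,1]`.
Coordinates: for `Dg ρ U p`, `Uᴴ (ρ X) U = diagonal p * (Uᴴ X U)` etc. -/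

namespace Vale.Agent.P369

open Matrix Vale.Agent.P358 Complex
open scoped ComplexOrder Kronecker

variable {l m n : Type} [Fintype l] [Fintype m] [Fintype n]

theorem fs_nonneg (X : Matrix m n ℂ) : 0 ≤ fs X :=
  Finset.sum_nonneg fun _ _ => Finset.sum_nonneg fun _ _ => normSq_nonneg _

theorem trace_star_mat (X Y : Matrix m n ℂ) :
    (Xᴴ * Y).trace = ∑ i, ∑ j, (starRingEnd ℂ) (X i j) * Y i j := by
  rw [Finset.sum_comm]
  rfl

theorem cs_mat {ι : Type} [Fintype ι] (f g : ι → ℂ) :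
    normSq (∑ i, f i * g i) ≤ (∑ i, normSq (f i)) * ∑ i, normSq (g i) := by
  simp only [normSq_eq_norm_sq]
  refine le_trans (pow_le_pow_left₀ (norm_nonneg _) ((norm_sum_le _ _).trans (le_of_eq ?_)) 2)
    (Finset.sum_mul_sq_le_sq_mul_sq _ _ _)
  simp only [norm_mul]

theorem re_conj_mul_mat (z : ℂ) : ((starRingEnd ℂ) z * z).re = normSq z := by
  rw [← normSq_eq_conj_mul_self, ofReal_re]

theorem fs_eq_trace (X : Matrix m n ℂ) : fs X = (Xᴴ * X).trace.re := by
  simp only [trace_star_mat, re_sum, re_conj_mul_mat, fs]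

theorem fs_conjTranspose (X : Matrix m n ℂ) : fs Xᴴ = fs X := by
  rw [fs, fs, Finset.sum_comm]
  simp only [conjTranspose_apply, RCLike.star_def, normSq_conj]

theorem fs_mul_le (X : Matrix l m ℂ) (Y : Matrix m n ℂ) : fs (X * Y) ≤ fs X * fs Y := by
  rw [fs, fs, fs, Finset.sum_comm (f := fun i j => normSq (Y i j)), Finset.sum_mul_sum]
  exact Finset.sum_le_sum fun i _ => Finset.sum_le_sum fun j _ => cs_mat _ _

theorem fs_iso_mul [DecidableEq m] {V : Matrix l m ℂ} (hV : Vᴴ * V = 1) (Y : Matrix m n ℂ) :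
    fs (V * Y) = fs Y := by
  rw [fs_eq_trace, fs_eq_trace, conjTranspose_mul, Matrix.mul_assoc, ← Matrix.mul_assoc Vᴴ, hV,
    Matrix.one_mul]

theorem fs_kron_one [DecidableEq n] (X : Matrix m m ℂ) :
    fs (X ⊗ₖ (1 : Matrix n n ℂ)) = Fintype.card n * fs X := by
  rw [fs_eq_trace, fs_eq_trace, conjTranspose_kronecker, ← mul_kronecker_mul, trace_kronecker,
    conjTranspose_one, Matrix.one_mul, trace_one, mul_comm, ← ofReal_natCast, re_ofReal_mul]

theorem fs_one_kron [DecidableEq n] (X : Matrix m m ℂ) :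
    fs ((1 : Matrix n n ℂ) ⊗ₖ X) = Fintype.card n * fs X := by
  rw [fs_eq_trace, fs_eq_trace, conjTranspose_kronecker, ← mul_kronecker_mul, trace_kronecker,
    conjTranspose_one, Matrix.one_mul, trace_one, ← ofReal_natCast, re_ofReal_mul]

theorem fs_sub_smul_one [DecidableEq n] (X : Matrix n n ℂ) (z : ℂ) :
    fs (X - z • (1 : Matrix n n ℂ)) ≤ 2 * fs X + 2 * Fintype.card n * normSq z := by
  have h1 : ∀ a b : ℂ, normSq (a - b) ≤ 2 * normSq a + 2 * normSq b := fun a b => by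
    simp only [normSq_apply, sub_re, sub_im]
    linarith [mul_self_nonneg (a.re + b.re), mul_self_nonneg (a.im + b.im)]
  have h2 : ∀ i j, normSq ((z • (1 : Matrix n n ℂ)) i j) = if i = j then normSq z else 0 :=
    fun i j => by
      rw [Matrix.smul_apply, one_apply]
      split_ifs <;> simp
  refine (Finset.sum_le_sum fun i _ => Finset.sum_le_sum fun j _ => h1 _ _).trans (le_of_eq ?_)
  simp only [h2, Finset.sum_add_distrib, ← Finset.mul_sum, Finset.sum_ite_eq, Finset.mem_univ,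
    if_true, Finset.sum_const, Finset.card_univ, nsmul_eq_mul, fs, mul_assoc]

theorem ex_add (W X Y : Matrix n n ℂ) : ex W (X + Y) = ex W X + ex W Y := by
  simp only [ex, Matrix.mul_add, trace_add, add_re]

theorem ex_sub (W X Y : Matrix n n ℂ) : ex W (X - Y) = ex W X - ex W Y := by
  simp only [ex, Matrix.mul_sub, trace_sub, sub_re]

theorem ex_smul (W X : Matrix n n ℂ) (c : ℝ) : ex W ((c : ℂ) • X) = c * ex W X := by
  simp only [ex, Matrix.mul_smul, trace_smul, smul_eq_mul, re_ofReal_mul]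

theorem ex_add_left (W W' X : Matrix n n ℂ) : ex (W + W') X = ex W X + ex W' X := by
  simp only [ex, Matrix.add_mul, trace_add, add_re]

theorem ex_smul_left (W X : Matrix n n ℂ) (c : ℝ) : ex ((c : ℂ) • W) X = c * ex W X := by
  simp only [ex, Matrix.smul_mul, trace_smul, smul_eq_mul, re_ofReal_mul]

theorem ex_sum {ι : Type} (s : Finset ι) (W : Matrix n n ℂ) (X : ι → Matrix n n ℂ) :
    ex W (∑ i ∈ s, X i) = ∑ i ∈ s, ex W (X i) := by
  simp only [ex, Matrix.mul_sum, trace_sum, re_sum]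

theorem ex_diagonal [DecidableEq n] (W : Matrix n n ℂ) (f : n → ℝ) :
    ex W (diagonal fun k => (f k : ℂ)) = ∑ k, (W k k).re * f k := by
  simp only [ex, trace, diag_apply, mul_diagonal, re_sum, re_mul_ofReal]

theorem ex_nonneg {W X : Matrix n n ℂ} (hW : W.PosSemidef) (hX : X.PosSemidef) :
    0 ≤ ex W X := by
  classical
  obtain ⟨S, rfl⟩ := exists_factor hW
  rw [ex, Matrix.mul_assoc, trace_mul_comm]
  exact (Complex.nonneg_iff.mp (hX.conjTranspose_mul_mul_same S).trace_nonneg).1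

theorem ex_one [DecidableEq n] {W : Matrix n n ℂ} (hW : IsState W) : ex W 1 = 1 := by
  rw [ex, Matrix.mul_one, hW.2, one_re]

theorem trace_factor_mat (S : Matrix n n ℂ) (X Y : Matrix m n ℂ) :
    (S * Sᴴ * Xᴴ * Y).trace = ((X * S)ᴴ * (Y * S)).trace := by
  rw [conjTranspose_mul, ← Matrix.mul_assoc, trace_mul_comm _ S]
  simp only [Matrix.mul_assoc]

theorem ex_factor_mat (S : Matrix n n ℂ) (X : Matrix m n ℂ) :
    ex (S * Sᴴ) (Xᴴ * X) = fs (X * S) := by
  rw [ex, ← Matrix.mul_assoc, trace_factor_mat, fs_eq_trace]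

theorem ex_le_fs {W : Matrix n n ℂ} (hW : IsState W) (X : Matrix m n ℂ) :
    ex W (Xᴴ * X) ≤ fs X := by
  classical
  obtain ⟨S, rfl⟩ := exists_factor hW.1
  have h : fs S = 1 := by rw [fs_eq_trace, trace_mul_comm, hW.2, one_re]
  rw [ex_factor_mat]
  exact (fs_mul_le X S).trans (by rw [h, mul_one])

theorem trace_cs {W : Matrix n n ℂ} (hW : W.PosSemidef) (X Y : Matrix m n ℂ) :
    normSq (W * Xᴴ * Y).trace ≤ ex W (Xᴴ * X) * ex W (Yᴴ * Y) := by
  classical
  obtain ⟨S, rfl⟩ := exists_factor hW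
  rw [ex_factor_mat, ex_factor_mat, trace_factor_mat, trace_star_mat, fs, fs,
    ← Fintype.sum_prod_type', ← Fintype.sum_prod_type', ← Fintype.sum_prod_type']
  refine (cs_mat _ _).trans (le_of_eq ?_)
  simp only [normSq_conj]

theorem normSq_mean_le {W : Matrix n n ℂ} (hW : IsState W) (X : Matrix n n ℂ) :
    normSq (W * X).trace ≤ ex W (Xᴴ * X) := by
  classical
  have h := trace_cs hW.1 1 X
  rwa [conjTranspose_one, Matrix.mul_one, Matrix.mul_one, ex_one hW, one_mul] at h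

theorem normSq_entry_le {W : Matrix n n ℂ} (hW : W.PosSemidef) (k l : n) :
    normSq (W k l) ≤ (W k k).re * (W l l).re := by
  classical
  obtain ⟨S, rfl⟩ := exists_factor hW
  have h : ∀ k, ((S * Sᴴ) k k).re = ∑ j, normSq (S k j) := fun k => by
    simp only [mul_apply, conjTranspose_apply, RCLike.star_def, re_sum, mul_conj, ofReal_re]
  rw [h, h, mul_apply]
  refine (cs_mat _ _).trans (le_of_eq ?_)
  simp only [conjTranspose_apply, RCLike.star_def, normSq_conj]

theorem kron_state {A : Matrix m m ℂ} {B : Matrix n n ℂ} (hA : IsState A) (hB : IsState B) :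
    IsState (A ⊗ₖ B) :=
  ⟨hA.1.kronecker hB.1, by rw [trace_kronecker, hA.2, hB.2, one_mul]⟩

section

variable [DecidableEq n] {ρ U : Matrix n n ℂ} {p : n → ℝ}

theorem co_mul_mat (h : Dg ρ U p) (X Y : Matrix n n ℂ) :
    Uᴴ * (X * Y) * U = Uᴴ * X * U * (Uᴴ * Y * U) := by
  simp only [Matrix.mul_assoc]
  rw [← Matrix.mul_assoc U, h.r, Matrix.one_mul]

theorem co_left_mat (h : Dg ρ U p) (X : Matrix n n ℂ) (k l : n) :
    (Uᴴ * (ρ * X) * U) k l = (p k : ℂ) * (Uᴴ * X * U) k l := by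
  rw [co_mul_mat h, h.conj, diagonal_mul]

theorem co_right_mat (h : Dg ρ U p) (X : Matrix n n ℂ) (k l : n) :
    (Uᴴ * (X * ρ) * U) k l = (Uᴴ * X * U) k l * (p l : ℂ) := by
  rw [co_mul_mat h, h.conj, mul_diagonal]

theorem co_trace_mat (h : Dg ρ U p) (X : Matrix n n ℂ) : (Uᴴ * X * U).trace = X.trace := by
  rw [trace_mul_comm, ← Matrix.mul_assoc, h.r, Matrix.one_mul]

theorem dg_mlog_mat (h : Dg ρ U p) : Dg (mlog U p) U fun i => -Real.log (p i) := ⟨h.l, h.r, rfl⟩

theorem trace_co (h : Dg ρ U p) (X Y : Matrix n n ℂ) :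
    (Xᴴ * Y).trace
      = ∑ k, ∑ l, (starRingEnd ℂ) ((Uᴴ * X * U) k l) * (Uᴴ * Y * U) k l := by
  rw [← trace_star_mat, ← co_trace_mat h, co_mul_mat h, conjTranspose_mul, conjTranspose_mul,
    conjTranspose_conjTranspose, Matrix.mul_assoc Uᴴ Xᴴ]

theorem fs_co (h : Dg ρ U p) (X : Matrix n n ℂ) : fs (Uᴴ * X * U) = fs X := by
  rw [fs_eq_trace X, trace_co h]
  simp only [re_sum, re_conj_mul_mat, fs]

theorem ex_row (h : Dg ρ U p) (Z : Matrix n n ℂ) :
    ex ρ (Z * Zᴴ) = ∑ k, ∑ l, p k * normSq ((Uᴴ * Z * U) k l) := by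
  rw [ex, ← Matrix.mul_assoc, trace_mul_comm, trace_co h]
  simp only [co_left_mat h, mul_left_comm _ (p _ : ℂ), re_sum, re_ofReal_mul, re_conj_mul_mat]

theorem ex_col (h : Dg ρ U p) (Z : Matrix n n ℂ) :
    ex ρ (Zᴴ * Z) = ∑ k, ∑ l, p l * normSq ((Uᴴ * Z * U) k l) := by
  rw [ex, trace_mul_comm, Matrix.mul_assoc, trace_co h]
  simp only [co_right_mat h, mul_comm _ (p _ : ℂ), mul_left_comm _ (p _ : ℂ), re_sum,
    re_ofReal_mul, re_conj_mul_mat]

theorem Psi_co (h : Dg ρ U p) (N : ℝ) (a : Matrix n n ℂ) (k l : n) :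
    (Uᴴ * Psi N ρ a * U) k l = (psi N (p k) (p l) : ℂ) * (Uᴴ * a * U) k l := by
  rw [Psi, Matrix.mul_sub, Matrix.sub_mul, Matrix.mul_smul, Matrix.mul_smul, Matrix.smul_mul,
    Matrix.smul_mul, Matrix.sub_apply, Matrix.smul_apply, Matrix.smul_apply, co_left_mat h,
    co_right_mat h, psi]
  simp only [smul_eq_mul]
  push_cast
  ring

theorem comm_co (h : Dg ρ U p) (a : Matrix n n ℂ) (k l : n) :
    (Uᴴ * (a * mlog U p - mlog U p * a) * U) k l
      = ((Real.log (p k) - Real.log (p l) : ℝ) : ℂ) * (Uᴴ * a * U) k l := by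
  rw [Matrix.mul_sub, Matrix.sub_mul, Matrix.sub_apply, co_left_mat (dg_mlog_mat h),
    co_right_mat (dg_mlog_mat h), ofReal_sub, ofReal_neg, ofReal_neg]
  ring

theorem mlog_herm (U : Matrix n n ℂ) (p : n → ℝ) : (mlog U p).IsHermitian :=
  isHermitian_mul_mul_conjTranspose U (dg_diagonal fun i => -Real.log (p i)).isHermitian

theorem mlog_comm (h : Dg ρ U p) : ρ * mlog U p = mlog U p * ρ := by
  have e : ∀ X : Matrix n n ℂ, X = U * (Uᴴ * X * U) * Uᴴ := fun X => by
    simp only [← Matrix.mul_assoc]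
    rw [h.r, Matrix.one_mul, Matrix.mul_assoc, h.r, Matrix.mul_one]
  rw [e (ρ * mlog U p), e (mlog U p * ρ), co_mul_mat h, co_mul_mat h, h.conj, (dg_mlog_mat h).conj,
    diagonal_mul_diagonal, diagonal_mul_diagonal]
  simp only [mul_comm]

theorem trace_mul_mlog (h : Dg ρ U p) (X : Matrix n n ℂ) :
    (X * mlog U p).trace = ∑ k, (Uᴴ * X * U) k k * ((-Real.log (p k) : ℝ) : ℂ) := by
  rw [← co_trace_mat h]
  exact Finset.sum_congr rfl fun k _ => co_right_mat (dg_mlog_mat h) X k k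

theorem fs_mlog_le (h : Dg ρ U p) {t : ℝ} (ht : ∀ i, |Real.log (p i)| ≤ t) :
    fs (mlog U p) ≤ Fintype.card n * t ^ 2 := by
  rw [← fs_co h, (dg_mlog_mat h).conj, fs, ← nsmul_eq_mul, ← Finset.card_univ, ← Finset.sum_const]
  refine Finset.sum_le_sum fun i _ => ?_
  rw [Finset.sum_eq_single i (fun j _ hj => by rw [diagonal_apply_ne' _ hj, normSq_zero])
    (fun hi => absurd (Finset.mem_univ i) hi), diagonal_apply_eq, normSq_ofReal, neg_mul_neg, ← sq,
    ← sq_abs]
  exact pow_le_pow_left₀ (abs_nonneg _) (ht i) 2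

end

end Vale.Agent.P369
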