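import Vale.Agent.P369.Lm
import Vale.Agent.P369.Mat

/-! P369 task Taylor: second-order expansion of the entropy at a positive definite matrix.
Plan. Let `Y = Uᴴ δ U` (Hermitian, trace zero), `μ = min p`, `F = √(fs δ)`, `t₀ = μ / (2 (F+1))`.
For `s ≥ 0` let `D = diagonal (√(s + p i))⁻¹`, `X = D Y D` (Hermitian, `fs X ≤ fs δ/(s+μ)²`), with
eigenvalues `x i` (`exists_dg`): `∑ x = Tr X = ∑ (Y k k).re/(s + p k)`,
`∑ x² = fs X = ∑ |Y k l|²/((s+p k)(s+p l))`, `|t x i| ≤ 1/2`.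
`s + ρ + t δ = U D⁻¹ (1 + t X) D⁻¹ Uᴴ`; at `s = 0` this gives positivity; determinants
(`Dg.shift`, `Dg.det_eq`) give `∑ log (s + λ i) = ∑ log (s + p i) + ∑ log (1 + t x i)` where `λ` are
the eigenvalues of `ρ + t δ` (all positive). `|log (1+y) - y + y²/2| ≤ 2 |y|³` for `|y| ≤ 1/2`
(`Real.abs_log_sub_add_sum_range_le`), so the remainder is at most `2 |t|³ F³/(s+μ)³`
(`∑ |x|³ ≤ max |x| ∑ x²`), whose integral over `(0,R)` is at most `|t|³ F³/μ²`.
Integrate over `s ∈ (0,R)`; `P358.sum_log_lower`, `P358.sum_log_upper` (file NCI) compare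
`∫ ∑ log (s + w i)` with `∑ negMulLog (w i)` up to `(∑ w²)/R` (same trace, same cardinality);
`∫₀ᴿ (s+p)⁻¹ = log (R+p) - log p`, `∑ (Y k k).re log (R + p k) → 0` because `∑ Y k k = 0`;
`tendsto_integral_shift`; let `R → ∞` (`le_of_tendsto`); `trace_mul_mlog`. -/

namespace Vale.Agent.P369

open Matrix Vale.Agent.P358 Complex Filter Topology
open scoped ComplexOrder

variable {n : Type} [Fintype n] [DecidableEq n]

theorem log_cubic_taylor {y : ℝ} (hy : |y| ≤ 1 / 2) :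
    |Real.log (1 + y) - y + y ^ 2 / 2| ≤ 2 * |y| ^ 3 := by
  have h := Real.abs_log_sub_add_sum_range_le (x := -y) (by rw [abs_neg]; linarith) 2
  simp only [Finset.sum_range_succ, Finset.range_zero, Finset.sum_empty, abs_neg, sub_neg_eq_add] at h
  have e : Real.log (1 + y) - y + y ^ 2 / 2 =
      0 + (-y) ^ (0 + 1) / (((0 : ℕ) : ℝ) + 1) + (-y) ^ (1 + 1) / (((1 : ℕ) : ℝ) + 1)
        + Real.log (1 + y) := by
    push_cast; ring
  rw [e]
  refine h.trans ?_
  rw [div_le_iff₀ (by linarith)]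
  have h3 := mul_le_mul_of_nonneg_left hy (show 0 ≤ |y| ^ 3 by positivity)
  change |y| ^ 3 ≤ _
  linarith

theorem fs_dg_taylor {X W : Matrix n n ℂ} {x : n → ℝ} (h : Dg X W x) : fs X = ∑ i, x i ^ 2 := by
  rw [← fs_co h X, h.conj]
  refine Finset.sum_congr rfl fun i _ => ?_
  rw [Finset.sum_eq_single i]
  · rw [diagonal_apply_eq, normSq_ofReal, sq]
  · intro j _ hj
    rw [diagonal_apply_ne _ hj.symm, map_zero]
  · simp

theorem factor_taylor {Y : Matrix n n ℂ} (hY : Y.IsHermitian) {q : n → ℝ} {ν t : ℝ} (hν : 0 < ν)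
    (hq : ∀ i, ν ≤ q i) (ht : |t| * √(fs Y) ≤ ν / 2) :
    (diagonal (fun i => (q i : ℂ)) + (t : ℂ) • Y).PosSemidef ∧ ∃ x : n → ℝ,
      (diagonal (fun i => (q i : ℂ)) + (t : ℂ) • Y).det
        = (((∏ i, q i) * ∏ i, (1 + t * x i) : ℝ) : ℂ) ∧ (∀ i, 0 < 1 + t * x i) ∧
      |∑ i, Real.log (1 + t * x i) - t * ∑ k, (Y k k).re * (q k)⁻¹
        + t ^ 2 / 2 * ∑ k, ∑ l, normSq (Y k l) * (q k * q l)⁻¹|
          ≤ 2 * (|t| * √(fs Y) / ν) ^ 3 := by
  have hq0 : ∀ i, 0 < q i := fun i => hν.trans_le (hq i)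
  have hs0 : ∀ i, 0 < √(q i) := fun i => Real.sqrt_pos.mpr (hq0 i)
  obtain ⟨X, hX⟩ : ∃ X : Matrix n n ℂ, ∀ k l, X k l = (((√(q k) * √(q l))⁻¹ : ℝ) : ℂ) * Y k l :=
    ⟨Matrix.of fun k l => _, fun _ _ => rfl⟩
  have hXh : X.IsHermitian := by
    ext k l
    rw [conjTranspose_apply, hX, hX, star_mul', hY.apply, mul_comm (√(q l))]
    simp
  obtain ⟨W, x, hW⟩ := exists_dg hXh
  have h1 : ∑ i, x i = ∑ k, (Y k k).re * (q k)⁻¹ := by
    rw [← hW.trace_re, trace, re_sum]
    refine Finset.sum_congr rfl fun k _ => ?_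
    rw [diag_apply, hX, Real.mul_self_sqrt (hq0 k).le, re_ofReal_mul, mul_comm]
  have h2 : ∑ i, x i ^ 2 = ∑ k, ∑ l, normSq (Y k l) * (q k * q l)⁻¹ := by
    rw [← fs_dg_taylor hW]
    refine Finset.sum_congr rfl fun k _ => Finset.sum_congr rfl fun l _ => ?_
    rw [hX, map_mul, normSq_ofReal, ← mul_inv, mul_mul_mul_comm, Real.mul_self_sqrt (hq0 k).le,
      Real.mul_self_sqrt (hq0 l).le, mul_comm]
  have h3 : ∑ i, x i ^ 2 ≤ (√(fs Y) / ν) ^ 2 := by
    rw [h2, div_pow, Real.sq_sqrt (fs_nonneg Y), fs, Finset.sum_div]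
    refine Finset.sum_le_sum fun k _ => ?_
    rw [Finset.sum_div]
    refine Finset.sum_le_sum fun l _ => ?_
    rw [div_eq_mul_inv]
    refine mul_le_mul_of_nonneg_left (inv_anti₀ (by positivity) ?_) (normSq_nonneg _)
    rw [sq]
    exact mul_le_mul (hq k) (hq l) hν.le (hq0 k).le
  have hF : 0 ≤ √(fs Y) / ν := by positivity
  have h4 : ∀ i, |x i| ≤ √(fs Y) / ν := fun i =>
    abs_le_of_sq_le_sq ((Finset.single_le_sum (f := fun i => x i ^ 2) (fun i _ => sq_nonneg _)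
      (Finset.mem_univ i)).trans h3) hF
  have h5 : |t| * (√(fs Y) / ν) ≤ 1 / 2 := by
    rw [← mul_div_assoc, div_le_iff₀ hν]; linarith
  have h6 : ∀ i, |t * x i| ≤ 1 / 2 := fun i => by
    rw [abs_mul]; exact (mul_le_mul_of_nonneg_left (h4 i) (abs_nonneg t)).trans h5
  have h7 : ∀ i, 0 < 1 + t * x i := fun i => by linarith [neg_abs_le (t * x i), h6 i]
  have hD := (hW.smul t).shift 1
  have e : diagonal (fun i => (q i : ℂ)) + (t : ℂ) • Y
      = diagonal (fun i => ((√(q i) : ℝ) : ℂ)) * (((1 : ℝ) : ℂ) • (1 : Matrix n n ℂ) + (t : ℂ) • X)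
        * (diagonal (fun i => ((√(q i) : ℝ) : ℂ)))ᴴ := by
    ext k l
    have a1 : ((√(q k) : ℝ) : ℂ) ≠ 0 := ofReal_ne_zero.mpr (hs0 k).ne'
    have a2 : ((√(q l) : ℝ) : ℂ) ≠ 0 := ofReal_ne_zero.mpr (hs0 l).ne'
    rw [diagonal_conjTranspose, mul_diagonal, diagonal_mul]
    simp only [Matrix.add_apply, Matrix.smul_apply, hX, smul_eq_mul, Pi.star_apply, RCLike.star_def,
      conj_ofReal, ofReal_one, one_mul, ofReal_inv, ofReal_mul]
    by_cases hkl : k = l
    · subst hkl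
      rw [diagonal_apply_eq, one_apply_eq]
      field_simp
      rw [← ofReal_pow, Real.sq_sqrt (hq0 k).le]
    · rw [diagonal_apply_ne _ hkl, one_apply_ne hkl]
      field_simp
      ring
  refine ⟨?_, x, ?_, h7, ?_⟩
  · rw [e]
    exact (hD.posSemidef fun i => (h7 i).le).mul_mul_conjTranspose_same _
  · rw [e, det_mul, det_mul, hD.det_eq, diagonal_conjTranspose, det_diagonal, det_diagonal,
      mul_right_comm, ← Finset.prod_mul_distrib, ofReal_mul, ofReal_prod _ q]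
    congr 1
    refine Finset.prod_congr rfl fun i _ => ?_
    rw [Pi.star_apply, RCLike.star_def, conj_ofReal, ← ofReal_mul, Real.mul_self_sqrt (hq0 i).le]
  · rw [← h1, ← h2, Finset.mul_sum, Finset.mul_sum, ← Finset.sum_sub_distrib,
      ← Finset.sum_add_distrib]
    refine (Finset.abs_sum_le_sum_abs _ _).trans ?_
    have h8 : ∀ i, |Real.log (1 + t * x i) - t * x i + t ^ 2 / 2 * x i ^ 2|
        ≤ 2 * |t| ^ 3 * (√(fs Y) / ν) * x i ^ 2 := fun i => by
      rw [show t ^ 2 / 2 * x i ^ 2 = (t * x i) ^ 2 / 2 by ring]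
      refine (log_cubic_taylor (h6 i)).trans ?_
      rw [abs_mul, mul_pow, pow_succ' |x i| 2, sq_abs]
      have := mul_le_mul_of_nonneg_right (h4 i)
        (show 0 ≤ 2 * |t| ^ 3 * x i ^ 2 by positivity)
      linarith
    refine (Finset.sum_le_sum fun i _ => h8 i).trans ?_
    rw [← Finset.mul_sum]
    have := mul_le_mul_of_nonneg_left h3 (show 0 ≤ 2 * |t| ^ 3 * (√(fs Y) / ν) by positivity)
    rw [mul_div_assoc]
    linarith

theorem conj_taylor {ρ U : Matrix n n ℂ} {p : n → ℝ} (h : Dg ρ U p) (δ : Matrix n n ℂ) (t : ℝ) :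
    ρ + (t : ℂ) • δ = U * (diagonal (fun i => (p i : ℂ)) + (t : ℂ) • (Uᴴ * δ * U)) * Uᴴ := by
  have e : U * (Uᴴ * δ * U) * Uᴴ = δ := by
    calc U * (Uᴴ * δ * U) * Uᴴ = (U * Uᴴ) * δ * (U * Uᴴ) := by simp only [Matrix.mul_assoc]
      _ = δ := by rw [h.r, Matrix.one_mul, Matrix.mul_one]
  rw [Matrix.mul_add, Matrix.add_mul, ← h.eq, Matrix.mul_smul, Matrix.smul_mul, e]

theorem point_taylor {ρ U δ V : Matrix n n ℂ} {p w : n → ℝ} (h : Dg ρ U p) (hδ : δ.IsHermitian)
    {μ t s : ℝ} (hμ : 0 < μ) (hp : ∀ i, μ ≤ p i) (ht : |t| * √(fs δ) ≤ μ / 2)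
    (hw : Dg (ρ + (t : ℂ) • δ) V w) (hw0 : ∀ i, 0 ≤ w i) (hs : 0 < s) :
    |∑ i, Real.log (s + w i) - ∑ i, Real.log (s + p i)
      - t * ∑ k, ((Uᴴ * δ * U) k k).re * (s + p k)⁻¹
        + t ^ 2 / 2 * ∑ k, ∑ l, normSq ((Uᴴ * δ * U) k l) * ((s + p k) * (s + p l))⁻¹|
          ≤ 2 * (|t| * √(fs δ)) ^ 3 / μ * ((s + μ) * (s + μ))⁻¹ := by
  have hY : (Uᴴ * δ * U).IsHermitian := isHermitian_conjTranspose_mul_mul U hδ
  obtain ⟨-, x, h1, h2, h3⟩ := factor_taylor (q := fun i => s + p i) (ν := s + μ) (t := t) hY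
    (by linarith) (fun i => by linarith [hp i]) (by rw [fs_co h]; linarith)
  have h4 := (hw.shift s).det_eq
  rw [← add_assoc, conj_taylor (h.shift s), det_mul_comm, ← Matrix.mul_assoc, h.l, Matrix.one_mul,
    h1, ofReal_inj] at h4
  have pw : ∀ i, 0 < s + w i := fun i => by linarith [hw0 i]
  have pp : ∀ i, 0 < s + p i := fun i => by linarith [hp i]
  have hl := congrArg Real.log h4
  rw [Real.log_mul (Finset.prod_pos fun i _ => pp i).ne' (Finset.prod_pos fun i _ => h2 i).ne',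
    Real.log_prod (fun i _ => (pw i).ne'), Real.log_prod (fun i _ => (pp i).ne'),
    Real.log_prod (fun i _ => (h2 i).ne')] at hl
  rw [← hl, add_sub_cancel_left]
  refine h3.trans ?_
  rw [fs_co h, div_pow, ← mul_div_assoc, ← div_eq_mul_inv, div_div]
  refine div_le_div_of_nonneg_left (by positivity) (by positivity) ?_
  have : 0 ≤ s * ((s + μ) * (s + μ)) := by positivity
  linarith

theorem inv_integrable_taylor {f : ℝ → ℝ} (hf : Continuous f) {R : ℝ} (hR : 0 ≤ R)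
    (h : ∀ s, 0 ≤ s → 0 < f s) : IntervalIntegrable (fun s => (f s)⁻¹) MeasureTheory.volume 0 R := by
  refine ContinuousOn.intervalIntegrable (hf.continuousOn.inv₀ fun s hs => ?_)
  rw [Set.uIcc_of_le hR] at hs
  exact (h s hs.1).ne'

theorem integral_inv_taylor {p R : ℝ} (hp : 0 < p) (hR : 0 ≤ R) :
    ∫ s in (0 : ℝ)..R, (s + p)⁻¹ = Real.log (R + p) - Real.log p := by
  rw [intervalIntegral.integral_comp_add_right (fun s => s⁻¹) p, zero_add,
    integral_inv_of_pos hp (by linarith), Real.log_div (by linarith) hp.ne']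

theorem tendsto_log_taylor (p : ℝ) :
    Tendsto (fun R : ℝ => Real.log (R + p) - Real.log R) atTop (𝓝 0) :=
  Real.tendsto_log_comp_add_sub_log p

omit [DecidableEq n] in
theorem tendsto_ent_taylor {w p : n → ℝ} (hw : ∀ i, 0 ≤ w i) (hp : ∀ i, 0 ≤ p i)
    (hs : ∑ i, w i = ∑ i, p i) :
    Tendsto (fun R : ℝ => (∫ s in (0 : ℝ)..R, ∑ i, Real.log (s + w i))
      - ∫ s in (0 : ℝ)..R, ∑ i, Real.log (s + p i)) atTop
      (𝓝 (∑ i, Real.negMulLog (w i) - ∑ i, Real.negMulLog (p i))) := by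
  have t1 : ∀ c : ℝ, Tendsto (fun R : ℝ =>
      ∑ i, Real.negMulLog (w i) - ∑ i, Real.negMulLog (p i) + c / R) atTop
      (𝓝 (∑ i, Real.negMulLog (w i) - ∑ i, Real.negMulLog (p i))) := fun c => by
    simpa using (tendsto_const_nhds (x := ∑ i, Real.negMulLog (w i) - ∑ i, Real.negMulLog (p i))).add
      ((tendsto_const_nhds (x := c)).div_atTop tendsto_id)
  refine tendsto_of_tendsto_of_tendsto_of_le_of_le' (t1 (-∑ i, p i ^ 2)) (t1 (∑ i, w i ^ 2)) ?_ ?_
  · filter_upwards [eventually_gt_atTop 0] with R hR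
    have h1 := sum_log_lower hw hR
    have h2 := sum_log_upper hp hR
    rw [hs] at h1
    rw [neg_div]
    linarith
  · filter_upwards [eventually_gt_atTop 0] with R hR
    have h1 := sum_log_upper hw hR
    have h2 := sum_log_lower hp hR
    rw [hs] at h1
    linarith

theorem taylor {ρ U δ : Matrix n n ℂ} {p : n → ℝ} (h : Dg ρ U p) (hp : ∀ i, 0 < p i)
    (hδ : δ.IsHermitian) (htr : δ.trace = 0) :
    ∃ C t₀ : ℝ, 0 < t₀ ∧ ∀ t : ℝ, |t| ≤ t₀ → (ρ + (t : ℂ) • δ).PosSemidef ∧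
      |ent (ρ + (t : ℂ) • δ) - ent ρ - t * ex δ (mlog U p) + t ^ 2 / 2 * Qf U p δ|
        ≤ C * |t| ^ 3 := by
  obtain ⟨μ, hμ, hpμ⟩ : ∃ μ : ℝ, 0 < μ ∧ ∀ i, μ ≤ p i := by
    have h0 : 0 ≤ ∑ i, (p i)⁻¹ := Finset.sum_nonneg fun i _ => (inv_pos.mpr (hp i)).le
    refine ⟨(∑ i, (p i)⁻¹ + 1)⁻¹, by positivity, fun i => ?_⟩
    refine inv_le_of_inv_le₀ (hp i) ?_
    have := Finset.single_le_sum (f := fun i => (p i)⁻¹) (fun i _ => (inv_pos.mpr (hp i)).le)
      (Finset.mem_univ i)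
    linarith
  have hF : 0 ≤ √(fs δ) := Real.sqrt_nonneg _
  refine ⟨2 * √(fs δ) ^ 3 / μ * μ⁻¹, μ / (2 * (√(fs δ) + 1)), by positivity, fun t ht => ?_⟩
  have ht' : |t| * √(fs δ) ≤ μ / 2 := by
    rw [le_div_iff₀ (by positivity)] at ht
    linarith [abs_nonneg t]
  have hY : (Uᴴ * δ * U).IsHermitian := isHermitian_conjTranspose_mul_mul U hδ
  have hpsd : (ρ + (t : ℂ) • δ).PosSemidef := by
    rw [conj_taylor h]
    exact (factor_taylor hY hμ hpμ (by rw [fs_co h]; exact ht')).1.mul_mul_conjTranspose_same _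
  refine ⟨hpsd, ?_⟩
  obtain ⟨V, w, hw⟩ := exists_dg hpsd.isHermitian
  have hw0 := hw.nonneg hpsd
  have hpt := fun s hs => point_taylor h hδ hμ hpμ ht' hw hw0 (s := s) hs
  have hsum : ∑ i, w i = ∑ i, p i := by
    rw [← hw.trace_re, ← h.trace_re, trace_add, trace_smul, htr, smul_zero, add_zero]
  have hY0 : ∑ k, ((Uᴴ * δ * U) k k).re = 0 := by rw [sum_re_conj δ h.r, htr, zero_re]
  have hex : ex δ (mlog U p) = ∑ k, ((Uᴴ * δ * U) k k).re * (0 - Real.log (p k)) := by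
    rw [ex, trace_mul_mlog h, re_sum]
    exact Finset.sum_congr rfl fun k _ => by rw [re_mul_ofReal, zero_sub]
  have hQ : Qf U p δ = ∑ k, ∑ l, normSq ((Uᴴ * δ * U) k l) * (lm (p k) (p l))⁻¹ := by
    simp only [Qf, div_eq_mul_inv]
  rw [hw.ent_eq, h.ent_eq, hex, hQ]
  generalize Uᴴ * δ * U = Y at *
  have T1 := tendsto_ent_taylor hw0 (fun i => (hp i).le) hsum
  have T2 := (tendsto_finsetSum Finset.univ fun k _ =>
    ((tendsto_log_taylor (p k)).sub_const (Real.log (p k))).const_mul (Y k k).re).const_mul t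
  have T3 := (tendsto_finsetSum Finset.univ fun k _ => tendsto_finsetSum Finset.univ fun l _ =>
    (tendsto_integral_shift (hp k) (hp l)).const_mul (normSq (Y k l))).const_mul (t ^ 2 / 2)
  have T4 := (tendsto_integral_shift hμ hμ).const_mul (2 * (|t| * √(fs δ)) ^ 3 / μ)
  rw [lm_self] at T4
  have key := le_of_tendsto_of_tendsto ((T1.sub T2).add T3).abs T4 (by
    filter_upwards [eventually_gt_atTop 0] with R hR
    have i1 : ∀ k, IntervalIntegrable (fun s => (Y k k).re * (s + p k)⁻¹) MeasureTheory.volume 0 R :=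
      fun k => (inv_integrable_taylor (by fun_prop) hR.le fun s hs => by linarith [hp k]).const_mul _
    have i2 : ∀ k l, IntervalIntegrable (fun s => normSq (Y k l) * ((s + p k) * (s + p l))⁻¹)
        MeasureTheory.volume 0 R := fun k l =>
      (inv_integrable_taylor (by fun_prop) hR.le fun s hs =>
        mul_pos (by linarith [hp k]) (by linarith [hp l])).const_mul _
    have i3 : ∀ (f : n → ℝ → ℝ), (∀ k, IntervalIntegrable (f k) MeasureTheory.volume 0 R) →
        IntervalIntegrable (fun s => ∑ k, f k s) MeasureTheory.volume 0 R := fun f hf =>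
      (IntervalIntegrable.sum Finset.univ fun k _ => hf k).congr fun s _ => Finset.sum_apply _ _ _
    have i4 := (i3 _ i1).const_mul t
    have i5 := (i3 _ fun k => i3 _ (i2 k)).const_mul (t ^ 2 / 2)
    have i6 := (sum_log_integrable w R).sub (sum_log_integrable p R)
    have b := intervalIntegral.norm_integral_le_of_norm_le hR.le
      (f := fun s => ∑ i, Real.log (s + w i) - ∑ i, Real.log (s + p i)
        - t * ∑ k, (Y k k).re * (s + p k)⁻¹
          + t ^ 2 / 2 * ∑ k, ∑ l, normSq (Y k l) * ((s + p k) * (s + p l))⁻¹)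
      (Filter.Eventually.of_forall fun s hs => hpt s hs.1)
      ((inv_integrable_taylor (f := fun s => (s + μ) * (s + μ)) (by fun_prop) hR.le fun s hs => by
        positivity).const_mul _)
    rw [intervalIntegral.integral_add (i6.sub i4) i5, intervalIntegral.integral_sub i6 i4,
      intervalIntegral.integral_sub (sum_log_integrable w R) (sum_log_integrable p R),
      intervalIntegral.integral_const_mul, intervalIntegral.integral_const_mul,
      intervalIntegral.integral_const_mul, intervalIntegral.integral_finsetSum fun k _ => i1 k,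
      intervalIntegral.integral_finsetSum fun k _ => i3 _ (i2 k), Real.norm_eq_abs] at b
    have e1 : ∑ k, ∫ s in (0 : ℝ)..R, (Y k k).re * (s + p k)⁻¹
        = ∑ k, (Y k k).re * (Real.log (R + p k) - Real.log R - Real.log (p k)) := by
      have e2 : ∑ k, (Y k k).re * (Real.log (R + p k) - Real.log R - Real.log (p k))
          = ∑ k, (Y k k).re * (Real.log (R + p k) - Real.log (p k))
            - (∑ k, (Y k k).re) * Real.log R := by
        rw [Finset.sum_mul, ← Finset.sum_sub_distrib]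
        exact Finset.sum_congr rfl fun k _ => by ring
      rw [e2, hY0, zero_mul, sub_zero]
      exact Finset.sum_congr rfl fun k _ => by
        rw [intervalIntegral.integral_const_mul, integral_inv_taylor (hp k) hR.le]
    have e3 : ∑ k, ∫ s in (0 : ℝ)..R, ∑ l, normSq (Y k l) * ((s + p k) * (s + p l))⁻¹
        = ∑ k, ∑ l, normSq (Y k l) * ∫ s in (0 : ℝ)..R, ((s + p k) * (s + p l))⁻¹ :=
      Finset.sum_congr rfl fun k _ => by
        rw [intervalIntegral.integral_finsetSum fun l _ => i2 k l]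
        exact Finset.sum_congr rfl fun l _ => intervalIntegral.integral_const_mul _ _
    rw [e1, e3] at b
    exact b)
  refine key.trans (le_of_eq ?_)
  ring

end Vale.Agent.P369
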