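import Vale.Agent.P369.Ent
import Vale.Agent.P369.Taylor

/-! P369 task Side: optimality conditions on one input, and the BKM duality.
Plan.
* `side_pos`: if `p i₀ = 0`, test with `ρ_t = (1-t) ρ + (t/D) 1` (`Dg.smul`, `Dg.shift`: eigenvalues
  `t/D + (1-t) p i`). `klein` and `ent_eq_ex_mlog` give `ent (T ρ_t) - ent (T ρ) ≤ t c₁` (linear in
  `t`), the `F` term is linear in `t`, concavity gives `negMulLog (t/D + (1-t) p) ≥ (1-t) negMulLog p`
  `+ t negMulLog (1/D) ≥ negMulLog p - t` and the `i₀` term is `(t/D) log (D/t)`. So minimality gives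
  `lam (t/D) log (D/t) ≤ c t` for all small `t > 0`, false for `t = D exp (-s)`, `s` large.
* `side_herm`: for Hermitian traceless `δ`, `taylor` at `ρ` and at `T ρ` (perturbation `T δ`), test
  state `ρ + t δ`: `0 ≤ t a + t²/2 (lam Q_A - τ Q_C) + C |t|³` for small `|t|`; so `a = 0`, and then
  `τ Q_C ≤ lam Q_A`.
* general `X = δ₁ + I δ₂` with `δ₁ = (X + Xᴴ)/2`, `δ₂ = (X - Xᴴ)/(2 I)`; traces of products of two
  Hermitian matrices are real; `Qf (δ₁ + I δ₂) = Qf δ₁ + Qf δ₂` (`lm_comm`: the cross terms `(k,l)`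
  and `(l,k)` cancel; equivalently `Qf X + Qf Xᴴ = 2 (Qf δ₁ + Qf δ₂)` and `Qf Xᴴ = Qf X`).
* `bkm_dual`: `X = U Y' Uᴴ` with `Y' k l = lm (p k) (p l) * conj ((Uᴴ Z U) l k)`; `Tr X = conj Tr (ρ Z) = 0`,
  `Tr (X Z) = bkm U p Z = Qf U p X =: b`, and `|Tr (S X * Y)|² ≤ Qf W r (S X) * bkm W r Y`
  (Cauchy-Schwarz in coordinates, `lm_comm`); so `τ b² ≤ lam b bkm W r Y`. -/

namespace Vale.Agent.P369

open Matrix Vale.Agent.P358 Complex
open scoped ComplexOrder

variable {α γ : Type} [Fintype α] [DecidableEq α] [Fintype γ] [DecidableEq γ]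

theorem lim_side {f : ℝ → ℝ} (hf : Continuous f) {t₀ : ℝ} (h0 : 0 < t₀)
    (h : ∀ t, 0 < t → t ≤ t₀ → 0 ≤ f t) : 0 ≤ f 0 := by
  refine ge_of_tendsto ((hf.tendsto 0).mono_left (nhdsWithin_le_nhds (s := Set.Ioi 0))) ?_
  filter_upwards [Ioc_mem_nhdsGT h0] with t ht using h t ht.1 ht.2

theorem scal_side {a b K t₀ : ℝ} (h0 : 0 < t₀)
    (h : ∀ t, |t| ≤ t₀ → 0 ≤ t * a + t ^ 2 / 2 * b + K * |t| ^ 3) : a = 0 ∧ 0 ≤ b := by
  have h1 := lim_side (f := fun t => a + t / 2 * b + K * t ^ 2) (by fun_prop) h0 fun t ht ht0 => by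
    have h2 := h t (by rwa [abs_of_pos ht])
    rw [abs_of_pos ht] at h2
    exact le_of_mul_le_mul_left (by linarith) ht
  have h2 := lim_side (f := fun t => -a + t / 2 * b + K * t ^ 2) (by fun_prop) h0 fun t ht ht0 => by
    have h2 := h (-t) (by rwa [abs_neg, abs_of_pos ht])
    rw [abs_neg, abs_of_pos ht] at h2
    exact le_of_mul_le_mul_left (by linarith) ht
  have ha : a = 0 := by linarith
  have h3 := lim_side (f := fun t => b / 2 + K * t) (by fun_prop) h0 fun t ht ht0 => by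
    have h2 := h t (by rwa [abs_of_pos ht])
    rw [abs_of_pos ht, ha] at h2
    exact le_of_mul_le_mul_left (by linarith) (pow_pos ht 2)
  exact ⟨ha, by linarith⟩

omit [DecidableEq α] in
theorem trace_real_side {A B : Matrix α α ℂ} (hA : A.IsHermitian) (hB : B.IsHermitian) :
    (A * B).trace = (ex A B : ℂ) := by
  refine (conj_eq_iff_re.mp ?_).symm
  rw [← RCLike.star_def, ← trace_conjTranspose, conjTranspose_mul, hA.eq, hB.eq, trace_mul_comm]

theorem Qf_side (U : Matrix α α ℂ) (p : α → ℝ) {A B : Matrix α α ℂ} (hA : A.IsHermitian)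
    (hB : B.IsHermitian) : Qf U p (A + I • B) = Qf U p A + Qf U p B := by
  have hA' := isHermitian_conjTranspose_mul_mul U hA
  have hB' := isHermitian_conjTranspose_mul_mul U hB
  simp only [Qf, Matrix.mul_add, Matrix.add_mul, Matrix.mul_smul, Matrix.smul_mul, Matrix.add_apply,
    Matrix.smul_apply, smul_eq_mul]
  generalize Uᴴ * A * U = A' at hA' ⊢
  generalize Uᴴ * B * U = B' at hB' ⊢
  have e1 : ∑ k, ∑ l, normSq (A' k l + I * B' k l) / lm (p k) (p l) =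
      ∑ k, ∑ l, normSq (A' k l - I * B' k l) / lm (p k) (p l) := by
    rw [Finset.sum_comm]
    refine Finset.sum_congr rfl fun k _ => Finset.sum_congr rfl fun l _ => ?_
    rw [lm_comm, ← hA'.apply l k, ← hB'.apply l k, ← normSq_conj]
    simp [sub_eq_add_neg]
  have e2 : ∑ k, ∑ l, normSq (A' k l + I * B' k l) / lm (p k) (p l) +
      ∑ k, ∑ l, normSq (A' k l - I * B' k l) / lm (p k) (p l) =
      2 * (∑ k, ∑ l, normSq (A' k l) / lm (p k) (p l) +
        ∑ k, ∑ l, normSq (B' k l) / lm (p k) (p l)) := by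
    simp only [← Finset.sum_add_distrib, Finset.mul_sum]
    refine Finset.sum_congr rfl fun k _ => Finset.sum_congr rfl fun l _ => ?_
    simp only [normSq_apply, add_re, add_im, sub_re, sub_im, mul_re, mul_im, I_re, I_im]
    ring
  linarith

omit [DecidableEq α] in
theorem split_side {X : Matrix α α ℂ} (hX : X.trace = 0) : ∃ A B : Matrix α α ℂ, A.IsHermitian ∧
    B.IsHermitian ∧ A.trace = 0 ∧ B.trace = 0 ∧ X = A + I • B := by
  have h : Xᴴ.trace = 0 := by rw [trace_conjTranspose, hX, star_zero]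
  refine ⟨(1 / 2 : ℂ) • (X + Xᴴ), (-I / 2) • (X - Xᴴ), ?_, ?_, ?_, ?_, ?_⟩
  · rw [IsHermitian, conjTranspose_smul, conjTranspose_add, conjTranspose_conjTranspose, add_comm]
    simp
  · rw [IsHermitian, conjTranspose_smul, conjTranspose_sub, conjTranspose_conjTranspose,
      ← neg_sub X, smul_neg, ← neg_smul]
    simp [neg_div]
  · rw [trace_smul, trace_add, h, hX, add_zero, smul_zero]
  · rw [trace_smul, trace_sub, h, hX, sub_zero, smul_zero]
  · have e : I * (-I / 2) = 1 / 2 := by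
      rw [neg_div, mul_neg, ← mul_div_assoc, I_mul_I, neg_div, neg_neg]
    rw [smul_smul, e, ← smul_add, add_add_sub_cancel, ← two_smul ℂ, smul_smul]
    simp

theorem mix_side {t D x : ℝ} (h0 : 0 ≤ t) (h1 : t ≤ 1) (hD : 1 ≤ D) (hx : 0 ≤ x) :
    Real.negMulLog x - t ≤ Real.negMulLog (t / D + (1 - t) * x) := by
  have hD0 : 0 < D := by linarith
  have h2 := Real.concaveOn_negMulLog.2 (x := D⁻¹) (y := x) (inv_pos.mpr hD0).le hx h0
    (sub_nonneg.mpr h1) (add_sub_cancel t 1)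
  have h3 := mul_nonneg h0 (Real.negMulLog_nonneg (inv_pos.mpr hD0).le (inv_le_one_of_one_le₀ hD))
  have h4 := mul_le_mul_of_nonneg_left (Real.negMulLog_le_one_sub_self hx) h0
  have h5 := mul_nonneg h0 hx
  simp only [smul_eq_mul, ← div_eq_mul_inv] at h2
  linarith

section

variable (T : Matrix α α ℂ →ₗ[ℂ] Matrix γ γ ℂ) {τ lam : ℝ} {F ρ U : Matrix α α ℂ} {p : α → ℝ}
  {W : Matrix γ γ ℂ} {r : γ → ℝ}

theorem pos_side (hS : ∀ X, IsState X → IsState (T X)) (hτ : 0 ≤ τ) (hlam : 0 < lam)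
    (hρ : IsState ρ) (dA : Dg ρ U p) (dC : Dg (T ρ) W r) (hr : ∀ i, 0 < r i)
    (hmin : ∀ ρ', IsState ρ' →
      τ * ent (T ρ) - lam * ent ρ + ex ρ F ≤ τ * ent (T ρ') - lam * ent ρ' + ex ρ' F) (i₀ : α) :
    0 < p i₀ := by
  obtain ⟨hp, hp1⟩ := state_eig hρ dA
  refine lt_of_le_of_ne (hp i₀).1 fun h0 => ?_
  have : Nonempty α := ⟨i₀⟩
  obtain ⟨D, hD⟩ : ∃ D : ℝ, D = Fintype.card α := ⟨_, rfl⟩
  have hD1 : 1 ≤ D := hD ▸ Nat.one_le_cast.mpr Fintype.card_pos
  have hD0 : 0 < D := by linarith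
  obtain ⟨K, hK⟩ : ∃ K, K = τ * (ex (T 1) (mlog W r) - D * ent (T ρ)) + lam * D ^ 2 +
    (ex 1 F - D * ex ρ F) := ⟨_, rfl⟩
  obtain ⟨s, hs⟩ : ∃ s, s = D + (|K| / lam + 1) := ⟨_, rfl⟩
  have hs1 : D ≤ s := hs ▸ le_add_of_nonneg_right (by positivity)
  have hs2 : K < lam * s := by
    rw [hs, mul_add, mul_add, mul_div_cancel₀ _ hlam.ne']
    linarith [le_abs_self K, mul_pos hlam hD0]
  obtain ⟨x, hx⟩ : ∃ x, x = Real.exp (-s) := ⟨_, rfl⟩
  have hx0 : 0 < x := hx ▸ Real.exp_pos _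
  have hx1 : D * x ≤ 1 := by
    rw [hx, Real.exp_neg, ← div_eq_mul_inv, div_le_one (Real.exp_pos _)]
    linarith [Real.add_one_le_exp s]
  have hx2 : Real.negMulLog x = s * x := by
    rw [Real.negMulLog, hx, Real.log_exp]
    ring
  have hDx : 0 ≤ D * x := by positivity
  have dt := (dA.smul (1 - D * x)).shift x
  have st : IsState ((x : ℂ) • (1 : Matrix α α ℂ) + ((1 - D * x : ℝ) : ℂ) • ρ) := by
    refine ⟨dt.posSemidef fun i => add_nonneg hx0.le (mul_nonneg (by linarith) (hp i).1), ?_⟩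
    rw [dt.trace_eq, Finset.sum_add_distrib, ← Finset.mul_sum, hp1, Finset.sum_const,
      Finset.card_univ, nsmul_eq_mul, ← hD, mul_one, add_sub_cancel, ofReal_one]
  have h1 := hmin _ st
  have h2 := klein (hS _ st) (hS _ hρ) dC hr
  rw [map_add, map_smul, map_smul, ex_add_left, ex_smul_left, ex_smul_left,
    ← ent_eq_ex_mlog dC, ← map_smul, ← map_smul, ← map_add] at h2
  rw [ex_add_left, ex_smul_left, ex_smul_left] at h1
  have h3 : ent ρ - D * (D * x) + s * x ≤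
      ent ((x : ℂ) • (1 : Matrix α α ℂ) + ((1 - D * x : ℝ) : ℂ) • ρ) := by
    have h4 : ∑ i, (Real.negMulLog (p i) - D * x + if i = i₀ then s * x else 0) ≤
        ∑ i, Real.negMulLog (x + (1 - D * x) * p i) := Finset.sum_le_sum fun i _ => by
      split_ifs with h
      · rw [h, ← h0, mul_zero, add_zero, hx2, Real.negMulLog_zero]
        linarith
      · have h5 := mix_side hDx hx1 hD1 (hp i).1
        rwa [mul_div_cancel_left₀ _ hD0.ne', ← add_zero (_ - _)] at h5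
    rw [Finset.sum_add_distrib, Finset.sum_sub_distrib, Finset.sum_const, Finset.card_univ,
      nsmul_eq_mul, ← hD, Finset.sum_ite_eq', if_pos (Finset.mem_univ _)] at h4
    rwa [dt.ent_eq, dA.ent_eq]
  have h4 := mul_le_mul_of_nonneg_left h2 hτ
  have h5 := mul_le_mul_of_nonneg_left h3 hlam.le
  have h6 := mul_lt_mul_of_pos_left hs2 hx0
  rw [hK] at h6
  linarith

theorem herm_side (hH : ∀ X, T Xᴴ = (T X)ᴴ) (htr : ∀ X, (T X).trace = X.trace) (hτ : 0 ≤ τ)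
    (hlam : 0 < lam) (hρ : IsState ρ) (dA : Dg ρ U p) (hp : ∀ i, 0 < p i) (dC : Dg (T ρ) W r)
    (hr : ∀ i, 0 < r i)
    (hmin : ∀ ρ', IsState ρ' →
      τ * ent (T ρ) - lam * ent ρ + ex ρ F ≤ τ * ent (T ρ') - lam * ent ρ' + ex ρ' F)
    {δ : Matrix α α ℂ} (hδ : δ.IsHermitian) (h0 : δ.trace = 0) :
    τ * ex (T δ) (mlog W r) - lam * ex δ (mlog U p) + ex δ F = 0 ∧
      0 ≤ lam * Qf U p δ - τ * Qf W r (T δ) := by
  obtain ⟨C, t₀, g0, g1⟩ := taylor dA hp hδ h0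
  obtain ⟨C', t₁, g2, g3⟩ := taylor (δ := T δ) dC hr (by rw [IsHermitian, ← hH, hδ.eq])
    ((htr δ).trans h0)
  refine scal_side (K := lam * C + τ * C') (lt_min g0 g2) fun t ht => ?_
  obtain ⟨h1, h2⟩ := g1 t (ht.trans (min_le_left _ _))
  obtain ⟨-, h3⟩ := g3 t (ht.trans (min_le_right _ _))
  have h4 := hmin _ ⟨h1, by rw [trace_add, trace_smul, h0, smul_zero, add_zero, hρ.2]⟩
  rw [map_add, map_smul, ex_add_left, ex_smul_left] at h4
  have h5 := mul_le_mul_of_nonneg_left (abs_le.mp h2).1 hlam.le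
  have h6 := mul_le_mul_of_nonneg_left (abs_le.mp h3).2 hτ
  linarith

end

theorem side (T : Matrix α α ℂ →ₗ[ℂ] Matrix γ γ ℂ) (hH : ∀ X, T Xᴴ = (T X)ᴴ)
    (htr : ∀ X, (T X).trace = X.trace) (hS : ∀ X, IsState X → IsState (T X)) {τ lam : ℝ}
    (hτ : 0 ≤ τ) (hlam : 0 < lam) {F : Matrix α α ℂ} (hF : F.IsHermitian) {ρ U : Matrix α α ℂ}
    {p : α → ℝ} (hρ : IsState ρ) (dA : Dg ρ U p) {W : Matrix γ γ ℂ} {r : γ → ℝ}
    (dC : Dg (T ρ) W r) (hr : ∀ i, 0 < r i)
    (hmin : ∀ ρ', IsState ρ' →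
      τ * ent (T ρ) - lam * ent ρ + ex ρ F ≤ τ * ent (T ρ') - lam * ent ρ' + ex ρ' F) :
    (∀ i, 0 < p i) ∧
      (∀ X : Matrix α α ℂ, X.trace = 0 →
        (τ : ℂ) * (T X * mlog W r).trace - (lam : ℂ) * (X * mlog U p).trace + (X * F).trace = 0) ∧
      ∀ X : Matrix α α ℂ, X.trace = 0 → τ * Qf W r (T X) ≤ lam * Qf U p X := by
  have hp := pos_side T hS hτ hlam hρ dA dC hr hmin
  have key := fun δ => herm_side T hH htr hτ hlam hρ dA hp dC hr hmin (δ := δ)
  have hT : ∀ δ : Matrix α α ℂ, δ.IsHermitian → (T δ).IsHermitian := fun δ hδ => by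
    rw [IsHermitian, ← hH, hδ.eq]
  refine ⟨hp, fun X hX => ?_, fun X hX => ?_⟩
  · obtain ⟨A, B, hA, hB, a0, b0, rfl⟩ := split_side hX
    have h1 := congrArg ofReal (key A hA a0).1
    have h2 := congrArg ofReal (key B hB b0).1
    push_cast at h1 h2
    simp only [map_add, map_smul, Matrix.add_mul, Matrix.smul_mul, trace_add, trace_smul,
      smul_eq_mul, trace_real_side (hT A hA) (mlog_herm W r), trace_real_side (hT B hB) (mlog_herm W r),
      trace_real_side hA (mlog_herm U p), trace_real_side hB (mlog_herm U p), trace_real_side hA hF,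
      trace_real_side hB hF]
    linear_combination h1 + I * h2
  · obtain ⟨A, B, hA, hB, a0, b0, rfl⟩ := split_side hX
    rw [map_add, map_smul, Qf_side W r (hT A hA) (hT B hB), Qf_side U p hA hB]
    linarith [(key A hA a0).2, (key B hB b0).2]

theorem cs_side {σ W : Matrix γ γ ℂ} {r : γ → ℝ} (dC : Dg σ W r) (hr : ∀ i, 0 < r i)
    (A Y : Matrix γ γ ℂ) : normSq (A * Y).trace ≤ Qf W r A * bkm W r Y := by
  rw [← co_trace_mat dC, co_mul_mat dC, Qf, bkm]
  generalize Wᴴ * A * W = A'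
  generalize Wᴴ * Y * W = Y'
  have hl : ∀ k l, 0 < lm (r k) (r l) := fun k l => lm_pos (hr k) (hr l)
  have e : (A' * Y').trace = ∑ x : γ × γ, A' x.1 x.2 / ((√(lm (r x.1) (r x.2)) : ℝ) : ℂ) *
      (((√(lm (r x.1) (r x.2)) : ℝ) : ℂ) * Y' x.2 x.1) := by
    rw [Fintype.sum_prod_type]
    refine Finset.sum_congr rfl fun k _ => Finset.sum_congr rfl fun l _ => ?_
    have h : ((√(lm (r k) (r l)) : ℝ) : ℂ) ≠ 0 := ofReal_ne_zero.mpr (Real.sqrt_pos.mpr (hl k l)).ne'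
    rw [← mul_assoc, div_mul_cancel₀ _ h]
  rw [e]
  refine (cs_mat _ _).trans (le_of_eq ?_)
  simp only [map_mul, map_div₀, normSq_ofReal, Real.mul_self_sqrt (hl _ _).le,
    Fintype.sum_prod_type]
  rw [Finset.sum_comm (f := fun k l => lm (r k) (r l) * normSq (Y' l k))]
  simp only [lm_comm]

theorem bkm_dual (S : Matrix α α ℂ → Matrix γ γ ℂ) {τ lam : ℝ} (hτ : 0 ≤ τ) (hlam : 0 ≤ lam)
    {ρ U : Matrix α α ℂ} {p : α → ℝ} (dA : Dg ρ U p) (hp : ∀ i, 0 < p i) {σ W : Matrix γ γ ℂ}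
    {r : γ → ℝ} (dC : Dg σ W r) (hr : ∀ i, 0 < r i)
    (hq : ∀ X : Matrix α α ℂ, X.trace = 0 → τ * Qf W r (S X) ≤ lam * Qf U p X)
    {Y : Matrix γ γ ℂ} {Z : Matrix α α ℂ} (hZ : (ρ * Z).trace = 0)
    (hd : ∀ X : Matrix α α ℂ, X.trace = 0 → (S X * Y).trace = (X * Z).trace) :
    τ * bkm U p Z ≤ lam * bkm W r Y := by
  have hl : ∀ k l, 0 < lm (p k) (p l) := fun k l => lm_pos (hp k) (hp l)
  obtain ⟨X, hX⟩ : ∃ X : Matrix α α ℂ, ∀ k l, (Uᴴ * X * U) k l =
      (lm (p k) (p l) : ℂ) * (starRingEnd ℂ) ((Uᴴ * Z * U) l k) := by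
    refine ⟨U * (Matrix.of fun k l => (lm (p k) (p l) : ℂ) * (starRingEnd ℂ) ((Uᴴ * Z * U) l k)) * Uᴴ,
      fun k l => ?_⟩
    rw [Matrix.mul_assoc, Matrix.mul_assoc, Matrix.mul_assoc, dA.l, Matrix.mul_one,
      ← Matrix.mul_assoc, dA.l, Matrix.one_mul, of_apply]
  have h0 : X.trace = 0 := by
    rw [← co_trace_mat dA] at hZ ⊢
    have h1 := congrArg (starRingEnd ℂ) hZ
    simp only [trace, diag_apply, co_left_mat dA, map_sum, map_mul, conj_ofReal, map_zero] at h1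
    simp only [trace, diag_apply, hX, lm_self, h1]
  have hb : bkm U p Z = ∑ k, ∑ l, lm (p k) (p l) * normSq ((Uᴴ * Z * U) l k) := by
    rw [bkm, Finset.sum_comm]
    simp only [lm_comm]
  have h1 : (X * Z).trace = (bkm U p Z : ℂ) := by
    rw [← co_trace_mat dA, co_mul_mat dA, hb]
    generalize Uᴴ * X * U = X' at hX
    generalize Uᴴ * Z * U = Z' at hX
    simp only [trace, diag_apply, mul_apply, hX, ofReal_sum, ofReal_mul, normSq_eq_conj_mul_self,
      mul_assoc]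
  have h2 : Qf U p X = bkm U p Z := by
    rw [hb, Qf]
    refine Finset.sum_congr rfl fun k _ => Finset.sum_congr rfl fun l _ => ?_
    rw [hX, map_mul, normSq_ofReal, normSq_conj, mul_assoc, mul_div_cancel_left₀ _ (hl k l).ne']
  have h3 := cs_side dC hr (S X) Y
  have h4 := hq X h0
  rw [hd X h0, h1, normSq_ofReal] at h3
  rw [h2] at h4
  have hY : 0 ≤ bkm W r Y := Finset.sum_nonneg fun k _ => Finset.sum_nonneg fun l _ =>
    mul_nonneg (lm_pos (hr k) (hr l)).le (normSq_nonneg _)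
  have hZ' : 0 ≤ bkm U p Z := Finset.sum_nonneg fun k _ => Finset.sum_nonneg fun l _ =>
    mul_nonneg (hl k l).le (normSq_nonneg _)
  rcases hZ'.eq_or_lt with h | h
  · rw [← h, mul_zero]
    exact mul_nonneg hlam hY
  · have h5 := mul_le_mul_of_nonneg_left h3 hτ
    have h6 := mul_le_mul_of_nonneg_right h4 hY
    exact le_of_mul_le_mul_left (by linarith) h

end Vale.Agent.P369
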