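import Vale.Agent.P369.ChanM
import Vale.Agent.P369.Side
import Vale.Agent.P369.Net4

/-! P369 CoreAlg (helper70): the exact core inequality at a critical point, for one mode. -/

namespace Vale.Agent.P369

open Matrix Vale.Agent.P358 Complex
open scoped ComplexOrder Kronecker

set_option linter.unusedSectionVars false

variable {α β γ δ : Type} [Fintype α] [Fintype β] [Fintype γ] [Fintype δ]
  [DecidableEq α] [DecidableEq β] [DecidableEq γ] [DecidableEq δ]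

/-- relative score `T [c, -log ρ] - c` -/
noncomputable def score (N : ℝ) (U : Matrix γ γ ℂ) (p : γ → ℝ) (c : Matrix γ γ ℂ) :
    Matrix γ γ ℂ := (((bet N)⁻¹ : ℝ) : ℂ) • (c * mlog U p - mlog U p * c) - c

/-- the Fisher-type quantity that the core inequality controls -/
noncomputable def Jf (N : ℝ) (U : Matrix γ γ ℂ) (p : γ → ℝ) (c : Matrix γ γ ℂ) : ℝ :=
  ∑ k, ∑ l, psi N (p k) (p l) ^ 2 / (p k + p l) * normSq ((Uᴴ * c * U) k l)

/-- contribution of the penalty -/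
noncomputable def Dpen (N x : ℝ) (A a F : Matrix α α ℂ) : ℝ :=
  ((Psi N A a)ᴴ * (a * F - F * a - (x : ℂ) • a)).trace.re

section

variable {ρ U : Matrix γ γ ℂ} {p : γ → ℝ}

theorem score_co (h : Dg ρ U p) (N : ℝ) (c : Matrix γ γ ℂ) (k l : γ) :
    (Uᴴ * score N U p c * U) k l = (vr N (p k) (p l) : ℂ) * (Uᴴ * c * U) k l := by
  unfold score vr
  rw [Matrix.mul_sub, Matrix.sub_mul, Matrix.mul_smul, Matrix.smul_mul, Matrix.sub_apply,
    Matrix.smul_apply, comm_co h, smul_eq_mul]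
  push_cast
  ring

theorem score_sub_smul (N : ℝ) (U : Matrix γ γ ℂ) (p : γ → ℝ) (c : Matrix γ γ ℂ) (z : ℂ) :
    score N U p (c - z • 1) = score N U p c + z • 1 := by
  unfold score
  simp only [Matrix.sub_mul, Matrix.mul_sub, Matrix.smul_mul, Matrix.mul_smul, Matrix.one_mul,
    Matrix.mul_one]
  abel_nf

theorem Psi_sub_smul (N : ℝ) (ρ a : Matrix γ γ ℂ) (z : ℂ) :
    Psi N ρ (a - z • 1) = Psi N ρ a + z • ρ := by
  unfold Psi
  simp only [Matrix.sub_mul, Matrix.mul_sub, Matrix.smul_mul, Matrix.mul_smul, Matrix.one_mul,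
    Matrix.mul_one]
  push_cast
  module

theorem trace_Psi (N : ℝ) (ρ a : Matrix γ γ ℂ) : (Psi N ρ a).trace = -(ρ * a).trace := by
  unfold Psi
  rw [trace_sub, trace_smul, trace_smul, trace_mul_comm a ρ, smul_eq_mul, smul_eq_mul]
  push_cast
  ring

theorem trace_mul_score (N : ℝ) (U : Matrix γ γ ℂ) (p : γ → ℝ) (c Y : Matrix γ γ ℂ) :
    (Y * score N U p c).trace = (((bet N)⁻¹ : ℝ) : ℂ) * ((Y * c - c * Y) * mlog U p).trace
      - (Y * c).trace := by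
  unfold score
  rw [Matrix.mul_sub, trace_sub, Matrix.mul_smul, trace_smul, smul_eq_mul, Matrix.mul_sub,
    Matrix.sub_mul, trace_sub, trace_sub, ← Matrix.mul_assoc, ← Matrix.mul_assoc,
    trace_mul_cycle Y (mlog U p) c]

theorem trace_score_of_comm (N : ℝ) {X : Matrix γ γ ℂ} (hX : X * mlog U p = mlog U p * X)
    (c : Matrix γ γ ℂ) : (X * score N U p c).trace = -(X * c).trace := by
  rw [trace_mul_score, Matrix.sub_mul, trace_sub, trace_mul_cycle X c, ← hX,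
    Matrix.mul_assoc c, trace_mul_comm c]
  ring

theorem sum_psi_re (h : Dg ρ U p) (N : ℝ) (a Z : Matrix γ γ ℂ) :
    ∑ k, ∑ l, psi N (p k) (p l) * ((starRingEnd ℂ) ((Uᴴ * a * U) k l) * (Uᴴ * Z * U) k l).re
      = ((Psi N ρ a)ᴴ * Z).trace.re := by
  rw [trace_co h, re_sum]
  refine Finset.sum_congr rfl fun k _ => ?_
  rw [re_sum]
  refine Finset.sum_congr rfl fun l _ => ?_
  rw [Psi_co h, map_mul, conj_ofReal, mul_assoc (psi N (p k) (p l) : ℂ), re_ofReal_mul]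

theorem sum_psi_vr (h : Dg ρ U p) (N : ℝ) (a : Matrix γ γ ℂ) :
    ∑ k, ∑ l, psi N (p k) (p l) * vr N (p k) (p l) * normSq ((Uᴴ * a * U) k l)
      = ((Psi N ρ a)ᴴ * score N U p a).trace.re := by
  rw [← sum_psi_re h]
  refine Finset.sum_congr rfl fun k _ => Finset.sum_congr rfl fun l _ => ?_
  rw [score_co h, mul_left_comm, re_ofReal_mul, ← normSq_eq_conj_mul_self, ofReal_re, mul_assoc]

theorem Dg.co_mat (h : Dg ρ U p) (X : Matrix γ γ ℂ) : Uᴴ * (U * X * Uᴴ) * U = X := by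
  calc Uᴴ * (U * X * Uᴴ) * U = (Uᴴ * U) * X * (Uᴴ * U) := by simp only [Matrix.mul_assoc]
    _ = X := by rw [h.l, Matrix.one_mul, Matrix.mul_one]

theorem Dg.mat_co (h : Dg ρ U p) (X : Matrix γ γ ℂ) : U * (Uᴴ * X * U) * Uᴴ = X := by
  calc U * (Uᴴ * X * U) * Uᴴ = (U * Uᴴ) * X * (U * Uᴴ) := by simp only [Matrix.mul_assoc]
    _ = X := by rw [h.r, Matrix.one_mul, Matrix.mul_one]

end

/-- one-sided consequence of the commuted Euler-Lagrange equation -/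
theorem one_side {A U a a'' : Matrix α α ℂ} {p : α → ℝ} (hA : IsState A) (h : Dg A U p)
    (N κ T x y : ℝ) (bb : ℂ) (f g : Matrix α α ℂ → ℂ)
    (hg : ∀ (Y : Matrix α α ℂ) (z : ℂ), g (Y + z • A) = g Y + z * g A)
    (star : ∀ Y : Matrix α α ℂ, ((κ * x : ℝ) : ℂ) * f Y
      = ((x ^ 2 : ℝ) : ℂ) * (Y * score N U p a).trace - (Y * a'').trace
        + ((κ * T : ℝ) : ℂ) * g Y - ((κ * x * y : ℝ) : ℂ) * (Y.trace * bb))
    (hf : f A = -((x : ℂ) * (A * a).trace + (y : ℂ) * bb)) :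
    x ^ 2 * ((Psi N A (a - (A * a).trace • 1))ᴴ * score N U p (a - (A * a).trace • 1)).trace.re
      = κ * x * (f (Psi N A (a - (A * a).trace • 1))ᴴ).re + ((Psi N A a)ᴴ * a'').trace.re
        - (1 - κ) * x ^ 2 * normSq (A * a).trace - κ * T * (g (Psi N A a)ᴴ).re := by
  set m := (A * a).trace with hm
  have e1 : (Psi N A (a - m • 1))ᴴ = (Psi N A a)ᴴ + (starRingEnd ℂ) m • A := by
    rw [Psi_sub_smul, conjTranspose_add, conjTranspose_smul, hA.1.isHermitian.eq]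
    rfl
  have t0 : (Psi N A (a - m • 1))ᴴ.trace = 0 := by
    rw [trace_conjTranspose, Psi_sub_smul, trace_add, trace_Psi, trace_smul, hA.2]
    simp [hm]
  have s1 := star A
  rw [hf, trace_score_of_comm N (mlog_comm h), hA.2, ← hm] at s1
  have s2 := star (Psi N A (a - m • 1))ᴴ
  rw [t0] at s2
  have e2 : ((Psi N A (a - m • 1))ᴴ * score N U p (a - m • 1)).trace
      = ((Psi N A (a - m • 1))ᴴ * score N U p a).trace := by
    rw [score_sub_smul, Matrix.mul_add, trace_add, Matrix.mul_smul, Matrix.mul_one, trace_smul, t0]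
    simp
  have e3 : ((Psi N A (a - m • 1))ᴴ * a'').trace
      = ((Psi N A a)ᴴ * a'').trace + (starRingEnd ℂ) m * (A * a'').trace := by
    rw [e1, Matrix.add_mul, trace_add, Matrix.smul_mul, trace_smul, smul_eq_mul]
  have e4 : g (Psi N A (a - m • 1))ᴴ = g (Psi N A a)ᴴ + (starRingEnd ℂ) m * g A := by
    rw [e1, hg]
  rw [e3, e4] at s2
  have key : ((x ^ 2 : ℝ) : ℂ) * ((Psi N A (a - m • 1))ᴴ * score N U p (a - m • 1)).trace
      = ((κ * x : ℝ) : ℂ) * f (Psi N A (a - m • 1))ᴴ + ((Psi N A a)ᴴ * a'').trace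
        - (((1 - κ) * x ^ 2 * normSq m : ℝ) : ℂ) - ((κ * T : ℝ) : ℂ) * g (Psi N A a)ᴴ := by
    rw [e2]
    have hn : ((normSq m : ℝ) : ℂ) = (starRingEnd ℂ) m * m := normSq_eq_conj_mul_self
    push_cast at s1 s2 ⊢
    rw [hn]
    linear_combination (-1 : ℂ) * s2 + (starRingEnd ℂ) m * s1
  have := congrArg Complex.re key
  simpa only [re_ofReal_mul, add_re, sub_re, ofReal_re] using this

theorem trace_comm_sub (Y a F : Matrix α α ℂ) :
    ((Y * a - a * Y) * F).trace = (Y * (a * F - F * a)).trace := by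
  rw [Matrix.sub_mul, Matrix.mul_sub, trace_sub, trace_sub, ← Matrix.mul_assoc, ← Matrix.mul_assoc,
    trace_mul_cycle Y F a]

theorem trace_comm_zero (Y a : Matrix α α ℂ) : (Y * a - a * Y).trace = 0 := by
  rw [trace_sub, trace_mul_comm, sub_self]

/-- coordinates of the pair of centered conditional expectations -/
noncomputable def Tmap (V : Matrix (γ × δ) (α × β) ℂ) (s : ℝ) (A UA : Matrix α α ℂ)
    (B UB : Matrix β β ℂ) (UC : Matrix γ γ ℂ) :
    (γ × γ → ℂ) →ₗ[ℂ] ((α × α) ⊕ (β × β) → ℂ) where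
  toFun v := Sum.elim
    (fun i => (s : ℂ) * (UAᴴ * cenA A B (Gam V (UC * Matrix.of (fun k l => v (k, l)) * UCᴴ)) * UA)
      i.1 i.2)
    (fun i => (s : ℂ) * (UBᴴ * cenB A B (Gam V (UC * Matrix.of (fun k l => v (k, l)) * UCᴴ)) * UB)
      i.1 i.2)
  map_add' v w := by
    have e : (Matrix.of fun k l => (v + w) (k, l))
        = (Matrix.of fun k l => v (k, l)) + Matrix.of fun k l => w (k, l) := rfl
    rw [e, Matrix.mul_add, Matrix.add_mul, Gam_add, cenA_add, cenB_add]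
    funext i
    rcases i with i | i <;>
      simp only [Sum.elim_inl, Sum.elim_inr, Pi.add_apply, Matrix.add_mul,
        Matrix.add_apply, mul_add]
  map_smul' z v := by
    have e : (Matrix.of fun k l => (z • v) (k, l)) = z • Matrix.of fun k l => v (k, l) := rfl
    rw [e, Matrix.mul_smul, Matrix.smul_mul, Gam_smul, cenA_smul, cenB_smul]
    funext i
    rcases i with i | i <;>
      simp only [Sum.elim_inl, Sum.elim_inr, Pi.smul_apply, Matrix.mul_smul, Matrix.smul_mul,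
        Matrix.smul_apply, smul_eq_mul, RingHom.id_apply, mul_left_comm]

theorem sum_Tmap (V : Matrix (γ × δ) (α × β) ℂ) {x : ℝ} (hx : 0 ≤ x) (A UA : Matrix α α ℂ)
    (B UB : Matrix β β ℂ) (UC : Matrix γ γ ℂ) (f : (α × α) ⊕ (β × β) → ℝ) (v : γ × γ → ℂ) :
    ∑ i, f i * normSq (Tmap V (√x) A UA B UB UC v i)
      = x * (∑ k, ∑ l, f (Sum.inl (k, l)) * normSq ((UAᴴ * cenA A B
            (Gam V (UC * Matrix.of (fun k l => v (k, l)) * UCᴴ)) * UA) k l)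
          + ∑ k, ∑ l, f (Sum.inr (k, l)) * normSq ((UBᴴ * cenB A B
            (Gam V (UC * Matrix.of (fun k l => v (k, l)) * UCᴴ)) * UB) k l)) := by
  rw [Fintype.sum_sum_type, Fintype.sum_prod_type, Fintype.sum_prod_type, mul_add, Finset.mul_sum,
    Finset.mul_sum]
  congr 1 <;> refine Finset.sum_congr rfl fun k _ => ?_ <;> rw [Finset.mul_sum] <;>
    refine Finset.sum_congr rfl fun l _ => ?_
  · change _ * normSq ((√x : ℝ) * _) = _
    rw [normSq_mul, normSq_ofReal, Real.mul_self_sqrt hx]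
    ring
  · change _ * normSq ((√x : ℝ) * _) = _
    rw [normSq_mul, normSq_ofReal, Real.mul_self_sqrt hx]
    ring

section

variable {V LA LB : Matrix (γ × δ) (α × β) ℂ} {η : ℝ} {a : Matrix α α ℂ} {b : Matrix β β ℂ}
  {c : Matrix γ γ ℂ} {d₀ : Matrix δ δ ℂ} {Na Nb Nc d θ : ℝ} {FA A UA : Matrix α α ℂ}
  {FB B UB : Matrix β β ℂ} {UC : Matrix γ γ ℂ} {pA : α → ℝ} {pB : β → ℝ} {pC : γ → ℝ}

theorem starA (hV : Vᴴ * V = 1) (h0 : 0 ≤ η) (h1 : η ≤ 1) (hM : Mode V η a b c d₀ LA LB)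
    (hC : Crit V θ ((1 - d) / bet Nc) (η / bet Na) ((1 - η) / bet Nb) FA FB A B UA pA UB pB UC pC)
    (Y : Matrix α α ℂ) :
    (((1 - d) * (1 - θ) * √η : ℝ) : ℂ) * (Phi V (Y ⊗ₖ B) * score Nc UC pC c).trace
      = ((√η ^ 2 : ℝ) : ℂ) * (Y * score Na UA pA a).trace
        - (Y * (a * FA - FA * a - (((1 - (1 - d) * (1 - θ)) * η : ℝ) : ℂ) • a)).trace
        + (((1 - d) * (1 - θ) * (bet Nc)⁻¹ : ℝ) : ℂ) * (ptr (V * (Y ⊗ₖ B) * LAᴴ) * mlog UC pC).trace
        - (((1 - d) * (1 - θ) * √η * √(1 - η) : ℝ) : ℂ) * (Y.trace * (B * b).trace) := by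
  have el := hC.elA _ (trace_comm_zero Y a)
  rw [hM.commA, Matrix.sub_mul, trace_sub, Matrix.smul_mul, trace_smul, smul_eq_mul,
    trace_comm_sub Y a FA] at el
  rw [trace_mul_score, trace_mul_score, hM.trace_Phi_c hV h0 h1, hC.sB.2, Matrix.mul_sub Y,
    trace_sub, Matrix.mul_smul, trace_smul, smul_eq_mul]
  have hs : ((√η : ℝ) : ℂ) ^ 2 = η := by rw [← ofReal_pow, Real.sq_sqrt h0]
  push_cast at el ⊢
  rw [hs]
  linear_combination el - (1 - (d : ℂ)) * (1 - θ) * (Y * a).trace * hs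

theorem starB (hV : Vᴴ * V = 1) (h0 : 0 ≤ η) (h1 : η ≤ 1) (hM : Mode V η a b c d₀ LA LB)
    (hC : Crit V θ ((1 - d) / bet Nc) (η / bet Na) ((1 - η) / bet Nb) FA FB A B UA pA UB pB UC pC)
    (Y : Matrix β β ℂ) :
    (((1 - d) * (1 - θ) * √(1 - η) : ℝ) : ℂ) * (Phi V (A ⊗ₖ Y) * score Nc UC pC c).trace
      = ((√(1 - η) ^ 2 : ℝ) : ℂ) * (Y * score Nb UB pB b).trace
        - (Y * (b * FB - FB * b - (((1 - (1 - d) * (1 - θ)) * (1 - η) : ℝ) : ℂ) • b)).trace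
        + (((1 - d) * (1 - θ) * (bet Nc)⁻¹ : ℝ) : ℂ) * (ptr (V * (A ⊗ₖ Y) * LBᴴ) * mlog UC pC).trace
        - (((1 - d) * (1 - θ) * √(1 - η) * √η : ℝ) : ℂ) * (Y.trace * (A * a).trace) := by
  have el := hC.elB _ (trace_comm_zero Y b)
  rw [hM.commB, Matrix.sub_mul, trace_sub, Matrix.smul_mul, trace_smul, smul_eq_mul,
    trace_comm_sub Y b FB] at el
  rw [trace_mul_score, trace_mul_score, hM.trace_Phi_c hV h0 h1, hC.sA.2, Matrix.mul_sub Y,
    trace_sub, Matrix.mul_smul, trace_smul, smul_eq_mul]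
  have hs : ((√(1 - η) : ℝ) : ℂ) ^ 2 = 1 - η := by
    rw [← ofReal_pow, Real.sq_sqrt (sub_nonneg.mpr h1)]; push_cast; rfl
  push_cast at el ⊢
  rw [hs]
  linear_combination el - (1 - (d : ℂ)) * (1 - θ) * (Y * b).trace * hs

theorem bkm_pair (hNa : 0 < Na) (hNb : 0 < Nb) (hNc : 0 < Nc) (h0 : 0 ≤ η) (h1 : η ≤ 1)
    (hd1 : d < 1) (hθ1 : θ < 1)
    (hC : Crit V θ ((1 - d) / bet Nc) (η / bet Na) ((1 - η) / bet Nb) FA FB A B UA pA UB pB UC pC)
    {xa xb : ℝ} (ha : 0 ≤ xa) (hb : 0 ≤ xb) (Y : Matrix γ γ ℂ) :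
    (1 - θ) * (bet Na * xa * bkm UA pA (cenA A B (Gam V Y))
        + bet Nb * xb * bkm UB pB (cenB A B (Gam V Y)))
      ≤ ((1 - d) * (1 - θ))⁻¹ * (bet Nc * (η * xa + (1 - η) * xb) * bkm UC pC Y) := by
  have ba := bet_pos hNa
  have bb := bet_pos hNb
  have bc := bet_pos hNc
  have hd : 0 < 1 - d := sub_pos.mpr hd1
  have hθ : 0 < 1 - θ := sub_pos.mpr hθ1
  have hτ : 0 ≤ (1 - d) / bet Nc * (1 - θ) ^ 2 := by positivity
  have qa := bkm_dual (fun X => Phi V (X ⊗ₖ B)) hτ (div_nonneg h0 ba.le) hC.dA hC.posA hC.dC hC.posC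
    hC.qA (trace_cenA hC.sA.2 B (Gam V Y))
    (fun X hX => by rw [trace_Phi_mul, trace_mul_cenA _ _ _ hX])
  have qb := bkm_dual (fun X => Phi V (A ⊗ₖ X)) hτ (div_nonneg (sub_nonneg.mpr h1) bb.le) hC.dB
    hC.posB hC.dC hC.posC hC.qB (trace_cenB A hC.sB.2 (Gam V Y))
    (fun X hX => by rw [trace_Phi_mul, trace_mul_cenB _ _ _ hX])
  have ka := mul_le_mul_of_nonneg_left qa
    (show 0 ≤ ((1 - d) * (1 - θ))⁻¹ * (bet Nc * bet Na * xa) by positivity)
  have kb := mul_le_mul_of_nonneg_left qb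
    (show 0 ≤ ((1 - d) * (1 - θ))⁻¹ * (bet Nc * bet Nb * xb) by positivity)
  generalize bkm UA pA (cenA A B (Gam V Y)) = qA at *
  generalize bkm UB pB (cenB A B (Gam V Y)) = qB at *
  generalize bkm UC pC Y = qC at *
  have e1 : ((1 - d) * (1 - θ))⁻¹ * (bet Nc * bet Na * xa) * ((1 - d) / bet Nc * (1 - θ) ^ 2 * qA)
      = (1 - θ) * (bet Na * xa * qA) := by field_simp
  have e2 : ((1 - d) * (1 - θ))⁻¹ * (bet Nc * bet Nb * xb) * ((1 - d) / bet Nc * (1 - θ) ^ 2 * qB)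
      = (1 - θ) * (bet Nb * xb * qB) := by field_simp
  have e3 : ((1 - d) * (1 - θ))⁻¹ * (bet Nc * bet Na * xa) * (η / bet Na * qC)
      = ((1 - d) * (1 - θ))⁻¹ * (bet Nc * (η * xa) * qC) := by field_simp
  have e4 : ((1 - d) * (1 - θ))⁻¹ * (bet Nc * bet Nb * xb) * ((1 - η) / bet Nb * qC)
      = ((1 - d) * (1 - θ))⁻¹ * (bet Nc * ((1 - η) * xb) * qC) := by field_simp
  rw [e1, e3] at ka
  rw [e2, e4] at kb
  linarith

theorem net_crit (hV : Vᴴ * V = 1) (hNa : 0 < Na) (hNb : 0 < Nb)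
    (hNc : Nc = η * Na + (1 - η) * Nb) (h0 : 0 < η) (h1 : η < 1) (hd0 : 0 < d) (hd1 : d < 1)
    (hθ0 : 0 < θ) (hθ1 : θ < 1)
    (hC : Crit V θ ((1 - d) / bet Nc) (η / bet Na) ((1 - η) / bet Nb) FA FB A B UA pA UB pB UC pC)
    (a' : Matrix α α ℂ) (b' : Matrix β β ℂ) (c' : Matrix γ γ ℂ) (x y : ℝ) :
    2 * √(1 - θ) * (x * ((Psi Na A a')ᴴ * cenA A B (Gam V (score Nc UC pC c'))).trace.re
          + y * ((Psi Nb B b')ᴴ * cenB A B (Gam V (score Nc UC pC c'))).trace.re)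
        - (x ^ 2 * ((Psi Na A a')ᴴ * score Na UA pA a').trace.re
          + y ^ 2 * ((Psi Nb B b')ᴴ * score Nb UB pB b').trace.re)
      ≤ ((1 - d) * (1 - θ))⁻¹ * ((Psi Nc (out V θ A B) c')ᴴ * score Nc UC pC c').trace.re
        - (((1 - d) * (1 - θ))⁻¹ - 1) * Jf Nc UC pC c' := by
  have hd : 0 < 1 - d := sub_pos.mpr hd1
  have hθ : 0 < 1 - θ := sub_pos.mpr hθ1
  have hc : 0 < Nc := by rw [hNc]; have := sub_pos.mpr h1; positivity
  have hΘ : 1 ≤ ((1 - d) * (1 - θ))⁻¹ := by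
    rw [one_le_inv₀ (mul_pos hd hθ)]
    nlinarith
  have hv : ∀ v : γ × γ → ℂ, ∀ k l,
      (UCᴴ * (UC * Matrix.of (fun k l => v (k, l)) * UCᴴ) * UC) k l = v (k, l) := fun v k l => by
    rw [Dg.co_mat hC.dC]; rfl
  have H34 : ∀ xa xb : ℝ, 0 ≤ xa → 0 ≤ xb → ∀ f : (α × α) ⊕ (β × β) → ℝ,
      (∀ k l, f (Sum.inl (k, l)) = lm (pA k) (pA l) * (bet Na * xa)) →
      (∀ k l, f (Sum.inr (k, l)) = lm (pB k) (pB l) * (bet Nb * xb)) → ∀ v : γ × γ → ℂ,
      ∑ i, f i * normSq (Tmap V (√(1 - θ)) A UA B UB UC v i)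
        ≤ ((1 - d) * (1 - θ))⁻¹ * ∑ j : γ × γ,
          lm (pC j.1) (pC j.2) * (bet Nc * (η * xa + (1 - η) * xb)) * normSq (v j) := by
    intro xa xb ha hb f fa fb v
    have k := bkm_pair hNa hNb hc h0.le h1.le hd1 hθ1 hC ha hb
      (UC * Matrix.of (fun k l => v (k, l)) * UCᴴ)
    rw [sum_Tmap V hθ.le, Fintype.sum_prod_type]
    unfold bkm at k
    simp only [hv, Finset.mul_sum] at k
    simp only [fa, fb, Finset.mul_sum]
    refine le_trans (le_of_eq ?_) (k.trans (le_of_eq ?_))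
    · congr 2 <;> refine Finset.sum_congr rfl fun k _ => Finset.sum_congr rfl fun l _ => ?_ <;> ring
    · refine Finset.sum_congr rfl fun k _ => Finset.sum_congr rfl fun l _ => ?_
      ring
  have key := net (Tmap V (√(1 - θ)) A UA B UB UC)
    (p := Sum.elim (fun i => pA i.1) (fun i => pB i.1))
    (q := Sum.elim (fun i => pA i.2) (fun i => pB i.2))
    (N := Sum.elim (fun _ => Na) (fun _ => Nb))
    (p₁ := fun j => pC j.1) (q₁ := fun j => pC j.2) (N₁ := fun _ => Nc)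
    (by rintro (i | i); exacts [hC.posA _, hC.posB _])
    (by rintro (i | i); exacts [hC.posA _, hC.posB _])
    (by rintro (i | i); exacts [hNa, hNb]) (fun j => hC.posC _) (fun j => hC.posC _)
    (fun _ => hc) hΘ
    (fun v => by
      have k := gns_row hV hθ0.le hθ1.le hC.sA hC.sB (UC * Matrix.of (fun k l => v (k, l)) * UCᴴ)
      rw [ex_row hC.dA, ex_row hC.dB, ex_row hC.dC] at k
      simp only [hv] at k
      rw [sum_Tmap V hθ.le, Fintype.sum_prod_type]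
      exact k)
    (fun v => by
      have k := gns_col hV hθ0.le hθ1.le hC.sA hC.sB (UC * Matrix.of (fun k l => v (k, l)) * UCᴴ)
      rw [ex_col hC.dA, ex_col hC.dB, ex_col hC.dC] at k
      simp only [hv] at k
      rw [sum_Tmap V hθ.le, Fintype.sum_prod_type]
      exact k)
    (fun v => by
      have k := fun f fa fb => H34 Na Nb hNa.le hNb.le f fa fb v
      rw [← hNc] at k
      exact k _ (fun _ _ => rfl) (fun _ _ => rfl))
    (fun v => by
      have k := fun f fa fb => H34 (Na + 1) (Nb + 1) (by linarith) (by linarith) f fa fb v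
      rw [show η * (Na + 1) + (1 - η) * (Nb + 1) = Nc + 1 by rw [hNc]; ring] at k
      exact k _ (fun _ _ => rfl) (fun _ _ => rfl))
    (Sum.elim (fun i => (x : ℂ) * (UAᴴ * a' * UA) i.1 i.2)
      (fun i => (y : ℂ) * (UBᴴ * b' * UB) i.1 i.2))
    (fun j => (UCᴴ * c' * UC) j.1 j.2)
  have em : UC * Matrix.of (fun k l => (vr Nc (pC k) (pC l) : ℂ) * (UCᴴ * c' * UC) k l) * UCᴴ
      = score Nc UC pC c' := by
    rw [← Dg.mat_co hC.dC (score Nc UC pC c')]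
    congr 2
    ext k l
    exact (score_co hC.dC Nc c' k l).symm
  rw [Fintype.sum_sum_type, Fintype.sum_prod_type, Fintype.sum_prod_type, Fintype.sum_prod_type,
    Fintype.sum_prod_type] at key
  simp only [Sum.elim_inl, Sum.elim_inr, Tmap, LinearMap.coe_mk, AddHom.coe_mk, em] at key
  rw [sum_psi_vr hC.dC] at key
  rw [← sum_psi_re hC.dA, ← sum_psi_re hC.dB, ← sum_psi_vr hC.dA, ← sum_psi_vr hC.dB]
  refine le_trans (le_of_eq ?_) key
  have r : ∀ (t : ℝ) (z w : ℂ), ((starRingEnd ℂ) ((t : ℂ) * z) * ((√(1 - θ) : ℝ) * w)).re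
      = t * √(1 - θ) * ((starRingEnd ℂ) z * w).re := fun t z w => by
    rw [map_mul, conj_ofReal, mul_mul_mul_comm, ← ofReal_mul, re_ofReal_mul]
  simp only [r, normSq_mul, normSq_ofReal, Finset.sum_sub_distrib, mul_add, Finset.mul_sum]
  have s : ∀ {ι : Type} [Fintype ι] (f g : ι → ι → ℝ), (∀ k l, f k l = g k l) →
      ∑ k, ∑ l, f k l = ∑ k, ∑ l, g k l := fun f g h => by simp only [h]
  rw [add_sub_add_comm]
  congr 2 <;> refine s _ _ fun k l => ?_ <;> ring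

theorem cside [Nonempty γ] (hV : Vᴴ * V = 1) (h0 : 0 ≤ η) (h1 : η ≤ 1)
    (hM : Mode V η a b c d₀ LA LB) (hNc : Nc = η * Na + (1 - η) * Nb) (hA : IsState A)
    (hB : IsState B) {ct : Matrix γ γ ℂ}
    (hct : ct = c - (((√η : ℝ) : ℂ) * (A * a).trace + ((√(1 - η) : ℝ) : ℂ) * (B * b).trace) • 1) :
    (1 - θ) * (√η * (Phi V ((Psi Na A (a - (A * a).trace • 1))ᴴ ⊗ₖ B) * score Nc UC pC c).trace.re
        + √(1 - η) * (Phi V (A ⊗ₖ (Psi Nb B (b - (B * b).trace • 1))ᴴ) * score Nc UC pC c).trace.re)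
      = ((Psi Nc (out V θ A B) ct)ᴴ * score Nc UC pC ct).trace.re
        + θ / Fintype.card γ * (ctᴴ * score Nc UC pC ct).trace.re
        - (1 - θ) * (√η * Na * ((ptr (V * (A ⊗ₖ B) * LAᴴ))ᴴ * score Nc UC pC c).trace.re
          + √(1 - η) * Nb * ((ptr (V * (A ⊗ₖ B) * LBᴴ))ᴴ * score Nc UC pC c).trace.re) := by
  set σ := Phi V (A ⊗ₖ B) with hσ
  set m := ((√η : ℝ) : ℂ) * (A * a).trace + ((√(1 - η) : ℝ) : ℂ) * (B * b).trace with hm
  set R := score Nc UC pC c with hR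
  have rel := hM.psi_rel h0 h1 Na Nb A B
  rw [← hNc, ← hσ] at rel
  have eA : Phi V ((Psi Na A (a - (A * a).trace • 1))ᴴ ⊗ₖ B)
      = (Phi V (Psi Na A a ⊗ₖ B) + (A * a).trace • σ)ᴴ := by
    rw [hσ, ← Phi_smul, ← Phi_add, ← smul_kronecker, ← add_kronecker, ← Psi_sub_smul,
      ← Phi_conjTranspose, conjTranspose_kronecker, hB.1.isHermitian.eq]
  have eB : Phi V (A ⊗ₖ (Psi Nb B (b - (B * b).trace • 1))ᴴ)
      = (Phi V (A ⊗ₖ Psi Nb B b) + (B * b).trace • σ)ᴴ := by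
    rw [hσ, ← Phi_smul, ← Phi_add, ← kronecker_smul, ← kronecker_add, ← Psi_sub_smul,
      ← Phi_conjTranspose, conjTranspose_kronecker, hA.1.isHermitian.eq]
  have tot : ((√η : ℝ) : ℂ) • (Phi V (Psi Na A a ⊗ₖ B) + (A * a).trace • σ)
      + ((√(1 - η) : ℝ) : ℂ) • (Phi V (A ⊗ₖ Psi Nb B b) + (B * b).trace • σ)
      = Psi Nc σ ct - ((√η * Na : ℝ) : ℂ) • ptr (V * (A ⊗ₖ B) * LAᴴ)
        - ((√(1 - η) * Nb : ℝ) : ℂ) • ptr (V * (A ⊗ₖ B) * LBᴴ) := by
    rw [hct, Psi_sub_smul, smul_add, smul_add, add_add_add_comm, rel, hm]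
    module
  have t0 : (Psi Nc σ ct).trace = 0 := by
    rw [hct, Psi_sub_smul, trace_add, trace_Psi, trace_smul, hσ, hM.trace_Phi_c hV h0 h1,
      (Phi_state hV (kron_state hA hB)).2, hA.2, hB.2, hm]
    simp
  have e1 : ((Psi Nc σ ct)ᴴ * score Nc UC pC ct).trace = ((Psi Nc σ ct)ᴴ * R).trace := by
    conv_lhs => rw [hct, score_sub_smul, ← hct]
    rw [Matrix.mul_add, trace_add, Matrix.mul_smul, Matrix.mul_one, trace_smul,
      trace_conjTranspose, t0]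
    simp [hR]
  have e2 : Psi Nc (out V θ A B) ct
      = ((1 - θ : ℝ) : ℂ) • Psi Nc σ ct - ((θ / Fintype.card γ : ℝ) : ℂ) • ct := by
    unfold out Psi
    rw [← hσ]
    simp only [Matrix.add_mul, Matrix.mul_add, Matrix.smul_mul, Matrix.mul_smul, Matrix.one_mul,
      Matrix.mul_one]
    push_cast
    module
  have rs : ∀ (t : ℝ) (X Y : Matrix γ γ ℂ), (((t : ℂ) • X)ᴴ * Y).trace.re = t * (Xᴴ * Y).trace.re :=
    fun t X Y => by
      rw [conjTranspose_smul, Matrix.smul_mul, trace_smul, smul_eq_mul, RCLike.star_def,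
        conj_ofReal, re_ofReal_mul]
  have k1 := congrArg (fun X => (Xᴴ * R).trace.re) tot
  simp only [conjTranspose_add, conjTranspose_sub, Matrix.add_mul, Matrix.sub_mul, trace_add,
    trace_sub, add_re, sub_re, rs] at k1
  rw [eA, eB, e2, conjTranspose_sub, Matrix.sub_mul, trace_sub, sub_re, rs, rs, e1]
  simp only [conjTranspose_add, Matrix.add_mul, trace_add, add_re]
  linear_combination (1 - θ) * k1

end

theorem core_arith {d θ η x y T XA XB DA DB gA gB IC e l J ma mb : ℝ} (hd0 : 0 < d) (hd1 : d < 1)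
    (hθ0 : 0 < θ) (hθ1 : θ < 1) (hJ : 0 ≤ J) (hm : 0 ≤ η * ma + (1 - η) * mb)
    (iC : (1 - θ) * (x * XA + y * XB) = IC + e - (1 - θ) * l)
    (iN : 2 * √(1 - θ) * (√(1 - θ) / ((1 - d) * (1 - θ)) * x * XA
        + √(1 - θ) / ((1 - d) * (1 - θ)) * y * XB)
      - ((1 - θ) / ((1 - d) * (1 - θ)) ^ 2 * ((1 - d) * (1 - θ) * x * XA + DA
          - (1 - (1 - d) * (1 - θ)) * η * ma - (1 - d) * (1 - θ) * T⁻¹ * gA)
        + (1 - θ) / ((1 - d) * (1 - θ)) ^ 2 * ((1 - d) * (1 - θ) * y * XB + DB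
          - (1 - (1 - d) * (1 - θ)) * (1 - η) * mb - (1 - d) * (1 - θ) * T⁻¹ * gB))
      ≤ ((1 - d) * (1 - θ))⁻¹ * IC - (((1 - d) * (1 - θ))⁻¹ - 1) * J) :
    d * J + d * (η * ma + (1 - η) * mb)
      ≤ (DA + DB) / (1 - d) - e + (1 - θ) * l - (1 - θ) / T * (gA + gB) := by
  have hd : 0 < 1 - d := sub_pos.mpr hd1
  have hθ : 0 < 1 - θ := sub_pos.mpr hθ1
  have hs : √(1 - θ) * √(1 - θ) = 1 - θ := Real.mul_self_sqrt hθ.le
  have iN' := mul_le_mul_of_nonneg_left iN (mul_pos hd hθ).le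
  have l1 : (1 - d) * (1 - θ) * (2 * √(1 - θ) * (√(1 - θ) / ((1 - d) * (1 - θ)) * x * XA
        + √(1 - θ) / ((1 - d) * (1 - θ)) * y * XB)
      - ((1 - θ) / ((1 - d) * (1 - θ)) ^ 2 * ((1 - d) * (1 - θ) * x * XA + DA
          - (1 - (1 - d) * (1 - θ)) * η * ma - (1 - d) * (1 - θ) * T⁻¹ * gA)
        + (1 - θ) / ((1 - d) * (1 - θ)) ^ 2 * ((1 - d) * (1 - θ) * y * XB + DB
          - (1 - (1 - d) * (1 - θ)) * (1 - η) * mb - (1 - d) * (1 - θ) * T⁻¹ * gB)))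
      = (1 - θ) * (x * XA + y * XB) - (DA + DB) / (1 - d)
        + (1 - (1 - d) * (1 - θ)) / (1 - d) * (η * ma + (1 - η) * mb)
        + (1 - θ) / T * (gA + gB) := by
    have : 2 * √(1 - θ) * (√(1 - θ) / ((1 - d) * (1 - θ)) * x * XA
        + √(1 - θ) / ((1 - d) * (1 - θ)) * y * XB)
        = 2 * (√(1 - θ) * √(1 - θ)) / ((1 - d) * (1 - θ)) * (x * XA + y * XB) := by ring
    rw [this, hs, div_eq_mul_inv (1 - θ) T]
    generalize T⁻¹ = T'
    field_simp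
    ring
  have l2 : (1 - d) * (1 - θ) * (((1 - d) * (1 - θ))⁻¹ * IC - (((1 - d) * (1 - θ))⁻¹ - 1) * J)
      = IC - (1 - (1 - d) * (1 - θ)) * J := by
    field_simp
  rw [l1, l2, iC] at iN'
  have c1 : d ≤ 1 - (1 - d) * (1 - θ) := by nlinarith
  have c2 : d ≤ (1 - (1 - d) * (1 - θ)) / (1 - d) := by
    rw [le_div_iff₀ hd]
    nlinarith
  have m1 := mul_le_mul_of_nonneg_right c1 hJ
  have m2 := mul_le_mul_of_nonneg_right c2 hm
  linarith

theorem core_alg [Nonempty γ] {V LA LB : Matrix (γ × δ) (α × β) ℂ} (hV : Vᴴ * V = 1) {η : ℝ}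
    (h0 : 0 < η) (h1 : η < 1) {a : Matrix α α ℂ} {b : Matrix β β ℂ} {c : Matrix γ γ ℂ}
    {d₀ : Matrix δ δ ℂ} (hM : Mode V η a b c d₀ LA LB) {Na Nb Nc d θ : ℝ} (hNa : 0 < Na)
    (hNb : 0 < Nb) (hNc : Nc = η * Na + (1 - η) * Nb) (hd0 : 0 < d) (hd1 : d < 1) (hθ0 : 0 < θ)
    (hθ1 : θ < 1) {FA A UA : Matrix α α ℂ} {FB B UB : Matrix β β ℂ} {UC : Matrix γ γ ℂ}
    {pA : α → ℝ} {pB : β → ℝ} {pC : γ → ℝ}
    (hC : Crit V θ ((1 - d) / bet Nc) (η / bet Na) ((1 - η) / bet Nb) FA FB A B UA pA UB pB UC pC)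
    {ct : Matrix γ γ ℂ}
    (hct : ct = c - (((√η : ℝ) : ℂ) * (A * a).trace + ((√(1 - η) : ℝ) : ℂ) * (B * b).trace) • 1) :
    d * Jf Nc UC pC ct + d * (η * normSq (A * a).trace + (1 - η) * normSq (B * b).trace)
      ≤ (Dpen Na ((1 - (1 - d) * (1 - θ)) * η) A a FA
          + Dpen Nb ((1 - (1 - d) * (1 - θ)) * (1 - η)) B b FB) / (1 - d)
        - θ / Fintype.card γ * (ctᴴ * score Nc UC pC ct).trace.re
        + (1 - θ) * (√η * Na * ((ptr (V * (A ⊗ₖ B) * LAᴴ))ᴴ * score Nc UC pC c).trace.re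
          + √(1 - η) * Nb * ((ptr (V * (A ⊗ₖ B) * LBᴴ))ᴴ * score Nc UC pC c).trace.re)
        - (1 - θ) / bet Nc * ((ptr (V * ((Psi Na A a)ᴴ ⊗ₖ B) * LAᴴ) * mlog UC pC).trace.re
          + (ptr (V * (A ⊗ₖ (Psi Nb B b)ᴴ) * LBᴴ) * mlog UC pC).trace.re) := by
  have hd : 0 < 1 - d := sub_pos.mpr hd1
  have hθ : 0 < 1 - θ := sub_pos.mpr hθ1
  have hη : 0 < 1 - η := sub_pos.mpr h1
  have hcomm : Phi V (A ⊗ₖ B) * mlog UC pC = mlog UC pC * Phi V (A ⊗ₖ B) := by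
    have h := mlog_comm hC.dC
    unfold out at h
    rw [Matrix.add_mul, Matrix.mul_add, Matrix.smul_mul, Matrix.smul_mul, Matrix.mul_smul,
      Matrix.mul_smul, Matrix.one_mul, Matrix.mul_one, add_left_inj] at h
    exact smul_right_injective _ (ofReal_ne_zero.mpr hθ.ne') h
  have hmean : (Phi V (A ⊗ₖ B) * score Nc UC pC c).trace
      = -(((√η : ℝ) : ℂ) * (A * a).trace + ((√(1 - η) : ℝ) : ℂ) * (B * b).trace) := by
    rw [trace_score_of_comm Nc hcomm, hM.trace_Phi_c hV h0.le h1.le, hC.sA.2, hC.sB.2]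
    simp
  have iA := one_side hC.sA hC.dA Na ((1 - d) * (1 - θ)) (bet Nc)⁻¹ (√η) (√(1 - η)) (B * b).trace
    (fun Y => (Phi V (Y ⊗ₖ B) * score Nc UC pC c).trace)
    (fun Y => (ptr (V * (Y ⊗ₖ B) * LAᴴ) * mlog UC pC).trace)
    (fun Y z => by
      simp only [add_kronecker, smul_kronecker, Matrix.mul_add, Matrix.add_mul, Matrix.mul_smul,
        Matrix.smul_mul, ptr_add, ptr_smul, trace_add, trace_smul, smul_eq_mul])
    (starA hV h0.le h1.le hM hC) hmean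
  have iB := one_side hC.sB hC.dB Nb ((1 - d) * (1 - θ)) (bet Nc)⁻¹ (√(1 - η)) (√η) (A * a).trace
    (fun Y => (Phi V (A ⊗ₖ Y) * score Nc UC pC c).trace)
    (fun Y => (ptr (V * (A ⊗ₖ Y) * LBᴴ) * mlog UC pC).trace)
    (fun Y z => by
      simp only [kronecker_add, kronecker_smul, Matrix.mul_add, Matrix.add_mul, Matrix.mul_smul,
        Matrix.smul_mul, ptr_add, ptr_smul, trace_add, trace_smul, smul_eq_mul])
    (starB hV h0.le h1.le hM hC) (by rw [hmean, add_comm])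
  have iC := cside (θ := θ) (UC := UC) (pC := pC) hV h0.le h1.le hM hNc hC.sA hC.sB hct
  have iN := net_crit hV hNa hNb hNc h0 h1 hd0 hd1 hθ0 hθ1 hC (a - (A * a).trace • 1)
    (b - (B * b).trace • 1) ct (√(1 - θ) / ((1 - d) * (1 - θ)) * √η)
    (√(1 - θ) / ((1 - d) * (1 - θ)) * √(1 - η))
  have tA : (Psi Na A (a - (A * a).trace • 1))ᴴ.trace = 0 := by
    rw [trace_conjTranspose, Psi_sub_smul, trace_add, trace_Psi, trace_smul, hC.sA.2]
    simp
  have tB : (Psi Nb B (b - (B * b).trace • 1))ᴴ.trace = 0 := by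
    rw [trace_conjTranspose, Psi_sub_smul, trace_add, trace_Psi, trace_smul, hC.sB.2]
    simp
  have zA : ((Psi Na A (a - (A * a).trace • 1))ᴴ * cenA A B (Gam V (score Nc UC pC ct))).trace
      = (Phi V ((Psi Na A (a - (A * a).trace • 1))ᴴ ⊗ₖ B) * score Nc UC pC c).trace := by
    rw [trace_mul_cenA _ _ _ tA, ← trace_Phi_mul, hct, score_sub_smul, Matrix.mul_add, trace_add,
      Matrix.mul_smul, Matrix.mul_one, trace_smul, trace_Phi hV, trace_kronecker, tA]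
    simp
  have zB : ((Psi Nb B (b - (B * b).trace • 1))ᴴ * cenB A B (Gam V (score Nc UC pC ct))).trace
      = (Phi V (A ⊗ₖ (Psi Nb B (b - (B * b).trace • 1))ᴴ) * score Nc UC pC c).trace := by
    rw [trace_mul_cenB _ _ _ tB, ← trace_Phi_mul, hct, score_sub_smul, Matrix.mul_add, trace_add,
      Matrix.mul_smul, Matrix.mul_one, trace_smul, trace_Phi hV, trace_kronecker, tB]
    simp
  rw [zA, zB, mul_pow, mul_pow, mul_assoc (_ ^ 2), mul_assoc (_ ^ 2), iA, iB, div_pow,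
    Real.sq_sqrt hθ.le, Real.sq_sqrt h0.le, Real.sq_sqrt hη.le] at iN
  have hJ : 0 ≤ Jf Nc UC pC ct := Finset.sum_nonneg fun k _ => Finset.sum_nonneg fun l _ =>
    mul_nonneg (div_nonneg (sq_nonneg _) (add_pos (hC.posC k) (hC.posC l)).le) (normSq_nonneg _)
  have hm : 0 ≤ η * normSq (A * a).trace + (1 - η) * normSq (B * b).trace :=
    add_nonneg (mul_nonneg h0.le (normSq_nonneg _)) (mul_nonneg hη.le (normSq_nonneg _))
  exact core_arith hd0 hd1 hθ0 hθ1 hJ hm iC iN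

end Vale.Agent.P369
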