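import Vale.Agent.P369.Mat

/-! P369 task Ent: finite-dimensional entropy inequalities (`ent` from `Vale.Agent.P358.Spec`:
`Dg.ent_eq`, `Dg.diag_conj`, `ent_le_diag`, `row_normSq`, `col_normSq`, `Dg.shift`, `Dg.smul`).
Scalar facts: `negMulLog x ≤ -x log t + t - x` and `-x log t - x²/t + x ≤ negMulLog x` for
`x ≥ 0`, `t > 0` (both from `log y ≤ y - 1`); `negMulLog (x+y) ≤ negMulLog x + negMulLog y`.
* `klein`: `ent_le_diag` in the basis `U`, then the first scalar fact, `trace_mul_mlog`.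
* `ent_le_frame`: as `Dg.jensen`, with weights `|(Uᴴ V) j i|²`, row sums `1`, column sums `≤ 1`
  (add the point `0` with the missing weight; `negMulLog 0 = 0`).
* `quad_le_ent`: `ent ρ = ∑ k ∑ i |U k i|² negMulLog (λ i)`, drop `k ∉ F` (`0 ≤ λ ≤ 1`), second fact;
  `(ρ k k).re = ∑ |U k i|² λ i`, `((ρ ρ) k k).re = ∑ |U k i|² (λ i)²`.
* `ent_noise_le`, `noise_eig`: `Dg.smul`, `Dg.shift`; for `noise_eig` use `Dg.re_conj`. -/

namespace Vale.Agent.P369

open Matrix Vale.Agent.P358 Complex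
open scoped ComplexOrder

variable {n ι : Type} [Fintype n] [DecidableEq n] [Fintype ι]

theorem negMulLog_le_tangent {x t : ℝ} (hx : 0 ≤ x) (ht : 0 < t) :
    Real.negMulLog x ≤ -x * Real.log t + t - x := by
  rcases hx.eq_or_lt with rfl | hx
  · simpa using ht.le
  · have h := Real.log_le_sub_one_of_pos (div_pos ht hx)
    rw [Real.log_div ht.ne' hx.ne'] at h
    have h2 := mul_le_mul_of_nonneg_left h hx.le
    have e : x * (t / x - 1) = t - x := by field_simp
    rw [e] at h2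
    rw [Real.negMulLog]
    linarith

theorem quad_le_negMulLog {x t : ℝ} (hx : 0 ≤ x) (ht : 0 < t) :
    -x * Real.log t - x ^ 2 / t + x ≤ Real.negMulLog x := by
  rcases hx.eq_or_lt with rfl | hx
  · simp
  · have h := Real.log_le_sub_one_of_pos (div_pos hx ht)
    rw [Real.log_div hx.ne' ht.ne'] at h
    have h2 := mul_le_mul_of_nonneg_left h hx.le
    have e : x * (x / t - 1) = x ^ 2 / t - x := by ring
    rw [e] at h2
    rw [Real.negMulLog]
    linarith

theorem state_eig {ρ U : Matrix n n ℂ} {p : n → ℝ} (hρ : IsState ρ) (h : Dg ρ U p) :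
    (∀ i, 0 ≤ p i ∧ p i ≤ 1) ∧ ∑ i, p i = 1 := by
  have h1 : ∑ i, p i = 1 := by rw [← h.trace_re, hρ.2, one_re]
  refine ⟨fun i => ⟨h.nonneg hρ.1 i, ?_⟩, h1⟩
  rw [← h1]
  exact Finset.single_le_sum (fun j _ => h.nonneg hρ.1 j) (Finset.mem_univ i)

theorem ent_nonneg' {ρ : Matrix n n ℂ} (hρ : IsState ρ) : 0 ≤ ent ρ := by
  obtain ⟨U, p, h⟩ := exists_dg hρ.1.isHermitian
  rw [h.ent_eq]
  exact Finset.sum_nonneg fun i _ =>
    Real.negMulLog_nonneg ((state_eig hρ h).1 i).1 ((state_eig hρ h).1 i).2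

theorem ent_le_card {ρ : Matrix n n ℂ} (hρ : IsState ρ) : ent ρ ≤ Fintype.card n := by
  obtain ⟨U, p, h⟩ := exists_dg hρ.1.isHermitian
  rw [h.ent_eq]
  have h1 : ∀ i, Real.negMulLog (p i) ≤ 1 := fun i => by
    have h2 := negMulLog_le_tangent (h.nonneg hρ.1 i) one_pos
    rw [Real.log_one] at h2
    linarith [h.nonneg hρ.1 i]
  refine (Finset.sum_le_sum fun i _ => h1 i).trans (le_of_eq ?_)
  simp

theorem ex_mlog_ent {ρ U : Matrix n n ℂ} {p : n → ℝ} (h : Dg ρ U p) (X : Matrix n n ℂ) :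
    ex X (mlog U p) = ∑ k, -((Uᴴ * X * U) k k).re * Real.log (p k) := by
  rw [ex, trace_mul_mlog h, re_sum]
  refine Finset.sum_congr rfl fun k _ => ?_
  rw [re_mul_ofReal]
  ring

theorem klein {σ ρ U : Matrix n n ℂ} {p : n → ℝ} (hσ : IsState σ) (hρ : IsState ρ)
    (h : Dg ρ U p) (hp : ∀ i, 0 < p i) : ent σ ≤ ex σ (mlog U p) := by
  refine (ent_le_diag hσ.1 h.l h.r).trans ((Finset.sum_le_sum fun i _ =>
    negMulLog_le_tangent (re_conj_nonneg hσ.1 U i) (hp i)).trans (le_of_eq ?_))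
  rw [Finset.sum_sub_distrib, Finset.sum_add_distrib, (state_eig hρ h).2, sum_re_conj σ h.r, hσ.2,
    one_re, ex_mlog_ent h, add_sub_cancel_right]

theorem ent_eq_ex_mlog {ρ U : Matrix n n ℂ} {p : n → ℝ} (h : Dg ρ U p) :
    ent ρ = ex ρ (mlog U p) := by
  rw [ex_mlog_ent h, h.ent_eq]
  refine Finset.sum_congr rfl fun k _ => ?_
  rw [h.re_conj, Real.negMulLog]

omit [DecidableEq n] in
theorem jensen_ent {w d : n → ℝ} (hw : ∀ j, 0 ≤ w j) (hd : ∀ j, 0 ≤ d j) (h1 : ∑ j, w j ≤ 1) :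
    ∑ j, w j * Real.negMulLog (d j) ≤ Real.negMulLog (∑ j, w j * d j) := by
  have h0 : ∀ j ∈ Finset.univ, 0 ≤ w j * d j := fun j _ => mul_nonneg (hw j) (hd j)
  rcases (Finset.sum_nonneg h0).eq_or_lt with hm | hm
  · have h2 := (Finset.sum_eq_zero_iff_of_nonneg h0).1 hm.symm
    rw [← hm, Real.negMulLog_zero]
    refine le_of_eq (Finset.sum_eq_zero fun j hj => ?_)
    rw [Real.negMulLog, neg_mul, mul_neg, ← mul_assoc, h2 j hj, zero_mul, neg_zero]
  · refine (Finset.sum_le_sum fun j _ =>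
      mul_le_mul_of_nonneg_left (negMulLog_le_tangent (hd j) hm) (hw j)).trans ?_
    generalize hmm : ∑ j, w j * d j = m at hm ⊢
    have e : ∀ j, w j * (-d j * Real.log m + m - d j) =
        w j * d j * (-Real.log m - 1) + w j * m := fun j => by ring
    simp only [e]
    rw [Finset.sum_add_distrib, ← Finset.sum_mul, ← Finset.sum_mul, hmm, Real.negMulLog]
    nlinarith [mul_le_mul_of_nonneg_right h1 hm.le]

omit [DecidableEq n] [Fintype ι] in
theorem col_ent (W : Matrix n ι ℂ) (i : ι) : ∑ j, normSq (W j i) = ((Wᴴ * W) i i).re := by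
  simp only [mul_apply, conjTranspose_apply, RCLike.star_def, re_sum, re_conj_mul_mat]

theorem ent_le_frame {σ : Matrix n n ℂ} (hσ : σ.PosSemidef) {V : Matrix n ι ℂ}
    (hV : V * Vᴴ = 1) (hc : ∀ i, ∑ k, normSq (V k i) ≤ 1) :
    ent σ ≤ ∑ i, Real.negMulLog ((Vᴴ * σ * V) i i).re := by
  classical
  obtain ⟨U, d, h⟩ := exists_dg hσ.isHermitian
  have hWr : (Uᴴ * V) * (Uᴴ * V)ᴴ = 1 := by
    rw [conjTranspose_mul, conjTranspose_conjTranspose]
    calc Uᴴ * V * (Vᴴ * U) = Uᴴ * (V * Vᴴ) * U := by simp only [Matrix.mul_assoc]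
      _ = 1 := by rw [hV, Matrix.mul_one, h.l]
  have hWl : (Uᴴ * V)ᴴ * (Uᴴ * V) = Vᴴ * V := by
    rw [conjTranspose_mul, conjTranspose_conjTranspose]
    calc Vᴴ * U * (Uᴴ * V) = Vᴴ * (U * Uᴴ) * V := by simp only [Matrix.mul_assoc]
      _ = Vᴴ * V := by rw [h.r, Matrix.mul_one]
  rw [h.ent_eq]
  calc ∑ j, Real.negMulLog (d j)
      = ∑ j, ∑ i, normSq ((Uᴴ * V) j i) * Real.negMulLog (d j) := by
        refine Finset.sum_congr rfl fun j _ => ?_
        rw [← Finset.sum_mul, row_normSq hWr, one_mul]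
    _ = ∑ i, ∑ j, normSq ((Uᴴ * V) j i) * Real.negMulLog (d j) := Finset.sum_comm
    _ ≤ _ := by
        refine Finset.sum_le_sum fun i _ => ?_
        rw [h.diag_conj V i]
        refine jensen_ent (fun j => normSq_nonneg _) (h.nonneg hσ) ?_
        rw [col_ent, hWl, ← col_ent]
        exact hc i

theorem quad_le_ent {ρ : Matrix n n ℂ} (hρ : IsState ρ) (F : Finset n) {t : n → ℝ}
    (ht : ∀ k, 0 < t k) :
    ∑ k ∈ F, (-(ρ k k).re * Real.log (t k) - ((ρ * ρ) k k).re / t k + (ρ k k).re) ≤ ent ρ := by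
  obtain ⟨U, d, h⟩ := exists_dg hρ.1.isHermitian
  have hd := (state_eig hρ h).1
  have h2 : Dg (ρ * ρ) U fun i => d i ^ 2 := by
    refine ⟨h.l, h.r, ?_⟩
    have e : (diagonal fun i => ((d i ^ 2 : ℝ) : ℂ)) =
        (diagonal fun i => (d i : ℂ)) * diagonal fun i => (d i : ℂ) := by
      rw [diagonal_mul_diagonal]
      congr 1
      funext i
      push_cast
      ring
    rw [e, ← h.conj, ← co_mul_mat h]
    simp only [← Matrix.mul_assoc]
    rw [h.r, Matrix.one_mul, Matrix.mul_assoc _ U, h.r, Matrix.mul_one]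
  have e1 : ∀ k, (ρ k k).re = ∑ j, normSq (Uᴴ j k) * d j := fun k => by
    simpa only [conjTranspose_one, Matrix.one_mul, Matrix.mul_one] using h.diag_conj 1 k
  have e2 : ∀ k, ((ρ * ρ) k k).re = ∑ j, normSq (Uᴴ j k) * d j ^ 2 := fun k => by
    simpa only [conjTranspose_one, Matrix.one_mul, Matrix.mul_one] using h2.diag_conj 1 k
  have hU : Uᴴ * Uᴴᴴ = 1 := by rw [conjTranspose_conjTranspose, h.l]
  calc ∑ k ∈ F, (-(ρ k k).re * Real.log (t k) - ((ρ * ρ) k k).re / t k + (ρ k k).re)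
      ≤ ∑ k ∈ F, ∑ j, normSq (Uᴴ j k) * Real.negMulLog (d j) := by
        refine Finset.sum_le_sum fun k _ => le_trans (le_of_eq ?_) (Finset.sum_le_sum fun j _ =>
          mul_le_mul_of_nonneg_left (quad_le_negMulLog (hd j).1 (ht k)) (normSq_nonneg _))
        rw [e1, e2, neg_mul, Finset.sum_mul, Finset.sum_div, ← Finset.sum_neg_distrib,
          ← Finset.sum_sub_distrib, ← Finset.sum_add_distrib]
        refine Finset.sum_congr rfl fun j _ => ?_
        ring
    _ ≤ ∑ k, ∑ j, normSq (Uᴴ j k) * Real.negMulLog (d j) :=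
        Finset.sum_le_sum_of_subset_of_nonneg (Finset.subset_univ F) fun k _ _ =>
          Finset.sum_nonneg fun j _ =>
            mul_nonneg (normSq_nonneg _) (Real.negMulLog_nonneg (hd j).1 (hd j).2)
    _ = ent ρ := by
        rw [Finset.sum_comm, h.ent_eq]
        refine Finset.sum_congr rfl fun j _ => ?_
        rw [← Finset.sum_mul, row_normSq hU, one_mul]

theorem subadd_ent {a b : ℝ} (ha : 0 ≤ a) (hb : 0 ≤ b) :
    Real.negMulLog (a + b) ≤ Real.negMulLog a + Real.negMulLog b := by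
  have key : ∀ x y : ℝ, 0 ≤ x → x ≤ y → x * Real.log x ≤ x * Real.log y := fun x y hx hxy => by
    rcases hx.eq_or_lt with rfl | hx'
    · simp
    · exact mul_le_mul_of_nonneg_left (Real.log_le_log hx' hxy) hx
  have h1 := key a (a + b) ha (by linarith)
  have h2 := key b (a + b) hb (by linarith)
  simp only [Real.negMulLog]
  linarith

theorem ent_noise_le [Nonempty n] {σ : Matrix n n ℂ} (hσ : IsState σ) {θ : ℝ} (h0 : 0 < θ)
    (h1 : θ ≤ 1) :
    ent (((1 - θ : ℝ) : ℂ) • σ + ((θ / Fintype.card n : ℝ) : ℂ) • (1 : Matrix n n ℂ))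
      ≤ ent σ + θ * (1 + Real.log (Fintype.card n / θ)) := by
  obtain ⟨U, d, h⟩ := exists_dg hσ.1.isHermitian
  have hd := state_eig hσ h
  have hD : (0 : ℝ) < Fintype.card n := by exact_mod_cast Fintype.card_pos
  have h2 := (h.smul (1 - θ)).shift (θ / Fintype.card n)
  rw [add_comm, h2.ent_eq]
  refine (Finset.sum_le_sum fun i _ => subadd_ent (div_pos h0 hD).le
    (mul_nonneg (sub_nonneg.2 h1) (hd.1 i).1)).trans ?_
  simp only [Real.negMulLog_mul]
  rw [Finset.sum_add_distrib, Finset.sum_add_distrib, ← Finset.sum_mul, ← Finset.mul_sum, hd.2,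
    ← h.ent_eq, Finset.sum_const, Finset.card_univ, nsmul_eq_mul]
  have h3 := negMulLog_le_tangent (sub_nonneg.2 h1) one_pos
  rw [Real.log_one] at h3
  have h4 : (Fintype.card n : ℝ) * Real.negMulLog (θ / Fintype.card n) =
      θ * Real.log (Fintype.card n / θ) := by
    rw [Real.negMulLog, Real.log_div h0.ne' hD.ne', Real.log_div hD.ne' h0.ne']
    field_simp
    ring
  rw [h4]
  nlinarith [mul_nonneg h0.le (ent_nonneg' hσ)]

theorem noise_eig {σ U : Matrix n n ℂ} {r : n → ℝ} (hσ : σ.PosSemidef) {θ : ℝ} (h1 : θ ≤ 1)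
    (h : Dg (((1 - θ : ℝ) : ℂ) • σ + ((θ / Fintype.card n : ℝ) : ℂ) • (1 : Matrix n n ℂ)) U r)
    (i : n) : θ / Fintype.card n ≤ r i := by
  rw [← h.re_conj i, Matrix.mul_add, Matrix.add_mul, Matrix.mul_smul, Matrix.smul_mul,
    Matrix.mul_smul, Matrix.smul_mul, Matrix.mul_one, h.l, Matrix.add_apply, Matrix.smul_apply,
    Matrix.smul_apply, one_apply_eq, smul_eq_mul, smul_eq_mul, mul_one, add_re, re_ofReal_mul,
    ofReal_re]
  linarith [mul_nonneg (sub_nonneg.2 h1) (re_conj_nonneg hσ U i)]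

end Vale.Agent.P369
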