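import Vale.Agent.P369.BoxK
import Vale.Agent.P369.Ent
import Vale.Agent.P369.CoreAlg

/-! P369 task BoxL: the ladder matrices on a box.
Plan. Entrywise with `lowH_mul`, `mul_lowH`, `low_mul`, `mul_low` (take `F y = if .. then .. else 0`).
`low_mul_diag`: the entry `(k,l)` of `low` vanishes unless `emb l = emb k + single j 1`.
`Dpen_le`: with `a = low`, `a F - F a - x a = ε Y`, `Y = a pen - pen a = D a`,
`D = diagonal (w^(k j + 1) - w^(k j))` (row index `k`); `Tr ((Psi N ρ a)ᴴ Y) = N Tr (ρ Y aᴴ) - (N+1) Tr (ρ aᴴ Y)`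
with `Y aᴴ`, `aᴴ Y` diagonal: entries `[i<K] (i+1)(w^(i+1) - w^i)` and `i (w^i - w^(i-1))`, `i = k j`.
For `i ≥ 1` the combination is at most `w^(i-1) (w-1) (N + 1/2 - i/2)`, which is `≤ 0` for
`i ≥ 2N+1`; so it is bounded by a constant `C(N,w)` for all `i` (`ex_diagonal`, `∑ ρ k k = 1`).
`gibbs`: `ent_le_diag_one`, `negMulLog_le_tangent` with `t = therm N (emb k)`, `neg_log_therm`,
`sum_box`, `sum_le_hasSum _ _ hasSum_therm`. -/

namespace Vale.Agent.P369

open Matrix Vale.Agent.P358 Complex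
open scoped ComplexOrder

variable {n K : ℕ}

theorem sub_add_boxl {y : Occ n} {j : Fin n} (h : y j ≠ 0) :
    y - Pi.single j 1 + Pi.single j 1 = y := by
  funext i
  by_cases hi : i = j
  · subst hi
    simp only [Pi.add_apply, Pi.sub_apply, Pi.single_eq_same]
    omega
  · simp [hi]

theorem sqrt_mul_boxl {x : ℝ} (hx : 0 ≤ x) : ((√x : ℝ) : ℂ) * ((√x : ℝ) : ℂ) = (x : ℂ) := by
  rw [← ofReal_mul, Real.mul_self_sqrt hx]

theorem low_lowH_boxl (j : Fin n) : low n K j * (low n K j)ᴴ =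
    diagonal fun k => (((if emb k j < K then (emb k j : ℝ) + 1 else 0 : ℝ) : ℝ) : ℂ) := by
  ext k l
  rw [low_mul j _ l (fun y => if y = emb l + Pi.single j 1 then ((√(y j : ℝ) : ℝ) : ℂ) else 0)
    (fun k' => by
      simp only [conjTranspose_apply, low, of_apply]
      split_ifs <;> simp), diagonal_apply]
  by_cases h : k = l
  · subst h
    simp only [if_true, Pi.add_apply, Pi.single_eq_same, Nat.cast_add, Nat.cast_one]
    split_ifs
    · exact sqrt_mul_boxl (by positivity)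
    · simp
  · rw [if_neg h, if_neg (fun h' => h (emb_inj (add_right_cancel h'))), mul_zero, ite_self]

theorem low_mul_diag_boxl (j : Fin n) (f : Occ n → ℂ) :
    low n K j * diagonal (fun l => f (emb l)) =
      diagonal (fun k => f (emb k + Pi.single j 1)) * low n K j := by
  ext k l
  rw [mul_diagonal, diagonal_mul, low, of_apply]
  split_ifs with h
  · rw [h, mul_comm]
  · simp

theorem re_nonneg_boxl {ρ : Matrix (Box n K) (Box n K) ℂ} (hρ : ρ.PosSemidef) (k : Box n K) :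
    0 ≤ (ρ k k).re := (Complex.le_def.1 (hρ.diag_nonneg (i := k))).1

theorem re_sum_boxl {ρ : Matrix (Box n K) (Box n K) ℂ} (hρ : IsState ρ) :
    ∑ k, (ρ k k).re = 1 := by
  have h := congrArg re hρ.2
  rwa [trace, re_sum] at h

theorem ex_diag_le_boxl {ρ : Matrix (Box n K) (Box n K) ℂ} (hρ : IsState ρ) {f : Box n K → ℝ}
    {C : ℝ} (h : ∀ k, ρ k k ≠ 0 → f k ≤ C) : ∑ k, (ρ k k).re * f k ≤ C := by
  calc ∑ k, (ρ k k).re * f k ≤ ∑ k, (ρ k k).re * C := Finset.sum_le_sum fun k _ => by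
        by_cases hk : ρ k k = 0
        · simp [hk]
        · exact mul_le_mul_of_nonneg_left (h k hk) (re_nonneg_boxl hρ.1 k)
    _ = C := by rw [← Finset.sum_mul, re_sum_boxl hρ, one_mul]

theorem scal_boxl {N w : ℝ} (hN : 0 < N) (hw : 1 ≤ w) (hNw : N * w ≤ N + 1 / 2) (K i : ℕ) :
    N * ((w ^ (i + 1) - w ^ i) * if i < K then (i : ℝ) + 1 else 0) -
      (N + 1) * (i * (w ^ i - w ^ (i - 1))) ≤ w ^ ⌈2 * N⌉₊ * (w - 1) * N := by
  have hw0 : 0 ≤ w - 1 := sub_nonneg.2 hw
  have hM : 1 ≤ w ^ ⌈2 * N⌉₊ := one_le_pow₀ hw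
  have h1 : (if i < K then (i : ℝ) + 1 else 0) ≤ i + 1 := by
    split_ifs
    · exact le_rfl
    · positivity
  have h2 : 0 ≤ w ^ (i + 1) - w ^ i := sub_nonneg.2 (pow_le_pow_right₀ hw i.le_succ)
  refine le_trans (sub_le_sub_right (mul_le_mul_of_nonneg_left
    (mul_le_mul_of_nonneg_left h1 h2) hN.le) _) ?_
  rcases i with _ | m
  · have h3 := mul_le_mul_of_nonneg_right hM (mul_nonneg hw0 hN.le)
    simp only [zero_add, pow_one, pow_zero, Nat.cast_zero, mul_one, zero_mul, mul_zero, sub_zero]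
    linarith
  · have hm : (0 : ℝ) ≤ m := Nat.cast_nonneg m
    have hp : 0 ≤ w ^ m * (w - 1) := mul_nonneg (by positivity) hw0
    have h3 : N * w * ((m : ℝ) + 2) - (N + 1) * (m + 1) ≤ N - m / 2 := by
      have := mul_le_mul_of_nonneg_right hNw (by positivity : (0 : ℝ) ≤ m + 2)
      linarith
    have h4 : w ^ m * (w - 1) * (N - m / 2) ≤ w ^ ⌈2 * N⌉₊ * (w - 1) * N := by
      rcases le_total m ⌈2 * N⌉₊ with h | h
      · have h5 := pow_le_pow_right₀ hw h
        calc _ ≤ w ^ m * (w - 1) * N := mul_le_mul_of_nonneg_left (by linarith) hp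
          _ ≤ _ := by gcongr
      · have h5 : 2 * N ≤ m := (Nat.le_ceil _).trans (by exact_mod_cast h)
        exact (mul_nonpos_of_nonneg_of_nonpos hp (by linarith)).trans (by positivity)
    refine le_trans (le_of_eq ?_) ((mul_le_mul_of_nonneg_left h3 hp).trans h4)
    simp only [Nat.add_sub_cancel]
    push_cast
    ring

theorem lowH_low (j : Fin n) :
    (low n K j)ᴴ * low n K j = diagonal fun k => (((emb k j : ℝ) : ℝ) : ℂ) := by
  ext k l
  rw [lowH_mul j _ l (fun y => if emb l = y + Pi.single j 1 then ((√(emb l j : ℝ) : ℝ) : ℂ) else 0)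
    (fun _ => rfl), diagonal_apply]
  by_cases h0 : emb k j = 0
  · simp [h0]
  · rw [sub_add_boxl h0]
    by_cases h : k = l
    · subst h
      rw [if_pos rfl, if_pos rfl, sqrt_mul_boxl (Nat.cast_nonneg _)]
    · rw [if_neg h, if_neg (fun h' => h (emb_inj h').symm), mul_zero]

theorem low_lowH (j : Fin n) :
    low n K j * (low n K j)ᴴ = (low n K j)ᴴ * low n K j + 1 - top n K j := by
  rw [low_lowH_boxl, lowH_low, top, ← diagonal_one, diagonal_add, diagonal_sub]
  congr 1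
  funext k
  rcases (emb_le k j).lt_or_eq with h | h
  · simp [h, h.ne]
  · simp [h]

theorem sum_lowH_low : ∑ j, (low n K j)ᴴ * low n K j = nrg n K := by
  simp only [lowH_low, nrg]
  ext k l
  simp only [Matrix.sum_apply, diagonal_apply]
  split_ifs <;> simp

theorem fs_low (j : Fin n) : fs (low n K j) ≤ ((K : ℝ) + 1) ^ (n + 1) := by
  rw [fs_eq_trace, lowH_low, trace_diagonal, re_sum]
  calc _ ≤ ∑ _k : Box n K, ((K : ℝ) + 1) := Finset.sum_le_sum fun k _ => by
        rw [ofReal_re]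
        have : (emb k j : ℝ) ≤ K := by exact_mod_cast emb_le k j
        linarith
    _ = _ := by
        rw [Finset.sum_const, Finset.card_univ, card_box, nsmul_eq_mul, pow_succ]
        push_cast
        rfl

theorem nrg_psd : (nrg n K).PosSemidef :=
  PosSemidef.diagonal fun _ => zero_le_real.2 (by positivity)

theorem pen_psd {w : ℝ} (hw : 0 ≤ w) : (pen n K w).PosSemidef :=
  PosSemidef.diagonal fun _ => zero_le_real.2 (by positivity)

theorem top_psd (j : Fin n) : (top n K j).PosSemidef :=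
  PosSemidef.diagonal fun k => by
    show (0 : ℂ) ≤ if emb k j = K then (((K : ℝ) + 1 : ℝ) : ℂ) else 0
    split_ifs
    · exact zero_le_real.2 (by positivity)
    · exact le_rfl

theorem top_le {w : ℝ} (hw : 0 ≤ w) {ρ : Matrix (Box n K) (Box n K) ℂ} (hρ : ρ.PosSemidef)
    (j : Fin n) : w ^ K * ex ρ (top n K j) ≤ ((K : ℝ) + 1) * ex ρ (pen n K w) := by
  have h1 : top n K j = diagonal fun k => (((if emb k j = K then (K : ℝ) + 1 else 0 : ℝ) : ℝ) : ℂ) := by
    rw [top]
    congr 1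
    funext k
    split_ifs <;> simp
  rw [h1, pen, ex_diagonal, ex_diagonal, Finset.mul_sum, Finset.mul_sum]
  refine Finset.sum_le_sum fun k _ => ?_
  have h2 := re_nonneg_boxl hρ k
  have h3 := Finset.single_le_sum (f := fun i => w ^ emb k i) (fun _ _ => by positivity)
    (Finset.mem_univ j)
  split_ifs with h
  · rw [h] at h3
    calc w ^ K * ((ρ k k).re * ((K : ℝ) + 1)) = ((K : ℝ) + 1) * ((ρ k k).re * w ^ K) := by ring
      _ ≤ _ := by gcongr
  · rw [mul_zero, mul_zero]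
    positivity

theorem Dpen_le {N w : ℝ} (hN : 0 < N) (hw : 1 ≤ w) (hNw : N * w ≤ N + 1 / 2) :
    ∃ C : ℝ, 0 ≤ C ∧ ∀ (n K : ℕ) (j : Fin n) (x ε : ℝ) (ρ : Matrix (Box n K) (Box n K) ℂ),
      0 ≤ ε → IsState ρ →
        Dpen N x ρ (low n K j) ((x : ℂ) • nrg n K + (ε : ℂ) • pen n K w) ≤ ε * C := by
  have hw0 : 0 ≤ w - 1 := sub_nonneg.2 hw
  refine ⟨w ^ ⌈2 * N⌉₊ * (w - 1) * N, by positivity, fun n K j x ε ρ hε hρ => ?_⟩
  have h1 : (x : ℂ) • nrg n K + (ε : ℂ) • pen n K w = diagonal fun k : Box n K =>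
      (fun y : Occ n => ((x * ∑ i, (y i : ℝ) + ε * ∑ i, w ^ y i : ℝ) : ℂ)) (emb k) := by
    rw [nrg, pen, ← diagonal_smul, ← diagonal_smul, diagonal_add]
    congr 1
    funext k
    simp
  have h2 : low n K j * ((x : ℂ) • nrg n K + (ε : ℂ) • pen n K w) -
      ((x : ℂ) • nrg n K + (ε : ℂ) • pen n K w) * low n K j - (x : ℂ) • low n K j =
      diagonal (fun k : Box n K => ((ε * (w ^ (emb k j + 1) - w ^ emb k j) : ℝ) : ℂ)) *
        low n K j := by
    rw [h1, low_mul_diag_boxl j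
      fun y : Occ n => ((x * ∑ i, (y i : ℝ) + ε * ∑ i, w ^ y i : ℝ) : ℂ), smul_eq_diagonal_mul, ← Matrix.sub_mul, ← Matrix.sub_mul,
      diagonal_sub, diagonal_sub]
    congr 2
    funext k
    rw [← ofReal_sub, ← ofReal_sub, ← Finset.add_sum_erase _ _ (Finset.mem_univ j),
      ← Finset.add_sum_erase _ _ (Finset.mem_univ j),
      ← Finset.add_sum_erase _ (fun i => (emb k i : ℝ)) (Finset.mem_univ j),
      ← Finset.add_sum_erase _ (fun i => w ^ emb k i) (Finset.mem_univ j)]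
    have h3 : ∀ i ∈ Finset.univ.erase j, (emb k + Pi.single j 1 : Occ n) i = emb k i :=
      fun i hi => by simp [Finset.ne_of_mem_erase hi]
    rw [Finset.sum_congr rfl fun i hi => congrArg (fun t : ℕ => (t : ℝ)) (h3 i hi),
      Finset.sum_congr rfl fun i hi => congrArg (fun t : ℕ => w ^ t) (h3 i hi)]
    simp only [Pi.add_apply, Pi.single_eq_same]
    push_cast
    ring
  have h4 := low_mul_diag_boxl (K := K) j
    fun y : Occ n => ((ε * (w ^ y j - w ^ (y j - 1)) : ℝ) : ℂ)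
  simp only [Pi.add_apply, Pi.single_eq_same, Nat.add_sub_cancel] at h4
  have h5 : Dpen N x ρ (low n K j) ((x : ℂ) • nrg n K + (ε : ℂ) • pen n K w) =
      N * ex ρ (diagonal (fun k : Box n K => ((ε * (w ^ (emb k j + 1) - w ^ emb k j) : ℝ) : ℂ)) *
        (low n K j * (low n K j)ᴴ)) - (N + 1) * ex ρ ((low n K j)ᴴ * low n K j *
        diagonal fun k : Box n K => ((ε * (w ^ emb k j - w ^ (emb k j - 1)) : ℝ) : ℂ)) := by
    rw [Dpen, h2, Psi, conjTranspose_sub, conjTranspose_smul, conjTranspose_smul, conjTranspose_mul,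
      conjTranspose_mul, hρ.1.isHermitian.eq, Matrix.sub_mul, Matrix.smul_mul, Matrix.smul_mul,
      trace_sub, trace_smul, trace_smul, Matrix.mul_assoc _ (low n K j), h4, ex, ex,
      Matrix.mul_assoc _ ρ, trace_mul_comm (low n K j)ᴴ]
    simp only [Matrix.mul_assoc, RCLike.star_def, conj_ofReal, smul_eq_mul, sub_re, re_ofReal_mul]
  rw [h5, low_lowH_boxl, lowH_low, diagonal_mul_diagonal, diagonal_mul_diagonal]
  simp only [← ofReal_mul]
  rw [ex_diagonal, ex_diagonal, Finset.mul_sum, Finset.mul_sum, ← Finset.sum_sub_distrib]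
  refine le_trans (le_of_eq (Finset.sum_congr rfl fun k _ => ?_)) (ex_diag_le_boxl hρ
    fun k _ => mul_le_mul_of_nonneg_left (scal_boxl hN hw hNw K (emb k j)) hε)
  ring

theorem gibbs {N : ℝ} (hN : 0 < N) {ρ : Matrix (Box n K) (Box n K) ℂ} (hρ : IsState ρ) :
    ent ρ ≤ bet N * ex ρ (nrg n K) + n * Real.log (1 + N) := by
  refine (ent_le_diag_one hρ.1).trans ((Finset.sum_le_sum fun k _ =>
    negMulLog_le_tangent (re_nonneg_boxl hρ.1 k) (therm_pos hN (emb k))).trans ?_)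
  have h1 : ∑ k : Box n K, therm N (emb k) ≤ 1 := by
    rw [sum_box]
    exact sum_le_hasSum _ (fun y _ => (therm_pos hN y).le) (hasSum_therm hN)
  have h2 : ∀ k : Box n K, -(ρ k k).re * Real.log (therm N (emb k)) =
      bet N * ((ρ k k).re * ∑ j, (emb k j : ℝ)) + (ρ k k).re * (n * Real.log (1 + N)) := fun k => by
    rw [neg_mul_comm, neg_log_therm hN]
    ring
  rw [nrg, ex_diagonal, Finset.sum_sub_distrib, Finset.sum_add_distrib, re_sum_boxl hρ]
  simp only [h2]
  rw [Finset.sum_add_distrib, ← Finset.mul_sum, ← Finset.sum_mul, re_sum_boxl hρ]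
  linarith

theorem exists_vac (n K : ℕ) (w : ℝ) : ∃ ρ : Matrix (Box n K) (Box n K) ℂ,
    IsState ρ ∧ ex ρ (nrg n K) = 0 ∧ ex ρ (pen n K w) = n := by
  have h0 : ∀ j, emb (0 : Box n K) j = 0 := fun _ => rfl
  refine ⟨diagonal fun k => if k = 0 then 1 else 0, ⟨PosSemidef.diagonal fun k => ?_, by simp⟩,
    ?_, ?_⟩
  · show (0 : ℂ) ≤ if k = 0 then 1 else 0
    split_ifs
    · exact zero_le_one
    · exact le_rfl
  · rw [nrg, ex_diagonal, Finset.sum_eq_single 0 (fun k _ h => by simp [h]) (by simp)]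
    simp [h0]
  · rw [pen, ex_diagonal, Finset.sum_eq_single 0 (fun k _ h => by simp [h]) (by simp)]
    simp [h0]

theorem ex_le_of_supp {ρ : Matrix (Box n K) (Box n K) ℂ} (hρ : IsState ρ) {m : ℕ}
    (hs : ∀ k, (∃ i, m < emb k i) → ρ k k = 0) {w : ℝ} (hw : 1 ≤ w) :
    ex ρ (nrg n K) ≤ n * m ∧ ex ρ (pen n K w) ≤ n * w ^ m := by
  have h1 : ∀ k, ρ k k ≠ 0 → ∀ i, emb k i ≤ m := fun k hk i =>
    not_lt.1 fun h => hk (hs k ⟨i, h⟩)
  rw [nrg, pen, ex_diagonal, ex_diagonal]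
  refine ⟨ex_diag_le_boxl hρ fun k hk => ?_, ex_diag_le_boxl hρ fun k hk => ?_⟩
  · simpa using Finset.sum_le_card_nsmul Finset.univ (fun i => (emb k i : ℝ)) m
      fun i _ => by exact_mod_cast h1 k hk i
  · simpa using Finset.sum_le_card_nsmul Finset.univ (fun i => w ^ emb k i) (w ^ m)
      fun i _ => pow_le_pow_right₀ hw (h1 k hk i)

end Vale.Agent.P369
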