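import Vale.Agent.P369.Ent

/-! P369 task Chan: partial trace, the maps `Phi`, `Gam`, `piA`, `piB`, and the GNS contraction.
Plan. `trace_ptr_mul`: unfold, `Fintype.sum_prod_type`, `kroneckerMap_apply`, `one_apply`.
`ptr_psd`: `ptr X = ∑ l, X.submatrix (·, l) (·, l)` (`PosSemidef.submatrix`, `posSemidef_sum`).
`gam_schwarz`: with `Y' = Y ⊗ₖ 1`, `P = 1 - V Vᴴ` is a Hermitian idempotent and
`Gam (Y Yᴴ) - Gam Y (Gam Y)ᴴ = (P Y'ᴴ V)ᴴ (P Y'ᴴ V)`.
`gns`: `W = A ⊗ₖ B`, `m = Tr (W M)`, `M' = M - m 1`, `Z = cenA ⊗ₖ 1 + 1 ⊗ₖ cenB`;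
`Tr (A cenA) = 0 = Tr (B cenB)`; `0 ≤ ex W ((M' - Z)(M' - Z)ᴴ)`;
`Tr (W M' (cenAᴴ ⊗ₖ 1)) = Tr (((cenAᴴ A) ⊗ₖ B) M') = Tr (cenAᴴ A cenA)` (`trace_kron_piA`),
`ex W (Z Zᴴ) = ex A (cenA cenAᴴ) + ex B (cenB cenBᴴ)` (`trace_kronecker`, cross terms vanish), and
`ex W (M' M'ᴴ) = ex W (M Mᴴ) - |m|²`.
`gns_row`: `gns` for `M = Gam V Y`, `gam_schwarz`, `trace_Phi_mul`, and
`(1-θ) ex σ X ≤ ex (out ..) X` for `X ≥ 0`. `gns_col`: `gns_row` for `Yᴴ` with `cenA_conjTranspose`. -/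

namespace Vale.Agent.P369

open Matrix Vale.Agent.P358 Complex
open scoped ComplexOrder Kronecker

set_option linter.unusedSectionVars false

variable {α β γ δ ω : Type} [Fintype α] [Fintype β] [Fintype γ] [Fintype δ] [Fintype ω]
  [DecidableEq α] [DecidableEq β] [DecidableEq γ] [DecidableEq δ] [DecidableEq ω]

theorem ptr_add (X Y : Matrix (γ × δ) (γ × δ) ℂ) : ptr (X + Y) = ptr X + ptr Y := by
  ext k k'
  simp [ptr, Finset.sum_add_distrib]

theorem ptr_sub (X Y : Matrix (γ × δ) (γ × δ) ℂ) : ptr (X - Y) = ptr X - ptr Y := by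
  ext k k'
  simp [ptr, Finset.sum_sub_distrib]

theorem ptr_smul (z : ℂ) (X : Matrix (γ × δ) (γ × δ) ℂ) : ptr (z • X) = z • ptr X := by
  ext k k'
  simp [ptr, Finset.mul_sum]

theorem ptr_conjTranspose (X : Matrix (γ × δ) (γ × δ) ℂ) : ptr Xᴴ = (ptr X)ᴴ := by
  ext k k'
  simp [ptr, conjTranspose_apply]

theorem ptr_kron_mul (X : Matrix (γ × δ) (γ × δ) ℂ) (c : Matrix γ γ ℂ) :
    ptr ((c ⊗ₖ (1 : Matrix δ δ ℂ)) * X) = c * ptr X := by
  ext k k'
  simp only [ptr, of_apply, mul_apply, Fintype.sum_prod_type, kroneckerMap_apply, one_apply,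
    mul_ite, ite_mul, mul_one, mul_zero, zero_mul, Finset.sum_ite_eq, Finset.mem_univ, if_true,
    Finset.mul_sum]
  exact Finset.sum_comm

theorem ptr_mul_kron (X : Matrix (γ × δ) (γ × δ) ℂ) (c : Matrix γ γ ℂ) :
    ptr (X * (c ⊗ₖ (1 : Matrix δ δ ℂ))) = ptr X * c := by
  ext k k'
  simp only [ptr, of_apply, mul_apply, Fintype.sum_prod_type, kroneckerMap_apply, one_apply,
    mul_ite, mul_one, mul_zero, Finset.sum_ite_eq', Finset.mem_univ, if_true, Finset.sum_mul]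
  exact Finset.sum_comm

theorem trace_ptr_chan (X : Matrix (γ × δ) (γ × δ) ℂ) : (ptr X).trace = X.trace := by
  simp only [trace, diag_apply, ptr, of_apply, Fintype.sum_prod_type]

theorem trace_ptr_mul (X : Matrix (γ × δ) (γ × δ) ℂ) (Y : Matrix γ γ ℂ) :
    (ptr X * Y).trace = (X * (Y ⊗ₖ (1 : Matrix δ δ ℂ))).trace := by
  rw [← ptr_mul_kron, trace_ptr_chan]

theorem ptr_cyc (X : Matrix (γ × δ) (γ × δ) ℂ) (d : Matrix δ δ ℂ) :
    ptr (((1 : Matrix γ γ ℂ) ⊗ₖ d) * X) = ptr (X * ((1 : Matrix γ γ ℂ) ⊗ₖ d)) := by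
  ext k k'
  simp only [ptr, of_apply, mul_apply, Fintype.sum_prod_type, kroneckerMap_apply, one_apply,
    mul_ite, ite_mul, one_mul, mul_zero, zero_mul, Finset.sum_ite_irrel, Finset.sum_const_zero,
    Finset.sum_ite_eq, Finset.sum_ite_eq', Finset.mem_univ, if_true]
  rw [Finset.sum_comm]
  simp only [mul_comm]

theorem ptr_psd {X : Matrix (γ × δ) (γ × δ) ℂ} (hX : X.PosSemidef) : (ptr X).PosSemidef := by
  have e : ptr X = ∑ l, X.submatrix (fun k => (k, l)) fun k => (k, l) := by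
    ext k k'
    simp [ptr, Matrix.sum_apply]
  rw [e]
  exact posSemidef_sum _ fun l _ => hX.submatrix _

theorem Phi_add (V : Matrix (γ × δ) ω ℂ) (X Y : Matrix ω ω ℂ) :
    Phi V (X + Y) = Phi V X + Phi V Y := by
  simp only [Phi, Matrix.mul_add, Matrix.add_mul, ptr_add]

theorem Phi_sub (V : Matrix (γ × δ) ω ℂ) (X Y : Matrix ω ω ℂ) :
    Phi V (X - Y) = Phi V X - Phi V Y := by
  simp only [Phi, Matrix.mul_sub, Matrix.sub_mul, ptr_sub]

theorem Phi_smul (V : Matrix (γ × δ) ω ℂ) (z : ℂ) (X : Matrix ω ω ℂ) :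
    Phi V (z • X) = z • Phi V X := by
  simp only [Phi, Matrix.mul_smul, Matrix.smul_mul, ptr_smul]

theorem Phi_conjTranspose (V : Matrix (γ × δ) ω ℂ) (X : Matrix ω ω ℂ) :
    Phi V Xᴴ = (Phi V X)ᴴ := by
  simp only [Phi, ← ptr_conjTranspose, conjTranspose_mul, conjTranspose_conjTranspose,
    Matrix.mul_assoc]

theorem trace_Phi_mul (V : Matrix (γ × δ) ω ℂ) (X : Matrix ω ω ℂ) (Y : Matrix γ γ ℂ) :
    (Phi V X * Y).trace = (X * Gam V Y).trace := by
  rw [Phi, trace_ptr_mul, Gam, Matrix.mul_assoc, Matrix.mul_assoc, trace_mul_comm]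
  simp only [Matrix.mul_assoc]

theorem trace_Phi {V : Matrix (γ × δ) ω ℂ} (hV : Vᴴ * V = 1) (X : Matrix ω ω ℂ) :
    (Phi V X).trace = X.trace := by
  rw [Phi, trace_ptr_chan, trace_mul_comm, ← Matrix.mul_assoc, hV, Matrix.one_mul]

theorem Phi_psd (V : Matrix (γ × δ) ω ℂ) {X : Matrix ω ω ℂ} (hX : X.PosSemidef) :
    (Phi V X).PosSemidef := ptr_psd (hX.mul_mul_conjTranspose_same V)

theorem Phi_state {V : Matrix (γ × δ) ω ℂ} (hV : Vᴴ * V = 1) {X : Matrix ω ω ℂ}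
    (hX : IsState X) : IsState (Phi V X) := ⟨Phi_psd V hX.1, (trace_Phi hV X).trans hX.2⟩

theorem out_state [Nonempty γ] {V : Matrix (γ × δ) (α × β) ℂ} (hV : Vᴴ * V = 1) {θ : ℝ}
    (h0 : 0 ≤ θ) (h1 : θ ≤ 1) {A : Matrix α α ℂ} {B : Matrix β β ℂ} (hA : IsState A)
    (hB : IsState B) : IsState (out V θ A B) := by
  have h := Phi_state hV (kron_state hA hB)
  refine ⟨(h.1.smul (zero_le_real.mpr (sub_nonneg.mpr h1))).add
    (PosSemidef.one.smul (zero_le_real.mpr (by positivity))), ?_⟩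
  have hc : (Fintype.card γ : ℂ) ≠ 0 := Nat.cast_ne_zero.mpr Fintype.card_ne_zero
  rw [out, trace_add, trace_smul, trace_smul, h.2, trace_one, smul_eq_mul, smul_eq_mul]
  push_cast
  field_simp
  ring

theorem ex_Phi_le_out (V : Matrix (γ × δ) (α × β) ℂ) {θ : ℝ} (h0 : 0 ≤ θ) (A : Matrix α α ℂ)
    (B : Matrix β β ℂ) {X : Matrix γ γ ℂ} (hX : X.PosSemidef) :
    (1 - θ) * ex (Phi V (A ⊗ₖ B)) X ≤ ex (out V θ A B) X := by
  rw [out, ex_add_left, ex_smul_left, ex_smul_left]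
  exact le_add_of_nonneg_right (mul_nonneg (by positivity) (ex_nonneg PosSemidef.one hX))

theorem Gam_add (V : Matrix (γ × δ) ω ℂ) (X Y : Matrix γ γ ℂ) :
    Gam V (X + Y) = Gam V X + Gam V Y := by
  simp only [Gam, add_kronecker, Matrix.mul_add, Matrix.add_mul]

theorem Gam_smul (V : Matrix (γ × δ) ω ℂ) (z : ℂ) (X : Matrix γ γ ℂ) :
    Gam V (z • X) = z • Gam V X := by
  simp only [Gam, smul_kronecker, Matrix.mul_smul, Matrix.smul_mul]

theorem Gam_conjTranspose (V : Matrix (γ × δ) ω ℂ) (X : Matrix γ γ ℂ) :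
    Gam V Xᴴ = (Gam V X)ᴴ := by
  simp only [Gam, conjTranspose_mul, conjTranspose_conjTranspose, conjTranspose_kronecker,
    conjTranspose_one, Matrix.mul_assoc]

theorem gam_schwarz {V : Matrix (γ × δ) ω ℂ} (hV : Vᴴ * V = 1) (Y : Matrix γ γ ℂ) :
    (Gam V (Y * Yᴴ) - Gam V Y * (Gam V Y)ᴴ).PosSemidef := by
  have e1 : (1 - V * Vᴴ)ᴴ * (1 - V * Vᴴ) = 1 - V * Vᴴ := by
    rw [conjTranspose_sub, conjTranspose_one, conjTranspose_mul, conjTranspose_conjTranspose,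
      Matrix.sub_mul, Matrix.one_mul, Matrix.mul_sub, Matrix.mul_one, Matrix.mul_assoc,
      ← Matrix.mul_assoc Vᴴ, hV, Matrix.one_mul, sub_self, sub_zero]
  have h1 : (1 - V * Vᴴ).PosSemidef := e1 ▸ posSemidef_conjTranspose_mul_self _
  have e2 : (Y * Yᴴ) ⊗ₖ (1 : Matrix δ δ ℂ) =
      (Y ⊗ₖ (1 : Matrix δ δ ℂ)) * (Y ⊗ₖ (1 : Matrix δ δ ℂ))ᴴ := by
    rw [conjTranspose_kronecker, ← mul_kronecker_mul, conjTranspose_one, Matrix.one_mul]
  have h2 := h1.conjTranspose_mul_mul_same ((Y ⊗ₖ (1 : Matrix δ δ ℂ))ᴴ * V)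
  simp only [Gam, e2, conjTranspose_mul, conjTranspose_conjTranspose, Matrix.mul_sub,
    Matrix.sub_mul, Matrix.mul_one, Matrix.one_mul, Matrix.mul_assoc] at h2 ⊢
  exact h2

theorem trace_kron_piA (X : Matrix α α ℂ) (B : Matrix β β ℂ) (M : Matrix (α × β) (α × β) ℂ) :
    ((X ⊗ₖ B) * M).trace = (X * piA B M).trace := by
  simp only [trace, diag_apply, mul_apply, Fintype.sum_prod_type, kroneckerMap_apply, piA, of_apply,
    Finset.mul_sum, mul_assoc]
  refine Finset.sum_congr rfl fun i _ => ?_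
  rw [Finset.sum_comm]
  exact Finset.sum_congr rfl fun k _ => Finset.sum_comm

theorem trace_kron_piB (A : Matrix α α ℂ) (X : Matrix β β ℂ) (M : Matrix (α × β) (α × β) ℂ) :
    ((A ⊗ₖ X) * M).trace = (X * piB A M).trace := by
  simp only [trace, diag_apply, mul_apply, Fintype.sum_prod_type, kroneckerMap_apply, piB, of_apply,
    Finset.mul_sum, mul_assoc, mul_left_comm (A _ _)]
  rw [Finset.sum_comm]
  refine Finset.sum_congr rfl fun j _ => ?_
  rw [Finset.sum_congr rfl fun i _ => Finset.sum_comm, Finset.sum_comm]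
  exact Finset.sum_congr rfl fun l _ => Finset.sum_comm

theorem cenA_add (A : Matrix α α ℂ) (B : Matrix β β ℂ) (M M' : Matrix (α × β) (α × β) ℂ) :
    cenA A B (M + M') = cenA A B M + cenA A B M' := by
  ext i k
  simp only [cenA, piA, Matrix.mul_add, trace_add, add_smul, Matrix.sub_apply, Matrix.add_apply,
    of_apply, mul_add, Finset.sum_add_distrib]
  ring

theorem cenB_add (A : Matrix α α ℂ) (B : Matrix β β ℂ) (M M' : Matrix (α × β) (α × β) ℂ) :
    cenB A B (M + M') = cenB A B M + cenB A B M' := by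
  ext i k
  simp only [cenB, piB, Matrix.mul_add, trace_add, add_smul, Matrix.sub_apply, Matrix.add_apply,
    of_apply, mul_add, Finset.sum_add_distrib]
  ring

theorem cenA_smul (A : Matrix α α ℂ) (B : Matrix β β ℂ) (z : ℂ) (M : Matrix (α × β) (α × β) ℂ) :
    cenA A B (z • M) = z • cenA A B M := by
  ext i k
  simp only [cenA, piA, Matrix.mul_smul, trace_smul, Matrix.sub_apply, Matrix.smul_apply,
    of_apply, smul_eq_mul, mul_sub, Finset.mul_sum, mul_assoc, mul_left_comm z]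

theorem cenB_smul (A : Matrix α α ℂ) (B : Matrix β β ℂ) (z : ℂ) (M : Matrix (α × β) (α × β) ℂ) :
    cenB A B (z • M) = z • cenB A B M := by
  ext i k
  simp only [cenB, piB, Matrix.mul_smul, trace_smul, Matrix.sub_apply, Matrix.smul_apply,
    of_apply, smul_eq_mul, mul_sub, Finset.mul_sum, mul_assoc, mul_left_comm z]

theorem trace_star_chan {W : Matrix ω ω ℂ} (hW : W.IsHermitian) (M : Matrix ω ω ℂ) :
    (W * Mᴴ).trace = star (W * M).trace := by
  rw [← trace_conjTranspose, conjTranspose_mul, hW.eq, trace_mul_comm]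

theorem kron_herm_chan {A : Matrix α α ℂ} {B : Matrix β β ℂ} (hA : A.IsHermitian)
    (hB : B.IsHermitian) : (A ⊗ₖ B).IsHermitian := by
  rw [IsHermitian, conjTranspose_kronecker, hA.eq, hB.eq]

theorem cenA_conjTranspose {A : Matrix α α ℂ} {B : Matrix β β ℂ} (hA : A.IsHermitian)
    (hB : B.IsHermitian) (M : Matrix (α × β) (α × β) ℂ) : cenA A B Mᴴ = (cenA A B M)ᴴ := by
  rw [cenA, cenA, trace_star_chan (kron_herm_chan hA hB), conjTranspose_sub, conjTranspose_smul,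
    conjTranspose_one]
  refine congrArg (· - _) ?_
  ext i k
  simp only [piA, of_apply, conjTranspose_apply, star_sum, star_mul', hB.apply]
  exact Finset.sum_comm

theorem cenB_conjTranspose {A : Matrix α α ℂ} {B : Matrix β β ℂ} (hA : A.IsHermitian)
    (hB : B.IsHermitian) (M : Matrix (α × β) (α × β) ℂ) : cenB A B Mᴴ = (cenB A B M)ᴴ := by
  rw [cenB, cenB, trace_star_chan (kron_herm_chan hA hB), conjTranspose_sub, conjTranspose_smul,
    conjTranspose_one]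
  refine congrArg (· - _) ?_
  ext i k
  simp only [piB, of_apply, conjTranspose_apply, star_sum, star_mul', hA.apply]
  exact Finset.sum_comm

theorem trace_cenA {A : Matrix α α ℂ} (hA : A.trace = 1) (B : Matrix β β ℂ)
    (M : Matrix (α × β) (α × β) ℂ) : (A * cenA A B M).trace = 0 := by
  rw [cenA, Matrix.mul_sub, trace_sub, Matrix.mul_smul, Matrix.mul_one, trace_smul, hA,
    trace_kron_piA, smul_eq_mul, mul_one, sub_self]

theorem trace_cenB (A : Matrix α α ℂ) {B : Matrix β β ℂ} (hB : B.trace = 1)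
    (M : Matrix (α × β) (α × β) ℂ) : (B * cenB A B M).trace = 0 := by
  rw [cenB, Matrix.mul_sub, trace_sub, Matrix.mul_smul, Matrix.mul_one, trace_smul, hB,
    trace_kron_piB, smul_eq_mul, mul_one, sub_self]

theorem trace_mul_cenA (A : Matrix α α ℂ) (B : Matrix β β ℂ) (M : Matrix (α × β) (α × β) ℂ)
    {X : Matrix α α ℂ} (hX : X.trace = 0) :
    (X * cenA A B M).trace = ((X ⊗ₖ B) * M).trace := by
  rw [cenA, Matrix.mul_sub, trace_sub, Matrix.mul_smul, Matrix.mul_one, trace_smul, hX,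
    trace_kron_piA X, smul_zero, sub_zero]

theorem trace_mul_cenB (A : Matrix α α ℂ) (B : Matrix β β ℂ) (M : Matrix (α × β) (α × β) ℂ)
    {X : Matrix β β ℂ} (hX : X.trace = 0) :
    (X * cenB A B M).trace = ((A ⊗ₖ X) * M).trace := by
  rw [cenB, Matrix.mul_sub, trace_sub, Matrix.mul_smul, Matrix.mul_one, trace_smul, hX,
    trace_kron_piB A X, smul_zero, sub_zero]

theorem ex_proj_chan {W : Matrix ω ω ℂ} (hW : W.PosSemidef) {M Z : Matrix ω ω ℂ}
    (h : ex W (M * Zᴴ) = ex W (Z * Zᴴ)) : ex W (Z * Zᴴ) ≤ ex W (M * Mᴴ) := by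
  have h1 := ex_nonneg hW (posSemidef_self_mul_conjTranspose (M - Z))
  have h2 : ex W (Z * Mᴴ) = ex W (M * Zᴴ) := by
    have h3 := trace_star_chan hW.1 (M * Zᴴ)
    rw [conjTranspose_mul, conjTranspose_conjTranspose] at h3
    rw [ex, h3, ex, RCLike.star_def, conj_re]
  rw [conjTranspose_sub, Matrix.sub_mul, Matrix.mul_sub, Matrix.mul_sub, ex_sub, ex_sub,
    ex_sub] at h1
  linarith

theorem gns {A : Matrix α α ℂ} {B : Matrix β β ℂ} (hA : IsState A) (hB : IsState B)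
    (M : Matrix (α × β) (α × β) ℂ) :
    ex A (cenA A B M * (cenA A B M)ᴴ) + ex B (cenB A B M * (cenB A B M)ᴴ)
      ≤ ex (A ⊗ₖ B) (M * Mᴴ) := by
  have a0 := trace_cenA hA.2 B M
  have b0 := trace_cenB A hB.2 M
  have a1 : (A * (cenA A B M)ᴴ).trace = 0 := by rw [trace_star_chan hA.1.1, a0, star_zero]
  have b1 : (B * (cenB A B M)ᴴ).trace = 0 := by rw [trace_star_chan hB.1.1, b0, star_zero]
  have a2 := trace_mul_cenA A B M (X := (cenA A B M)ᴴ * A) (by rw [trace_mul_comm, a1])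
  have b2 := trace_mul_cenB A B M (X := (cenB A B M)ᴴ * B) (by rw [trace_mul_comm, b1])
  generalize cenA A B M = a at *
  generalize cenB A B M = b at *
  have e1 : ex (A ⊗ₖ B) ((a ⊗ₖ (1 : Matrix β β ℂ) + (1 : Matrix α α ℂ) ⊗ₖ b) *
      (a ⊗ₖ (1 : Matrix β β ℂ) + (1 : Matrix α α ℂ) ⊗ₖ b)ᴴ) = ex A (a * aᴴ) + ex B (b * bᴴ) := by
    simp only [ex, conjTranspose_add, conjTranspose_kronecker, conjTranspose_one, Matrix.mul_add,
      Matrix.add_mul, ← mul_kronecker_mul, Matrix.mul_one, Matrix.one_mul, trace_add,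
      trace_kronecker, a0, b0, hA.2, hB.2, mul_one, one_mul, mul_zero, zero_mul, add_zero, zero_add,
      add_re]
  have e2 : ex (A ⊗ₖ B) (M * (a ⊗ₖ (1 : Matrix β β ℂ) + (1 : Matrix α α ℂ) ⊗ₖ b)ᴴ) =
      ex A (a * aᴴ) + ex B (b * bᴴ) := by
    rw [ex, ← Matrix.mul_assoc, trace_mul_comm, ← Matrix.mul_assoc]
    simp only [conjTranspose_add, conjTranspose_kronecker, conjTranspose_one, Matrix.add_mul,
      ← mul_kronecker_mul, Matrix.one_mul, trace_add, add_re, ← a2, ← b2]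
    rw [ex, ex, Matrix.mul_assoc, Matrix.mul_assoc, trace_mul_comm aᴴ, trace_mul_comm bᴴ,
      Matrix.mul_assoc, Matrix.mul_assoc]
  rw [← e1]
  exact ex_proj_chan (kron_state hA hB).1 (e2.trans e1.symm)

theorem gns_row {V : Matrix (γ × δ) (α × β) ℂ} (hV : Vᴴ * V = 1) {θ : ℝ} (h0 : 0 ≤ θ)
    (h1 : θ ≤ 1) {A : Matrix α α ℂ} {B : Matrix β β ℂ} (hA : IsState A) (hB : IsState B)
    (Y : Matrix γ γ ℂ) :
    (1 - θ) * (ex A (cenA A B (Gam V Y) * (cenA A B (Gam V Y))ᴴ)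
        + ex B (cenB A B (Gam V Y) * (cenB A B (Gam V Y))ᴴ)) ≤ ex (out V θ A B) (Y * Yᴴ) := by
  refine le_trans (mul_le_mul_of_nonneg_left ((gns hA hB _).trans ?_) (sub_nonneg.mpr h1))
    (ex_Phi_le_out V h0 A B (posSemidef_self_mul_conjTranspose Y))
  have h2 := ex_nonneg (kron_state hA hB).1 (gam_schwarz hV Y)
  rw [ex_sub, sub_nonneg] at h2
  rw [ex, ex, trace_Phi_mul]
  exact h2

theorem gns_col {V : Matrix (γ × δ) (α × β) ℂ} (hV : Vᴴ * V = 1) {θ : ℝ} (h0 : 0 ≤ θ)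
    (h1 : θ ≤ 1) {A : Matrix α α ℂ} {B : Matrix β β ℂ} (hA : IsState A) (hB : IsState B)
    (Y : Matrix γ γ ℂ) :
    (1 - θ) * (ex A ((cenA A B (Gam V Y))ᴴ * cenA A B (Gam V Y))
        + ex B ((cenB A B (Gam V Y))ᴴ * cenB A B (Gam V Y))) ≤ ex (out V θ A B) (Yᴴ * Y) := by
  have h := gns_row hV h0 h1 hA hB Yᴴ
  rwa [Gam_conjTranspose, cenA_conjTranspose hA.1.1 hB.1.1, cenB_conjTranspose hA.1.1 hB.1.1,
    conjTranspose_conjTranspose, conjTranspose_conjTranspose, conjTranspose_conjTranspose] at h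

end Vale.Agent.P369
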