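import Vale.Agent.P369.Chan

/-! P369 task ChanM: consequences of the one-mode relations `Mode`.
Plan. Write `a₁ = a ⊗ₖ 1`, `b₁ = 1 ⊗ₖ b`, `c₁ = c ⊗ₖ 1`, `d₁ = 1 ⊗ₖ d`, `x = √η`, `y = √(1-η)`,
`x² + y² = 1`. `lowC`: `x lowA + y lowB`. For any `Z` on `α × β`:
`V (a₁ Z) Vᴴ = (x c₁ - y d₁) V Z Vᴴ` and `V (Z a₁) Vᴴ = V Z Vᴴ (x c₁ - y d₁) - V Z LAᴴ` (`upA`);
apply `ptr` (`ptr_kron_mul`, `ptr_mul_kron`, `ptr_cyc`). `(Y a) ⊗ₖ B = (Y ⊗ₖ B) a₁`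
(`mul_kronecker_mul`). In `psi_rel` the `d₁` terms are
`x y (Nb - Na) (ptr (X d₁) - ptr (d₁ X)) = 0` with `X = V (A ⊗ₖ B) Vᴴ`.
`trace_Phi_c`, `energy`: `Gam V c = x a₁ + y b₁`, `Gam V (cᴴ c) = (x a₁ + y b₁)ᴴ (x a₁ + y b₁)`
(`lowC`, `hV`), `trace_Phi_mul`, `trace_kronecker`. -/

namespace Vale.Agent.P369

open Matrix Vale.Agent.P358 Complex
open scoped ComplexOrder Kronecker

set_option linter.unusedSectionVars false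

variable {α β γ δ : Type} [Fintype α] [Fintype β] [Fintype γ] [Fintype δ]
  [DecidableEq α] [DecidableEq β] [DecidableEq γ] [DecidableEq δ]
  {V LA LB : Matrix (γ × δ) (α × β) ℂ} {η : ℝ} {a : Matrix α α ℂ} {b : Matrix β β ℂ}
  {c : Matrix γ γ ℂ} {d : Matrix δ δ ℂ}

theorem left_chanm {ω : Type} [Fintype ω] [DecidableEq ω] {V : Matrix (γ × δ) ω ℂ}
    {a₁ : Matrix ω ω ℂ} {M : Matrix (γ × δ) (γ × δ) ℂ} (h : V * a₁ = M * V) (Z : Matrix ω ω ℂ) :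
    Phi V (a₁ * Z) = ptr (M * (V * Z * Vᴴ)) := by
  rw [Phi, ← Matrix.mul_assoc, h]
  simp only [Matrix.mul_assoc]

theorem right_chanm {ω : Type} [Fintype ω] [DecidableEq ω] {V L : Matrix (γ × δ) ω ℂ}
    {a₁ : Matrix ω ω ℂ} {M : Matrix (γ × δ) (γ × δ) ℂ} (h : Vᴴ * M = a₁ * Vᴴ + Lᴴ)
    (Z : Matrix ω ω ℂ) : Phi V (Z * a₁) = ptr (V * Z * Vᴴ * M) - ptr (V * Z * Lᴴ) := by
  rw [Phi, Matrix.mul_assoc (V * Z), h, Matrix.mul_add, ptr_add, add_sub_cancel_right]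
  simp only [Matrix.mul_assoc]

theorem sq_chanm {η : ℝ} (h : 0 ≤ η) : ((√η : ℝ) : ℂ) * ((√η : ℝ) : ℂ) = η := by
  rw [← ofReal_mul, Real.mul_self_sqrt h]

namespace Mode

theorem lA_chanm (h : Mode V η a b c d LA LB) (Y : Matrix α α ℂ) (B : Matrix β β ℂ) :
    Phi V ((a * Y) ⊗ₖ B) = ((√η : ℝ) : ℂ) • (c * Phi V (Y ⊗ₖ B)) - ((√(1 - η) : ℝ) : ℂ) •
      ptr (((1 : Matrix γ γ ℂ) ⊗ₖ d) * (V * (Y ⊗ₖ B) * Vᴴ)) := by
  have e := left_chanm h.lowA (Y ⊗ₖ B)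
  rw [← mul_kronecker_mul, Matrix.one_mul] at e
  rw [e, Matrix.sub_mul, Matrix.smul_mul, Matrix.smul_mul, ptr_sub, ptr_smul, ptr_smul,
    ptr_kron_mul, Phi]

theorem rA_chanm (h : Mode V η a b c d LA LB) (Y : Matrix α α ℂ) (B : Matrix β β ℂ) :
    Phi V ((Y * a) ⊗ₖ B) = ((√η : ℝ) : ℂ) • (Phi V (Y ⊗ₖ B) * c) - ((√(1 - η) : ℝ) : ℂ) •
      ptr (((1 : Matrix γ γ ℂ) ⊗ₖ d) * (V * (Y ⊗ₖ B) * Vᴴ)) - ptr (V * (Y ⊗ₖ B) * LAᴴ) := by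
  have e := right_chanm h.upA (Y ⊗ₖ B)
  rw [← mul_kronecker_mul, Matrix.mul_one] at e
  rw [e, Matrix.mul_sub, Matrix.mul_smul, Matrix.mul_smul, ptr_sub, ptr_smul, ptr_smul,
    ptr_mul_kron, ptr_cyc, Phi]

theorem lB_chanm (h : Mode V η a b c d LA LB) (A : Matrix α α ℂ) (Y : Matrix β β ℂ) :
    Phi V (A ⊗ₖ (b * Y)) = ((√(1 - η) : ℝ) : ℂ) • (c * Phi V (A ⊗ₖ Y)) + ((√η : ℝ) : ℂ) •
      ptr (((1 : Matrix γ γ ℂ) ⊗ₖ d) * (V * (A ⊗ₖ Y) * Vᴴ)) := by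
  have e := left_chanm h.lowB (A ⊗ₖ Y)
  rw [← mul_kronecker_mul, Matrix.one_mul] at e
  rw [e, Matrix.add_mul, Matrix.smul_mul, Matrix.smul_mul, ptr_add, ptr_smul, ptr_smul,
    ptr_kron_mul, Phi]

theorem rB_chanm (h : Mode V η a b c d LA LB) (A : Matrix α α ℂ) (Y : Matrix β β ℂ) :
    Phi V (A ⊗ₖ (Y * b)) = ((√(1 - η) : ℝ) : ℂ) • (Phi V (A ⊗ₖ Y) * c) + ((√η : ℝ) : ℂ) •
      ptr (((1 : Matrix γ γ ℂ) ⊗ₖ d) * (V * (A ⊗ₖ Y) * Vᴴ)) - ptr (V * (A ⊗ₖ Y) * LBᴴ) := by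
  have e := right_chanm h.upB (A ⊗ₖ Y)
  rw [← mul_kronecker_mul, Matrix.mul_one] at e
  rw [e, Matrix.mul_add, Matrix.mul_smul, Matrix.mul_smul, ptr_add, ptr_smul, ptr_smul,
    ptr_mul_kron, ptr_cyc, Phi]

theorem lowC (h : Mode V η a b c d LA LB) (h0 : 0 ≤ η) (h1 : η ≤ 1) :
    (c ⊗ₖ (1 : Matrix δ δ ℂ)) * V = V * (((√η : ℝ) : ℂ) • (a ⊗ₖ (1 : Matrix β β ℂ))
      + ((√(1 - η) : ℝ) : ℂ) • ((1 : Matrix α α ℂ) ⊗ₖ b)) := by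
  have e : ((√η : ℝ) : ℂ) * ((√η : ℝ) : ℂ) + ((√(1 - η) : ℝ) : ℂ) * ((√(1 - η) : ℝ) : ℂ) = 1 := by
    rw [sq_chanm h0, sq_chanm (sub_nonneg.2 h1)]
    push_cast
    ring
  rw [Matrix.mul_add, Matrix.mul_smul, Matrix.mul_smul, h.lowA, h.lowB]
  simp only [Matrix.add_mul, Matrix.sub_mul, Matrix.smul_mul]
  match_scalars
  · linear_combination -e
  · ring

theorem commA (h : Mode V η a b c d LA LB) (Y : Matrix α α ℂ) (B : Matrix β β ℂ) :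
    Phi V ((Y * a - a * Y) ⊗ₖ B)
      = ((√η : ℝ) : ℂ) • (Phi V (Y ⊗ₖ B) * c - c * Phi V (Y ⊗ₖ B))
        - ptr (V * (Y ⊗ₖ B) * LAᴴ) := by
  have e : (Y * a - a * Y) ⊗ₖ B = (Y * a) ⊗ₖ B - (a * Y) ⊗ₖ B := by
    ext i j
    simp [sub_mul]
  rw [e, Phi_sub, h.lA_chanm, h.rA_chanm]
  module

theorem commB (h : Mode V η a b c d LA LB) (A : Matrix α α ℂ) (Y : Matrix β β ℂ) :
    Phi V (A ⊗ₖ (Y * b - b * Y))
      = ((√(1 - η) : ℝ) : ℂ) • (Phi V (A ⊗ₖ Y) * c - c * Phi V (A ⊗ₖ Y))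
        - ptr (V * (A ⊗ₖ Y) * LBᴴ) := by
  have e : A ⊗ₖ (Y * b - b * Y) = A ⊗ₖ (Y * b) - A ⊗ₖ (b * Y) := by
    ext i j
    simp [mul_sub]
  rw [e, Phi_sub, h.lB_chanm, h.rB_chanm]
  module

theorem psi_rel (h : Mode V η a b c d LA LB) (h0 : 0 ≤ η) (h1 : η ≤ 1) (Na Nb : ℝ)
    (A : Matrix α α ℂ) (B : Matrix β β ℂ) :
    ((√η : ℝ) : ℂ) • Phi V (Psi Na A a ⊗ₖ B) + ((√(1 - η) : ℝ) : ℂ) • Phi V (A ⊗ₖ Psi Nb B b)
      = Psi (η * Na + (1 - η) * Nb) (Phi V (A ⊗ₖ B)) c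
        - ((√η * Na : ℝ) : ℂ) • ptr (V * (A ⊗ₖ B) * LAᴴ)
        - ((√(1 - η) * Nb : ℝ) : ℂ) • ptr (V * (A ⊗ₖ B) * LBᴴ) := by
  have eA : Psi Na A a ⊗ₖ B
      = (Na : ℂ) • ((A * a) ⊗ₖ B) - ((Na + 1 : ℝ) : ℂ) • ((a * A) ⊗ₖ B) := by
    ext i j
    simp [Psi, sub_mul, mul_assoc]
  have eB : A ⊗ₖ Psi Nb B b
      = (Nb : ℂ) • (A ⊗ₖ (B * b)) - ((Nb + 1 : ℝ) : ℂ) • (A ⊗ₖ (b * B)) := by
    ext i j
    simp [Psi, mul_sub, mul_left_comm]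
  have e1 := sq_chanm h0
  have e2 := sq_chanm (sub_nonneg.2 h1)
  rw [eA, eB, Phi_sub, Phi_sub, Phi_smul, Phi_smul, Phi_smul, Phi_smul, h.lA_chanm, h.rA_chanm,
    h.lB_chanm, h.rB_chanm, Psi]
  push_cast at e2
  match_scalars
  · linear_combination Na * e1 + Nb * e2
  · ring
  · ring
  · linear_combination (-(Na + 1 : ℂ)) * e1 - (Nb + 1 : ℂ) * e2
  · ring

theorem trace_Phi_c (h : Mode V η a b c d LA LB) (hV : Vᴴ * V = 1) (h0 : 0 ≤ η) (h1 : η ≤ 1)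
    (X : Matrix α α ℂ) (Y : Matrix β β ℂ) :
    (Phi V (X ⊗ₖ Y) * c).trace = ((√η : ℝ) : ℂ) * ((X * a).trace * Y.trace)
      + ((√(1 - η) : ℝ) : ℂ) * (X.trace * (Y * b).trace) := by
  rw [trace_Phi_mul, Gam, Matrix.mul_assoc Vᴴ, h.lowC h0 h1, ← Matrix.mul_assoc Vᴴ, hV,
    Matrix.one_mul, Matrix.mul_add, Matrix.mul_smul, Matrix.mul_smul, ← mul_kronecker_mul,
    ← mul_kronecker_mul, Matrix.mul_one, Matrix.mul_one, trace_add, trace_smul, trace_smul,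
    trace_kronecker, trace_kronecker, smul_eq_mul, smul_eq_mul]

theorem energy (h : Mode V η a b c d LA LB) (hV : Vᴴ * V = 1) (h0 : 0 ≤ η) (h1 : η ≤ 1)
    {A : Matrix α α ℂ} {B : Matrix β β ℂ} (hA : IsState A) (hB : IsState B) :
    |ex (Phi V (A ⊗ₖ B)) (cᴴ * c) - (η * ex A (aᴴ * a) + (1 - η) * ex B (bᴴ * b))|
      ≤ η * normSq (A * a).trace + (1 - η) * normSq (B * b).trace := by
  have e : Gam V (cᴴ * c) = ((c ⊗ₖ (1 : Matrix δ δ ℂ)) * V)ᴴ * ((c ⊗ₖ (1 : Matrix δ δ ℂ)) * V) := by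
    rw [Gam, conjTranspose_mul, conjTranspose_kronecker, conjTranspose_one, Matrix.mul_assoc,
      Matrix.mul_assoc, ← Matrix.mul_assoc (cᴴ ⊗ₖ _), ← mul_kronecker_mul, Matrix.mul_one]
  rw [h.lowC h0 h1, conjTranspose_mul, Matrix.mul_assoc, ← Matrix.mul_assoc Vᴴ, hV,
    Matrix.one_mul] at e
  have e1 := Real.mul_self_sqrt h0
  have e2 := Real.mul_self_sqrt (sub_nonneg.2 h1)
  have e3 : ex (Phi V (A ⊗ₖ B)) (cᴴ * c) - (η * ex A (aᴴ * a) + (1 - η) * ex B (bᴴ * b))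
      = 2 * (√η * √(1 - η)) * ((A * a).trace.re * (B * b).trace.re
        + (A * a).trace.im * (B * b).trace.im) := by
    simp only [ex]
    rw [trace_Phi_mul, e]
    simp only [conjTranspose_add, conjTranspose_smul, conjTranspose_kronecker, conjTranspose_one,
      Matrix.add_mul, Matrix.mul_add, Matrix.smul_mul, Matrix.mul_smul, ← mul_kronecker_mul,
      Matrix.mul_one, Matrix.one_mul, trace_add, trace_smul, trace_kronecker, hA.2, hB.2,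
      trace_star_chan hA.1.1, trace_star_chan hB.1.1, smul_eq_mul, star_def, conj_ofReal, add_re,
      mul_one, one_mul, mul_re, conj_re, conj_im, ofReal_re, ofReal_im, zero_mul, sub_zero]
    linear_combination (A * (aᴴ * a)).trace.re * e1 + (B * (bᴴ * b)).trace.re * e2
  rw [e3, normSq_apply, normSq_apply, abs_le]
  generalize (A * a).trace.re = u₁, (A * a).trace.im = u₂, (B * b).trace.re = v₁,
    (B * b).trace.im = v₂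
  generalize √η = x, √(1 - η) = y at e1 e2 ⊢
  rw [← e2, ← e1]
  constructor
  · nlinarith [sq_nonneg (x * u₁ + y * v₁), sq_nonneg (x * u₂ + y * v₂)]
  · nlinarith [sq_nonneg (x * u₁ - y * v₁), sq_nonneg (x * u₂ - y * v₂)]

end Mode

end Vale.Agent.P369
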