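import Vale.Agent.P369.Base

/-! P369 task Uco: the matrix elements `u = mel e U` of a beam splitter satisfy `Coef`.
Plan. `coord e (e y) x = if x = y then 1 else 0` (`e.orthonormal`), `coord` is linear; `star U` is the
adjoint (`ContinuousLinearMap.star_eq_adjoint`, `adjoint_inner_left/right`),
`coord e (star U (e x)) y = conj (u x y)`; `U * star U = 1 = star U * U` from `unitary`.
Lowering relations: apply `IntertwinesA/B` to `ψ = e y`,
`φ = s √(y.1 j) e (y.1 - single j 1, y.2) + t √(y.2 j) e (y.1, y.2 - single j 1)`; this gives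
`√(x.1 j + 1) u (x.1 + e j, x.2) y = √η √(y.1 j) u x (y.1 - e j, y.2) + √(1-η) √(y.2 j) u x (y.1, y.2 - e j)`
and the analogue for `b`; `lowA`, `lowB` are linear combinations (`√η² + √(1-η)² = 1`).
`supp`: induction on `∑ j, (x.1 j + x.2 j)`; `u (0,0) y = ⟨U e₀, U e y⟩ = [y = 0]`.
Raising relations: apply `IntertwinesA/B` to `ψ = star U (e x)` (finite support by `supp`: the set
`{y | y.1 + y.2 = x.1 + x.2}` is finite) and `φ = ∑_{z ∈ S} (s annA .. z + t annB .. z) • e z`; then
`U φ = √(x.1 j) • e (x.1 - e j, x.2)` (equal coordinates; `e.repr.injective`), so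
`φ = √(x.1 j) • star U (e (x.1 - e j, x.2))`; take coordinates, conjugate, combine.
`orth`: `HilbertBasis.hasSum_inner_mul_inner`; `row`: `Orthonormal.sum_inner_products_le` for
`star U (e x)`, of norm one.
`mel_conjBy`: `star U (e x') = ∑_{y' ∈ S'} conj (u x' y') • e y'`. -/

namespace Vale.Agent.P369

open Complex

variable {ι H : Type} [NormedAddCommGroup H] [InnerProductSpace ℂ H] [CompleteSpace H]

theorem ext_coord (e : HilbertBasis ι ℂ H) {φ ψ : H} (h : ∀ x, coord e φ x = coord e ψ x) :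
    φ = ψ := by
  apply e.repr.injective
  ext x
  rw [e.repr_apply_apply, e.repr_apply_apply]
  exact h x

theorem ext_mel (e : HilbertBasis ι ℂ H) {S T : H →L[ℂ] H} (h : ∀ k l, mel e S k l = mel e T k l) :
    S = T := by
  refine ContinuousLinearMap.ext_on (s := Set.range e) ?_ ?_
  · rw [Submodule.dense_iff_topologicalClosure_eq_top]
    exact e.dense_span
  · rintro _ ⟨l, rfl⟩
    exact ext_coord e fun k => h k l

omit [CompleteSpace H] in
theorem coord_basis_uco [DecidableEq ι] (e : HilbertBasis ι ℂ H) (x y : ι) :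
    coord e (e y) x = if x = y then 1 else 0 :=
  orthonormal_iff_ite.1 e.orthonormal x y

omit [CompleteSpace H] in
theorem coord_add_uco (e : HilbertBasis ι ℂ H) (φ ψ : H) (x : ι) :
    coord e (φ + ψ) x = coord e φ x + coord e ψ x := inner_add_right _ _ _

omit [CompleteSpace H] in
theorem coord_smul_uco (e : HilbertBasis ι ℂ H) (c : ℂ) (ψ : H) (x : ι) :
    coord e (c • ψ) x = c * coord e ψ x := inner_smul_right _ _ _

omit [CompleteSpace H] in
theorem coord_sum_uco {κ : Type} (e : HilbertBasis ι ℂ H) (s : Finset κ) (f : κ → H) (x : ι) :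
    coord e (∑ k ∈ s, f k) x = ∑ k ∈ s, coord e (f k) x := inner_sum _ _ _

theorem coord_star_uco (e : HilbertBasis ι ℂ H) (U : H →L[ℂ] H) (x y : ι) :
    coord e (star U (e x)) y = (starRingEnd ℂ) (mel e U x y) := by
  unfold mel coord
  rw [ContinuousLinearMap.star_eq_adjoint, ContinuousLinearMap.adjoint_inner_right,
    inner_conj_symm]

omit [CompleteSpace H] in
theorem coord_fin_uco (e : HilbertBasis ι ℂ H) (f : ι → ℂ) {S : Finset ι}
    (hS : ∀ y, f y ≠ 0 → y ∈ S) (x : ι) : coord e (∑ y ∈ S, f y • e y) x = f x := by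
  classical
  rw [coord_sum_uco]
  simp only [coord_smul_uco, coord_basis_uco, mul_ite, mul_one, mul_zero]
  rw [Finset.sum_ite_eq]
  split_ifs with h
  · rfl
  · by_contra h0
    exact h (hS x fun h1 => h0 h1.symm)

theorem star_basis_uco (e : HilbertBasis ι ℂ H) (U : H →L[ℂ] H) (x : ι) {S : Finset ι}
    (hS : ∀ y, mel e U x y ≠ 0 → y ∈ S) :
    star U (e x) = ∑ y ∈ S, (starRingEnd ℂ) (mel e U x y) • e y := by
  refine ext_coord e fun y => ?_
  rw [coord_star_uco, coord_fin_uco e (fun y => (starRingEnd ℂ) (mel e U x y))]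
  intro z hz
  exact hS z fun h => hz (by rw [h, map_zero])

theorem mel_conjBy (e : HilbertBasis ι ℂ H) (U W : H →L[ℂ] H) (x x' : ι) {S S' : Finset ι}
    (hS : ∀ y, mel e U x y ≠ 0 → y ∈ S) (hS' : ∀ y, mel e U x' y ≠ 0 → y ∈ S') :
    mel e (conjBy U W) x x'
      = ∑ y ∈ S, ∑ y' ∈ S', mel e U x y * mel e W y y' * (starRingEnd ℂ) (mel e U x' y') := by
  have h1 : mel e (conjBy U W) x x' = inner ℂ (star U (e x)) (W (star U (e x'))) := by
    unfold mel coord conjBy
    rw [mul_apply_eq_comp, mul_apply_eq_comp]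
    conv_rhs => rw [ContinuousLinearMap.star_eq_adjoint, ContinuousLinearMap.adjoint_inner_left]
    rw [ContinuousLinearMap.star_eq_adjoint]
  rw [h1, star_basis_uco e U x hS, star_basis_uco e U x' hS', sum_inner]
  refine Finset.sum_congr rfl fun y _ => ?_
  rw [map_sum, inner_sum]
  refine Finset.sum_congr rfl fun y' _ => ?_
  rw [map_smul, inner_smul_left, inner_smul_right, Complex.conj_conj]
  change _ * (_ * mel e W y y') = _
  ring

theorem finite_blk {n : ℕ} (t : Occ n) : {y : Occ n × Occ n | y.1 + y.2 = t}.Finite := by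
  refine ((Set.finite_Iic t).prod (Set.finite_Iic t)).subset ?_
  rintro ⟨a, b⟩ h
  simp only [Set.mem_ofPred_eq] at h
  subst h
  exact ⟨fun j => Nat.le_add_right _ _, fun j => Nat.le_add_left _ _⟩

theorem pred_uco {n : ℕ} {j : Fin n} {a : Occ n} (h : a j ≠ 0) :
    a - Pi.single j 1 + Pi.single j 1 = a := by
  funext i
  simp only [Pi.add_apply, Pi.sub_apply]
  by_cases hi : i = j
  · subst hi
    rw [Pi.single_eq_same]
    omega
  · rw [Pi.single_eq_of_ne hi]
    rfl

theorem shift_uco {n : ℕ} (j : Fin n) (a b : Occ n) :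
    ((√(b j : ℝ) : ℝ) : ℂ) * (if a = b - Pi.single j 1 then 1 else 0)
      = ((√((a j : ℝ) + 1) : ℝ) : ℂ) * (if a + Pi.single j 1 = b then 1 else 0) := by
  by_cases h : a + Pi.single j 1 = b
  · subst h
    rw [if_pos rfl, if_pos (by rw [add_tsub_cancel_right])]
    simp
  · rw [if_neg h, mul_zero]
    by_cases h2 : a = b - Pi.single j 1
    · have : b j = 0 := by
        by_contra h3
        apply h
        rw [h2, pred_uco h3]
      simp [this]
    · rw [if_neg h2, mul_zero]

omit [CompleteSpace H] in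
theorem annA_basis_uco {n : ℕ} (e : HilbertBasis (Occ n × Occ n) ℂ H) (j : Fin n)
    (y z : Occ n × Occ n) : annA j (coord e (e y)) z
      = coord e (((√(y.1 j : ℝ) : ℝ) : ℂ) • e (y.1 - Pi.single j 1, y.2)) z := by
  obtain ⟨y1, y2⟩ := y
  obtain ⟨z1, z2⟩ := z
  unfold annA
  rw [coord_smul_uco, coord_basis_uco, coord_basis_uco]
  simp only [Prod.mk.injEq]
  by_cases h : z2 = y2
  · simp only [h, and_true]
    exact (shift_uco j z1 y1).symm
  · simp [h]

omit [CompleteSpace H] in
theorem annB_basis_uco {n : ℕ} (e : HilbertBasis (Occ n × Occ n) ℂ H) (j : Fin n)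
    (y z : Occ n × Occ n) : annB j (coord e (e y)) z
      = coord e (((√(y.2 j : ℝ) : ℝ) : ℂ) • e (y.1, y.2 - Pi.single j 1)) z := by
  obtain ⟨y1, y2⟩ := y
  obtain ⟨z1, z2⟩ := z
  unfold annB
  rw [coord_smul_uco, coord_basis_uco, coord_basis_uco]
  simp only [Prod.mk.injEq]
  by_cases h : z1 = y1
  · simp only [h, true_and]
    exact (shift_uco j z2 y2).symm
  · simp [h]

omit [CompleteSpace H] in
theorem supp_basis_uco (e : HilbertBasis ι ℂ H) (y : ι) :
    (Function.support (coord e (e y))).Finite := by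
  classical
  refine (Set.finite_singleton y).subset fun x hx => ?_
  rw [Function.mem_support, coord_basis_uco] at hx
  by_contra h
  exact hx (if_neg h)

omit [CompleteSpace H] in
/-- the lowering relation for an operator `ann` intertwined with `s a + t b` -/
theorem low_uco {n : ℕ} {e : HilbertBasis (Occ n × Occ n) ℂ H} {U : H →L[ℂ] H} {s t : ℝ}
    {j : Fin n} {ann : (Occ n × Occ n → ℂ) → Occ n × Occ n → ℂ}
    (h : ∀ ψ φ : H, (Function.support (coord e ψ)).Finite →
      (∀ x, coord e φ x = s * annA j (coord e ψ) x + t * annB j (coord e ψ) x) →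
        ∀ x, ann (coord e (U ψ)) x = coord e (U φ) x) (x y : Occ n × Occ n) :
    ann (coord e (U (e y))) x
      = s * (((√(y.1 j : ℝ) : ℝ) : ℂ) * mel e U x (y.1 - Pi.single j 1, y.2))
        + t * (((√(y.2 j : ℝ) : ℝ) : ℂ) * mel e U x (y.1, y.2 - Pi.single j 1)) := by
  rw [h (e y) ((s : ℂ) • (((√(y.1 j : ℝ) : ℝ) : ℂ) • e (y.1 - Pi.single j 1, y.2))
    + (t : ℂ) • (((√(y.2 j : ℝ) : ℝ) : ℂ) • e (y.1, y.2 - Pi.single j 1)))
    (supp_basis_uco e y) (fun z => by
      rw [coord_add_uco, coord_smul_uco, coord_smul_uco e (t : ℂ), annA_basis_uco,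
        annB_basis_uco]) x]
  simp only [map_add, map_smul, coord_add_uco, coord_smul_uco]
  rfl

/-- the raising relation for an operator `ann` intertwined with `s a + t b` -/
theorem up_uco {n : ℕ} {e : HilbertBasis (Occ n × Occ n) ℂ H} {U : H →L[ℂ] H} {s t : ℝ}
    (hU : U ∈ unitary (H →L[ℂ] H)) (hs : ∀ x y, mel e U x y ≠ 0 → x.1 + x.2 = y.1 + y.2)
    {j : Fin n} {ann : (Occ n × Occ n → ℂ) → Occ n × Occ n → ℂ}
    (h : ∀ ψ φ : H, (Function.support (coord e ψ)).Finite →
      (∀ x, coord e φ x = s * annA j (coord e ψ) x + t * annB j (coord e ψ) x) →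
        ∀ x, ann (coord e (U ψ)) x = coord e (U φ) x) {x x' : Occ n × Occ n} {c : ℝ}
    (hx : ∀ z, ann (coord e (e x)) z = coord e ((c : ℂ) • e x') z) (y : Occ n × Occ n) :
    (c : ℂ) * mel e U x' y
      = s * (((√((y.1 j : ℝ) + 1) : ℝ) : ℂ) * mel e U x (y.1 + Pi.single j 1, y.2))
        + t * (((√((y.2 j : ℝ) + 1) : ℝ) : ℂ) * mel e U x (y.1, y.2 + Pi.single j 1)) := by
  have hfin : (Function.support (coord e (star U (e x)))).Finite := by
    refine (finite_blk (x.1 + x.2)).subset fun z hz => ?_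
    rw [Function.mem_support, coord_star_uco] at hz
    exact (hs x z fun h0 => hz (by rw [h0, map_zero])).symm
  set f : Occ n × Occ n → ℂ := fun z => s * annA j (coord e (star U (e x))) z
    + t * annB j (coord e (star U (e x))) z with hf
  have hS : ∀ z, f z ≠ 0 → z ∈ (finite_blk (x.1 + x.2 - Pi.single j 1)).toFinset := by
    intro z hz
    rw [Set.Finite.mem_toFinset, Set.mem_ofPred_eq]
    by_contra hne
    apply hz
    have h1 : mel e U x (z.1 + Pi.single j 1, z.2) = 0 := by
      by_contra h0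
      apply hne
      rw [hs _ _ h0, add_right_comm, add_tsub_cancel_right]
    have h2 : mel e U x (z.1, z.2 + Pi.single j 1) = 0 := by
      by_contra h0
      apply hne
      rw [hs _ _ h0, ← add_assoc, add_tsub_cancel_right]
    simp only [hf, annA, annB, coord_star_uco, h1, h2, map_zero, mul_zero, add_zero]
  have hc := coord_fin_uco e f hS
  set φ := ∑ z ∈ (finite_blk (x.1 + x.2 - Pi.single j 1)).toFinset, f z • e z
  have hUU : U (star U (e x)) = e x := by
    rw [← mul_apply_eq_comp, hU.2, one_apply_eq_self]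
  have hφ : U φ = (c : ℂ) • e x' := by
    refine ext_coord e fun z => ?_
    rw [← h _ φ hfin hc z, hUU, hx]
  have hφ2 : φ = (c : ℂ) • star U (e x') := by
    rw [← map_smul, ← hφ, ← mul_apply_eq_comp, hU.1, one_apply_eq_self]
  have h3 := hc y
  rw [hφ2, coord_smul_uco, coord_star_uco] at h3
  have h4 := congrArg (starRingEnd ℂ) h3
  simpa only [hf, annA, annB, coord_star_uco, map_add, map_mul, Complex.conj_conj,
    Complex.conj_ofReal] using h4

theorem step_uco {n : ℕ} {u : Occ n × Occ n → Occ n × Occ n → ℂ} {j : Fin n} {s t : ℂ}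
    {x y : Occ n × Occ n} (ih : ∀ y, u x y ≠ 0 → x.1 + x.2 = y.1 + y.2)
    (h : s * (((√(y.1 j : ℝ) : ℝ) : ℂ) * u x (y.1 - Pi.single j 1, y.2))
        + t * (((√(y.2 j : ℝ) : ℝ) : ℂ) * u x (y.1, y.2 - Pi.single j 1)) ≠ 0) :
    x.1 + x.2 + Pi.single j 1 = y.1 + y.2 := by
  by_contra hne
  apply h
  have h1 : ((√(y.1 j : ℝ) : ℝ) : ℂ) * u x (y.1 - Pi.single j 1, y.2) = 0 := by
    by_contra h0
    obtain ⟨h2, h3⟩ := mul_ne_zero_iff.1 h0
    have h4 : y.1 j ≠ 0 := fun h5 => h2 (by simp [h5])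
    apply hne
    rw [ih _ h3, add_right_comm, pred_uco h4]
  have h2 : ((√(y.2 j : ℝ) : ℝ) : ℂ) * u x (y.1, y.2 - Pi.single j 1) = 0 := by
    by_contra h0
    obtain ⟨h2, h3⟩ := mul_ne_zero_iff.1 h0
    have h4 : y.2 j ≠ 0 := fun h5 => h2 (by simp [h5])
    apply hne
    rw [ih _ h3, add_assoc, pred_uco h4]
  rw [h1, h2, mul_zero, mul_zero, add_zero]

theorem sqrt_ne_uco (k : ℕ) : ((√((k : ℝ) + 1) : ℝ) : ℂ) ≠ 0 := by
  have : 0 < √((k : ℝ) + 1) := Real.sqrt_pos.2 (by positivity)
  exact_mod_cast this.ne'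

theorem supp_uco {n : ℕ} {e : HilbertBasis (Occ n × Occ n) ℂ H} {η : ℝ} {U : H →L[ℂ] H}
    (hU : IsBeamSplitter e η U) (x y : Occ n × Occ n) (h : mel e U x y ≠ 0) :
    x.1 + x.2 = y.1 + y.2 := by
  obtain ⟨hu, hv, hA, hB⟩ := hU
  induction hN : ∑ j, (x.1 j + x.2 j) generalizing x y with
  | zero =>
    rw [Finset.sum_eq_zero_iff] at hN
    have hx : x = (0, 0) := by
      ext j
      · have := hN j (Finset.mem_univ j)
        simp only [Pi.zero_apply]
        omega
      · have := hN j (Finset.mem_univ j)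
        simp only [Pi.zero_apply]
        omega
    subst hx
    have : mel e U (0, 0) y = coord e (e y) (0, 0) := by
      unfold mel coord
      conv_lhs => rw [← hv]
      exact ContinuousLinearMap.inner_map_map_of_mem_unitary hu _ _
    rw [this, coord_basis_uco] at h
    have hy : (0, 0) = y := by
      by_contra h0
      exact h (if_neg h0)
    rw [← hy]
  | succ N ih =>
    obtain ⟨j, -, hj⟩ := Finset.exists_ne_zero_of_sum_ne_zero (hN.trans_ne (Nat.succ_ne_zero N))
    have hsum : ∀ a b : Occ n, a + b + Pi.single j 1 = x.1 + x.2 → ∑ i, (a i + b i) = N := by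
      intro a b hab
      have h1 : ∑ i, (a + b + Pi.single j 1 : Occ n) i = ∑ i, (x.1 + x.2) i := by rw [hab]
      simp only [Pi.add_apply] at h1
      rw [hN, Finset.sum_add_distrib, Finset.sum_pi_single'] at h1
      simpa using h1
    by_cases h1 : x.1 j = 0
    · have h2 : x.2 j ≠ 0 := by omega
      have h3 : x.1 + (x.2 - Pi.single j 1) + Pi.single j 1 = x.1 + x.2 := by
        rw [add_assoc, pred_uco h2]
      have h4 := low_uco (ann := annB j) (hB j) (x.1, x.2 - Pi.single j 1) y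
      rw [← h3]
      refine step_uco (u := mel e U) (x := (x.1, x.2 - Pi.single j 1))
        (fun y' hy' => ih _ _ hy' (hsum _ _ h3)) (h4.symm.trans_ne ?_)
      unfold annB
      refine mul_ne_zero (sqrt_ne_uco _) ?_
      simp only [pred_uco h2]
      exact h
    · have h3 : x.1 - Pi.single j 1 + x.2 + Pi.single j 1 = x.1 + x.2 := by
        rw [add_right_comm, pred_uco h1]
      have h4 := low_uco (ann := annA j) (hA j) (x.1 - Pi.single j 1, x.2) y
      rw [← h3]
      refine step_uco (u := mel e U) (x := (x.1 - Pi.single j 1, x.2))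
        (fun y' hy' => ih _ _ hy' (hsum _ _ h3)) (h4.symm.trans_ne ?_)
      unfold annA
      refine mul_ne_zero (sqrt_ne_uco _) ?_
      simp only [pred_uco h1]
      exact h

theorem coef_of_beam {n : ℕ} {e : HilbertBasis (Occ n × Occ n) ℂ H} {η : ℝ} (h0 : 0 ≤ η)
    (h1 : η ≤ 1) {U : H →L[ℂ] H} (hU : IsBeamSplitter e η U) : Coef η (mel e U) := by
  have hs := supp_uco hU
  obtain ⟨hu, hv, hA, hB⟩ := hU
  have hcs : ((√η : ℝ) : ℂ) ^ 2 + ((√(1 - η) : ℝ) : ℂ) ^ 2 = 1 := by
    have : √η ^ 2 + √(1 - η) ^ 2 = 1 := by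
      rw [Real.sq_sqrt h0, Real.sq_sqrt (by linarith)]
      ring
    exact_mod_cast this
  have lA : ∀ (j : Fin n) (x y : Occ n × Occ n),
      ((√((x.1 j : ℝ) + 1) : ℝ) : ℂ) * mel e U (x.1 + Pi.single j 1, x.2) y = _ :=
    fun j x y => low_uco (ann := annA j) (hA j) x y
  have lB : ∀ (j : Fin n) (x y : Occ n × Occ n),
      ((√((x.2 j : ℝ) + 1) : ℝ) : ℂ) * mel e U (x.1, x.2 + Pi.single j 1) y = _ :=
    fun j x y => low_uco (ann := annB j) (hB j) x y
  have uA := fun (j : Fin n) (x y : Occ n × Occ n) =>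
    up_uco (ann := annA j) hu hs (hA j) (annA_basis_uco e j x) y
  have uB := fun (j : Fin n) (x y : Occ n × Occ n) =>
    up_uco (ann := annB j) hu hs (hB j) (annB_basis_uco e j x) y
  refine ⟨hs, fun y y' => ?_, fun x S => ?_, ?_, fun j x y => ?_, fun j x y => ?_,
    fun j x y => ?_, fun j x y => ?_⟩
  · have h := e.hasSum_inner_mul_inner (U (e y)) (U (e y'))
    rw [ContinuousLinearMap.inner_map_map_of_mem_unitary hu,
      orthonormal_iff_ite.1 e.orthonormal] at h
    simpa only [mel, coord, inner_conj_symm] using h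
  · have h := e.orthonormal.sum_inner_products_le (s := S) (star U (e x))
    rw [ContinuousLinearMap.norm_map_of_mem_unitary (Unitary.star_mem hu), e.orthonormal.1 x,
      one_pow] at h
    refine le_trans (le_of_eq (Finset.sum_congr rfl fun y _ => ?_)) h
    have := coord_star_uco e U x y
    unfold coord at this
    rw [this, Complex.norm_conj, Complex.normSq_eq_norm_sq]
  · unfold mel
    rw [hv, coord_basis_uco, if_pos rfl]
  · rw [lA, lB]
    push_cast
    linear_combination (-(((√(y.1 j : ℝ) : ℝ) : ℂ) * mel e U x (y.1 - Pi.single j 1, y.2))) * hcs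
  · rw [lA, lB]
    push_cast
    linear_combination (-(((√(y.2 j : ℝ) : ℝ) : ℂ) * mel e U x (y.1, y.2 - Pi.single j 1))) * hcs
  · rw [uA, uB]
    push_cast
    linear_combination
      (-(((√((y.1 j : ℝ) + 1) : ℝ) : ℂ) * mel e U x (y.1 + Pi.single j 1, y.2))) * hcs
  · rw [uA, uB]
    push_cast
    linear_combination
      (-(((√((y.2 j : ℝ) + 1) : ℝ) : ℂ) * mel e U x (y.1, y.2 + Pi.single j 1))) * hcs

end Vale.Agent.P369
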