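import Vale.Agent.P369.Op1
import Vale.Agent.P369.Uco

/-! P369 task Conv: the outputs of the truncated inputs converge entrywise to the output.
Plan. `u = mel e₂ U`; `blk t = (finite_blk t).toFinset`; `Wm m y y' = [y, y' ≤ m] A y.1 y'.1 * B y.2 y'.2`;
`term m l = ∑_{y ∈ blk (k+l)} ∑_{y' ∈ blk (k'+l)} u (k,l) y * Wm m y y' * conj (u (k',l) y')`.
For `m` large (`k, k'` in the box) the matrix entry is `∑_{l ∈ boxF n (2 K m + 1)} term m l`
(`ext_emb`, unfold `Phi`, `ptr`, `Matrix.mul_apply`, `sum_box`, `hu.supp`; `Finset.sum_subset`), and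
`term m l = 0` for `l` outside that box (then `y.1 + y.2 = k + l` is incompatible with `y ≤ m`), so it
is `∑' l, term m l`. For fixed `l`, `term m l` is eventually `mel e₂ (conjBy U W) (k,l) (k',l)`
(`mel_conjBy`, `hW`). Domination: with `ω y = A y.1 y.1 * B y.2 y.2 ≥ 0`, `w t = ∑_{y ∈ blk t} ω y`:
`|Wm y y'| ≤ √(ω y) √(ω y')` (`normSq_mel_le`), Cauchy-Schwarz and `hu.row` give
`‖term m l‖ ≤ √(w (k+l)) √(w (k'+l)) ≤ (w (k+l) + w (k'+l))/2`, and `l ↦ w (k+l)` is summable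
(finite partial sums are sums of `ω` over disjoint blocks, at most `1`; `summable_of_sum_le`,
`Finset.sum_biUnion`, `HasSum.mul_of_nonneg`). `tendsto_tsum_of_dominated_convergence`, `hT`. -/

namespace Vale.Agent.P369

open Matrix Vale.Agent.P358 Complex Filter Topology
open scoped ComplexOrder Kronecker

variable {n : ℕ} {H H₂ : Type} [NormedAddCommGroup H] [InnerProductSpace ℂ H] [CompleteSpace H]
  [NormedAddCommGroup H₂] [InnerProductSpace ℂ H₂] [CompleteSpace H₂]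
  {e : HilbertBasis (Occ n) ℂ H} {e₂ : HilbertBasis (Occ n × Occ n) ℂ H₂} {A B C : H →L[ℂ] H}
  {W U : H₂ →L[ℂ] H₂} {η : ℝ}

/-- the finite block of pairs with given sum -/
noncomputable def blkConv (t : Occ n) : Finset (Occ n × Occ n) := (finite_blk t).toFinset

theorem mem_blkConv {t : Occ n} {y : Occ n × Occ n} : y ∈ blkConv t ↔ y.1 + y.2 = t :=
  (finite_blk t).mem_toFinset

/-- the product kernel cut at level `m` -/
noncomputable def cutConv (a b : Occ n → Occ n → ℂ) (m : ℕ) (y y' : Occ n × Occ n) : ℂ :=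
  (if (∀ i, y.1 i ≤ m) ∧ ∀ i, y'.1 i ≤ m then a y.1 y'.1 else 0)
    * if (∀ i, y.2 i ≤ m) ∧ ∀ i, y'.2 i ≤ m then b y.2 y'.2 else 0

/-- one term of the partial trace -/
noncomputable def termConv (u : Occ n × Occ n → Occ n × Occ n → ℂ) (a b : Occ n → Occ n → ℂ)
    (k k' : Occ n) (m : ℕ) (l : Occ n) : ℂ :=
  ∑ y ∈ blkConv (k + l), ∑ y' ∈ blkConv (k' + l),
    u (k, l) y * cutConv a b m y y' * (starRingEnd ℂ) (u (k', l) y')

theorem cutConv_ne {a b : Occ n → Occ n → ℂ} {m : ℕ} {y y' : Occ n × Occ n}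
    (h : cutConv a b m y y' ≠ 0) :
    ((∀ i, y.1 i ≤ m) ∧ ∀ i, y.2 i ≤ m) ∧ (∀ i, y'.1 i ≤ m) ∧ ∀ i, y'.2 i ≤ m := by
  obtain ⟨h1, h2⟩ := mul_ne_zero_iff.1 h
  have h3 := (ite_ne_right_iff.1 h1).1
  have h4 := (ite_ne_right_iff.1 h2).1
  exact ⟨⟨h3.1, h4.1⟩, h3.2, h4.2⟩

theorem sum_pair_conv {K : ℕ} (F : Occ n × Occ n → ℂ) {S : Finset (Occ n × Occ n)}
    (h : ∀ y, F y ≠ 0 → y ∈ S ∧ (∀ i, y.1 i ≤ K) ∧ ∀ i, y.2 i ≤ K) :
    ∑ y : Box n K × Box n K, F (emb y.1, emb y.2) = ∑ y ∈ S, F y := by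
  have h1 : ∑ y : Box n K × Box n K, F (emb y.1, emb y.2) = ∑ y ∈ boxF n K ×ˢ boxF n K, F y := by
    rw [Fintype.sum_prod_type, Finset.sum_product]
    exact (Finset.sum_congr rfl fun k _ => sum_box fun z => F (emb k, z)).trans
      (sum_box fun w => ∑ z ∈ boxF n K, F (w, z))
  rw [h1, ← tsum_eq_sum (L := .unconditional _) fun y hy => ?_,
    ← tsum_eq_sum (L := .unconditional _) fun y hy => ?_]
  · by_contra h0
    exact hy (h y h0).1
  · by_contra h0
    exact hy (Finset.mem_product.2 ⟨mem_boxF.2 (h y h0).2.1, mem_boxF.2 (h y h0).2.2⟩)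

theorem entry_conv {u : Occ n × Occ n → Occ n × Occ n → ℂ} (hu : Coef η u)
    (a b : Occ n → Occ n → ℂ) {K m : ℕ} (hK : m ≤ K) (k k' : Box n (2 * K + 1)) :
    Phi (beam u K) (cut a K m ⊗ₖ cut b K m) k k'
      = ∑' l, termConv u a b (emb k) (emb k') m l := by
  rw [tsum_eq_sum (s := boxF n (2 * K + 1)) fun l hl => ?_, ← sum_box, Phi, ptr, of_apply]
  · refine Finset.sum_congr rfl fun l _ => ?_
    rw [termConv, Matrix.mul_apply, Finset.sum_comm,
      ← sum_pair_conv (K := K) (fun y' => ∑ y ∈ blkConv (emb k + emb l),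
        u (emb k, emb l) y * cutConv a b m y y' * (starRingEnd ℂ) (u (emb k', emb l) y'))
        fun y' h => ?_]
    · refine Finset.sum_congr rfl fun y' _ => ?_
      rw [Matrix.mul_apply, ← Finset.sum_mul, ← sum_pair_conv (K := K)
        (fun y => u (emb k, emb l) y * cutConv a b m y (emb y'.1, emb y'.2)) fun y h => ?_]
      · rfl
      · obtain ⟨h1, h2⟩ := mul_ne_zero_iff.1 h
        have h3 := (cutConv_ne h2).1
        exact ⟨mem_blkConv.2 (hu.supp _ _ h1).symm, fun i => (h3.1 i).trans hK,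
          fun i => (h3.2 i).trans hK⟩
    · obtain ⟨y, -, h⟩ := Finset.exists_ne_zero_of_sum_ne_zero h
      obtain ⟨h1, h2⟩ := mul_ne_zero_iff.1 h
      have h3 := (cutConv_ne (mul_ne_zero_iff.1 h1).2).2
      exact ⟨mem_blkConv.2 (hu.supp _ _ ((map_ne_zero _).1 h2)).symm, fun i => (h3.1 i).trans hK,
        fun i => (h3.2 i).trans hK⟩
  · by_contra h
    obtain ⟨y, hy, h⟩ := Finset.exists_ne_zero_of_sum_ne_zero h
    obtain ⟨y', -, h⟩ := Finset.exists_ne_zero_of_sum_ne_zero h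
    have h3 := (cutConv_ne (mul_ne_zero_iff.1 (mul_ne_zero_iff.1 h).1).2).1
    refine hl (mem_boxF.2 fun i => ?_)
    have h4 := congrFun (mem_blkConv.1 hy) i
    have h5 := h3.1 i
    have h6 := h3.2 i
    simp only [Pi.add_apply] at h4
    omega

theorem cs_conv {u : Occ n × Occ n → Occ n × Occ n → ℂ} (hu : Coef η u) (x : Occ n × Occ n)
    (S : Finset (Occ n × Occ n)) {ω : Occ n × Occ n → ℝ} (hω : ∀ y, 0 ≤ ω y) :
    (∑ y ∈ S, ‖u x y‖ * √(ω y)) ^ 2 ≤ ∑ y ∈ S, ω y := by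
  refine (Finset.sum_mul_sq_le_sq_mul_sq _ _ _).trans ?_
  simp only [Real.sq_sqrt (hω _), ← normSq_eq_norm_sq]
  exact mul_le_of_le_one_left (Finset.sum_nonneg fun y _ => hω y) (hu.row x S)

theorem norm_termConv {u : Occ n × Occ n → Occ n × Occ n → ℂ} (hu : Coef η u)
    {a b : Occ n → Occ n → ℂ} {p q : Occ n → ℝ} (hp : ∀ k, 0 ≤ p k) (hq : ∀ k, 0 ≤ q k)
    (ha : ∀ k l, normSq (a k l) ≤ p k * p l) (hb : ∀ k l, normSq (b k l) ≤ q k * q l)
    (k k' : Occ n) (m : ℕ) (l : Occ n) :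
    ‖termConv u a b k k' m l‖ ≤ ∑ y ∈ blkConv (k + l), p y.1 * q y.2
      + ∑ y ∈ blkConv (k' + l), p y.1 * q y.2 := by
  have hω : ∀ y : Occ n × Occ n, 0 ≤ p y.1 * q y.2 := fun y => mul_nonneg (hp _) (hq _)
  have h1 : ∀ y y', ‖cutConv a b m y y'‖ ≤ √(p y.1 * q y.2) * √(p y'.1 * q y'.2) := fun y y' => by
    rw [← Real.sqrt_mul (hω y)]
    refine Real.le_sqrt_of_sq_le ?_
    rw [← normSq_eq_norm_sq, cutConv, normSq_mul, mul_mul_mul_comm]
    refine mul_le_mul ?_ ?_ (normSq_nonneg _) (mul_nonneg (hp _) (hp _))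
    · split_ifs
      exacts [ha _ _, by simpa using mul_nonneg (hp _) (hp _)]
    · split_ifs
      exacts [hb _ _, by simpa using mul_nonneg (hq _) (hq _)]
  have h2 : ‖termConv u a b k k' m l‖
      ≤ (∑ y ∈ blkConv (k + l), ‖u (k, l) y‖ * √(p y.1 * q y.2))
        * ∑ y ∈ blkConv (k' + l), ‖u (k', l) y‖ * √(p y.1 * q y.2) := by
    rw [Finset.sum_mul_sum]
    refine norm_sum_le_of_le _ fun y _ => norm_sum_le_of_le _ fun y' _ => ?_
    rw [norm_mul, norm_mul, RCLike.norm_conj]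
    have h3 := mul_le_mul_of_nonneg_left (h1 y y')
      (mul_nonneg (norm_nonneg (u (k, l) y)) (norm_nonneg (u (k', l) y')))
    linarith
  have h3 := cs_conv hu (k, l) (blkConv (k + l)) hω
  have h4 := cs_conv hu (k', l) (blkConv (k' + l)) hω
  nlinarith [sq_nonneg ((∑ y ∈ blkConv (k + l), ‖u (k, l) y‖ * √(p y.1 * q y.2))
    - ∑ y ∈ blkConv (k' + l), ‖u (k', l) y‖ * √(p y.1 * q y.2)),
    sq_nonneg (∑ y ∈ blkConv (k + l), ‖u (k, l) y‖ * √(p y.1 * q y.2)),
    sq_nonneg (∑ y ∈ blkConv (k' + l), ‖u (k', l) y‖ * √(p y.1 * q y.2))]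

theorem summable_blkConv {ω : Occ n × Occ n → ℝ} (h0 : ∀ y, 0 ≤ ω y) (hω : Summable ω)
    (k : Occ n) : Summable fun l => ∑ y ∈ blkConv (k + l), ω y := by
  refine summable_of_sum_le (c := ∑' y, ω y) (fun l => Finset.sum_nonneg fun y _ => h0 y)
    fun S => ?_
  rw [← Finset.sum_biUnion fun l _ l' _ h => ?_]
  · exact hω.sum_le_tsum _ fun y _ => h0 y
  · refine Finset.disjoint_left.2 fun y h1 h2 => h ?_
    exact add_left_cancel ((mem_blkConv.1 h1).symm.trans (mem_blkConv.1 h2))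

theorem conv (hA : IsDensity e A) (hB : IsDensity e B) (hW : IsTensor e e₂ A B W)
    (hu : Coef η (mel e₂ U)) (hT : IsTraceOverB e e₂ (conjBy U W) C) {K : ℕ → ℕ}
    (hK : ∀ m, m ≤ K m) (k k' : Occ n) :
    Tendsto (fun m => ext (Phi (beam (mel e₂ U) (K m))
      (cut (mel e A) (K m) m ⊗ₖ cut (mel e B) (K m) m)) k k') atTop (𝓝 (mel e C k k')) := by
  have hp := mel_diag_nonneg (e := e) hA.1
  have hq := mel_diag_nonneg (e := e) hB.1
  have hω : Summable fun y : Occ n × Occ n => (mel e A y.1 y.1).re * (mel e B y.2 y.2).re :=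
    (hasSum_diag hA).summable.mul_of_nonneg (hasSum_diag hB).summable hp hq
  have h0 : ∀ y : Occ n × Occ n, 0 ≤ (mel e A y.1 y.1).re * (mel e B y.2 y.2).re :=
    fun y => mul_nonneg (hp _) (hq _)
  have h1 : Tendsto (fun m => ∑' l, termConv (mel e₂ U) (mel e A) (mel e B) k k' m l) atTop
      (𝓝 (∑' l, mel e₂ (conjBy U W) (k, l) (k', l))) := by
    refine tendsto_tsum_of_dominated_convergence
      ((summable_blkConv h0 hω k).add (summable_blkConv h0 hω k')) (fun l => ?_)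
      (Eventually.of_forall fun m l =>
        norm_termConv hu hp hq (normSq_mel_le hA.1) (normSq_mel_le hB.1) k k' m l)
    rw [mel_conjBy e₂ U W (k, l) (k', l) (S := blkConv (k + l)) (S' := blkConv (k' + l))
      (fun y h => mem_blkConv.2 (hu.supp _ _ h).symm) fun y h => mem_blkConv.2 (hu.supp _ _ h).symm]
    refine tendsto_finsetSum _ fun y _ => tendsto_finsetSum _ fun y' _ => ?_
    refine tendsto_const_nhds.congr' ?_
    filter_upwards [eventually_le tendsto_id y.1, eventually_le tendsto_id y.2,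
      eventually_le tendsto_id y'.1, eventually_le tendsto_id y'.2] with m a1 a2 a3 a4
    rw [cutConv, if_pos ⟨a1, a3⟩, if_pos ⟨a2, a4⟩, ← hW]
  rw [(hT k k').tsum_eq] at h1
  refine h1.congr' ?_
  filter_upwards [eventually_le tendsto_id k, eventually_le tendsto_id k'] with m a1 a2
  have a3 : m ≤ 2 * K m + 1 := by have := hK m; omega
  obtain ⟨k, rfl⟩ := exists_emb (K := 2 * K m + 1) fun j => (a1 j).trans a3
  obtain ⟨k', rfl⟩ := exists_emb (K := 2 * K m + 1) fun j => (a2 j).trans a3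
  rw [ext_emb, entry_conv hu _ _ (hK m)]

end Vale.Agent.P369
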