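import Vale.Agent.P369.CoreAlg

/-! P369 task Core: crude bounds for the error terms of `core_alg`, and the tested form of `Jf`.
Plan. Let `T = (bet Nc)⁻¹ > 0`, `W = A ⊗ₖ B` (`kron_state`), `H = mlog UC pC`, `ρ = out V θ A B`
(`out_state`, so `pC ≤ 1`; `hΛ` gives `0 ≤ -log pC ≤ Bd`, `|log pC k - log pC l| ≤ Bd`).
`score_co`: in the basis `UC`, `score N U p c` has entries `vr N (p k) (p l) * c k l` (`comm_co`), and
`|vr| ≤ T Bd + 1 ≤ (T+1) Bd`; hence `fs (score c) ≤ ((T+1) Bd)² fs c` and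
`-(ctᴴ score ct).trace.re ≤ (T+1) Bd fs ct` (`trace_co`, `fs_co`),
`fs ct ≤ 2 Bd + 2 D |cbar|²`, `|cbar|² ≤ 2 (η |abar|² + (1-η) |bbar|²) ≤ 2 Bd`
(`normSq_mean_le`, `ex_le_fs`), `D ≥ 1`: first error `≤ 6 θ (T+1) Bd²`.
Second: `Tr ((ptr (V W LAᴴ))ᴴ R) = Tr (W (Rᴴ₁ V)ᴴ LA)` with `R₁ = R ⊗ₖ 1` (`ptr_conjTranspose`,
`trace_ptr_mul`), `trace_cs`, and `ex W (Vᴴ (R Rᴴ)₁ V) = ex (Phi V W) (R Rᴴ) ≤ fs R`
(`trace_Phi_mul`, `Phi_state`, `ex_le_fs`).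
Third: `(Psi Na A a)ᴴ = Na aᴴ A - (Na+1) A aᴴ`; the term `((A aᴴ) ⊗ₖ B) LAᴴ = W (LA a₁)ᴴ = 0` by
`killA`; the other is `Na Tr (W LAᴴ (H₁ V a₁ᴴ))`, `trace_cs`, `ex_le_fs`, `fs_mul_le`, `fs_iso_mul`,
`fs_kron_one`, `fs_mlog_le`: `fs (H₁ V a₁ᴴ) ≤ Bd⁶`.
Tested form: `Psi N ρ c = Psi N ρ ct - cbar ρ`; `|Tr (Xᴴ Psi N ρ ct)|² ≤ Jf * ex ρ (X Xᴴ + Xᴴ X)`
(`trace_co`, `Psi_co`, `ex_row`, `ex_col`, Cauchy-Schwarz), `|Tr (Xᴴ ρ)|² ≤ ex ρ (Xᴴ X)`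
(`trace_cs` with `Y = 1`). Take `J = 2 Jf + 2 |cbar|²`. -/

namespace Vale.Agent.P369

open Matrix Vale.Agent.P358 Complex
open scoped ComplexOrder Kronecker

variable {α β γ δ : Type} [Fintype α] [Fintype β] [Fintype γ] [Fintype δ]
  [DecidableEq α] [DecidableEq β] [DecidableEq γ] [DecidableEq δ]

section

variable {ρ U : Matrix γ γ ℂ} {p : γ → ℝ}

theorem score_co_core (h : Dg ρ U p) (N : ℝ) (c : Matrix γ γ ℂ) (k l : γ) :
    (Uᴴ * score N U p c * U) k l = (vr N (p k) (p l) : ℂ) * (Uᴴ * c * U) k l := by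
  rw [score, Matrix.mul_sub, Matrix.sub_mul, Matrix.mul_smul, Matrix.smul_mul, Matrix.sub_apply,
    Matrix.smul_apply, comm_co h, vr, smul_eq_mul]
  push_cast
  ring

theorem fs_score_core (h : Dg ρ U p) {N M : ℝ} (hM : ∀ k l, |vr N (p k) (p l)| ≤ M)
    (c : Matrix γ γ ℂ) : fs (score N U p c) ≤ M ^ 2 * fs c := by
  rw [← fs_co h, ← fs_co h c, fs, fs, Finset.mul_sum]
  refine Finset.sum_le_sum fun k _ => ?_
  rw [Finset.mul_sum]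
  refine Finset.sum_le_sum fun l _ => ?_
  rw [score_co_core h, normSq_mul, normSq_ofReal, ← sq]
  exact mul_le_mul_of_nonneg_right (sq_le_sq' (abs_le.1 (hM k l)).1 (abs_le.1 (hM k l)).2)
    (normSq_nonneg _)

theorem re_score_core (h : Dg ρ U p) {N M : ℝ} (hM : ∀ k l, |vr N (p k) (p l)| ≤ M)
    (c : Matrix γ γ ℂ) : -(cᴴ * score N U p c).trace.re ≤ M * fs c := by
  rw [trace_co h, ← fs_co h c, fs, Finset.mul_sum, re_sum, ← Finset.sum_neg_distrib]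
  refine Finset.sum_le_sum fun k _ => ?_
  rw [Finset.mul_sum, re_sum, ← Finset.sum_neg_distrib]
  refine Finset.sum_le_sum fun l _ => ?_
  rw [score_co_core h, mul_left_comm, ← normSq_eq_conj_mul_self, ← ofReal_mul, ofReal_re, ← neg_mul]
  exact mul_le_mul_of_nonneg_right (neg_le.1 (abs_le.1 (hM k l)).1) (normSq_nonneg _)

theorem tested_core (h : Dg ρ U p) (hp : ∀ i, 0 < p i) (N : ℝ) (c X : Matrix γ γ ℂ) :
    normSq (Xᴴ * Psi N ρ c).trace ≤ Jf N U p c * ex ρ (X * Xᴴ + Xᴴ * X) := by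
  rw [ex_add, ex_row h, ex_col h, trace_co h, Jf, ← Fintype.sum_prod_type', ← Fintype.sum_prod_type',
    ← Fintype.sum_prod_type', ← Fintype.sum_prod_type', ← Finset.sum_add_distrib, normSq_eq_norm_sq]
  refine le_trans (pow_le_pow_left₀ (norm_nonneg _) (norm_sum_le _ _) 2)
    (Finset.sum_sq_le_sum_mul_sum_of_sq_le_mul _ (fun x _ => ?_) (fun x _ => ?_)
      fun x _ => le_of_eq ?_)
  · exact mul_nonneg (div_nonneg (sq_nonneg _) (add_pos (hp _) (hp _)).le) (normSq_nonneg _)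
  · exact add_nonneg (mul_nonneg (hp _).le (normSq_nonneg _)) (mul_nonneg (hp _).le (normSq_nonneg _))
  · have := (add_pos (hp x.1) (hp x.2)).ne'
    rw [← normSq_eq_norm_sq, Psi_co h, normSq_mul, normSq_mul, normSq_conj, normSq_ofReal]
    field_simp

end

theorem vr_abs_core {N x y Bd : ℝ} (hN : 0 < N) (h : |Real.log x - Real.log y| ≤ Bd) (hB : 1 ≤ Bd) :
    |vr N x y| ≤ ((bet N)⁻¹ + 1) * Bd := by
  have hb := inv_pos.2 (bet_pos hN)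
  calc _ ≤ |(Real.log x - Real.log y) / bet N| + |(1 : ℝ)| := abs_sub _ _
    _ = |Real.log x - Real.log y| * (bet N)⁻¹ + 1 := by
      rw [div_eq_mul_inv, abs_mul, abs_of_pos hb, abs_one]
    _ ≤ Bd * (bet N)⁻¹ + Bd := by gcongr
    _ = _ := by ring

theorem abs_re_core {z : ℂ} {x y : ℝ} (hy : 0 ≤ y) (h : normSq z ≤ y ^ 2 * x) :
    |z.re| ≤ y * √x := by
  refine (abs_re_le_norm z).trans ?_
  rw [← Real.sqrt_sq (norm_nonneg z), ← normSq_eq_norm_sq, ← Real.sqrt_sq hy,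
    ← Real.sqrt_mul (sq_nonneg y)]
  exact Real.sqrt_le_sqrt h

theorem normSq_add_core (x y : ℂ) : normSq (x + y) ≤ 2 * normSq x + 2 * normSq y := by
  simp only [normSq_apply, add_re, add_im]
  nlinarith [sq_nonneg (x.re - y.re), sq_nonneg (x.im - y.im)]

section

variable {ω : Type} [Fintype ω] [DecidableEq ω] {V L : Matrix (γ × δ) ω ℂ} {W : Matrix ω ω ℂ}

theorem second_core (hV : Vᴴ * V = 1) (hW : IsState W) {R : Matrix γ γ ℂ} {y : ℝ} (hy : 0 ≤ y)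
    (hR : fs R ≤ y ^ 2) : |((ptr (V * W * Lᴴ))ᴴ * R).trace.re| ≤ y * √(ex W (Lᴴ * L)) := by
  refine abs_re_core hy ?_
  have e : ((ptr (V * W * Lᴴ))ᴴ * R).trace =
      (W * ((R ⊗ₖ (1 : Matrix δ δ ℂ))ᴴ * V)ᴴ * L).trace := by
    rw [← ptr_conjTranspose, trace_ptr_mul, trace_mul_comm _ L]
    simp only [conjTranspose_mul, conjTranspose_conjTranspose, hW.1.isHermitian.eq, Matrix.mul_assoc]
  have e2 : ((R ⊗ₖ (1 : Matrix δ δ ℂ))ᴴ * V)ᴴ * ((R ⊗ₖ (1 : Matrix δ δ ℂ))ᴴ * V) =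
      Gam V (Rᴴᴴ * Rᴴ) := by
    rw [Gam, conjTranspose_mul, conjTranspose_conjTranspose, conjTranspose_conjTranspose,
      conjTranspose_kronecker, conjTranspose_one, Matrix.mul_assoc, Matrix.mul_assoc,
      ← Matrix.mul_assoc _ _ V, ← mul_kronecker_mul, Matrix.mul_one]
  rw [e]
  refine (trace_cs hW.1 _ _).trans (mul_le_mul_of_nonneg_right ?_
    (ex_nonneg hW.1 (posSemidef_conjTranspose_mul_self L)))
  rw [e2, ex, ← trace_Phi_mul]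
  exact ((ex_le_fs (Phi_state hV hW) Rᴴ).trans_eq (fs_conjTranspose R)).trans hR

theorem third_core (hV : Vᴴ * V = 1) (hW : IsState W) {a : Matrix ω ω ℂ} (ha : L * a = 0)
    {H : Matrix γ γ ℂ} {N y : ℝ} (hN : 0 ≤ N) (hy : 0 ≤ y)
    (hH : Fintype.card δ * fs H * fs a ≤ y ^ 2) :
    |(ptr (V * (Psi N W a)ᴴ * Lᴴ) * H).trace.re| ≤ N * (y * √(ex W (Lᴴ * L))) := by
  have ha' : aᴴ * Lᴴ = 0 := by rw [← conjTranspose_mul, ha, conjTranspose_zero]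
  have e : (ptr (V * (Psi N W a)ᴴ * Lᴴ) * H).trace =
      N * (W * Lᴴ * ((H ⊗ₖ (1 : Matrix δ δ ℂ)) * (V * aᴴ))).trace := by
    rw [trace_ptr_mul, ← Matrix.mul_assoc (W * Lᴴ), trace_mul_comm _ (V * aᴴ), Psi]
    simp only [conjTranspose_sub, conjTranspose_smul, conjTranspose_mul, hW.1.isHermitian.eq,
      Matrix.mul_sub, Matrix.sub_mul, Matrix.mul_smul, Matrix.smul_mul, Matrix.mul_assoc,
      trace_sub, trace_smul, smul_eq_mul, star_def, conj_ofReal]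
    rw [← Matrix.mul_assoc aᴴ Lᴴ, ha']
    simp
  rw [e, re_ofReal_mul, abs_mul, abs_of_nonneg hN]
  refine mul_le_mul_of_nonneg_left (abs_re_core hy ?_) hN
  refine (trace_cs hW.1 _ _).trans ?_
  rw [mul_comm]
  refine mul_le_mul_of_nonneg_right ((ex_le_fs hW _).trans ((fs_mul_le _ _).trans ?_))
    (ex_nonneg hW.1 (posSemidef_conjTranspose_mul_self L))
  rwa [fs_kron_one, fs_iso_mul hV, fs_conjTranspose]

end

omit [DecidableEq α] in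
theorem PsiA_core (N : ℝ) (A a : Matrix α α ℂ) {B : Matrix β β ℂ} (hB : B.IsHermitian) :
    (Psi N A a)ᴴ ⊗ₖ B = (Psi N (A ⊗ₖ B) (a ⊗ₖ (1 : Matrix β β ℂ)))ᴴ := by
  have : Psi N (A ⊗ₖ B) (a ⊗ₖ (1 : Matrix β β ℂ)) = Psi N A a ⊗ₖ B := by
    rw [Psi, Psi, ← mul_kronecker_mul, ← mul_kronecker_mul, Matrix.mul_one, Matrix.one_mul]
    ext i j
    simp only [Matrix.sub_apply, Matrix.smul_apply, kroneckerMap_apply, smul_eq_mul]
    ring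
  rw [this, conjTranspose_kronecker, hB.eq]

omit [DecidableEq β] in
theorem PsiB_core (N : ℝ) {A : Matrix α α ℂ} (hA : A.IsHermitian) (B b : Matrix β β ℂ) :
    A ⊗ₖ (Psi N B b)ᴴ = (Psi N (A ⊗ₖ B) ((1 : Matrix α α ℂ) ⊗ₖ b))ᴴ := by
  have : Psi N (A ⊗ₖ B) ((1 : Matrix α α ℂ) ⊗ₖ b) = A ⊗ₖ Psi N B b := by
    rw [Psi, Psi, ← mul_kronecker_mul, ← mul_kronecker_mul, Matrix.mul_one, Matrix.one_mul]
    ext i j
    simp only [Matrix.sub_apply, Matrix.smul_apply, kroneckerMap_apply, smul_eq_mul]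
    ring
  rw [this, conjTranspose_kronecker, hA.eq]

theorem arith_core {η θ Na Nb β₀ Bd P e x1 x2 y1 y2 u1 u2 : ℝ} (h1 : η < 1) (h0 : 0 < η) (hθ0 : 0 < θ)
    (hθ1 : θ < 1) (hNa : 0 < Na) (hNb : 0 < Nb) (hT : 0 < β₀⁻¹) (hB0 : 0 ≤ Bd) (r1 : 0 ≤ u1)
    (r2 : 0 ≤ u2) (e1 : -e ≤ 6 * θ * (β₀⁻¹ + 1) * Bd ^ 2) (s1 : x1 ≤ (β₀⁻¹ + 1) * Bd ^ 3 * u1)
    (s2 : x2 ≤ (β₀⁻¹ + 1) * Bd ^ 3 * u2) (t1 : -(Na * (Bd ^ 3 * u1)) ≤ y1)
    (t2 : -(Nb * (Bd ^ 3 * u2)) ≤ y2) :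
    P - e + (1 - θ) * (√η * Na * x1 + √(1 - η) * Nb * x2) - (1 - θ) / β₀ * (y1 + y2) ≤
      P + 6 * θ * (β₀⁻¹ + 1) * Bd ^ 2 + 2 * (β₀⁻¹ + 1) * Bd ^ 3 * (Na * u1 + Nb * u2) := by
  have hθ' := (sub_pos.2 hθ1).le
  have q1 : √η ≤ 1 := Real.sqrt_le_one.2 h1.le
  have q2 : √(1 - η) ≤ 1 := Real.sqrt_le_one.2 (by linarith)
  have hθ'' : 1 - θ ≤ 1 := by linarith
  have b1 : (1 - θ) * (√η * Na * x1) ≤ 1 * (1 * Na * ((β₀⁻¹ + 1) * Bd ^ 3 * u1)) :=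
    calc _ ≤ (1 - θ) * (√η * Na * ((β₀⁻¹ + 1) * Bd ^ 3 * u1)) := by gcongr
      _ ≤ _ := by gcongr
  have b2 : (1 - θ) * (√(1 - η) * Nb * x2) ≤ 1 * (1 * Nb * ((β₀⁻¹ + 1) * Bd ^ 3 * u2)) :=
    calc _ ≤ (1 - θ) * (√(1 - η) * Nb * ((β₀⁻¹ + 1) * Bd ^ 3 * u2)) := by gcongr
      _ ≤ _ := by gcongr
  have b3 : (1 - θ) * β₀⁻¹ * -(y1 + y2) ≤
      1 * (β₀⁻¹ + 1) * (Na * (Bd ^ 3 * u1) + Nb * (Bd ^ 3 * u2)) :=
    calc _ ≤ (1 - θ) * β₀⁻¹ * (Na * (Bd ^ 3 * u1) + Nb * (Bd ^ 3 * u2)) := by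
          gcongr
          linarith
      _ ≤ _ := by
          gcongr
          linarith
  rw [div_eq_mul_inv (1 - θ)]
  linarith

theorem fin_core {ρ U c : Matrix γ γ ℂ} {p : γ → ℝ} (hρ : IsState ρ) (dC : Dg ρ U p)
    (hp : ∀ i, 0 < p i) {N d S E : ℝ} {z : ℂ} (hd0 : 0 < d) (hS0 : 0 ≤ S) (hzS : normSq z ≤ 2 * S)
    (hmain : d * Jf N U p (c - z • 1) + d * S ≤ E) : d * S ≤ E ∧ ∀ X : Matrix γ γ ℂ,
      d * normSq (Xᴴ * Psi N ρ c).trace ≤ 4 * E * ex ρ (X * Xᴴ + Xᴴ * X) := by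
  have hJ0 : 0 ≤ Jf N U p (c - z • 1) :=
    Finset.sum_nonneg fun k _ => Finset.sum_nonneg fun l _ =>
      mul_nonneg (div_nonneg (sq_nonneg _) (add_pos (hp _) (hp _)).le) (normSq_nonneg _)
  have hdJ := mul_nonneg hd0.le hJ0
  refine ⟨by linarith, fun X => ?_⟩
  have eP : Psi N ρ c = Psi N ρ (c - z • 1) + (-z) • ρ := by
    simp only [Psi, Matrix.mul_sub, Matrix.sub_mul, Matrix.mul_smul, Matrix.smul_mul, Matrix.mul_one,
      Matrix.one_mul, ofReal_add, ofReal_one]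
    module
  have a1 := tested_core dC hp N (c - z • 1) X
  have a2 : normSq (Xᴴ * ρ).trace ≤ ex ρ (X * Xᴴ + Xᴴ * X) := by
    have a3 := trace_cs hρ.1 X 1
    rw [Matrix.mul_one, conjTranspose_one, Matrix.mul_one, ex_one hρ, mul_one, trace_mul_comm] at a3
    have a4 := ex_nonneg hρ.1 (posSemidef_self_mul_conjTranspose X)
    rw [ex_add]
    linarith
  have a0 := (normSq_nonneg _).trans a2
  rw [eP, Matrix.mul_add, trace_add, Matrix.mul_smul, trace_smul, smul_eq_mul]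
  have a5 := normSq_add_core (Xᴴ * Psi N ρ (c - z • 1)).trace (-z * (Xᴴ * ρ).trace)
  rw [normSq_mul, normSq_neg] at a5
  have a6 : normSq z * normSq (Xᴴ * ρ).trace ≤ 2 * S * ex ρ (X * Xᴴ + Xᴴ * X) :=
    mul_le_mul hzS a2 (normSq_nonneg _) (by positivity)
  calc _ ≤ d * (2 * (Jf N U p (c - z • 1) * ex ρ (X * Xᴴ + Xᴴ * X)) +
        2 * (2 * S * ex ρ (X * Xᴴ + Xᴴ * X))) := mul_le_mul_of_nonneg_left (by linarith) hd0.le
    _ = (2 * (d * Jf N U p (c - z • 1)) + 4 * (d * S)) * ex ρ (X * Xᴴ + Xᴴ * X) := by ring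
    _ ≤ _ := mul_le_mul_of_nonneg_right (by linarith) a0

theorem core [Nonempty γ] {V LA LB : Matrix (γ × δ) (α × β) ℂ} (hV : Vᴴ * V = 1) {η : ℝ}
    (h0 : 0 < η) (h1 : η < 1) {a : Matrix α α ℂ} {b : Matrix β β ℂ} {c : Matrix γ γ ℂ}
    {d₀ : Matrix δ δ ℂ} (hM : Mode V η a b c d₀ LA LB) {Na Nb Nc d θ : ℝ} (hNa : 0 < Na)
    (hNb : 0 < Nb) (hNc : Nc = η * Na + (1 - η) * Nb) (hd0 : 0 < d) (hd1 : d < 1) (hθ0 : 0 < θ)
    (hθ1 : θ < 1) {FA A UA : Matrix α α ℂ} {FB B UB : Matrix β β ℂ} {UC : Matrix γ γ ℂ}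
    {pA : α → ℝ} {pB : β → ℝ} {pC : γ → ℝ}
    (hC : Crit V θ ((1 - d) / bet Nc) (η / bet Na) ((1 - η) / bet Nb) FA FB A B UA pA UB pB UC pC)
    {Bd : ℝ} (hB1 : 1 ≤ Bd) (cα : (Fintype.card α : ℝ) ≤ Bd) (cβ : (Fintype.card β : ℝ) ≤ Bd)
    (cγ : (Fintype.card γ : ℝ) ≤ Bd) (cδ : (Fintype.card δ : ℝ) ≤ Bd) (fa : fs a ≤ Bd)
    (fb : fs b ≤ Bd) (fc : fs c ≤ Bd) (hΛ : ∀ i, -Real.log (pC i) ≤ Bd) {E : ℝ}
    (hE : (Dpen Na ((1 - (1 - d) * (1 - θ)) * η) A a FA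
          + Dpen Nb ((1 - (1 - d) * (1 - θ)) * (1 - η)) B b FB) / (1 - d)
        + 6 * θ * ((bet Nc)⁻¹ + 1) * Bd ^ 2
        + 2 * ((bet Nc)⁻¹ + 1) * Bd ^ 3 * (Na * √(ex (A ⊗ₖ B) (LAᴴ * LA))
          + Nb * √(ex (A ⊗ₖ B) (LBᴴ * LB))) ≤ E) :
    d * (η * normSq (A * a).trace + (1 - η) * normSq (B * b).trace) ≤ E ∧
      ∀ X : Matrix γ γ ℂ, d * normSq (Xᴴ * Psi Nc (out V θ A B) c).trace
        ≤ 4 * E * ex (out V θ A B) (X * Xᴴ + Xᴴ * X) := by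
  have hNc0 : 0 < Nc := by
    rw [hNc]
    have := sub_pos.2 h1
    positivity
  have hT := inv_pos.2 (bet_pos hNc0)
  have hW := kron_state hC.sA hC.sB
  have hρ := out_state hV hθ0.le hθ1.le hC.sA hC.sB
  have hB0 : 0 ≤ Bd := zero_le_one.trans hB1
  have hlog : ∀ i, Real.log (pC i) ≤ 0 := fun i =>
    Real.log_nonpos (hC.posC i).le ((state_eig hρ hC.dC).1 i).2
  have hvr : ∀ k l, |vr Nc (pC k) (pC l)| ≤ ((bet Nc)⁻¹ + 1) * Bd := fun k l =>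
    vr_abs_core hNc0 (abs_le.2 ⟨by linarith [hlog l, hΛ k], by linarith [hlog k, hΛ l]⟩) hB1
  obtain ⟨z, hz⟩ : ∃ z, z = ((√η : ℝ) : ℂ) * (A * a).trace + ((√(1 - η) : ℝ) : ℂ) * (B * b).trace :=
    ⟨_, rfl⟩
  have key := core_alg hV h0 h1 hM hNa hNb hNc hd0 hd1 hθ0 hθ1 hC (ct := c - z • 1) (by rw [hz])
  obtain ⟨S, hS⟩ : ∃ S, S = η * normSq (A * a).trace + (1 - η) * normSq (B * b).trace := ⟨_, rfl⟩
  have hη' := sub_pos.2 h1
  have hS0 : 0 ≤ S := by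
    rw [hS]
    exact add_nonneg (mul_nonneg h0.le (normSq_nonneg _)) (mul_nonneg hη'.le (normSq_nonneg _))
  have hzS : normSq z ≤ 2 * S := by
    rw [hz, hS]
    refine (normSq_add_core _ _).trans_eq ?_
    rw [normSq_mul, normSq_mul, normSq_ofReal, normSq_ofReal, Real.mul_self_sqrt h0.le,
      Real.mul_self_sqrt hη'.le]
    ring
  have hSB : S ≤ Bd := by
    have a1 := ((normSq_mean_le hC.sA a).trans (ex_le_fs hC.sA a)).trans fa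
    have a2 := ((normSq_mean_le hC.sB b).trans (ex_le_fs hC.sB b)).trans fb
    rw [hS]
    nlinarith [mul_le_mul_of_nonneg_left a1 h0.le, mul_le_mul_of_nonneg_left a2 hη'.le]
  have hD : (1 : ℝ) ≤ Fintype.card γ := Nat.one_le_cast.2 Fintype.card_pos
  have hD0 : (0 : ℝ) < Fintype.card γ := zero_lt_one.trans_le hD
  have e1 : -(θ / Fintype.card γ * ((c - z • 1)ᴴ * score Nc UC pC (c - z • 1)).trace.re) ≤
      6 * θ * ((bet Nc)⁻¹ + 1) * Bd ^ 2 := by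
    have a1 := re_score_core hC.dC hvr (c - z • 1)
    have a2 : fs (c - z • 1) ≤ 6 * Fintype.card γ * Bd := by
      refine (fs_sub_smul_one c z).trans ?_
      have a3 : normSq z ≤ 2 * Bd := by linarith
      nlinarith [mul_le_mul_of_nonneg_left a3 hD0.le, mul_le_mul_of_nonneg_right hD hB0]
    calc _ = θ / Fintype.card γ * -((c - z • 1)ᴴ * score Nc UC pC (c - z • 1)).trace.re := by ring
      _ ≤ θ / Fintype.card γ * (((bet Nc)⁻¹ + 1) * Bd * (6 * Fintype.card γ * Bd)) :=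
        mul_le_mul_of_nonneg_left (a1.trans (by gcongr)) (by positivity)
      _ = _ := by field_simp
  have hsc : fs (score Nc UC pC c) ≤ (((bet Nc)⁻¹ + 1) * Bd ^ 3) ^ 2 := by
    refine (fs_score_core hC.dC hvr c).trans ?_
    calc _ ≤ (((bet Nc)⁻¹ + 1) * Bd) ^ 2 * Bd ^ 4 :=
          mul_le_mul_of_nonneg_left (fc.trans (le_self_pow₀ hB1 (by norm_num))) (sq_nonneg _)
      _ = _ := by ring
  have hH : fs (mlog UC pC) ≤ Bd * Bd ^ 2 :=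
    (fs_mlog_le hC.dC (t := Bd) fun i => abs_le.2 ⟨by linarith [hΛ i], by linarith [hlog i]⟩).trans
      (by gcongr)
  have hH0 := fs_nonneg (mlog UC pC)
  have s1 := (abs_le.1 (second_core (L := LA) hV hW (by positivity) hsc)).2
  have s2 := (abs_le.1 (second_core (L := LB) hV hW (by positivity) hsc)).2
  have t1 := (abs_le.1 (third_core hV hW hM.killA (H := mlog UC pC) (y := Bd ^ 3) hNa.le
    (by positivity) (by
      have := fs_nonneg a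
      rw [fs_kron_one]
      calc _ ≤ Bd * (Bd * Bd ^ 2) * (Bd * Bd) := by gcongr
        _ = _ := by ring))).1
  have t2 := (abs_le.1 (third_core hV hW hM.killB (H := mlog UC pC) (y := Bd ^ 3) hNb.le
    (by positivity) (by
      have := fs_nonneg b
      rw [fs_one_kron]
      calc _ ≤ Bd * (Bd * Bd ^ 2) * (Bd * Bd) := by gcongr
        _ = _ := by ring))).1
  rw [← PsiA_core Na A a hC.sB.1.isHermitian] at t1
  rw [← PsiB_core Nb hC.sA.1.isHermitian B b] at t2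
  rw [← hS] at key ⊢
  have hmain : d * Jf Nc UC pC (c - z • 1) + d * S ≤ E := by
    refine key.trans (le_trans ?_ hE)
    exact arith_core h1 h0 hθ0 hθ1 hNa hNb hT hB0 (Real.sqrt_nonneg _) (Real.sqrt_nonneg _) e1 s1 s2 t1 t2
  exact fin_core hρ hC.dC hC.posC hd0 hS0 hzS hmain

end Vale.Agent.P369
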