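import Vale.Agent.P369.BoxL

/-! P369 task End1: states that almost satisfy `N ρ a = (N+1) a ρ` converge to the thermal state.
Plan. Energy: test `X = low j`: `Tr (Xᴴ Psi) = N ex ρ (a aᴴ) - (N+1) ex ρ (aᴴ a) = N - E j - N t j`
(`low_lowH`; `t j = ex ρ top ≥ 0`; the trace is real or take real parts) and
`ex ρ (a aᴴ + aᴴ a) ≤ 2 E j + 1`, so `(N - E j - N t j)² ≤ J (2 E j + 1)`; hence if `E j > N + δ`
then `(E j - N)² ≤ J (2 E j + 1)`, impossible for small `J`. Sum over `j` (`sum_lowH_low`).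
Entries: test `X = Matrix.single k l 1`: `Tr (Xᴴ Psi) = Psi k l`, `ex ρ (..) = ρ k k + ρ l l ≤ 2`;
with `r m = ext (ρ m)`, eventually (`eventually_le`, `exists_emb`, `ext_emb`, `mul_low`, `low_mul`)
`Psi k l = N √(l j) r k (l - e j) - (N+1) √(k j + 1) r (k + e j) l`, so this tends to `0`.
By induction on `∑ k j` (for all `l`): `r m k l - [k = l] (therm N k / therm N 0) r m 0 0 → 0`
(`k = 0`: for `l = l' + e j` use `r 0 l = conj (r l 0)` and the relation at `(l', 0)`;
`k = k' + e j`: the relation at `(k', l)`, split on `l j = 0`, `therm_succ`).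
Normalization: for each `p`, eventually `1 - E/(p+1) ≤ ∑_{k ∈ boxF n p} (r k k).re ≤ 1`
(`lt_sum_of_not_mem`, `ex_diagonal`, `sum_box`), `r m 0 0` is real in `[0,1]`, and
`∑_{boxF n p} therm → 1` (`hasSum_therm`, `tendsto_boxF`); so `r m 0 0 → therm N 0`. -/

namespace Vale.Agent.P369

open Matrix Vale.Agent.P358 Complex Filter Topology
open scoped ComplexOrder

variable {n : ℕ}

theorem scal_end1 {N E t x J δ : ℝ} (hN : 0 < N) (hδ : 0 < δ) (ht : 0 ≤ t) (hx0 : 0 ≤ x)
    (hx : x ≤ 2 * E + 1) (h : (N - E - N * t) ^ 2 ≤ J * x)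
    (hJ : |J| * (2 * δ + 2 * N + 1) < δ ^ 2) : E ≤ N + δ := by
  by_contra hc
  have hu : δ < E - N := by linarith
  have h1 : (E - N) ^ 2 ≤ (N - E - N * t) ^ 2 := by
    have : 0 ≤ N * t := by positivity
    nlinarith
  have h2 : J * x ≤ |J| * (2 * E + 1) :=
    (mul_le_mul_of_nonneg_right (le_abs_self J) hx0).trans
      (mul_le_mul_of_nonneg_left hx (abs_nonneg J))
  have h3 : |J| * (2 * E + 1) * δ ≤ |J| * (2 * δ + 2 * N + 1) * (E - N) := by
    rw [mul_assoc, mul_assoc]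
    refine mul_le_mul_of_nonneg_left ?_ (abs_nonneg J)
    nlinarith
  have h4 : |J| * (2 * δ + 2 * N + 1) * (E - N) < δ ^ 2 * (E - N) :=
    mul_lt_mul_of_pos_right hJ (by linarith)
  have h5 : (E - N) ^ 2 * δ ≤ |J| * (2 * E + 1) * δ :=
    mul_le_mul_of_nonneg_right (by linarith) hδ.le
  have h6 : 0 < (E - N) * δ * ((E - N) - δ) := by
    have : 0 < E - N := by linarith
    have : 0 < (E - N) - δ := by linarith
    positivity
  nlinarith

theorem mode_end1 {K : ℕ} {N J δ : ℝ} (hN : 0 < N) (hδ : 0 < δ)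
    {ρ : Matrix (Box n K) (Box n K) ℂ} (hρ : IsState ρ) (j : Fin n)
    (ht : normSq ((low n K j)ᴴ * Psi N ρ (low n K j)).trace
      ≤ J * ex ρ (low n K j * (low n K j)ᴴ + (low n K j)ᴴ * low n K j))
    (hJ : |J| * (2 * δ + 2 * N + 1) < δ ^ 2) :
    ex ρ ((low n K j)ᴴ * low n K j) ≤ N + δ := by
  have h1 : ex ρ (low n K j * (low n K j)ᴴ)
      = ex ρ ((low n K j)ᴴ * low n K j) + 1 - ex ρ (top n K j) := by
    rw [low_lowH, ex_sub, ex_add, ex_one hρ]
  have h2 : 0 ≤ ex ρ (low n K j * (low n K j)ᴴ) :=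
    ex_nonneg hρ.1 (posSemidef_self_mul_conjTranspose _)
  have h3 : 0 ≤ ex ρ ((low n K j)ᴴ * low n K j) :=
    ex_nonneg hρ.1 (posSemidef_conjTranspose_mul_self _)
  have h4 : 0 ≤ ex ρ (top n K j) := ex_nonneg hρ.1 (top_psd j)
  have h5 : ((low n K j)ᴴ * Psi N ρ (low n K j)).trace.re
      = N * ex ρ (low n K j * (low n K j)ᴴ) - (N + 1) * ex ρ ((low n K j)ᴴ * low n K j) := by
    rw [Psi, Matrix.mul_sub, Matrix.mul_smul, Matrix.mul_smul, trace_sub, trace_smul, trace_smul,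
      smul_eq_mul, smul_eq_mul, sub_re, re_ofReal_mul, re_ofReal_mul, ex, ex,
      trace_mul_comm (low n K j)ᴴ (ρ * low n K j), Matrix.mul_assoc ρ,
      ← Matrix.mul_assoc (low n K j)ᴴ, trace_mul_comm ((low n K j)ᴴ * low n K j) ρ]
  have h6 := re_sq_le_normSq ((low n K j)ᴴ * Psi N ρ (low n K j)).trace
  rw [ex_add] at ht
  refine scal_end1 hN hδ h4 (add_nonneg h2 h3) (by linarith) ?_ hJ
  refine le_trans (le_of_eq ?_) (h6.trans ht)
  rw [h5, h1]
  ring

theorem end_nrg {N : ℝ} (hN : 0 < N) {M : ℕ → ℕ}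
    (ρ : ∀ m, Matrix (Box n (M m)) (Box n (M m)) ℂ) (hρ : ∀ m, IsState (ρ m)) {J : ℕ → ℝ}
    (hJ : Tendsto J atTop (𝓝 0))
    (ht : ∀ m j X, normSq (Xᴴ * Psi N (ρ m) (low n (M m) j)).trace
      ≤ J m * ex (ρ m) (X * Xᴴ + Xᴴ * X)) {δ : ℝ} (hδ : 0 < δ) :
    ∀ᶠ m in atTop, ex (ρ m) (nrg n (M m)) ≤ n * N + δ := by
  set d : ℝ := δ / (n + 1) with hd
  have hd0 : 0 < d := by positivity
  have h1 : Tendsto (fun m => |J m| * (2 * d + 2 * N + 1)) atTop (𝓝 0) := by
    simpa using hJ.abs.mul_const (2 * d + 2 * N + 1)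
  filter_upwards [h1.eventually (gt_mem_nhds (show (0 : ℝ) < d ^ 2 by positivity))] with m hm
  rw [← sum_lowH_low, ex_sum]
  have h2 : ∑ j : Fin n, ex (ρ m) ((low n (M m) j)ᴴ * low n (M m) j) ≤ ∑ _j : Fin n, (N + d) :=
    Finset.sum_le_sum fun j _ => mode_end1 hN hd0 (hρ m) j (ht m j _) hm
  refine h2.trans ?_
  rw [Finset.sum_const, Finset.card_univ, Fintype.card_fin, nsmul_eq_mul]
  have h3 : (n + 1 : ℝ) * d = δ := by rw [hd]; field_simp
  linarith

theorem diag_nonneg_end1 {ι : Type} [Fintype ι] {ρ : Matrix ι ι ℂ} (hρ : IsState ρ) (k : ι) :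
    0 ≤ (ρ k k).re := (Complex.nonneg_iff.1 hρ.1.diag_nonneg).1

theorem diag_sum_end1 {ι : Type} [Fintype ι] {ρ : Matrix ι ι ℂ} (hρ : IsState ρ) :
    ∑ k, (ρ k k).re = 1 := by
  have := congrArg Complex.re hρ.2
  rwa [Matrix.trace, re_sum] at this

theorem diag_le_end1 {ι : Type} [Fintype ι] {ρ : Matrix ι ι ℂ} (hρ : IsState ρ) (k : ι) :
    (ρ k k).re ≤ 1 := by
  rw [← diag_sum_end1 hρ]
  exact Finset.single_le_sum (f := fun k => (ρ k k).re) (fun i _ => diag_nonneg_end1 hρ i)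
    (Finset.mem_univ k)

theorem entry_end1 {ι : Type} [Fintype ι] [DecidableEq ι] {ρ P : Matrix ι ι ℂ} (hρ : IsState ρ)
    {J : ℝ} (ht : ∀ X : Matrix ι ι ℂ, normSq (Xᴴ * P).trace ≤ J * ex ρ (X * Xᴴ + Xᴴ * X))
    (k l : ι) : normSq (P k l) ≤ 2 * |J| := by
  have h := ht (Matrix.single k l 1)
  have e1 : ∀ i : ι, ex ρ (Matrix.single i i 1) = (ρ i i).re := fun i => by
    rw [ex, trace_mul_single]; simp
  rw [conjTranspose_single, star_one, trace_single_mul, single_mul_single_same,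
    single_mul_single_same, one_mul, ex_add, e1, e1, one_smul] at h
  have h1 := diag_nonneg_end1 hρ k
  have h2 := diag_nonneg_end1 hρ l
  have h3 := diag_le_end1 hρ k
  have h4 := diag_le_end1 hρ l
  have h5 := le_abs_self J
  have h6 := abs_nonneg J
  nlinarith

theorem psi_end1 {K : ℕ} (N : ℝ) (ρ : Matrix (Box n K) (Box n K) ℂ) (j : Fin n) (k l : Box n K)
    (hk : emb k j < K) :
    Psi N ρ (low n K j) k l =
      (N : ℂ) * (((√(emb l j : ℝ) : ℝ) : ℂ) * ext ρ (emb k) (emb l - Pi.single j 1))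
        - ((N + 1 : ℝ) : ℂ) *
          (((√((emb k j : ℝ) + 1) : ℝ) : ℂ) * ext ρ (emb k + Pi.single j 1) (emb l)) := by
  rw [Psi, Matrix.sub_apply, Matrix.smul_apply, Matrix.smul_apply, smul_eq_mul, smul_eq_mul,
    mul_low j ρ k (fun y => ext ρ (emb k) y) (fun l => (ext_emb ρ k l).symm),
    low_mul j ρ l (fun y => ext ρ y (emb l)) (fun k => (ext_emb ρ k l).symm), if_pos hk]

theorem ext_conj_end1 {K : ℕ} {ρ : Matrix (Box n K) (Box n K) ℂ} (hρ : ρ.IsHermitian)
    (k l : Occ n) : ext ρ l k = (starRingEnd ℂ) (ext ρ k l) := by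
  rw [ext, ext, map_sum, Finset.sum_comm]
  refine Finset.sum_congr rfl fun a _ => ?_
  rw [map_sum]
  refine Finset.sum_congr rfl fun b _ => ?_
  by_cases h : emb a = k ∧ emb b = l
  · rw [if_pos h, if_pos h.symm, ← hρ.apply b a]
    rfl
  · rw [if_neg h, if_neg fun h' => h h'.symm, map_zero]

theorem exists_succ_end1 {k : Occ n} (hk : k ≠ 0) :
    ∃ (k' : Occ n) (j : Fin n), k = k' + Pi.single j 1 := by
  obtain ⟨j, hj⟩ := Function.ne_iff.1 hk
  refine ⟨k - Pi.single j 1, j, funext fun i => ?_⟩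
  rcases eq_or_ne i j with rfl | h
  · simp only [Pi.add_apply, Pi.sub_apply, Pi.single_eq_same]
    simp only [Pi.zero_apply] at hj
    omega
  · simp [h]

theorem rec_end1 {N : ℝ} (hN : 0 < N) {r : ℕ → Occ n → Occ n → ℂ}
    (hc : ∀ m k l, r m l k = (starRingEnd ℂ) (r m k l))
    (hr : ∀ (k l : Occ n) (j : Fin n), Tendsto (fun m =>
      (N : ℂ) * (((√(l j : ℝ) : ℝ) : ℂ) * r m k (l - Pi.single j 1))
        - ((N + 1 : ℝ) : ℂ) * (((√((k j : ℝ) + 1) : ℝ) : ℂ) * r m (k + Pi.single j 1) l))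
      atTop (𝓝 0)) (s : ℕ) : ∀ k : Occ n, ∑ j, k j = s → ∀ l, Tendsto (fun m => r m k l -
      (if k = l then ((therm N k / therm N (0 : Occ n) : ℝ) : ℂ) else 0) * r m 0 0)
      atTop (𝓝 0) := by
  have hne : ∀ (k : Occ n) (j : Fin n),
      ((N + 1 : ℝ) : ℂ) * ((√((k j : ℝ) + 1) : ℝ) : ℂ) ≠ 0 := fun k j => by
    have h1 : 0 < N + 1 := by linarith
    have h2 : 0 < √((k j : ℝ) + 1) := Real.sqrt_pos.2 (by positivity)
    exact mul_ne_zero (ofReal_ne_zero.2 h1.ne') (ofReal_ne_zero.2 h2.ne')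
  induction s with
  | zero =>
    intro k hk l
    have hk0 : k = 0 := funext fun j => Finset.sum_eq_zero_iff.1 hk j (Finset.mem_univ j)
    subst hk0
    by_cases hl : 0 = l
    · subst hl
      simp [(therm_pos hN (0 : Occ n)).ne']
    · obtain ⟨l', j, rfl⟩ := exists_succ_end1 (Ne.symm hl)
      have h1 := (hr l' 0 j).const_mul
        (-(((N + 1 : ℝ) : ℂ) * ((√((l' j : ℝ) + 1) : ℝ) : ℂ))⁻¹)
      have h2 : Tendsto (fun m => r m (l' + Pi.single j 1) 0) atTop (𝓝 0) := by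
        rw [mul_zero] at h1
        refine h1.congr fun m => ?_
        have := hne l' j
        simp only [Pi.zero_apply, Nat.cast_zero, Real.sqrt_zero, ofReal_zero, zero_mul, mul_zero,
          zero_sub]
        rw [← mul_assoc, neg_mul_neg, inv_mul_cancel_left₀ this]
      have h3 := (continuous_conj.tendsto 0).comp h2
      rw [map_zero] at h3
      refine h3.congr fun m => ?_
      rw [if_neg hl, zero_mul, sub_zero, hc m (l' + Pi.single j 1) 0]
      rfl
  | succ s ih =>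
    intro k hk l
    have hk0 : k ≠ 0 := by
      rintro rfl
      simp at hk
    obtain ⟨k', j, rfl⟩ := exists_succ_end1 hk0
    have hs : ∑ i, k' i = s := by
      simp only [Pi.add_apply, Finset.sum_add_distrib, Finset.sum_pi_single', Finset.mem_univ,
        if_true] at hk
      omega
    have h1 := (((ih k' hs (l - Pi.single j 1)).const_mul
      ((N : ℂ) * ((√(l j : ℝ) : ℝ) : ℂ))).sub (hr k' l j)).const_mul
        (((N + 1 : ℝ) : ℂ) * ((√((k' j : ℝ) + 1) : ℝ) : ℂ))⁻¹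
    rw [mul_zero, sub_zero, mul_zero] at h1
    have h2 : (N : ℂ) * ((√(l j : ℝ) : ℝ) : ℂ) *
        (if k' = l - Pi.single j 1 then ((therm N k' / therm N (0 : Occ n) : ℝ) : ℂ) else 0)
        = ((N + 1 : ℝ) : ℂ) * ((√((k' j : ℝ) + 1) : ℝ) : ℂ) *
          (if k' + Pi.single j 1 = l then
            ((therm N (k' + Pi.single j 1) / therm N (0 : Occ n) : ℝ) : ℂ) else 0) := by
      by_cases h : k' + Pi.single j 1 = l
      · subst h
        rw [if_pos rfl, if_pos (add_tsub_cancel_right _ _).symm]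
        have h3 := therm_succ hN k' j
        simp only [Pi.add_apply, Pi.single_eq_same, Nat.cast_add, Nat.cast_one]
        rw [← ofReal_mul, ← ofReal_mul, ← ofReal_mul, ← ofReal_mul, mul_right_comm N,
          mul_right_comm (N + 1), ← mul_div_assoc, ← mul_div_assoc, h3]
      · rw [if_neg h, mul_zero]
        by_cases h' : k' = l - Pi.single j 1
        · have h4 : l j = 0 := by
            by_contra h5
            refine h (funext fun i => ?_)
            rw [h']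
            rcases eq_or_ne i j with rfl | hi
            · simp only [Pi.add_apply, Pi.sub_apply, Pi.single_eq_same]
              omega
            · simp [hi]
          simp [h4]
        · rw [if_neg h', mul_zero]
    refine h1.congr fun m => ?_
    rw [inv_mul_eq_iff_eq_mul₀ (hne k' j)]
    linear_combination (-r m 0 0) * h2

theorem mass_end1 {K p : ℕ} (hp : p ≤ K) {ρ : Matrix (Box n K) (Box n K) ℂ} (hρ : IsState ρ) :
    |1 - ∑ y ∈ boxF n p, (ext ρ y y).re| ≤ ex ρ (nrg n K) / (p + 1) := by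
  have hsub : boxF n p ⊆ boxF n K := fun y hy =>
    mem_boxF.2 fun j => (mem_boxF.1 hy j).trans hp
  have h0 : ∀ y ∈ boxF n K, 0 ≤ (ext ρ y y).re := fun y hy => by
    obtain ⟨k, rfl⟩ := exists_emb (mem_boxF.1 hy)
    rw [ext_emb]
    exact diag_nonneg_end1 hρ k
  have h1 : ∑ y ∈ boxF n K, (ext ρ y y).re = 1 := by
    rw [← sum_box (fun y => (ext ρ y y).re), ← diag_sum_end1 hρ]
    simp only [ext_emb]
  have h2 : ex ρ (nrg n K) = ∑ y ∈ boxF n K, (ext ρ y y).re * ∑ j, (y j : ℝ) := by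
    rw [nrg, ex_diagonal, ← sum_box (fun y => (ext ρ y y).re * ∑ j, (y j : ℝ))]
    simp only [ext_emb]
  have h3 := Finset.sum_sdiff hsub (f := fun y => (ext ρ y y).re)
  have h4 : 0 ≤ ∑ y ∈ boxF n K \ boxF n p, (ext ρ y y).re :=
    Finset.sum_nonneg fun y hy => h0 y (Finset.mem_sdiff.1 hy).1
  have h5 : (∑ y ∈ boxF n K \ boxF n p, (ext ρ y y).re) * (p + 1) ≤ ex ρ (nrg n K) := by
    rw [h2, Finset.sum_mul]
    refine le_trans (Finset.sum_le_sum fun y hy => ?_)
      (Finset.sum_le_sum_of_subset_of_nonneg Finset.sdiff_subset fun y hy _ =>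
        mul_nonneg (h0 y hy) (by positivity))
    exact mul_le_mul_of_nonneg_left (lt_sum_of_not_mem (Finset.mem_sdiff.1 hy).2)
      (h0 y (Finset.mem_sdiff.1 hy).1)
  rw [abs_of_nonneg (by linarith), le_div_iff₀ (by positivity)]
  have h6 : 1 - ∑ y ∈ boxF n p, (ext ρ y y).re = ∑ y ∈ boxF n K \ boxF n p, (ext ρ y y).re := by
    linarith
  rwa [h6]

theorem lim_end1 {τ C : ℝ} (hτ : 0 < τ) {s : ℕ → ℝ} {P : ℕ → ℝ} {S : ℕ → ℕ → ℝ}
    (hs : ∀ᶠ m in atTop, |s m| ≤ 1) (hP : Tendsto P atTop (𝓝 1))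
    (h1 : ∀ p, Tendsto (fun m => S p m - P p / τ * s m) atTop (𝓝 0))
    (h2 : ∀ p : ℕ, ∀ᶠ m in atTop, |1 - S p m| ≤ C / (p + 1)) : Tendsto s atTop (𝓝 τ) := by
  rw [Metric.tendsto_nhds]
  intro ε hε
  have a1 : Tendsto (fun p : ℕ => |1 - P p| + τ * (C / (p + 1))) atTop (𝓝 0) := by
    have b1 : Tendsto (fun p : ℕ => |1 - P p|) atTop (𝓝 0) := by
      simpa using (hP.const_sub 1).abs
    have b2 : Tendsto (fun p : ℕ => C / ((p : ℝ) + 1)) atTop (𝓝 0) :=
      tendsto_const_nhds.div_atTop (tendsto_natCast_atTop_atTop.atTop_add tendsto_const_nhds)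
    simpa using b1.add (b2.const_mul τ)
  obtain ⟨p, hp⟩ := (a1.eventually (gt_mem_nhds (half_pos hε))).exists
  have a2 : Tendsto (fun m => τ * |S p m - P p / τ * s m|) atTop (𝓝 0) := by
    simpa using (h1 p).abs.const_mul τ
  filter_upwards [hs, h2 p, a2.eventually (gt_mem_nhds (half_pos hε))] with m m1 m2 m3
  have e : s m - τ = s m * (1 - P p) - τ * (S p m - P p / τ * s m) - τ * (1 - S p m) := by
    field_simp
    ring
  have c1 : |s m * (1 - P p)| ≤ |1 - P p| := by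
    rw [abs_mul]
    exact mul_le_of_le_one_left (abs_nonneg _) m1
  have c2 : |τ * (S p m - P p / τ * s m)| = τ * |S p m - P p / τ * s m| := by
    rw [abs_mul, abs_of_pos hτ]
  have c3 : |τ * (1 - S p m)| ≤ τ * (C / (p + 1)) := by
    rw [abs_mul, abs_of_pos hτ]
    exact mul_le_mul_of_nonneg_left m2 hτ.le
  have c4 := abs_sub (s m * (1 - P p) - τ * (S p m - P p / τ * s m)) (τ * (1 - S p m))
  have c5 := abs_sub (s m * (1 - P p)) (τ * (S p m - P p / τ * s m))
  rw [Real.dist_eq, e]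
  linarith

theorem end_entries {N : ℝ} (hN : 0 < N) {M : ℕ → ℕ} (hM : Tendsto M atTop atTop)
    (ρ : ∀ m, Matrix (Box n (M m)) (Box n (M m)) ℂ) (hρ : ∀ m, IsState (ρ m)) {J : ℕ → ℝ}
    (hJ : Tendsto J atTop (𝓝 0))
    (ht : ∀ m j X, normSq (Xᴴ * Psi N (ρ m) (low n (M m) j)).trace
      ≤ J m * ex (ρ m) (X * Xᴴ + Xᴴ * X)) (k l : Occ n) :
    Tendsto (fun m => ext (ρ m) k l) atTop (𝓝 (if k = l then (therm N k : ℂ) else 0)) := by
  have hc : ∀ m (k l : Occ n), ext (ρ m) l k = (starRingEnd ℂ) (ext (ρ m) k l) :=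
    fun m k l => ext_conj_end1 (hρ m).1.isHermitian k l
  have hr : ∀ (k l : Occ n) (j : Fin n), Tendsto (fun m =>
      (N : ℂ) * (((√(l j : ℝ) : ℝ) : ℂ) * ext (ρ m) k (l - Pi.single j 1))
        - ((N + 1 : ℝ) : ℂ) *
          (((√((k j : ℝ) + 1) : ℝ) : ℂ) * ext (ρ m) (k + Pi.single j 1) l)) atTop (𝓝 0) := by
    intro k l j
    have h1 : Tendsto (fun m => √(2 * |J m|)) atTop (𝓝 0) := by
      simpa using (hJ.abs.const_mul 2).sqrt
    refine squeeze_zero_norm' ?_ h1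
    filter_upwards [eventually_le hM k, eventually_le hM l,
      eventually_le hM (k + Pi.single j 1)] with m h2 h3 h4
    obtain ⟨k', rfl⟩ := exists_emb h2
    obtain ⟨l', rfl⟩ := exists_emb h3
    have h5 : emb k' j < M m := by
      have := h4 j
      simp only [Pi.add_apply, Pi.single_eq_same] at this
      omega
    rw [← psi_end1 N (ρ m) j k' l' h5, Complex.norm_def]
    exact Real.sqrt_le_sqrt (entry_end1 (hρ m) (ht m j) k' l')
  have key := fun k : Occ n => rec_end1 hN hc hr _ k rfl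
  have hτ := therm_pos hN (0 : Occ n)
  have hre : ∀ m, ext (ρ m) 0 0 = ((ext (ρ m) 0 0).re : ℂ) := fun m =>
    (conj_eq_iff_re.1 (hc m 0 0).symm).symm
  have h0 : Tendsto (fun m => (ext (ρ m) 0 0).re) atTop (𝓝 (therm N (0 : Occ n))) := by
    refine lim_end1 hτ (C := n * N + 1) (P := fun p => ∑ y ∈ boxF n p, therm N y)
      (S := fun p m => ∑ y ∈ boxF n p, (ext (ρ m) y y).re) ?_
      ((hasSum_therm hN).comp (tendsto_boxF n)) (fun p => ?_) (fun p => ?_)
    · refine Eventually.of_forall fun m => ?_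
      obtain ⟨k0, hk0⟩ := exists_emb (n := n) (K := M m) (y := 0) fun j => Nat.zero_le _
      rw [← hk0, ext_emb, abs_of_nonneg (diag_nonneg_end1 (hρ m) k0)]
      exact diag_le_end1 (hρ m) k0
    · have h1 := tendsto_finsetSum (boxF n p) fun y _ => (continuous_re.tendsto 0).comp (key y y)
      simp only [zero_re, Finset.sum_const_zero] at h1
      refine h1.congr fun m => ?_
      simp only [Function.comp_apply, if_true, sub_re, re_ofReal_mul, Finset.sum_sub_distrib,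
        Finset.sum_div, Finset.sum_mul]
    · filter_upwards [hM.eventually_ge_atTop p, end_nrg hN ρ hρ hJ ht one_pos] with m h1 h2
      exact (mass_end1 h1 (hρ m)).trans (div_le_div_of_nonneg_right h2 (by positivity))
  have h1 := (key k l).add (((continuous_ofReal.tendsto _).comp h0).const_mul
    (if k = l then ((therm N k / therm N (0 : Occ n) : ℝ) : ℂ) else 0))
  have h2 : (0 : ℂ) + (if k = l then ((therm N k / therm N (0 : Occ n) : ℝ) : ℂ) else 0) *
      ((therm N (0 : Occ n) : ℝ) : ℂ) = if k = l then (therm N k : ℂ) else 0 := by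
    split_ifs
    · rw [zero_add, ← ofReal_mul, div_mul_cancel₀ _ hτ.ne']
    · simp
  rw [h2] at h1
  refine h1.congr fun m => ?_
  rw [Function.comp_apply, ← hre m, sub_add_cancel]

end Vale.Agent.P369
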