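import Vale.Agent.P369.Usc
import Vale.Agent.P369.End1
import Vale.Agent.P369.Conv
import Vale.Agent.P369.Beam

/-! P369 Dens (helper70): the output is automatically a density operator. -/

namespace Vale.Agent.P369

open Matrix Vale.Agent.P358 Complex Filter Topology
open scoped ComplexOrder Kronecker

variable {n : ℕ} {H : Type} [NormedAddCommGroup H] [InnerProductSpace ℂ H] [CompleteSpace H]
  {e : HilbertBasis (Occ n) ℂ H} {C : H →L[ℂ] H}

theorem tendsto_vec (e : HilbertBasis (Occ n) ℂ H) (x : H) :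
    Tendsto (fun p => vec e p (fun k : Box n p => e.repr x (emb k))) atTop (𝓝 x) := by
  refine ((e.hasSum_repr x).comp (tendsto_boxF n)).congr fun p => ?_
  rw [Function.comp_apply, ← sum_box, vec]
  exact Finset.sum_congr rfl fun k _ => (if_pos (emb_le k)).symm

theorem positive_of_lim {M : ℕ → ℕ} (σ : ∀ m, Matrix (Box n (M m)) (Box n (M m)) ℂ)
    (hσ : ∀ᶠ m in atTop, (σ m).PosSemidef)
    (hlim : ∀ k l, Tendsto (fun m => ext (σ m) k l) atTop (𝓝 (mel e C k l))) : C.IsPositive := by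
  have h1 : ∀ (p : ℕ) (v : Box n p → ℂ), 0 ≤ inner ℂ (vec e p v) (C (vec e p v)) := by
    intro p v
    have t : Tendsto (fun m => star v ⬝ᵥ ((Matrix.of fun k l : Box n p =>
        ext (σ m) (emb k) (emb l)) *ᵥ v)) atTop (𝓝 (star v ⬝ᵥ (cut (mel e C) p p *ᵥ v))) := by
      simp only [dotProduct, mulVec, cut, of_apply, emb_le, implies_true, and_self, if_true]
      exact tendsto_finsetSum _ fun k _ => Tendsto.const_mul _
        (tendsto_finsetSum _ fun l _ => (hlim _ _).mul_const _)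
    rw [inner_vec]
    refine ge_of_tendsto t ?_
    filter_upwards [hσ] with m hm
    rw [← inc_conj_usc]
    exact (hm.conjTranspose_mul_mul_same _).dotProduct_mulVec_nonneg v
  have h2 : ∀ x, 0 ≤ inner ℂ x (C x) := fun x =>
    ge_of_tendsto' ((tendsto_vec e x).inner ((C.continuous.tendsto x).comp (tendsto_vec e x)))
      fun p => h1 p _
  rw [ContinuousLinearMap.isPositive_iff_complex]
  intro x
  have h := Complex.nonneg_iff.mp (h2 x)
  have e1 : inner ℂ (C x) x = (starRingEnd ℂ) (inner ℂ x (C x)) := (inner_conj_symm _ _).symm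
  have e2 : inner ℂ (C x) x = inner ℂ x (C x) := by
    rw [e1]
    exact Complex.conj_eq_iff_im.mpr h.2.symm
  rw [e2]
  exact ⟨Complex.ext rfl h.2, h.1⟩

theorem density_of_lim {M : ℕ → ℕ} (hM : Tendsto M atTop atTop)
    (σ : ∀ m, Matrix (Box n (M m)) (Box n (M m)) ℂ) {E : ℝ}
    (hσ : ∀ᶠ m in atTop, IsState (σ m) ∧ ex (σ m) (nrg n (M m)) ≤ E)
    (hlim : ∀ k l, Tendsto (fun m => ext (σ m) k l) atTop (𝓝 (mel e C k l))) : IsDensity e C := by
  have hp := positive_of_lim σ (hσ.mono fun m hm => hm.1.1) hlim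
  refine ⟨hp, ?_⟩
  have hb : ∀ p : ℕ, |1 - ∑ y ∈ boxF n p, (mel e C y y).re| ≤ E / (p + 1) := fun p => by
    have t : Tendsto (fun m => ∑ y ∈ boxF n p, (ext (σ m) y y).re) atTop
        (𝓝 (∑ y ∈ boxF n p, (mel e C y y).re)) :=
      tendsto_finsetSum _ fun k _ => (Complex.continuous_re.tendsto _).comp (hlim k k)
    refine le_of_tendsto (t.const_sub 1).abs ?_
    filter_upwards [hσ, hM.eventually_ge_atTop p] with m hm hmp
    exact (mass_end1 hmp hm.1).trans (div_le_div_of_nonneg_right hm.2 (by positivity))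
  have t2 : Tendsto (fun p : ℕ => E / ((p : ℝ) + 1)) atTop (𝓝 0) :=
    tendsto_const_nhds.div_atTop (tendsto_natCast_atTop_atTop.atTop_add tendsto_const_nhds)
  have t3 : Tendsto (fun p => ∑ y ∈ boxF n p, (mel e C y y).re) atTop (𝓝 1) := by
    rw [tendsto_iff_norm_sub_tendsto_zero]
    exact squeeze_zero (fun _ => norm_nonneg _)
      (fun p => by rw [Real.norm_eq_abs, abs_sub_comm]; exact hb p) t2
  have hs : Summable fun y => (mel e C y y).re :=
    summable_of_sum_le (c := 1) (mel_diag_nonneg hp) fun S => by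
      refine ge_of_tendsto t3 ?_
      filter_upwards [(tendsto_boxF n).eventually_ge_atTop S] with p hS
      exact Finset.sum_le_sum_of_subset_of_nonneg hS fun y _ _ => mel_diag_nonneg hp y
  have e1 : ∑' y, (mel e C y y).re = 1 := tendsto_nhds_unique (tendsto_box_op1 hs.hasSum) t3
  have h3 := Complex.hasSum_ofReal.mpr (e1 ▸ hs.hasSum)
  refine (funext fun y => ?_ : (fun y => (((mel e C y y).re : ℝ) : ℂ)) = fun y => mel e C y y) ▸ h3
  exact Complex.ext rfl (Complex.nonneg_iff.mp (hp.inner_nonneg_right (e y))).2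

theorem norm_cut {A : H →L[ℂ] H} (hA : IsDensity e A) (eA : FiniteEnergy e A) :
    ∃ E : ℝ, ∀ᶠ m in atTop,
      IsState (((((cut (mel e A) m m).trace.re)⁻¹ : ℝ) : ℂ) • cut (mel e A) m m) ∧
        ex (((((cut (mel e A) m m).trace.re)⁻¹ : ℝ) : ℂ) • cut (mel e A) m m) (nrg n m) ≤ E := by
  refine ⟨2 * ∑' k : Occ n, (∑ j, (k j : ℝ)) * (mel e A k k).re, ?_⟩
  filter_upwards [(cut_trace hA (K := fun m => m) fun _ => le_rfl).eventually
    (lt_mem_nhds (show (1 : ℝ) / 2 < 1 by norm_num))] with m hm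
  have hp := cut_psd (e := e) hA.1 m m
  have h0 : 0 < (cut (mel e A) m m).trace.re := by linarith
  refine ⟨⟨hp.smul (zero_le_real.mpr (inv_pos.mpr h0).le), ?_⟩, ?_⟩
  · have e1 : (cut (mel e A) m m).trace = (((cut (mel e A) m m).trace.re : ℝ) : ℂ) :=
      Complex.ext rfl (Complex.nonneg_iff.mp hp.trace_nonneg).2.symm
    rw [trace_smul, smul_eq_mul]
    nth_rewrite 2 [e1]
    rw [← ofReal_mul, inv_mul_cancel₀ h0.ne', ofReal_one]
  · rw [ex_smul_left]
    refine mul_le_mul ?_ (cut_nrg hA eA m m) (ex_nonneg hp nrg_psd) zero_le_two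
    rw [inv_le_comm₀ h0 two_pos]
    linarith

theorem ext_smul {K : ℕ} (z : ℂ) (X : Matrix (Box n K) (Box n K) ℂ) (k l : Occ n) :
    ext (z • X) k l = z * ext X k l := by
  simp only [ext, Finset.mul_sum, mul_ite, mul_zero, Matrix.smul_apply, smul_eq_mul]

theorem out_density {H₂ : Type} [NormedAddCommGroup H₂] [InnerProductSpace ℂ H₂]
    [CompleteSpace H₂] {e₂ : HilbertBasis (Occ n × Occ n) ℂ H₂} {A B : H →L[ℂ] H}
    {W U : H₂ →L[ℂ] H₂} {η : ℝ} (h0 : 0 ≤ η) (h1 : η ≤ 1) (hA : IsDensity e A)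
    (hB : IsDensity e B) (eA : FiniteEnergy e A) (eB : FiniteEnergy e B)
    (hW : IsTensor e e₂ A B W) (hu : Coef η (mel e₂ U))
    (hT : IsTraceOverB e e₂ (conjBy U W) C) : IsDensity e C := by
  obtain ⟨EA, hEA⟩ := norm_cut hA eA
  obtain ⟨EB, hEB⟩ := norm_cut hB eB
  refine density_of_lim (M := fun m => 2 * m + 1) (E := 2 * (EA + EB))
    (tendsto_atTop_mono (fun m => by simp only [id]; omega) tendsto_id)
    (fun m => Phi (beam (mel e₂ U) m)
      ((((((cut (mel e A) m m).trace.re)⁻¹ : ℝ) : ℂ) • cut (mel e A) m m) ⊗ₖ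
        (((((cut (mel e B) m m).trace.re)⁻¹ : ℝ) : ℂ) • cut (mel e B) m m))) ?_ fun k l => ?_
  · filter_upwards [hEA, hEB] with m a b
    refine ⟨Phi_state (beam_iso hu m) (kron_state a.1 b.1),
      (out_nrg_le hu h0 h1 m a.1 b.1).trans ?_⟩
    linarith [a.2, b.2]
  · have tA := (continuous_ofReal.tendsto _).comp
      ((cut_trace hA (K := fun m => m) fun _ => le_rfl).inv₀ one_ne_zero)
    have tB := (continuous_ofReal.tendsto _).comp
      ((cut_trace hB (K := fun m => m) fun _ => le_rfl).inv₀ one_ne_zero)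
    have t := tB.mul (tA.mul (conv hA hB hW hu hT (K := fun m => m) (fun _ => le_rfl) k l))
    simp only [inv_one, ofReal_one, one_mul] at t
    simp only [smul_kronecker, kronecker_smul, Phi_smul, ext_smul]
    exact t

end Vale.Agent.P369
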