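import Vale.Agent.P369.Uco

/-! P369 task Edge: the cases `η = 1` and `η = 0`.
Plan. `η = 1`: `u x y = [x = y]` by induction on `∑ j, (x.1 j + x.2 j)` (base: `supp`, `vac`; step:
`lowA`/`lowB` solved for `u (x.1 + e j, x.2) y`, `u (x.1, x.2 + e j) y`, splitting on `y.1 j = 0`).
`η = 0`: `u x y = (-1)^(∑ j, x.2 j) [y = x.swap]` in the same way. Then `mel_conjBy` with singletons,
`hW`, and `HasSum.mul_left`/`mul_right` of the trace condition, `HasSum.unique`, `ext_mel`. -/

namespace Vale.Agent.P369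

open Complex

variable {n : ℕ} {H H₂ : Type} [NormedAddCommGroup H] [InnerProductSpace ℂ H] [CompleteSpace H]
  [NormedAddCommGroup H₂] [InnerProductSpace ℂ H₂] [CompleteSpace H₂]
  {e : HilbertBasis (Occ n) ℂ H} {e₂ : HilbertBasis (Occ n × Occ n) ℂ H₂} {A B C : H →L[ℂ] H}
  {W U : H₂ →L[ℂ] H₂}

theorem id_edge {v : Occ n × Occ n → Occ n × Occ n → ℂ}
    (hs : ∀ x y, v x y ≠ 0 → x.1 + x.2 = y.1 + y.2) (hv : v (0, 0) (0, 0) = 1)
    (hA : ∀ (j : Fin n) x y, ((√(y.1 j : ℝ) : ℝ) : ℂ) * v x (y.1 - Pi.single j 1, y.2)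
      = ((√((x.1 j : ℝ) + 1) : ℝ) : ℂ) * v (x.1 + Pi.single j 1, x.2) y)
    (hB : ∀ (j : Fin n) x y, ((√(y.2 j : ℝ) : ℝ) : ℂ) * v x (y.1, y.2 - Pi.single j 1)
      = ((√((x.2 j : ℝ) + 1) : ℝ) : ℂ) * v (x.1, x.2 + Pi.single j 1) y)
    (x y : Occ n × Occ n) : v x y = if x = y then 1 else 0 := by
  induction hN : ∑ j, (x.1 j + x.2 j) generalizing x y with
  | zero =>
    rw [Finset.sum_eq_zero_iff] at hN
    have hx : x = (0, 0) := by
      ext j
      · have := hN j (Finset.mem_univ j)
        simp only [Pi.zero_apply]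
        omega
      · have := hN j (Finset.mem_univ j)
        simp only [Pi.zero_apply]
        omega
    subst hx
    split_ifs with h
    · rw [← h, hv]
    · by_contra h0
      have h1 := hs _ _ h0
      refine h ?_
      ext j
      · have := congrFun h1 j
        simp only [Pi.add_apply, Pi.zero_apply] at this ⊢
        omega
      · have := congrFun h1 j
        simp only [Pi.add_apply, Pi.zero_apply] at this ⊢
        omega
  | succ N ih =>
    obtain ⟨j, -, hj⟩ := Finset.exists_ne_zero_of_sum_ne_zero (hN.trans_ne (Nat.succ_ne_zero N))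
    have hsum : ∀ a b : Occ n, a + b + Pi.single j 1 = x.1 + x.2 → ∑ i, (a i + b i) = N := by
      intro a b hab
      have h1 : ∑ i, (a + b + Pi.single j 1 : Occ n) i = ∑ i, (x.1 + x.2) i := by rw [hab]
      simp only [Pi.add_apply] at h1
      rw [hN, Finset.sum_add_distrib, Finset.sum_pi_single'] at h1
      simpa using h1
    obtain ⟨x1, x2⟩ := x
    obtain ⟨y1, y2⟩ := y
    by_cases h1 : x1 j = 0
    · have h2 : x2 j ≠ 0 := by
        simp only at hj
        omega
      obtain ⟨a, rfl⟩ : ∃ a : Occ n, x2 = a + Pi.single j 1 := ⟨_, (pred_uco h2).symm⟩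
      have h4 := hB j (x1, a) (y1, y2)
      rw [ih (x1, a) _ (hsum x1 a (add_assoc _ _ _))] at h4
      refine mul_left_cancel₀ (sqrt_ne_uco (a j)) (h4.symm.trans ?_)
      simp only [Prod.mk.injEq]
      by_cases h : x1 = y1
      · simp only [h, true_and]
        exact shift_uco j a y2
      · simp [h]
    · obtain ⟨a, rfl⟩ : ∃ a : Occ n, x1 = a + Pi.single j 1 := ⟨_, (pred_uco h1).symm⟩
      have h4 := hA j (a, x2) (y1, y2)
      rw [ih (a, x2) _ (hsum a x2 (add_right_comm _ _ _))] at h4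
      refine mul_left_cancel₀ (sqrt_ne_uco (a j)) (h4.symm.trans ?_)
      simp only [Prod.mk.injEq]
      by_cases h : x2 = y2
      · simp only [h, and_true]
        exact shift_uco j a y1
      · simp [h]

theorem one_edge {u : Occ n × Occ n → Occ n × Occ n → ℂ} (hu : Coef 1 u) (x y : Occ n × Occ n) :
    u x y = if x = y then 1 else 0 :=
  id_edge hu.supp hu.vac (fun j x y => by simpa using hu.lowA j x y)
    (fun j x y => by simpa using hu.lowB j x y) x y

theorem zero_edge {u : Occ n × Occ n → Occ n × Occ n → ℂ} (hu : Coef 0 u)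
    (x y : Occ n × Occ n) : (-1) ^ (∑ j, x.2 j) * u x y.swap = if x = y then 1 else 0 := by
  refine id_edge (v := fun x y => (-1) ^ (∑ j, x.2 j) * u x y.swap) (fun x y h => ?_) ?_
    (fun j x y => ?_) (fun j x y => ?_) x y
  · rw [hu.supp x y.swap (right_ne_zero_of_mul h), add_comm]
    rfl
  · simp [hu.vac]
  · have h := hu.lowB j x y.swap
    simp only [sub_zero, Real.sqrt_one, ofReal_one, one_mul, Real.sqrt_zero, ofReal_zero,
      zero_mul, add_zero, Prod.fst_swap, Prod.snd_swap] at h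
    simp only [Prod.swap_prod_mk]
    linear_combination (-1) ^ (∑ j, x.2 j) * h
  · have h := hu.lowA j x y.swap
    simp only [sub_zero, Real.sqrt_one, ofReal_one, one_mul, Real.sqrt_zero, ofReal_zero,
      zero_mul, zero_sub, Prod.fst_swap, Prod.snd_swap] at h
    simp only [Prod.swap_prod_mk, Pi.add_apply, Finset.sum_add_distrib, Finset.sum_pi_single',
      Finset.mem_univ, if_true, pow_succ]
    linear_combination (-1) ^ (∑ j, x.2 j) * h

theorem edge_one (hB : IsDensity e B) (hW : IsTensor e e₂ A B W) (hu : Coef 1 (mel e₂ U))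
    (hT : IsTraceOverB e e₂ (conjBy U W) C) : C = A := by
  have hs : ∀ x y, mel e₂ U x y ≠ 0 → y ∈ ({x} : Finset _) := fun x y h => by
    rw [one_edge hu] at h
    by_contra h0
    exact h (if_neg fun h1 => h0 (Finset.mem_singleton.2 h1.symm))
  refine ext_mel e fun k k' => (hT k k').unique ?_
  have h := hB.2.mul_left (mel e A k k')
  rw [mul_one] at h
  refine h.congr_fun fun l => ?_
  rw [mel_conjBy e₂ U W _ _ (hs _) (hs _), Finset.sum_singleton, Finset.sum_singleton,
    one_edge hu, one_edge hu, if_pos rfl, if_pos rfl, hW, map_one, one_mul, mul_one]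

theorem edge_zero (hA : IsDensity e A) (hW : IsTensor e e₂ A B W) (hu : Coef 0 (mel e₂ U))
    (hT : IsTraceOverB e e₂ (conjBy U W) C) : C = B := by
  have hs : ∀ x y, mel e₂ U x y ≠ 0 → y ∈ ({x.swap} : Finset _) := fun x y h => by
    have h2 := zero_edge hu x y.swap
    rw [Prod.swap_swap] at h2
    by_contra h0
    rw [if_neg fun h1 => h0 (Finset.mem_singleton.2 (by rw [h1, Prod.swap_swap]))] at h2
    exact mul_ne_zero (pow_ne_zero _ (neg_ne_zero.2 one_ne_zero)) h h2
  have hd : ∀ x : Occ n × Occ n, mel e₂ U x x.swap = (-1) ^ (∑ j, x.2 j) := fun x => by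
    have h2 := zero_edge hu x x
    have h3 : ((-1 : ℂ) ^ (∑ j, x.2 j)) * (-1) ^ (∑ j, x.2 j) = 1 := by
      rw [← mul_pow]; simp
    rw [if_pos rfl] at h2
    linear_combination (-1) ^ (∑ j, x.2 j) * h2 - mel e₂ U x x.swap * h3
  refine ext_mel e fun k k' => (hT k k').unique ?_
  have h := hA.2.mul_right (mel e B k k')
  rw [one_mul] at h
  refine h.congr_fun fun l => ?_
  have h3 : ((-1 : ℂ) ^ (∑ j, l j)) * (-1) ^ (∑ j, l j) = 1 := by
    rw [← mul_pow]; simp
  rw [mel_conjBy e₂ U W _ _ (hs _) (hs _), Finset.sum_singleton, Finset.sum_singleton, hd, hd,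
    Prod.swap_prod_mk, Prod.swap_prod_mk, hW, map_pow, map_neg, map_one]
  linear_combination (mel e A l l * mel e B k k') * h3

end Vale.Agent.P369
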