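import Vale.Agent.P369.End1

/-! P369 task End2: lower semicontinuity of the entropy at the thermal state, and the endgame.
Plan. `end_ent`: `negMulLog (therm k) = therm k * (bet N * ∑ k j + n log (1+N))` (`neg_log_therm`) has
sum `n (bet N * N + log (1+N))` (`hasSum_therm`, `hasSum_therm_mode`); fix a box `boxF n p` whose
partial sum is within `δ/2`. For `m` large apply `quad_le_ent` with `F = {k | emb k ∈ boxF n p}` and
`t k = therm N (emb k)`. `((ρ ρ) k k).re = ∑ l |ρ k l|²`; for a second box `boxF n q` the part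
`emb l ∉ boxF n q` is at most `ρ k k * E/(q+1)` (`normSq_entry_le`, `lt_sum_of_not_mem`), the other
part is `∑_{l ∈ boxF n q} |ext ρ k l|² → (therm k)²`. So each term is eventually at least
`negMulLog (therm k) - small`. `endgame`: combine with `end_nrg`, `end_entries`. -/

namespace Vale.Agent.P369

open Matrix Vale.Agent.P358 Complex Filter Topology
open scoped ComplexOrder

variable {n : ℕ}

theorem sum_filter_end2 {K p : ℕ} (h : p ≤ K) (G : Occ n → ℝ) :
    ∑ k ∈ Finset.univ.filter (fun k : Box n K => emb k ∈ boxF n p), G (emb k)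
      = ∑ y ∈ boxF n p, G y := by
  rw [Finset.sum_filter, sum_box fun y => if y ∈ boxF n p then G y else 0, ← Finset.sum_filter]
  refine Finset.sum_congr ?_ fun _ _ => rfl
  ext y
  simp only [Finset.mem_filter, and_iff_right_iff_imp, mem_boxF]
  exact fun hy j => (hy j).trans h

theorem sq_end2 {K q : ℕ} (h : q ≤ K) {ρ : Matrix (Box n K) (Box n K) ℂ} (hρ : IsState ρ) {E : ℝ}
    (hE : ex ρ (nrg n K) ≤ E) (k : Box n K) :
    ((ρ * ρ) k k).re ≤ ∑ l ∈ boxF n q, normSq (ext ρ (emb k) l) + E / (q + 1) := by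
  have h0 : ∀ l, 0 ≤ (ρ l l).re := fun l => (Complex.nonneg_iff.1 (hρ.1.diag_nonneg (i := l))).1
  have h1 : (ρ k k).re ≤ 1 := by
    have := congrArg re hρ.2
    rw [trace, re_sum, one_re] at this
    exact this ▸ Finset.single_le_sum (f := fun l => (ρ l l).re) (fun l _ => h0 l)
      (Finset.mem_univ k)
  have h2 : ((ρ * ρ) k k).re = ∑ l, normSq (ρ k l) := by
    rw [mul_apply, re_sum]
    refine Finset.sum_congr rfl fun l _ => ?_
    rw [← hρ.1.1.apply l k, RCLike.star_def, mul_conj, ofReal_re]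
  rw [nrg, ex_diagonal] at hE
  rw [h2, ← sum_filter_end2 h, Finset.sum_filter]
  refine le_trans ?_ (add_le_add_right (div_le_div_of_nonneg_right hE (by positivity)) _)
  rw [Finset.sum_div, ← Finset.sum_add_distrib]
  refine Finset.sum_le_sum fun l _ => ?_
  have h3 : 0 ≤ ∑ j, (emb l j : ℝ) := by positivity
  split_ifs with hl
  · rw [ext_emb]
    exact le_add_of_nonneg_right (div_nonneg (mul_nonneg (h0 l) h3) (by positivity))
  · rw [zero_add, le_div_iff₀ (by positivity)]
    refine mul_le_mul ((normSq_entry_le hρ.1 k l).trans ?_) (lt_sum_of_not_mem hl) (by positivity)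
      (h0 l)
    exact mul_le_of_le_one_left (h0 l) h1

theorem low_end2 {K p q : ℕ} (hp : p ≤ K) (hq : q ≤ K) {ρ : Matrix (Box n K) (Box n K) ℂ}
    (hρ : IsState ρ) {E N : ℝ} (hN : 0 < N) (hE : ex ρ (nrg n K) ≤ E) :
    ∑ y ∈ boxF n p, (-(ext ρ y y).re * Real.log (therm N y) -
      (∑ l ∈ boxF n q, normSq (ext ρ y l) + E / (q + 1)) / therm N y + (ext ρ y y).re) ≤ ent ρ := by
  rw [← sum_filter_end2 hp]
  refine le_trans (Finset.sum_le_sum fun k _ => ?_)
    (quad_le_ent hρ _ (t := fun k => therm N (emb k)) fun k => therm_pos hN _)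
  have := div_le_div_of_nonneg_right (sq_end2 hq hρ hE k) (therm_pos hN (emb k)).le
  rw [ext_emb]
  linarith

theorem hasSum_end2 {N : ℝ} (hN : 0 < N) :
    HasSum (fun y : Occ n => -therm N y * Real.log (therm N y))
      (n * (bet N * N + Real.log (1 + N))) := by
  have h1 := ((hasSum_sum fun j (_ : j ∈ Finset.univ) => hasSum_therm_mode (n := n) hN j).mul_left
    (bet N)).add ((hasSum_therm hN).mul_left (n * Real.log (1 + N)))
  have e : (n : ℝ) * (bet N * N + Real.log (1 + N))
      = bet N * ∑ _j : Fin n, N + n * Real.log (1 + N) * 1 := by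
    rw [Finset.sum_const, Finset.card_univ, Fintype.card_fin, nsmul_eq_mul]
    ring
  rw [e]
  refine h1.congr_fun fun y => ?_
  rw [neg_mul, ← mul_neg, neg_log_therm hN, ← Finset.sum_mul]
  ring

theorem end_ent {N : ℝ} (hN : 0 < N) {M : ℕ → ℕ} (hM : Tendsto M atTop atTop)
    (ρ : ∀ m, Matrix (Box n (M m)) (Box n (M m)) ℂ) (hρ : ∀ m, IsState (ρ m)) {E : ℝ}
    (hE : ∀ᶠ m in atTop, ex (ρ m) (nrg n (M m)) ≤ E)
    (hlim : ∀ k l, Tendsto (fun m => ext (ρ m) k l) atTop
      (𝓝 (if k = l then (therm N k : ℂ) else 0))) {δ : ℝ} (hδ : 0 < δ) :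
    ∀ᶠ m in atTop, n * (bet N * N + Real.log (1 + N)) - δ ≤ ent (ρ m) := by
  obtain ⟨p, hp⟩ := (((hasSum_end2 (n := n) hN).comp (tendsto_boxF n)).eventually
    (lt_mem_nhds (sub_lt_self _ (half_pos hδ)))).exists
  have h1 : Tendsto (fun q : ℕ => ∑ y ∈ boxF n p, E / (q + 1) / therm N y) atTop (𝓝 0) := by
    have := tendsto_finsetSum (boxF n p) fun y _ =>
      ((tendsto_one_div_add_atTop_nhds_zero_nat (𝕜 := ℝ)).const_mul E).div_const (therm N y)
    simpa only [mul_zero, zero_div, Finset.sum_const_zero, mul_one_div] using this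
  obtain ⟨q, hq, hpq⟩ := ((h1.eventually (gt_mem_nhds (half_pos hδ))).and
    (eventually_ge_atTop p)).exists
  have h2 : Tendsto (fun m => ∑ y ∈ boxF n p, (-(ext (ρ m) y y).re * Real.log (therm N y) -
      (∑ l ∈ boxF n q, normSq (ext (ρ m) y l) + E / (q + 1)) / therm N y + (ext (ρ m) y y).re))
      atTop (𝓝 (∑ y ∈ boxF n p, (-therm N y * Real.log (therm N y) - E / (q + 1) / therm N y))) := by
    refine tendsto_finsetSum _ fun y hy => ?_
    have a1 : Tendsto (fun m => (ext (ρ m) y y).re) atTop (𝓝 (therm N y)) := by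
      have := (continuous_re.tendsto _).comp (hlim y y)
      rwa [if_pos rfl, ofReal_re] at this
    have a2 := tendsto_finsetSum (boxF n q) fun l _ =>
      (continuous_normSq.tendsto _).comp (hlim y l)
    rw [Finset.sum_eq_single y (fun l _ hl => by rw [if_neg hl.symm, map_zero])
      (fun h => absurd (mem_boxF.2 fun j => (mem_boxF.1 hy j).trans hpq) h), if_pos rfl,
      normSq_ofReal] at a2
    have e : -therm N y * Real.log (therm N y) - E / (q + 1) / therm N y
        = -therm N y * Real.log (therm N y)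
          - (therm N y * therm N y + E / (q + 1)) / therm N y + therm N y := by
      rw [add_div, mul_div_assoc, div_self (therm_pos hN y).ne']
      ring
    rw [e]
    exact ((a1.neg.mul_const _).sub ((a2.add_const _).div_const _)).add a1
  rw [Finset.sum_sub_distrib] at h2
  have h3 : n * (bet N * N + Real.log (1 + N)) - δ < ∑ y ∈ boxF n p,
      -therm N y * Real.log (therm N y) - ∑ y ∈ boxF n p, E / (q + 1) / therm N y := by
    simp only [Function.comp] at hp
    linarith
  filter_upwards [h2.eventually (lt_mem_nhds h3), hE, hM.eventually_ge_atTop q] with m a1 a2 a3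
  exact a1.le.trans (low_end2 (hpq.trans a3) a3 (hρ m) hN a2)

theorem endgame {N : ℝ} (hN : 0 < N) {M : ℕ → ℕ} (hM : Tendsto M atTop atTop)
    (ρ : ∀ m, Matrix (Box n (M m)) (Box n (M m)) ℂ) (hρ : ∀ m, IsState (ρ m)) {J : ℕ → ℝ}
    (hJ : Tendsto J atTop (𝓝 0))
    (ht : ∀ m j X, normSq (Xᴴ * Psi N (ρ m) (low n (M m) j)).trace
      ≤ J m * ex (ρ m) (X * Xᴴ + Xᴴ * X)) {δ : ℝ} (hδ : 0 < δ) :
    ∀ᶠ m in atTop, n * (Real.log (1 + N) / bet N) - δ
      ≤ ent (ρ m) / bet N - ex (ρ m) (nrg n (M m)) := by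
  have hb : 0 < bet N := sub_pos.2 (Real.log_lt_log hN (lt_add_one N))
  filter_upwards [end_nrg hN ρ hρ hJ ht (half_pos hδ), end_ent hN hM ρ hρ
    (end_nrg hN ρ hρ hJ ht one_pos) (end_entries hN hM ρ hρ hJ ht)
    (mul_pos (half_pos hδ) hb)] with m h1 h2
  have h3 := div_le_div_of_nonneg_right h2 hb.le
  have e : (n * (bet N * N + Real.log (1 + N)) - δ / 2 * bet N) / bet N
      = n * N + n * (Real.log (1 + N) / bet N) - δ / 2 := by
    field_simp
  linarith

end Vale.Agent.P369
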