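import Vale.Agent.P369.Chan
import Vale.Agent.P369.Side

/-! P369 task Exist: the penalized functional has a minimizer, which is a critical point.
Plan. `isCompact_states`: closed and bounded in a finite product (`|A k l|² ≤ A k k A l l ≤ 1`,
`normSq_entry_le`; or the continuous image of `{S | fs S = 1}` under `S ↦ S Sᴴ`).
`ent` is upper semicontinuous on positive matrices (`ent_le_diag` in an eigenbasis of the limit
point) and lower semicontinuous at positive definite states (in an eigenbasis `U` of the limit point,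
`quad_le_ent` for `Uᴴ σ U` with `t` the eigenvalues and `F = univ`; `ent (Uᴴ σ U) = ent σ`);
alternatively prove continuity through `cfc`. `out` is positive definite (`noise_eig`), so `GG` is
lower semicontinuous on the compact set of pairs of states (`LowerSemicontinuousOn.exists_isMinOn`,
or a sequence/ultrafilter argument).
Then apply `side` twice, to the linear maps `X ↦ (1-θ) Phi V (X ⊗ₖ B) + (θ/D) (Tr X) 1` and
`X ↦ (1-θ) Phi V (A ⊗ₖ X) + (θ/D) (Tr X) 1`; on traceless `X` they are `(1-θ) Phi ..`, and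
`Qf W r (c • X) = c² Qf W r X`. -/

namespace Vale.Agent.P369

open Matrix Vale.Agent.P358 Complex
open scoped ComplexOrder Kronecker

variable {α β γ δ : Type} [Fintype α] [Fintype β] [Fintype γ] [Fintype δ]
  [DecidableEq α] [DecidableEq β] [DecidableEq γ] [DecidableEq δ]

/-- spectral parameters of states -/
def par_exist (α : Type) [Fintype α] [DecidableEq α] : Set (Matrix α α ℂ × (α → ℝ)) :=
  {x | x.1ᴴ * x.1 = 1 ∧ x.1 * x.1ᴴ = 1 ∧ (∀ i, 0 ≤ x.2 i) ∧ ∑ i, x.2 i = 1}

/-- the state with given spectral parameters -/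
noncomputable def mk_exist (x : Matrix α α ℂ × (α → ℝ)) : Matrix α α ℂ :=
  x.1 * diagonal (fun i => (x.2 i : ℂ)) * x.1ᴴ

theorem mk_cont_exist : Continuous (mk_exist (α := α)) := by
  unfold mk_exist
  refine (continuous_fst.matrix_mul (Continuous.matrix_diagonal ?_)).matrix_mul
    continuous_fst.matrix_conjTranspose
  fun_prop

theorem par_compact_exist : IsCompact (par_exist α) := by
  have h1 : IsCompact (((Metric.closedBall (0 : ℂ) 1).matrix : Set (Matrix α α ℂ)) ×ˢ
      (Set.univ.pi fun _ : α => Set.Icc (0 : ℝ) 1)) :=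
    (isCompact_closedBall _ _).matrix.prod (isCompact_univ_pi fun _ => isCompact_Icc)
  refine h1.of_isClosed_subset ?_ ?_
  · unfold par_exist
    refine (isClosed_eq (continuous_fst.matrix_conjTranspose.matrix_mul continuous_fst)
      continuous_const).inter ((isClosed_eq
        (continuous_fst.matrix_mul continuous_fst.matrix_conjTranspose) continuous_const).inter
          (IsClosed.inter ?_ (isClosed_eq (by fun_prop) continuous_const)))
    change IsClosed {x : Matrix α α ℂ × (α → ℝ) | ∀ i, 0 ≤ x.2 i}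
    rw [Set.setOf_forall]
    exact isClosed_iInter fun i => isClosed_le continuous_const (by fun_prop)
  · rintro ⟨U, d⟩ ⟨hl, -, hd, hs⟩
    refine ⟨fun i j => ?_, fun i _ => ⟨hd i, ?_⟩⟩
    · rw [mem_closedBall_zero_iff]
      have h2 : normSq (U i j) ≤ 1 := (col_normSq hl j) ▸
        Finset.single_le_sum (f := fun k => normSq (U k j)) (fun k _ => normSq_nonneg _)
          (Finset.mem_univ i)
      rw [Complex.normSq_eq_norm_sq] at h2
      exact (sq_le_one_iff₀ (norm_nonneg _)).1 h2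
    · exact hs ▸ Finset.single_le_sum (f := d) (fun k _ => hd k) (Finset.mem_univ i)

theorem dg_mk_exist {x : Matrix α α ℂ × (α → ℝ)} (hx : x ∈ par_exist α) :
    Dg (mk_exist x) x.1 x.2 := ⟨hx.1, hx.2.1, rfl⟩

theorem image_exist : mk_exist '' par_exist α = {ρ | IsState ρ} := by
  ext ρ
  constructor
  · rintro ⟨x, hx, rfl⟩
    refine ⟨(dg_mk_exist hx).posSemidef hx.2.2.1, ?_⟩
    rw [(dg_mk_exist hx).trace_eq, hx.2.2.2, Complex.ofReal_one]
  · intro hρ
    obtain ⟨U, d, h⟩ := exists_dg hρ.1.isHermitian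
    obtain ⟨h1, h2⟩ := state_eig hρ h
    exact ⟨(U, d), ⟨h.l, h.r, fun i => (h1 i).1, h2⟩, h.eq.symm⟩

theorem states_compact_exist : IsCompact {ρ : Matrix α α ℂ | IsState ρ} :=
  image_exist (α := α) ▸ par_compact_exist.image mk_cont_exist

theorem states_nonempty_exist [Nonempty α] : {ρ : Matrix α α ℂ | IsState ρ}.Nonempty := by
  rw [← image_exist]
  obtain ⟨a⟩ := ‹Nonempty α›
  refine Set.Nonempty.image _ ⟨(1, Pi.single a 1), by simp, by simp, fun i => ?_, by simp⟩
  change (0 : ℝ) ≤ (Pi.single a 1 : α → ℝ) i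
  rw [Pi.single_apply]
  split_ifs <;> norm_num

theorem ent_cont_exist : ContinuousOn ent {ρ : Matrix α α ℂ | IsState ρ} := by
  rw [continuousOn_iff_isClosed]
  intro t ht
  have hg : Continuous fun x : Matrix α α ℂ × (α → ℝ) => ∑ i, Real.negMulLog (x.2 i) :=
    continuous_finsetSum _ fun i _ => Real.continuous_negMulLog.comp (by fun_prop)
  refine ⟨mk_exist '' (par_exist α ∩ (fun x => ∑ i, Real.negMulLog (x.2 i)) ⁻¹' t),
    ((par_compact_exist.inter_right (ht.preimage hg)).image mk_cont_exist).isClosed, ?_⟩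
  ext ρ
  constructor
  · rintro ⟨h1, h2⟩
    refine ⟨?_, h2⟩
    rw [← image_exist] at h2
    obtain ⟨x, hx, rfl⟩ := h2
    refine ⟨x, ⟨hx, ?_⟩, rfl⟩
    rwa [Set.mem_preimage, (dg_mk_exist hx).ent_eq] at h1
  · rintro ⟨⟨x, ⟨hx, h1⟩, rfl⟩, h2⟩
    refine ⟨?_, h2⟩
    rwa [Set.mem_preimage, (dg_mk_exist hx).ent_eq]

theorem out_cont_exist (V : Matrix (γ × δ) (α × β) ℂ) (θ : ℝ) :
    Continuous fun x : Matrix α α ℂ × Matrix β β ℂ => out V θ x.1 x.2 := by
  unfold out Phi ptr
  refine Continuous.add (Continuous.fun_const_smul ?_ _) continuous_const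
  have h1 : Continuous fun x : Matrix α α ℂ × Matrix β β ℂ => x.1 ⊗ₖ x.2 := by
    refine continuous_matrix fun i j => ?_
    simp only [kroneckerMap_apply]
    exact (continuous_fst.matrix_elem _ _).mul (continuous_snd.matrix_elem _ _)
  have h2 : Continuous fun x : Matrix α α ℂ × Matrix β β ℂ => V * (x.1 ⊗ₖ x.2) * Vᴴ :=
    (continuous_const.matrix_mul h1).matrix_mul continuous_const
  refine continuous_matrix fun i j => ?_
  simp only [of_apply]
  exact continuous_finsetSum _ fun l _ => h2.matrix_elem _ _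

theorem ex_cont_exist (F : Matrix α α ℂ) : Continuous fun A : Matrix α α ℂ => ex A F :=
  Complex.continuous_re.comp (continuous_id.matrix_mul continuous_const).matrix_trace

theorem exists_min [Nonempty α] [Nonempty β] [Nonempty γ] {V : Matrix (γ × δ) (α × β) ℂ}
    (hV : Vᴴ * V = 1) {θ τ la lb : ℝ} (h0 : 0 < θ) (h1 : θ ≤ 1) (hτ : 0 ≤ τ) (hla : 0 ≤ la)
    (hlb : 0 ≤ lb) (FA : Matrix α α ℂ) (FB : Matrix β β ℂ) :
    ∃ A B, IsState A ∧ IsState B ∧ ∀ A' B', IsState A' → IsState B' →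
      GG V θ τ la lb FA FB A B ≤ GG V θ τ la lb FA FB A' B' := by
  have hc : ContinuousOn (fun x : Matrix α α ℂ × Matrix β β ℂ => GG V θ τ la lb FA FB x.1 x.2)
      ({ρ | IsState ρ} ×ˢ {ρ | IsState ρ}) := by
    unfold GG
    refine ((((continuousOn_const.mul ?_).sub (continuousOn_const.mul ?_)).sub
      (continuousOn_const.mul ?_)).add ?_).add ?_
    · exact ent_cont_exist.comp (out_cont_exist V θ).continuousOn
        fun x hx => out_state hV h0.le h1 hx.1 hx.2
    · exact ent_cont_exist.comp continuous_fst.continuousOn fun x hx => hx.1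
    · exact ent_cont_exist.comp continuous_snd.continuousOn fun x hx => hx.2
    · exact ((ex_cont_exist FA).comp continuous_fst).continuousOn
    · exact ((ex_cont_exist FB).comp continuous_snd).continuousOn
  obtain ⟨x, hx, hmin⟩ := (states_compact_exist.prod states_compact_exist).exists_isMinOn
    (states_nonempty_exist.prod states_nonempty_exist) hc
  exact ⟨x.1, x.2, hx.1, hx.2, fun A' B' hA hB => hmin (a := (A', B')) ⟨hA, hB⟩⟩

theorem qf_smul_exist (W : Matrix γ γ ℂ) (r : γ → ℝ) (c : ℝ) (Y : Matrix γ γ ℂ) :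
    Qf W r ((c : ℂ) • Y) = c ^ 2 * Qf W r Y := by
  unfold Qf
  rw [Finset.mul_sum]
  refine Finset.sum_congr rfl fun k _ => ?_
  rw [Finset.mul_sum]
  refine Finset.sum_congr rfl fun l _ => ?_
  rw [Matrix.mul_smul, Matrix.smul_mul, Matrix.smul_apply, smul_eq_mul, normSq_mul, normSq_ofReal]
  ring

theorem side_exist [Nonempty γ] (S : Matrix α α ℂ →ₗ[ℂ] Matrix γ γ ℂ)
    (hH : ∀ X, S Xᴴ = (S X)ᴴ) (htr : ∀ X, (S X).trace = X.trace) {θ : ℝ}
    (hS : ∀ X, IsState X → IsState (((1 - θ : ℝ) : ℂ) • S X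
      + ((θ / Fintype.card γ : ℝ) : ℂ) • (1 : Matrix γ γ ℂ))) {τ lam : ℝ}
    (hτ : 0 ≤ τ) (hlam : 0 < lam) {F : Matrix α α ℂ} (hF : F.IsHermitian) {ρ U : Matrix α α ℂ}
    {p : α → ℝ} (hρ : IsState ρ) (dA : Dg ρ U p) {W : Matrix γ γ ℂ} {r : γ → ℝ}
    (dC : Dg (((1 - θ : ℝ) : ℂ) • S ρ
      + ((θ / Fintype.card γ : ℝ) : ℂ) • (1 : Matrix γ γ ℂ)) W r) (hr : ∀ i, 0 < r i)
    (hmin : ∀ ρ', IsState ρ' →
      τ * ent (((1 - θ : ℝ) : ℂ) • S ρ + ((θ / Fintype.card γ : ℝ) : ℂ) • (1 : Matrix γ γ ℂ))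
          - lam * ent ρ + ex ρ F
        ≤ τ * ent (((1 - θ : ℝ) : ℂ) • S ρ'
          + ((θ / Fintype.card γ : ℝ) : ℂ) • (1 : Matrix γ γ ℂ)) - lam * ent ρ' + ex ρ' F) :
    (∀ i, 0 < p i) ∧
      (∀ X : Matrix α α ℂ, X.trace = 0 →
        ((τ * (1 - θ) : ℝ) : ℂ) * (S X * mlog W r).trace
          - (lam : ℂ) * (X * mlog U p).trace + (X * F).trace = 0) ∧
      ∀ X : Matrix α α ℂ, X.trace = 0 → τ * (1 - θ) ^ 2 * Qf W r (S X) ≤ lam * Qf U p X := by
  let T : Matrix α α ℂ →ₗ[ℂ] Matrix γ γ ℂ := ((1 - θ : ℝ) : ℂ) • S +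
    (Matrix.traceLinearMap α ℂ ℂ).smulRight
      (((θ / Fintype.card γ : ℝ) : ℂ) • (1 : Matrix γ γ ℂ))
  have hT : ∀ X, T X = ((1 - θ : ℝ) : ℂ) • S X
      + X.trace • (((θ / Fintype.card γ : ℝ) : ℂ) • (1 : Matrix γ γ ℂ)) := fun X => rfl
  have hT1 : ∀ X, IsState X → T X = ((1 - θ : ℝ) : ℂ) • S X
      + ((θ / Fintype.card γ : ℝ) : ℂ) • (1 : Matrix γ γ ℂ) := fun X hX => by
    rw [hT, hX.2, one_smul]
  have hT0 : ∀ X, X.trace = 0 → T X = ((1 - θ : ℝ) : ℂ) • S X := fun X hX => by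
    rw [hT, hX, zero_smul, add_zero]
  have hD : (Fintype.card γ : ℂ) ≠ 0 := by exact_mod_cast Fintype.card_ne_zero
  obtain ⟨h1, h2, h3⟩ := side T (fun X => by
      rw [hT, hT, hH, conjTranspose_add, conjTranspose_smul, conjTranspose_smul,
        conjTranspose_smul, conjTranspose_one, trace_conjTranspose]
      simp only [RCLike.star_def, Complex.conj_ofReal])
    (fun X => by
      rw [hT, trace_add, trace_smul, trace_smul, trace_smul, htr, trace_one]
      simp only [smul_eq_mul]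
      push_cast
      field_simp
      ring)
    (fun X hX => hT1 X hX ▸ hS X hX) hτ hlam hF hρ dA (hT1 ρ hρ ▸ dC) hr
    (fun ρ' hρ' => by rw [hT1 ρ hρ, hT1 ρ' hρ']; exact hmin ρ' hρ')
  refine ⟨h1, fun X hX => ?_, fun X hX => ?_⟩
  · have := h2 X hX
    rw [hT0 X hX, Matrix.smul_mul, trace_smul, smul_eq_mul, ← mul_assoc,
      ← Complex.ofReal_mul] at this
    exact this
  · have := h3 X hX
    rwa [hT0 X hX, qf_smul_exist, ← mul_assoc] at this

/-- the channel on the first input -/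
noncomputable def chA_exist (V : Matrix (γ × δ) (α × β) ℂ) (B : Matrix β β ℂ) :
    Matrix α α ℂ →ₗ[ℂ] Matrix γ γ ℂ where
  toFun X := Phi V (X ⊗ₖ B)
  map_add' X Y := by rw [add_kronecker, Phi_add]
  map_smul' c X := by rw [smul_kronecker, Phi_smul, RingHom.id_apply]

/-- the channel on the second input -/
noncomputable def chB_exist (V : Matrix (γ × δ) (α × β) ℂ) (A : Matrix α α ℂ) :
    Matrix β β ℂ →ₗ[ℂ] Matrix γ γ ℂ where
  toFun X := Phi V (A ⊗ₖ X)
  map_add' X Y := by rw [kronecker_add, Phi_add]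
  map_smul' c X := by rw [kronecker_smul, Phi_smul, RingHom.id_apply]

theorem exists_crit [Nonempty α] [Nonempty β] [Nonempty γ] {V : Matrix (γ × δ) (α × β) ℂ}
    (hV : Vᴴ * V = 1) {θ τ la lb : ℝ} (h0 : 0 < θ) (h1 : θ ≤ 1) (hτ : 0 ≤ τ) (hla : 0 < la)
    (hlb : 0 < lb) {FA : Matrix α α ℂ} {FB : Matrix β β ℂ} (hFA : FA.IsHermitian)
    (hFB : FB.IsHermitian) :
    ∃ A B UA pA UB pB UC pC, Crit V θ τ la lb FA FB A B UA pA UB pB UC pC ∧
      ∀ A' B', IsState A' → IsState B' →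
        GG V θ τ la lb FA FB A B ≤ GG V θ τ la lb FA FB A' B' := by
  obtain ⟨A, B, hA, hB, hmin⟩ := exists_min hV h0 h1 hτ hla.le hlb.le FA FB
  obtain ⟨UA, pA, dA⟩ := exists_dg hA.1.isHermitian
  obtain ⟨UB, pB, dB⟩ := exists_dg hB.1.isHermitian
  obtain ⟨UC, pC, dC⟩ := exists_dg (out_state hV h0.le h1 hA hB).1.isHermitian
  have hC : ∀ i, 0 < pC i := fun i =>
    lt_of_lt_of_le (div_pos h0 (by exact_mod_cast Fintype.card_pos))
      (noise_eig (Phi_psd V (kron_state hA hB).1) h1 dC i)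
  obtain ⟨a1, a2, a3⟩ := side_exist (chA_exist V B) (fun X => by
      change Phi V (Xᴴ ⊗ₖ B) = (Phi V (X ⊗ₖ B))ᴴ
      rw [← Phi_conjTranspose, conjTranspose_kronecker, hB.1.isHermitian.eq])
    (fun X => by
      change (Phi V (X ⊗ₖ B)).trace = _
      rw [trace_Phi hV, trace_kronecker, hB.2, mul_one])
    (fun X hX => out_state hV h0.le h1 hX hB) hτ hla hFA hA dA dC hC
    (fun A' hA' => by
      have := hmin A' B hA' hB
      unfold GG at this
      change τ * ent (out V θ A B) - _ + _ ≤ τ * ent (out V θ A' B) - _ + _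
      linarith)
  obtain ⟨b1, b2, b3⟩ := side_exist (chB_exist V A) (fun X => by
      change Phi V (A ⊗ₖ Xᴴ) = (Phi V (A ⊗ₖ X))ᴴ
      rw [← Phi_conjTranspose, conjTranspose_kronecker, hA.1.isHermitian.eq])
    (fun X => by
      change (Phi V (A ⊗ₖ X)).trace = _
      rw [trace_Phi hV, trace_kronecker, hA.2, one_mul])
    (fun X hX => out_state hV h0.le h1 hA hX) hτ hlb hFB hB dB dC hC
    (fun B' hB' => by
      have := hmin A B' hA hB'
      unfold GG at this
      change τ * ent (out V θ A B) - _ + _ ≤ τ * ent (out V θ A B') - _ + _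
      linarith)
  exact ⟨A, B, UA, pA, UB, pB, UC, pC, ⟨hA, hB, dA, dB, dC, a1, b1, hC, a2, b2, a3, b3⟩, hmin⟩

end Vale.Agent.P369
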