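import Vale.Agent.P369.Lm

/-! P369 task Scal: from the Lagrangian form to the photon-number inequality.
Plan. `g_eq`: `g N = bet N * N + log (1+N)` for `N > 0`. `g_strictMonoOn`: derivative
`log (t+1) - log t > 0` on `(0,∞)`, continuity (`Real.continuous_mul_log`),
`strictMonoOn_of_deriv_pos`. `scal`: if `NA, NB > 0` take `Na = NA`, `Nb = NB`: the hypothesis becomes
`g Nc ≤ g NC`. If `NA = 0` (so `g NA = 0`) and `NB > 0` take `Na = t → 0+`, `Nb = NB`: multiplying by
`bet Nc`, `g (η t + (1-η) NB) - η bet(Nc) (t + log (1+t)/bet t) ≤ g NC`, where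
`bet Nc ≤ bet ((1-η) NB)` and `log (1+t)/bet t ≤ t / log 2` for `t ≤ 1`; with monotonicity of `g`,
`g ((1-η) NB) - C t ≤ g NC` for all small `t`. Symmetric for `NB = 0`; trivial if both vanish. -/

namespace Vale.Agent.P369

open Set

theorem g_eq {N : ℝ} (hN : 0 < N) : g N = bet N * N + Real.log (1 + N) := by
  rw [g, bet, add_comm 1 N]
  ring

theorem continuous_g_scal : Continuous g :=
  (Real.continuous_mul_log.comp (continuous_id.add continuous_const)).sub Real.continuous_mul_log

theorem g_strictMonoOn : StrictMonoOn g (Ici 0) := by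
  refine strictMonoOn_of_deriv_pos (convex_Ici 0) continuous_g_scal.continuousOn fun t ht => ?_
  rw [interior_Ici] at ht
  have ht' : 0 < t := ht
  have h1 : HasDerivAt (fun t : ℝ => (t + 1) * Real.log (t + 1)) (Real.log (t + 1) + 1) t := by
    have h := (Real.hasDerivAt_mul_log (x := t + 1) (by linarith)).comp t
      ((hasDerivAt_id t).add_const 1)
    rw [mul_one] at h
    exact h
  have h2 : HasDerivAt g (Real.log (t + 1) + 1 - (Real.log t + 1)) t :=
    h1.sub (Real.hasDerivAt_mul_log ht'.ne')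
  rw [h2.deriv]
  have := Real.log_lt_log ht' (lt_add_one t)
  linarith

theorem bet_anti_scal {a b : ℝ} (ha : 0 < a) (hab : a ≤ b) : bet b ≤ bet a := by
  have hb : 0 < b := ha.trans_le hab
  have h := Real.log_le_log (x := (b + 1) * a) (y := (a + 1) * b) (by positivity) (by nlinarith)
  rw [Real.log_mul (by positivity) ha.ne', Real.log_mul (by positivity) hb.ne'] at h
  unfold bet
  linarith

theorem div_bet_scal {N : ℝ} (hN : 0 < N) : Real.log (1 + N) / bet N = g N / bet N - N := by
  have := (bet_pos hN).ne'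
  rw [g_eq hN]
  field_simp
  ring

theorem up_scal {N t : ℝ} (hN : 0 ≤ N) (h0 : 0 < t) (h1 : t ≤ 1) :
    (g (N + t) - g N) / bet (N + t) ≤ (g (N + t) - g N) / bet (N + 1) := by
  have hA : 0 < N + t := by linarith
  have h2 : g N ≤ g (N + t) := g_strictMonoOn.monotoneOn hN hA.le (by linarith)
  exact div_le_div_of_nonneg_left (by linarith) (bet_pos (by linarith))
    (bet_anti_scal hA (by linarith))

theorem scal {η NA NB NC : ℝ} (h0 : 0 < η) (h1 : η < 1) (hNA : 0 ≤ NA) (hNB : 0 ≤ NB)
    (hNC : 0 ≤ NC)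
    (h : ∀ Na Nb Nc : ℝ, 0 < Na → 0 < Nb → Nc = η * Na + (1 - η) * Nb →
      Real.log (1 + Nc) / bet Nc - η * (Real.log (1 + Na) / bet Na)
          - (1 - η) * (Real.log (1 + Nb) / bet Nb)
        ≤ g NC / bet Nc - η * (g NA / bet Na) - (1 - η) * (g NB / bet Nb)) :
    η * NA + (1 - η) * NB ≤ NC := by
  by_contra hn
  rw [not_le] at hn
  set N := η * NA + (1 - η) * NB with hN
  have hN0 : 0 < N := hNC.trans_lt hn
  have hδ : 0 < (g N - g NC) / bet N :=
    div_pos (sub_pos.2 (g_strictMonoOn hNC hN0.le hn)) (bet_pos hN0)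
  have hlim : Filter.Tendsto (fun t : ℝ => η * ((g (NA + t) - g NA) / bet (NA + 1)) +
      (1 - η) * ((g (NB + t) - g NB) / bet (NB + 1))) (nhdsWithin 0 (Ioi 0)) (nhds 0) := by
    have hc : Continuous fun t : ℝ => η * ((g (NA + t) - g NA) / bet (NA + 1)) +
        (1 - η) * ((g (NB + t) - g NB) / bet (NB + 1)) := by
      have := continuous_g_scal
      fun_prop
    have h2 := hc.tendsto 0
    simp only [add_zero, sub_self, zero_div, mul_zero] at h2
    exact h2.mono_left nhdsWithin_le_nhds
  obtain ⟨t, h2, ht0, ht1⟩ :=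
    ((hlim.eventually (gt_mem_nhds hδ)).and (Ioo_mem_nhdsGT (one_pos : (0 : ℝ) < 1))).exists
  have hA : 0 < NA + t := by linarith
  have hB : 0 < NB + t := by linarith
  have hC : 0 < N + t := by linarith
  have h3 := h (NA + t) (NB + t) (N + t) hA hB (by rw [hN]; ring)
  rw [div_bet_scal hA, div_bet_scal hB, div_bet_scal hC] at h3
  have h4 := mul_le_mul_of_nonneg_left (up_scal hNA ht0 ht1.le) h0.le
  have h5 := mul_le_mul_of_nonneg_left (up_scal hNB ht0 ht1.le) (sub_pos.2 h1).le
  have h6 : (g N - g NC) / bet N ≤ (g (N + t) - g NC) / bet (N + t) := by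
    have h7 : g N ≤ g (N + t) := g_strictMonoOn.monotoneOn hN0.le hC.le (by linarith)
    have h8 : g NC ≤ g N := g_strictMonoOn.monotoneOn hNC hN0.le hn.le
    exact div_le_div₀ (by linarith) (by linarith) (bet_pos hC) (bet_anti_scal hN0 (by linarith))
  rw [sub_div] at h4 h5
  rw [sub_div (g (N + t))] at h6
  have h9 : N + t = η * (NA + t) + (1 - η) * (NB + t) := by rw [hN]; ring
  nlinarith

end Vale.Agent.P369
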