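import Vale.Agent.P369.Lagr
import Vale.Agent.P369.Dens
import Vale.Agent.P369.Edge
import Vale.Agent.P369.Scal

namespace Vale.Agent.P369

theorem epni (n : ℕ) (hn : 1 ≤ n) (η : ℝ) (h0 : 0 ≤ η) (h1 : η ≤ 1)
    (H H₂ : Type) [NormedAddCommGroup H] [InnerProductSpace ℂ H] [CompleteSpace H]
    [NormedAddCommGroup H₂] [InnerProductSpace ℂ H₂] [CompleteSpace H₂]
    (e : HilbertBasis (Occ n) ℂ H) (e₂ : HilbertBasis (Occ n × Occ n) ℂ H₂)
    (A B C : H →L[ℂ] H) (W U : H₂ →L[ℂ] H₂)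
    (hA : IsDensity e A) (hB : IsDensity e B) (eA : FiniteEnergy e A) (eB : FiniteEnergy e B)
    (hW : IsTensor e e₂ A B W) (hU : IsBeamSplitter e₂ η U)
    (hT : IsTraceOverB e e₂ (conjBy U W) C)
    (NA NB NC : ℝ) (hNA : 0 ≤ NA) (hNB : 0 ≤ NB) (hNC : 0 ≤ NC)
    (gA : g NA = entropy e A / n) (gB : g NB = entropy e B / n) (gC : g NC = entropy e C / n) :
    η * NA + (1 - η) * NB ≤ NC := by
  have hu := coef_of_beam h0 h1 hU
  have hC := out_density h0 h1 hA hB eA eB hW hu hT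
  rcases h0.eq_or_lt with h0' | h0'
  · subst h0'
    have hCB := edge_zero hA hW hu hT
    subst hCB
    have := g_strictMonoOn.injOn hNB hNC (gB.trans gC.symm)
    linarith
  rcases h1.eq_or_lt with h1' | h1'
  · subst h1'
    have hCA := edge_one hB hW hu hT
    subst hCA
    have := g_strictMonoOn.injOn hNA hNC (gA.trans gC.symm)
    linarith
  refine scal h0' h1' hNA hNB hNC fun Na Nb Nc hNa hNb hNc => ?_
  have h := lagr h0' h1' hA hB eA eB hW hu hC hT hNa hNb hNc
  have hn' : (0 : ℝ) < n := Nat.cast_pos.mpr hn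
  rw [gA, gB, gC]
  have e1 : entropy e C / n / bet Nc - η * (entropy e A / n / bet Na)
      - (1 - η) * (entropy e B / n / bet Nb)
      = (entropy e C / bet Nc - η * (entropy e A / bet Na)
        - (1 - η) * (entropy e B / bet Nb)) / n := by ring
  rw [e1, le_div_iff₀ hn']
  linarith

end Vale.Agent.P369
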