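import Vale.Agent.P369.Op2

/-! P369 task Usc: upper semicontinuity of the entropy under an energy bound.
Plan. `energy_of_lim`: for a finite set `S` of occupation lists,
`∑_{k ∈ S} |k| (ext (σ m) k k).re ≤ ex (σ m) nrg ≤ E` eventually (`eventually_le`, `exists_emb`,
`ext_emb`, `ex_diagonal`, `sum_box`), pass to the limit, `summable_of_sum_le`.
`usc`: choose `s > 0` with `s E ≤ δ/4`, then `p` with `∑_{y ∉ boxF n p} exp (-s |y|) ≤ δ/4`
(`summable_exp_neg`, `tendsto_boxF`) and `c (1 - Tr cut p p) ≤ δ/4` (`compress`, `cut_trace`).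
Let `Dg (cut (mel e C) p p) U λ`. For `M m ≥ p` use `ent_le_frame` with the index type
`Box n p ⊕ Box n (M m)` and the frame `V k (inl i) = ∑ k', [emb k' = emb k] U k' i`,
`V k (inr l) = [k = l ∧ emb l ∉ boxF n p]`. First part:
`(Vᴴ σ V) (inl i) (inl i) = ∑ k' l', conj (U k' i) * ext σ (emb k') (emb l') * U l' i → λ i`, and
`negMulLog` is continuous. Second part: `negMulLog (σ l l) ≤ s |l| σ l l + exp (-s |l|)`
(`negMulLog_le_tangent`). -/

namespace Vale.Agent.P369

open Matrix Vale.Agent.P358 Complex Filter Topology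
open scoped ComplexOrder

variable {n : ℕ} {H : Type} [NormedAddCommGroup H] [InnerProductSpace ℂ H] [CompleteSpace H]
  {e : HilbertBasis (Occ n) ℂ H} {C : H →L[ℂ] H}

theorem ex_nrg_usc {K : ℕ} (σ : Matrix (Box n K) (Box n K) ℂ) :
    ex σ (nrg n K) = ∑ k, (∑ j, (emb k j : ℝ)) * (σ k k).re := by
  rw [nrg, ex_diagonal]
  exact Finset.sum_congr rfl fun k _ => mul_comm _ _

theorem diag_nonneg_usc {ι : Type} [Fintype ι] {σ : Matrix ι ι ℂ} (h : σ.PosSemidef) (k : ι) :
    0 ≤ (σ k k).re := (Complex.le_def.1 (h.diag_nonneg (i := k))).1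

theorem energy_of_lim (hC : IsDensity e C) {M : ℕ → ℕ} (hM : Tendsto M atTop atTop)
    (σ : ∀ m, Matrix (Box n (M m)) (Box n (M m)) ℂ) {E : ℝ}
    (hσ : ∀ᶠ m in atTop, IsState (σ m) ∧ ex (σ m) (nrg n (M m)) ≤ E)
    (hlim : ∀ k l, Tendsto (fun m => ext (σ m) k l) atTop (𝓝 (mel e C k l))) :
    FiniteEnergy e C := by
  refine summable_of_sum_le (c := E) (fun k => mul_nonneg
    (Finset.sum_nonneg fun _ _ => Nat.cast_nonneg _) (mel_diag_nonneg hC.1 k)) fun S => ?_
  have h1 : Tendsto (fun m => ∑ k ∈ S, (∑ j, (k j : ℝ)) * (ext (σ m) k k).re) atTop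
      (𝓝 (∑ k ∈ S, (∑ j, (k j : ℝ)) * (mel e C k k).re)) :=
    tendsto_finsetSum _ fun k _ => ((Complex.continuous_re.tendsto _).comp (hlim k k)).const_mul _
  refine le_of_tendsto h1 ?_
  filter_upwards [hσ, ((tendsto_boxF n).comp hM).eventually_ge_atTop S] with m hm hS
  refine le_trans ?_ hm.2
  refine (Finset.sum_le_sum_of_subset_of_nonneg hS fun y hy _ => ?_).trans (le_of_eq ?_)
  · obtain ⟨k, rfl⟩ := exists_emb (mem_boxF.1 hy)
    rw [ext_emb]
    exact mul_nonneg (Finset.sum_nonneg fun _ _ => Nat.cast_nonneg _) (diag_nonneg_usc hm.1.1 k)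
  · rw [ex_nrg_usc, Function.comp_apply, ← sum_box]
    simp only [ext_emb]

/-- the inclusion of boxes -/
def inc_usc (n K p : ℕ) : Matrix (Box n K) (Box n p) ℂ :=
  Matrix.of fun k k' => if emb k' = emb k then 1 else 0

theorem inc_H_usc (K p : ℕ) : (inc_usc n K p)ᴴ = inc_usc n p K := by
  ext k l
  simp only [inc_usc, conjTranspose_apply, of_apply, eq_comm (a := emb k)]
  split_ifs <;> simp

theorem inc_mul_usc (K p : ℕ) : inc_usc n K p * (inc_usc n K p)ᴴ =
    diagonal fun k => if emb k ∈ boxF n p then 1 else 0 := by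
  ext k l
  rw [inc_H_usc, mul_apply]
  have := sum_box (n := n) (K := p) fun y =>
    (if y = emb k then (1 : ℂ) else 0) * if emb l = y then 1 else 0
  simp only [inc_usc, of_apply]
  rw [this]
  simp only [ite_mul, one_mul, zero_mul, Finset.sum_ite_eq', emb_inj.eq_iff, diagonal_apply]
  by_cases h : k = l
  · simp [h]
  · simp [h, Ne.symm h]

theorem inc_conj_usc {K p : ℕ} (σ : Matrix (Box n K) (Box n K) ℂ) :
    (inc_usc n K p)ᴴ * σ * inc_usc n K p = Matrix.of fun k l => ext σ (emb k) (emb l) := by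
  ext k l
  rw [inc_H_usc]
  simp only [mul_apply, inc_usc, of_apply, ext, Finset.sum_mul]
  rw [Finset.sum_comm]
  refine Finset.sum_congr rfl fun k' _ => Finset.sum_congr rfl fun l' _ => ?_
  simp only [eq_comm (a := emb l), ite_and]
  split_ifs <;> simp

theorem frame_usc {K p : ℕ} (hp : p ≤ K) {σ : Matrix (Box n K) (Box n K) ℂ} (hσ : σ.PosSemidef)
    {U : Matrix (Box n p) (Box n p) ℂ} (hl : Uᴴ * U = 1) (hr : U * Uᴴ = 1) :
    ent σ ≤ ∑ i, Real.negMulLog
        ((Uᴴ * (Matrix.of fun k l : Box n p => ext σ (emb k) (emb l)) * U) i i).re +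
      ∑ l, if emb l ∈ boxF n p then 0 else Real.negMulLog (σ l l).re := by
  have h1 : (inc_usc n K p * U)ᴴ * (inc_usc n K p * U) = 1 := by
    have := inc_mul_usc (n := n) p K
    rw [inc_H_usc] at this
    rw [conjTranspose_mul, inc_H_usc, Matrix.mul_assoc, ← Matrix.mul_assoc (inc_usc n p K), this]
    have h2 : ∀ k : Box n p, emb k ∈ boxF n K := fun k => mem_boxF.2 fun j => (emb_le k j).trans hp
    simp only [h2, if_true, diagonal_one, Matrix.one_mul, hl]
  have := ent_le_frame hσ (V := fromCols (inc_usc n K p * U)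
    (diagonal fun k => if emb k ∈ boxF n p then 0 else 1)) ?_ ?_
  · refine this.trans (le_of_eq ?_)
    rw [conjTranspose_fromCols_eq_fromRows_conjTranspose, fromRows_mul, fromRows_mul_fromCols,
      Fintype.sum_sum_type]
    simp only [fromBlocks_apply₁₁, fromBlocks_apply₂₂]
    congr 1
    · rw [← inc_conj_usc, conjTranspose_mul]
      simp only [Matrix.mul_assoc]
    · refine Finset.sum_congr rfl fun l _ => ?_
      rw [diagonal_conjTranspose, mul_diagonal, diagonal_mul]
      split_ifs with h <;> simp [h]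
  · rw [conjTranspose_fromCols_eq_fromRows_conjTranspose, fromCols_mul_fromRows, conjTranspose_mul,
      Matrix.mul_assoc, ← Matrix.mul_assoc U, hr, Matrix.one_mul, inc_mul_usc,
      diagonal_conjTranspose, diagonal_mul_diagonal, diagonal_add, ← diagonal_one]
    congr 1
    funext k
    split_ifs with h <;> simp [h]
  · rintro (i | l)
    · have h2 := congrArg (fun X => (X i i).re) h1
      simp only [mul_apply (M := (inc_usc n K p * U)ᴴ), conjTranspose_apply, re_sum, one_apply_eq,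
        one_re, star_def, re_conj_mul_mat] at h2
      simp only [fromCols_apply_inl]
      exact h2.le
    · simp only [fromCols_apply_inr]
      rw [Finset.sum_eq_single l (fun k _ h => by simp [h]) (by simp), diagonal_apply_eq]
      split_ifs <;> simp

theorem tail_usc {K p : ℕ} (hp : p ≤ K) {σ : Matrix (Box n K) (Box n K) ℂ} (hσ : σ.PosSemidef)
    {s : ℝ} (hs : 0 < s) :
    ∑ l, (if emb l ∈ boxF n p then 0 else Real.negMulLog (σ l l).re) ≤ s * ex σ (nrg n K) +
      (∑' y : Occ n, Real.exp (-s * ∑ j, (y j : ℝ)) -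
        ∑ y ∈ boxF n p, Real.exp (-s * ∑ j, (y j : ℝ))) := by
  have hsub : boxF n p ⊆ boxF n K := fun y hy => mem_boxF.2 fun j => (mem_boxF.1 hy j).trans hp
  have h1 : ∑ l : Box n K, (if emb l ∈ boxF n p then 0 else Real.exp (-s * ∑ j, (emb l j : ℝ))) ≤
      ∑' y : Occ n, Real.exp (-s * ∑ j, (y j : ℝ)) -
        ∑ y ∈ boxF n p, Real.exp (-s * ∑ j, (y j : ℝ)) := by
    rw [sum_box fun y => if y ∈ boxF n p then 0 else Real.exp (-s * ∑ j, (y j : ℝ)),
      Finset.sum_ite, Finset.sum_const_zero, zero_add, ← Finset.sdiff_eq_filter, le_sub_iff_add_le,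
      Finset.sum_sdiff hsub]
    exact (summable_exp_neg hs).sum_le_tsum _ fun _ _ => (Real.exp_pos _).le
  refine le_trans ?_ (add_le_add_right h1 _)
  rw [ex_nrg_usc, Finset.mul_sum, ← Finset.sum_add_distrib]
  refine Finset.sum_le_sum fun l _ => ?_
  have h2 := diag_nonneg_usc hσ l
  have h3 : 0 ≤ ∑ j, (emb l j : ℝ) := Finset.sum_nonneg fun _ _ => Nat.cast_nonneg _
  split_ifs
  · positivity
  · have := negMulLog_le_tangent h2 (Real.exp_pos (-s * ∑ j, (emb l j : ℝ)))
    rw [Real.log_exp] at this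
    linarith

theorem usc (hC : IsDensity e C) {M : ℕ → ℕ} (hM : Tendsto M atTop atTop)
    (σ : ∀ m, Matrix (Box n (M m)) (Box n (M m)) ℂ) {E : ℝ}
    (hσ : ∀ᶠ m in atTop, IsState (σ m) ∧ ex (σ m) (nrg n (M m)) ≤ E)
    (hlim : ∀ k l, Tendsto (fun m => ext (σ m) k l) atTop (𝓝 (mel e C k l))) {δ : ℝ}
    (hδ : 0 < δ) : ∀ᶠ m in atTop, ent (σ m) ≤ entropy e C + δ := by
  obtain ⟨c, -, hc⟩ := compress hC (energy_of_lim hC hM σ hσ hlim)
  obtain ⟨s, hs, hsE⟩ : ∃ s : ℝ, 0 < s ∧ s * E ≤ δ / 4 := by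
    refine ⟨δ / 4 / (|E| + 1), by positivity, ?_⟩
    rw [div_mul_eq_mul_div, div_le_iff₀ (by positivity)]
    nlinarith [le_abs_self E]
  have t1 : Tendsto (fun p => ∑ y ∈ boxF n p, Real.exp (-s * ∑ j, (y j : ℝ))) atTop
      (𝓝 (∑' y : Occ n, Real.exp (-s * ∑ j, (y j : ℝ)))) :=
    (show Tendsto (fun S : Finset (Occ n) => ∑ y ∈ S, Real.exp (-s * ∑ j, (y j : ℝ))) atTop _ from
      (summable_exp_neg hs).hasSum).comp (tendsto_boxF n)
  have t2 := (cut_trace hC (K := fun m => m) fun _ => le_rfl).const_mul c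
  obtain ⟨p, hp1, hp2⟩ := ((t1.eventually_const_lt (sub_lt_self _ (by positivity : 0 < δ / 4))).and
    (t2.eventually_const_lt (sub_lt_self _ (by positivity : 0 < δ / 4)))).exists
  obtain ⟨U, d, hU⟩ := exists_dg (cut_psd (e := e) hC.1 p p).isHermitian
  have t3 : Tendsto (fun m => (Matrix.of fun k l : Box n p => ext (σ m) (emb k) (emb l))) atTop
      (𝓝 (cut (mel e C) p p)) := by
    refine tendsto_pi_nhds.2 fun k => tendsto_pi_nhds.2 fun l => ?_
    simpa [cut, emb_le] using hlim (emb k) (emb l)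
  have hcont : Continuous fun X : Matrix (Box n p) (Box n p) ℂ =>
      ∑ i, Real.negMulLog ((Uᴴ * X * U) i i).re :=
    continuous_finsetSum _ fun i _ => Real.continuous_negMulLog.comp (Complex.continuous_re.comp
      (((continuous_const.matrix_mul continuous_id).matrix_mul continuous_const).matrix_elem i i))
  have t4 := (hcont.tendsto _).comp t3
  simp only [hU.re_conj, ← hU.ent_eq] at t4
  filter_upwards [hσ, hM.eventually_ge_atTop p,
    t4.eventually_lt_const (lt_add_of_pos_right _ (by positivity : 0 < δ / 4))] with m hm hp h4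
  have h1 := frame_usc hp hm.1.1 hU.l hU.r
  have h2 := tail_usc hp hm.1.1 hs
  have h3 := mul_le_mul_of_nonneg_left hm.2 hs.le
  have h5 := hc p
  simp only [Function.comp_apply] at h4
  linarith

end Vale.Agent.P369
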