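import Vale.Agent.P369.MinVal
import Vale.Agent.P369.Usc
import Vale.Agent.P369.Conv

/-! P369 task Lagr: the Lagrangian form of the inequality for density operators.
Plan. Fix `d ∈ (0,1)` and `δ > 0`; `choose K hK hmin using minval .. hδ`. Let `X m = cut (mel e A) (K m) m`,
`t m = (X m).trace.re → 1` (`cut_trace`), `A m = (t m)⁻¹ • X m`, a state once `t m > 0` (`cut_psd`;
the trace of a positive matrix is real), with the support property (unfold `cut`); same for `B`.
`ent (A m) = (t m)⁻¹ ent (X m) + negMulLog (t m)⁻¹ * t m` (`P358.ent_smul`), so eventually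
`ent (A m) ≥ entropy e A - 2δ` (`cut_ent`; `negMulLog t⁻¹ * t = log t → 0`; to handle the factor
`(t m)⁻¹ → 1` use `(t m)⁻¹ * (S - δ) → S - δ`). `σ m = Phi (beam u (K m)) (A m ⊗ₖ B m)` is
`(t s)⁻¹ • Phi (X ⊗ₖ Y)` (`Phi_smul`, `smul_kronecker`, `kronecker_smul`), `ext` is linear, so the
entries converge (`conv`); energy `≤ 4 (EA + EB)` eventually (`out_nrg_le`, `cut_nrg`, `t ≥ 1/2`);
`usc`. Conclude `lagr_d` up to a multiple of `δ`, let `δ → 0`, then `d → 0`
(`le_of_forall_pos_le_add`, or `ge_of_tendsto` along `𝓝[>] 0`). -/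

namespace Vale.Agent.P369

open Matrix Vale.Agent.P358 Complex Filter Topology
open scoped ComplexOrder Kronecker

variable {n : ℕ} {H H₂ : Type} [NormedAddCommGroup H] [InnerProductSpace ℂ H] [CompleteSpace H]
  [NormedAddCommGroup H₂] [InnerProductSpace ℂ H₂] [CompleteSpace H₂]
  {e : HilbertBasis (Occ n) ℂ H} {e₂ : HilbertBasis (Occ n × Occ n) ℂ H₂} {A B C : H →L[ℂ] H}
  {W U : H₂ →L[ℂ] H₂} {η : ℝ}

/-- the normalized truncation -/
noncomputable def nrmLagr (f : Occ n → Occ n → ℂ) (K m : ℕ) : Matrix (Box n K) (Box n K) ℂ :=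
  (((cut f K m).trace.re⁻¹ : ℝ) : ℂ) • cut f K m

theorem ext_smul_lagr {K : ℕ} (z : ℂ) (X : Matrix (Box n K) (Box n K) ℂ) (k l : Occ n) :
    ext (z • X) k l = z * ext X k l := by
  simp only [ext, Finset.mul_sum, Matrix.smul_apply, smul_eq_mul, mul_ite, mul_zero]

theorem nrm_lagr (hA : IsDensity e A) (eA : FiniteEnergy e A) {K : ℕ → ℕ} (hK : ∀ m, m ≤ K m)
    {δ : ℝ} (hδ : 0 < δ) : ∀ᶠ m in atTop, IsState (nrmLagr (mel e A) (K m) m) ∧
      (∀ k, (∃ i, m < emb k i) → nrmLagr (mel e A) (K m) m k k = 0) ∧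
      entropy e A - δ ≤ ent (nrmLagr (mel e A) (K m) m) ∧
      ex (nrmLagr (mel e A) (K m) m) (nrg n (K m))
        ≤ 2 * ∑' k : Occ n, (∑ j, (k j : ℝ)) * (mel e A k k).re := by
  have ht := cut_trace hA hK
  have hi := ht.inv₀ one_ne_zero
  rw [inv_one] at hi
  have h1 := (hi.mul_const (entropy e A - δ / 2)).add
    (((Real.continuous_negMulLog.tendsto _).comp hi).mul ht)
  rw [Real.negMulLog_one, zero_mul, add_zero, one_mul] at h1
  have hE : 0 ≤ ∑' k : Occ n, (∑ j, (k j : ℝ)) * (mel e A k k).re :=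
    tsum_nonneg fun k => mul_nonneg (by positivity) (mel_diag_nonneg hA.1 k)
  filter_upwards [ht.eventually (lt_mem_nhds one_pos), hi.eventually (gt_mem_nhds one_lt_two),
    h1.eventually (lt_mem_nhds (show entropy e A - δ < entropy e A - δ / 2 by linarith)),
    cut_ent hA eA hK (half_pos hδ)] with m a1 a2 a3 a4
  have hp := cut_psd (e := e) hA.1 (K m) m
  have a5 := (inv_pos.2 a1).le
  refine ⟨⟨hp.smul (zero_le_real.2 a5), ?_⟩, fun k ⟨i, hi⟩ => ?_, ?_, ?_⟩
  · have : (cut (mel e A) (K m) m).trace = ((cut (mel e A) (K m) m).trace.re : ℂ) :=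
      Complex.ext rfl (Complex.nonneg_iff.1 hp.trace_nonneg).2.symm
    rw [nrmLagr, trace_smul, smul_eq_mul]
    nth_rewrite 2 [this]
    rw [← ofReal_mul, inv_mul_cancel₀ a1.ne', ofReal_one]
  · rw [nrmLagr, Matrix.smul_apply, cut, of_apply, if_neg fun h => (h.1 i).not_gt hi, smul_zero]
  · rw [nrmLagr, ent_smul hp.isHermitian]
    exact a3.le.trans (add_le_add_left (mul_le_mul_of_nonneg_left a4 a5) _)
  · rw [nrmLagr, ex_smul_left]
    exact (mul_le_mul_of_nonneg_left (cut_nrg hA eA _ _) a5).trans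
      (mul_le_mul_of_nonneg_right a2.le hE)

theorem step_lagr (h0 : 0 < η) (h1 : η < 1) (hA : IsDensity e A) (hB : IsDensity e B)
    (eA : FiniteEnergy e A) (eB : FiniteEnergy e B) (hW : IsTensor e e₂ A B W)
    (hu : Coef η (mel e₂ U)) (hC : IsDensity e C) (hT : IsTraceOverB e e₂ (conjBy U W) C)
    {Na Nb Nc : ℝ} (hNa : 0 < Na) (hNb : 0 < Nb) (hNc : Nc = η * Na + (1 - η) * Nb) {d : ℝ}
    (hd0 : 0 < d) (hd1 : d < 1) :
    (1 - d) * (n * (Real.log (1 + Nc) / bet Nc))
        - n * (η * (Real.log (1 + Na) / bet Na) + (1 - η) * (Real.log (1 + Nb) / bet Nb)) - d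
      ≤ (1 - d) / bet Nc * (entropy e C + d) - η / bet Na * (entropy e A - d)
        - (1 - η) / bet Nb * (entropy e B - d)
        + d * (η * (2 * ∑' k : Occ n, (∑ j, (k j : ℝ)) * (mel e A k k).re)
          + (1 - η) * (2 * ∑' k : Occ n, (∑ j, (k j : ℝ)) * (mel e B k k).re)) := by
  choose K hK hmin using minval h0 h1 hu hNa hNb hNc hd0 hd1 hd0
  have hb : ∀ {N : ℝ}, 0 < N → 0 < bet N := fun hN => sub_pos.2 (Real.log_lt_log hN (lt_add_one _))
  have h2 : 0 < 1 - η := sub_pos.2 h1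
  have hNc' : 0 < Nc := by rw [hNc]; positivity
  have nA := nrm_lagr hA eA hK hd0
  have nB := nrm_lagr hB eB hK hd0
  have hM : Tendsto (fun m => 2 * K m + 1) atTop atTop :=
    tendsto_atTop_mono (fun m => (hK m).trans (by omega)) tendsto_id
  have nC := usc hC hM (fun m => Phi (beam (mel e₂ U) (K m))
    (nrmLagr (mel e A) (K m) m ⊗ₖ nrmLagr (mel e B) (K m) m))
    ((nA.and nB).mono fun m h => ⟨Phi_state (beam_iso hu _) (kron_state h.1.1 h.2.1),
      (out_nrg_le hu h0.le h1.le _ h.1.1 h.2.1).trans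
        (mul_le_mul_of_nonneg_left (add_le_add h.1.2.2.2 h.2.2.2.2) zero_le_two)⟩)
    (fun k l => by
      have tA := (continuous_ofReal.tendsto _).comp ((cut_trace hA hK).inv₀ one_ne_zero)
      have tB := (continuous_ofReal.tendsto _).comp ((cut_trace hB hK).inv₀ one_ne_zero)
      have := tA.mul (tB.mul (conv hA hB hW hu hT hK k l))
      simp only [inv_one, ofReal_one, one_mul] at this
      simp only [nrmLagr, smul_kronecker, kronecker_smul, Phi_smul, ext_smul_lagr]
      refine this.congr fun m => ?_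
      simp only [Function.comp]
      ring) hd0
  obtain ⟨m, ⟨a1, a2, a3, a4⟩, ⟨b1, b2, b3, b4⟩, c⟩ := (nA.and (nB.and nC)).exists
  refine (hmin m _ _ a1 b1 a2 b2).trans ?_
  have := hb hNa
  have := hb hNb
  have := hb hNc'
  have := sub_pos.2 hd1
  gcongr

theorem lagr (h0 : 0 < η) (h1 : η < 1) (hA : IsDensity e A) (hB : IsDensity e B)
    (eA : FiniteEnergy e A) (eB : FiniteEnergy e B) (hW : IsTensor e e₂ A B W)
    (hu : Coef η (mel e₂ U)) (hC : IsDensity e C) (hT : IsTraceOverB e e₂ (conjBy U W) C)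
    {Na Nb Nc : ℝ} (hNa : 0 < Na) (hNb : 0 < Nb) (hNc : Nc = η * Na + (1 - η) * Nb) :
    n * (Real.log (1 + Nc) / bet Nc - η * (Real.log (1 + Na) / bet Na)
        - (1 - η) * (Real.log (1 + Nb) / bet Nb))
      ≤ entropy e C / bet Nc - η * (entropy e A / bet Na) - (1 - η) * (entropy e B / bet Nb) := by
  have h := le_of_tendsto_of_tendsto (b := 𝓝[>] (0 : ℝ))
    (((by fun_prop : Continuous fun d : ℝ => (1 - d) * (n * (Real.log (1 + Nc) / bet Nc))
      - n * (η * (Real.log (1 + Na) / bet Na) + (1 - η) * (Real.log (1 + Nb) / bet Nb))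
      - d).tendsto 0).mono_left nhdsWithin_le_nhds)
    (((by fun_prop : Continuous fun d : ℝ => (1 - d) / bet Nc * (entropy e C + d)
      - η / bet Na * (entropy e A - d) - (1 - η) / bet Nb * (entropy e B - d)
      + d * (η * (2 * ∑' k : Occ n, (∑ j, (k j : ℝ)) * (mel e A k k).re)
        + (1 - η) * (2 * ∑' k : Occ n, (∑ j, (k j : ℝ)) * (mel e B k k).re))).tendsto 0).mono_left
      nhdsWithin_le_nhds)
    (by
      filter_upwards [Ioo_mem_nhdsGT one_pos] with d hd
      exact step_lagr h0 h1 hA hB eA eB hW hu hC hT hNa hNb hNc hd.1 hd.2)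
  refine le_trans (le_of_eq ?_) (h.trans (le_of_eq ?_)) <;> ring

end Vale.Agent.P369
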