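import Vale.Agent.P369.Base

/-! P369 task Lm: scalar facts on the logarithmic mean `lm` and on `bet`.
Plan. Split on `p = q`; `Real.log_injOn_pos` / `Real.log_lt_log` give `log p - log q ≠ 0`.
* `integral_inv_lm`: for `p ≠ q` the primitive is `log ((1-θ) p + θ q) / (q - p)`
  (`intervalIntegral.integral_eq_sub_of_hasDerivAt`).
* `tendsto_integral_shift`: primitive `-(s+p)⁻¹` if `p = q`, else `(log (s+q) - log (s+p)) / (p-q)`,
  and `log (R+q) - log (R+p) = log (1 + (q-p)/(R+p)) → 0`.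
* `onCurve_ne`: by symmetry `q < p`; `z = (log p - log q)/2`, `exp z ^ 2 = p / q`;
  `lm p q = (p-q)/(2z)`, `cosh z / sinh z = (p+q)/(p-q)`, `sinh z ^ 2 = (p-q)^2/(4 p q)`
  (write `p = q * exp z ^ 2`, `Real.sinh_eq`, `Real.cosh_eq`, `field_simp`). -/

namespace Vale.Agent.P369

open Filter Topology

variable {p q c N : ℝ}

theorem lm_self (p : ℝ) : lm p p = p := by simp [lm]

theorem log_ne_lm (hp : 0 < p) (hq : 0 < q) (h : p ≠ q) : Real.log p - Real.log q ≠ 0 :=
  fun h0 => h (Real.log_injOn_pos hp hq (sub_eq_zero.1 h0))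

theorem lm_comm (p q : ℝ) : lm p q = lm q p := by
  unfold lm
  by_cases h : p = q
  · simp [h]
  · rw [if_neg h, if_neg (Ne.symm h), ← neg_sub q p, ← neg_sub (Real.log q), neg_div_neg_eq]

theorem lm_pos (hp : 0 < p) (hq : 0 < q) : 0 < lm p q := by
  unfold lm
  rcases lt_trichotomy p q with h | h | h
  · rw [if_neg h.ne]
    exact div_pos_of_neg_of_neg (by linarith) (by linarith [Real.log_lt_log hp h])
  · rw [if_pos h]
    exact hp
  · rw [if_neg h.ne']
    exact div_pos (by linarith) (by linarith [Real.log_lt_log hq h])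

theorem lm_mul_log (hp : 0 < p) (hq : 0 < q) : lm p q * (Real.log p - Real.log q) = p - q := by
  unfold lm
  by_cases h : p = q
  · simp [h]
  · rw [if_neg h, div_mul_cancel₀ _ (log_ne_lm hp hq h)]

theorem lm_smul (hc : 0 < c) (hp : 0 < p) (hq : 0 < q) : lm (c * p) (c * q) = c * lm p q := by
  unfold lm
  by_cases h : p = q
  · simp [h]
  · rw [if_neg h, if_neg fun h' => h (mul_left_cancel₀ hc.ne' h'), Real.log_mul hc.ne' hp.ne',
      Real.log_mul hc.ne' hq.ne']
    rw [add_sub_add_left_eq_sub]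
    ring

theorem lm_inv (hp : 0 < p) (hq : 0 < q) : (lm p⁻¹ q⁻¹)⁻¹ = p * q / lm p q := by
  have h := lm_smul (mul_pos hp hq) (inv_pos.2 hp) (inv_pos.2 hq)
  have e1 : p * q * p⁻¹ = q := by field_simp
  have e2 : p * q * q⁻¹ = p := by field_simp
  rw [e1, e2, lm_comm q p] at h
  have h2 := (lm_pos (inv_pos.2 hp) (inv_pos.2 hq)).ne'
  rw [h]
  field_simp

theorem integral_inv_lm (hp : 0 < p) (hq : 0 < q) :
    ∫ θ in (0 : ℝ)..1, ((1 - θ) * p + θ * q)⁻¹ = (lm p q)⁻¹ := by
  by_cases h : p = q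
  · subst h
    have e : ∀ θ : ℝ, (1 - θ) * p + θ * p = p := fun θ => by ring
    simp [e, lm_self]
  have hpos : ∀ θ ∈ Set.uIcc (0 : ℝ) 1, 0 < (1 - θ) * p + θ * q := by
    intro θ hθ
    rw [Set.uIcc_of_le zero_le_one] at hθ
    rcases le_total p q with h1 | h1 <;> nlinarith [hθ.1, hθ.2]
  have hqp : q - p ≠ 0 := sub_ne_zero.2 (Ne.symm h)
  have hd : ∀ θ ∈ Set.uIcc (0 : ℝ) 1, HasDerivAt (fun θ => Real.log ((1 - θ) * p + θ * q) / (q - p))
      (((1 - θ) * p + θ * q)⁻¹) θ := by
    intro θ hθ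
    have h1 : HasDerivAt (fun θ : ℝ => (1 - θ) * p + θ * q) ((0 - 1) * p + 1 * q) θ :=
      (((hasDerivAt_const θ (1 : ℝ)).sub (hasDerivAt_id θ)).mul_const p).add
        ((hasDerivAt_id θ).mul_const q)
    have h2 := (h1.log (hpos θ hθ).ne').div_const (q - p)
    refine h2.congr_deriv ?_
    have := (hpos θ hθ).ne'
    field_simp
    ring
  rw [intervalIntegral.integral_eq_sub_of_hasDerivAt hd
    (ContinuousOn.intervalIntegrable (ContinuousOn.inv₀ (by fun_prop) fun θ hθ => (hpos θ hθ).ne'))]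
  unfold lm
  rw [if_neg h, inv_div]
  have hpq : p - q ≠ 0 := sub_ne_zero.2 h
  simp only [sub_self, zero_mul, zero_add, one_mul, sub_zero, add_zero]
  field_simp
  ring

theorem tendsto_integral_shift (hp : 0 < p) (hq : 0 < q) :
    Tendsto (fun R : ℝ => ∫ s in (0 : ℝ)..R, ((s + p) * (s + q))⁻¹) atTop (𝓝 (lm p q)⁻¹) := by
  have hint : ∀ R : ℝ, 0 ≤ R → IntervalIntegrable (fun s : ℝ => ((s + p) * (s + q))⁻¹)
      MeasureTheory.volume 0 R := by
    intro R hR
    refine ContinuousOn.intervalIntegrable (ContinuousOn.inv₀ (by fun_prop) fun s hs => ?_)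
    rw [Set.uIcc_of_le hR] at hs
    have := hs.1
    positivity
  have t0 : Tendsto (fun R : ℝ => (R + p)⁻¹) atTop (𝓝 0) :=
    tendsto_inv_atTop_zero.comp (tendsto_atTop_add_const_right _ _ tendsto_id)
  by_cases h : p = q
  · subst h
    rw [lm_self]
    have t1 : Tendsto (fun R : ℝ => p⁻¹ - (R + p)⁻¹) atTop (𝓝 (p⁻¹ - 0)) :=
      tendsto_const_nhds.sub t0
    rw [sub_zero] at t1
    refine t1.congr' ((eventually_ge_atTop 0).mono fun R hR => ?_)
    have hd : ∀ s ∈ Set.uIcc (0 : ℝ) R, HasDerivAt (fun s => -(s + p)⁻¹) (((s + p) * (s + p))⁻¹) s := by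
      intro s hs
      rw [Set.uIcc_of_le hR] at hs
      have h0 : s + p ≠ 0 := by linarith [hs.1]
      have h2 := (((hasDerivAt_id s).add_const p).inv h0).neg
      refine h2.congr_deriv ?_
      simp only [id]
      field_simp
    change _ = ∫ s in (0 : ℝ)..R, ((s + p) * (s + p))⁻¹
    rw [intervalIntegral.integral_eq_sub_of_hasDerivAt hd (hint R hR)]
    simp only [zero_add]
    ring
  · have hpq : p - q ≠ 0 := sub_ne_zero.2 h
    have t1 : Tendsto (fun R : ℝ => 1 + (q - p) * (R + p)⁻¹) atTop (𝓝 (1 + (q - p) * 0)) :=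
      tendsto_const_nhds.add (t0.const_mul _)
    rw [mul_zero, add_zero] at t1
    have t2 := ((t1.log one_ne_zero).add_const (Real.log p - Real.log q)).div_const (p - q)
    have e : (Real.log 1 + (Real.log p - Real.log q)) / (p - q) = (lm p q)⁻¹ := by
      unfold lm
      rw [if_neg h, inv_div, Real.log_one, zero_add]
    rw [e] at t2
    refine t2.congr' ((eventually_ge_atTop 0).mono fun R hR => ?_)
    have hd : ∀ s ∈ Set.uIcc (0 : ℝ) R, HasDerivAt
        (fun s => (Real.log (s + q) - Real.log (s + p)) / (p - q)) (((s + p) * (s + q))⁻¹) s := by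
      intro s hs
      rw [Set.uIcc_of_le hR] at hs
      have h0 : s + p ≠ 0 := by linarith [hs.1]
      have h1 : s + q ≠ 0 := by linarith [hs.1]
      have h2 := ((((hasDerivAt_id s).add_const q).log h1).sub
        (((hasDerivAt_id s).add_const p).log h0)).div_const (p - q)
      refine h2.congr_deriv ?_
      simp only [id]
      field_simp
      ring
    change _ = ∫ s in (0 : ℝ)..R, ((s + p) * (s + q))⁻¹
    rw [intervalIntegral.integral_eq_sub_of_hasDerivAt hd (hint R hR)]
    have h0 : R + p ≠ 0 := by linarith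
    have h1 : R + q ≠ 0 := by linarith
    have e2 : 1 + (q - p) * (R + p)⁻¹ = (R + q) / (R + p) := by
      field_simp
      ring
    simp only [zero_add]
    rw [e2, Real.log_div h1 h0]
    ring

theorem bet_pos (hN : 0 < N) : 0 < bet N :=
  sub_pos.2 (Real.log_lt_log hN (by linarith))

theorem lm_bet (hN : 0 < N) : lm (bet N * (N + 1)) (bet N * N) = 1 := by
  have h1 : 0 < N + 1 := by linarith
  rw [lm_smul (bet_pos hN) h1 hN, mul_comm]
  have := lm_mul_log h1 hN
  rw [add_sub_cancel_left] at this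
  exact this

theorem onCurve_lt_lm (hq : 0 < q) (hpq : q < p) :
    ∃ z : ℝ, 0 < z ∧ (p + q) / (2 * lm p q) = z * Real.cosh z / Real.sinh z ∧
      p * q / lm p q ^ 2 = (z / Real.sinh z) ^ 2 := by
  have hp : 0 < p := hq.trans hpq
  have hz : 0 < (Real.log p - Real.log q) / 2 := by linarith [Real.log_lt_log hq hpq]
  have hl : lm p q = (p - q) / (2 * ((Real.log p - Real.log q) / 2)) := by
    unfold lm
    rw [if_neg hpq.ne']
    congr 1
    ring
  have he : p = q * Real.exp ((Real.log p - Real.log q) / 2) ^ 2 := by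
    rw [← Real.exp_nat_mul]
    have : ((2 : ℕ) : ℝ) * ((Real.log p - Real.log q) / 2) = Real.log p - Real.log q := by
      push_cast
      ring
    rw [this, Real.exp_sub, Real.exp_log hp, Real.exp_log hq]
    field_simp
  refine ⟨_, hz, ?_⟩
  rw [hl, Real.sinh_eq, Real.cosh_eq, Real.exp_neg]
  generalize (Real.log p - Real.log q) / 2 = z at *
  have hE : 0 < Real.exp z := Real.exp_pos z
  have hE1 : 1 < Real.exp z := Real.one_lt_exp_iff.2 hz
  generalize Real.exp z = E at *
  subst he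
  have h1 : E ^ 2 - 1 ≠ 0 := by nlinarith
  have h2 : q * E ^ 2 - q = q * (E ^ 2 - 1) := by ring
  have h3 : E - E⁻¹ = (E ^ 2 - 1) / E := by field_simp
  rw [h2, h3]
  constructor
  · field_simp
  · field_simp

theorem onCurve_ne (hp : 0 < p) (hq : 0 < q) (hpq : p ≠ q) :
    ∃ z : ℝ, 0 < z ∧ (p + q) / (2 * lm p q) = z * Real.cosh z / Real.sinh z ∧
      p * q / lm p q ^ 2 = (z / Real.sinh z) ^ 2 := by
  rcases lt_or_gt_of_ne hpq with h | h
  · rw [add_comm, mul_comm p, lm_comm]
    exact onCurve_lt_lm hp h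
  · exact onCurve_lt_lm hq h

theorem onCurve (hp : 0 < p) (hq : 0 < q) :
    OnCurve ((p + q) / (2 * lm p q)) (p * q / lm p q ^ 2) := by
  by_cases h : p = q
  · subst h
    rw [lm_self]
    refine Or.inl ⟨?_, ?_⟩
    · field_simp
      ring
    · field_simp
  · exact Or.inr (onCurve_ne hp hq h)

end Vale.Agent.P369
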