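import Vale.Agent.P369.Beam
import Vale.Agent.P369.Core
import Vale.Agent.P369.Exist

/-! P369 MinFix (helper70): the minimizer of the truncated penalized problem. -/

namespace Vale.Agent.P369

open Matrix Vale.Agent.P358 Complex
open scoped ComplexOrder Kronecker

variable {n : ℕ} {η : ℝ} {u : Occ n × Occ n → Occ n × Occ n → ℂ}

theorem ex_kron_left {α β : Type} [Fintype α] [Fintype β] [DecidableEq β] (A X : Matrix α α ℂ)
    {B : Matrix β β ℂ} (hB : B.trace = 1) :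
    ex (A ⊗ₖ B) (X ⊗ₖ (1 : Matrix β β ℂ)) = ex A X := by
  unfold ex
  rw [← mul_kronecker_mul, trace_kronecker, Matrix.mul_one, hB, mul_one]

theorem ex_kron_right {α β : Type} [Fintype α] [Fintype β] [DecidableEq α] {A : Matrix α α ℂ}
    (B X : Matrix β β ℂ) (hA : A.trace = 1) :
    ex (A ⊗ₖ B) ((1 : Matrix α α ℂ) ⊗ₖ X) = ex B X := by
  unfold ex
  rw [← mul_kronecker_mul, trace_kronecker, Matrix.mul_one, hA, one_mul]

theorem sqrt_top_le {K : ℕ} {w ε C Bd : ℝ} (hw : 1 < w) (hε : 0 < ε) (hC : 0 ≤ C)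
    (hK : (K : ℝ) + 1 ≤ Bd) {ρ : Matrix (Box n K) (Box n K) ℂ} (hρ : ρ.PosSemidef)
    (hp : ε * ex ρ (pen n K w) ≤ C * Bd) (j : Fin n) :
    √(ex ρ (top n K j)) ≤ √C * Bd * √((w ^ K)⁻¹ / ε) := by
  have hB : 0 ≤ Bd := le_trans (by positivity) hK
  have hwK : 0 < w ^ K := by positivity
  have h1 := top_le (by linarith : 0 ≤ w) hρ j
  have h2 : 0 ≤ ex ρ (pen n K w) := ex_nonneg hρ (pen_psd (by linarith))
  have h3 : ex ρ (pen n K w) ≤ C * Bd / ε := by rw [le_div_iff₀ hε]; linarith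
  have h4 : w ^ K * ex ρ (top n K j) ≤ Bd * (C * Bd / ε) :=
    h1.trans (mul_le_mul hK h3 h2 hB)
  rw [← Real.sqrt_sq hB, ← Real.sqrt_mul hC, ← Real.sqrt_mul (by positivity)]
  refine Real.sqrt_le_sqrt ?_
  have e : C * Bd ^ 2 * ((w ^ K)⁻¹ / ε) = Bd * (C * Bd / ε) / w ^ K := by field_simp
  rw [e, le_div_iff₀ hwK]
  linarith

theorem lower_GG (h0 : 0 < η) (h1 : η < 1) (hu : Coef η u) {Na Nb Nc d θ ε w J : ℝ} (hNa : 0 < Na)
    (hNb : 0 < Nb) (hd0 : 0 < d) (hd1 : d < 1) (hθ0 : 0 < θ) (hθ1 : θ < 1) (hε : 0 ≤ ε)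
    (hw : 0 ≤ w) {K : ℕ} {A B : Matrix (Box n K) (Box n K) ℂ} (hA : IsState A) (hB : IsState B)
    (hJ : ∀ j, η * normSq (A * low n K j).trace + (1 - η) * normSq (B * low n K j).trace ≤ J) :
    (1 - d) * (ent (out (beam u K) θ A B) / bet Nc - ex (out (beam u K) θ A B) (nrg n (2 * K + 1)))
        - n * J
        - n * (η * (Real.log (1 + Na) / bet Na) + (1 - η) * (Real.log (1 + Nb) / bet Nb))
      ≤ GG (beam u K) θ ((1 - d) / bet Nc) (η / bet Na) ((1 - η) / bet Nb)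
        ((((1 - (1 - d) * (1 - θ)) * η : ℝ) : ℂ) • nrg n K + (ε : ℂ) • pen n K w)
        ((((1 - (1 - d) * (1 - θ)) * (1 - η) : ℝ) : ℂ) • nrg n K + (ε : ℂ) • pen n K w) A B := by
  have hd : 0 < 1 - d := sub_pos.mpr hd1
  have hθ : 0 < 1 - θ := sub_pos.mpr hθ1
  have hη : 0 < 1 - η := sub_pos.mpr h1
  have ba := bet_pos hNa
  have bb := bet_pos hNb
  have gA := mul_le_mul_of_nonneg_left (gibbs hNa hA) (div_pos h0 ba).le
  have gB := mul_le_mul_of_nonneg_left (gibbs hNb hB) (div_pos hη bb).le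
  have eA : η / bet Na * (bet Na * ex A (nrg n K) + n * Real.log (1 + Na))
      = η * ex A (nrg n K) + n * (η * (Real.log (1 + Na) / bet Na)) := by field_simp
  have eB : (1 - η) / bet Nb * (bet Nb * ex B (nrg n K) + n * Real.log (1 + Nb))
      = (1 - η) * ex B (nrg n K) + n * ((1 - η) * (Real.log (1 + Nb) / bet Nb)) := by field_simp
  rw [eA] at gA
  rw [eB] at gB
  have pA := mul_nonneg hε (ex_nonneg hA.1 (pen_psd (n := n) (K := K) hw))
  have pB := mul_nonneg hε (ex_nonneg hB.1 (pen_psd (n := n) (K := K) hw))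
  have en : η * ex A (nrg n K) + (1 - η) * ex B (nrg n K)
      ≤ ex (Phi (beam u K) (A ⊗ₖ B)) (nrg n (2 * K + 1)) + n * J := by
    rw [← sum_lowH_low, ← sum_lowH_low, ex_sum, ex_sum, ex_sum, Finset.mul_sum, Finset.mul_sum,
      ← Finset.sum_add_distrib]
    have : (n : ℝ) * J = ∑ _j : Fin n, J := by simp
    rw [this, ← Finset.sum_add_distrib]
    refine Finset.sum_le_sum fun j _ => ?_
    have := abs_le.mp ((beam_mode hu K j).energy (beam_iso hu K) h0.le h1.le hA hB)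
    linarith [hJ j]
  have eo := ex_Phi_le_out (beam u K) hθ0.le A B (nrg_psd (n := n) (K := 2 * K + 1))
  have hnJ : 0 ≤ (n : ℝ) * J := by
    rcases Nat.eq_zero_or_pos n with h | h
    · simp [h]
    · exact mul_nonneg (Nat.cast_nonneg n) (le_trans (add_nonneg (mul_nonneg h0.le (normSq_nonneg _))
        (mul_nonneg hη.le (normSq_nonneg _))) (hJ ⟨0, h⟩))
  unfold GG
  rw [ex_add, ex_add, ex_smul, ex_smul, ex_smul, ex_smul]
  have k1 := mul_le_mul_of_nonneg_left en (mul_pos hd hθ).le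
  have k2 := mul_le_mul_of_nonneg_left eo hd.le
  have k3 : (1 - d) * (1 - θ) * (n * J) ≤ n * J := mul_le_of_le_one_left hnJ (by nlinarith)
  have e : (1 - d) / bet Nc * ent (out (beam u K) θ A B)
      = (1 - d) * (ent (out (beam u K) θ A B) / bet Nc) := by ring
  rw [e]
  linarith

theorem pen_le_of_min (h0 : 0 < η) (h1 : η < 1) (hu : Coef η u) {τ la lb xa xb θ ε w Bd : ℝ}
    (hτ : 0 ≤ τ) (hla : 0 ≤ la) (hlb : 0 ≤ lb) (hxa : 0 ≤ xa) (hxb : 0 ≤ xb) (hθ0 : 0 < θ)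
    (hθ1 : θ < 1) (hε : 0 ≤ ε) (hε1 : ε ≤ 1) (hw : 0 ≤ w) {K : ℕ}
    (c1 : (Fintype.card (Box n K) : ℝ) ≤ Bd) (c2 : (Fintype.card (Box n (2 * K + 1)) : ℝ) ≤ Bd)
    (hn : (n : ℝ) ≤ Bd) {A B : Matrix (Box n K) (Box n K) ℂ} (hA : IsState A) (hB : IsState B)
    (hmin : ∀ A' B', IsState A' → IsState B' →
      GG (beam u K) θ τ la lb ((xa : ℂ) • nrg n K + (ε : ℂ) • pen n K w)
          ((xb : ℂ) • nrg n K + (ε : ℂ) • pen n K w) A B
        ≤ GG (beam u K) θ τ la lb ((xa : ℂ) • nrg n K + (ε : ℂ) • pen n K w)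
          ((xb : ℂ) • nrg n K + (ε : ℂ) • pen n K w) A' B') :
    ε * ex A (pen n K w) ≤ (τ + la + lb + 2) * Bd ∧
      ε * ex B (pen n K w) ≤ (τ + la + lb + 2) * Bd := by
  obtain ⟨v, hv, v1, v2⟩ := exists_vac n K w
  have h := hmin v v hv hv
  unfold GG at h
  simp only [ex_add, ex_smul, v1, v2] at h
  have hV := beam_iso hu K
  have a1 := mul_nonneg hτ (ent_nonneg' (out_state hV hθ0.le hθ1.le hA hB))
  have a2 := mul_le_mul_of_nonneg_left ((ent_le_card hA).trans c1) hla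
  have a3 := mul_le_mul_of_nonneg_left ((ent_le_card hB).trans c1) hlb
  have a4 := mul_le_mul_of_nonneg_left
    ((ent_le_card (out_state hV hθ0.le hθ1.le hv hv)).trans c2) hτ
  have a5 := mul_nonneg hla (ent_nonneg' hv)
  have a6 := mul_nonneg hlb (ent_nonneg' hv)
  have a7 := mul_nonneg hxa (ex_nonneg hA.1 (nrg_psd (n := n) (K := K)))
  have a8 := mul_nonneg hxb (ex_nonneg hB.1 (nrg_psd (n := n) (K := K)))
  have pA := mul_nonneg hε (ex_nonneg hA.1 (pen_psd (n := n) (K := K) hw))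
  have pB := mul_nonneg hε (ex_nonneg hB.1 (pen_psd (n := n) (K := K) hw))
  have a9 : ε * n ≤ Bd := (mul_le_of_le_one_left (Nat.cast_nonneg n) hε1).trans hn
  constructor <;> linarith

theorem minfix (h0 : 0 < η) (h1 : η < 1) (hu : Coef η u) {Na Nb Nc d : ℝ} (hNa : 0 < Na)
    (hNb : 0 < Nb) (hNc : Nc = η * Na + (1 - η) * Nb) (hd0 : 0 < d) (hd1 : d < 1) :
    ∃ w C : ℝ, 1 < w ∧ 0 ≤ C ∧ ∀ (K : ℕ) (ε θ Bd : ℝ), 0 < ε → ε ≤ 1 → 0 < θ → θ < 1 →
      (2 * (K : ℝ) + 2) ^ (n + 1) ≤ Bd → Real.log ((2 * (K : ℝ) + 2) ^ n / θ) ≤ Bd →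
      ∃ (ρ : Matrix (Box n (2 * K + 1)) (Box n (2 * K + 1)) ℂ) (J : ℝ), IsState ρ ∧ 0 ≤ J ∧
        J ≤ C * (ε + θ * Bd ^ 2 + Bd ^ 4 * √((w ^ K)⁻¹ / ε)) ∧
        (∀ j X, normSq (Xᴴ * Psi Nc ρ (low n (2 * K + 1) j)).trace
          ≤ J * ex ρ (X * Xᴴ + Xᴴ * X)) ∧
        ∀ A B : Matrix (Box n K) (Box n K) ℂ, IsState A → IsState B →
          (1 - d) * (ent ρ / bet Nc - ex ρ (nrg n (2 * K + 1))) - n * J
              - n * (η * (Real.log (1 + Na) / bet Na) + (1 - η) * (Real.log (1 + Nb) / bet Nb))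
            ≤ GG (beam u K) θ ((1 - d) / bet Nc) (η / bet Na) ((1 - η) / bet Nb)
              ((((1 - (1 - d) * (1 - θ)) * η : ℝ) : ℂ) • nrg n K + (ε : ℂ) • pen n K w)
              ((((1 - (1 - d) * (1 - θ)) * (1 - η) : ℝ) : ℂ) • nrg n K + (ε : ℂ) • pen n K w)
              A B := by
  have hd : 0 < 1 - d := sub_pos.mpr hd1
  have hη : 0 < 1 - η := sub_pos.mpr h1
  have hc : 0 < Nc := by rw [hNc]; positivity
  have ba := bet_pos hNa
  have bb := bet_pos hNb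
  have bc := bet_pos hc
  obtain ⟨w, hw, wa, wb⟩ : ∃ w : ℝ, 1 < w ∧ Na * w ≤ Na + 1 / 2 ∧ Nb * w ≤ Nb + 1 / 2 := by
    have hs : 0 < 2 * (Na + Nb) := by positivity
    refine ⟨1 + 1 / (2 * (Na + Nb)), by linarith [one_div_pos.mpr hs], ?_, ?_⟩ <;>
      rw [mul_add, mul_one, add_le_add_iff_left, mul_one_div, div_le_div_iff₀ hs two_pos] <;>
      linarith
  obtain ⟨Ca, Ca0, hCa⟩ := Dpen_le hNa hw.le wa
  obtain ⟨Cb, Cb0, hCb⟩ := Dpen_le hNb hw.le wb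
  obtain ⟨P, hP⟩ : ∃ P, P = (1 - d) / bet Nc + η / bet Na + (1 - η) / bet Nb + 2 := ⟨_, rfl⟩
  have P0 : 0 ≤ P := by rw [hP]; positivity
  obtain ⟨T, hT⟩ : ∃ T, T = (bet Nc)⁻¹ + 1 := ⟨_, rfl⟩
  have T0 : 0 ≤ T := by rw [hT]; positivity
  refine ⟨w, 4 / d * ((Ca + Cb) / (1 - d) + 6 * T + 2 * T * ((Na + Nb) * √P)), hw, by positivity,
    fun K ε θ Bd hε hε1 hθ0 hθ1 hB hL => ?_⟩
  have hθ : 0 < 1 - θ := sub_pos.mpr hθ1
  have hK : (0 : ℝ) ≤ K := Nat.cast_nonneg K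
  have q1 : (1 : ℝ) ≤ 2 * K + 2 := by linarith
  have c2 : (Fintype.card (Box n (2 * K + 1)) : ℝ) = (2 * (K : ℝ) + 2) ^ n := by
    rw [card_box]; push_cast; ring
  have c2' : (Fintype.card (Box n (2 * K + 1)) : ℝ) ≤ Bd :=
    c2.le.trans ((pow_le_pow_right₀ q1 (Nat.le_succ n)).trans hB)
  have c1 : (Fintype.card (Box n K) : ℝ) ≤ Bd := by
    refine le_trans ?_ (c2.ge.trans c2')
    rw [card_box]; push_cast
    exact pow_le_pow_left₀ (by linarith) (by linarith) n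
  have B1 : 1 ≤ Bd := (one_le_pow₀ q1).trans hB
  have BK : (K : ℝ) + 1 ≤ Bd := by
    refine le_trans ?_ ((le_self_pow₀ q1 (Nat.succ_ne_zero n)).trans hB)
    linarith
  have Bn : (n : ℝ) ≤ Bd := by
    refine le_trans ?_ ((pow_le_pow_left₀ zero_le_two (by linarith : (2 : ℝ) ≤ 2 * K + 2) _).trans hB)
    have : n < 2 ^ (n + 1) := (Nat.lt_succ_self n).trans Nat.lt_two_pow_self
    exact_mod_cast this.le
  have f1 : ∀ j, fs (low n K j) ≤ Bd := fun j =>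
    (fs_low j).trans ((pow_le_pow_left₀ (by linarith) (by linarith) _).trans hB)
  have f2 : ∀ j, fs (low n (2 * K + 1) j) ≤ Bd := fun j => (fs_low j).trans (by
    refine le_trans (le_of_eq ?_) hB
    push_cast
    ring)
  have hκ : 0 ≤ 1 - (1 - d) * (1 - θ) := by nlinarith
  have hF : ∀ x : ℝ, 0 ≤ x → ((x : ℂ) • nrg n K + (ε : ℂ) • pen n K w).IsHermitian := fun x hx =>
    ((nrg_psd.smul (zero_le_real.mpr hx)).add
      ((pen_psd (by linarith)).smul (zero_le_real.mpr hε.le))).isHermitian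
  have hV := beam_iso hu K
  obtain ⟨A, B, UA, pA, UB, pB, UC, pC, hC, hmin⟩ := exists_crit hV hθ0 hθ1.le
    (div_pos hd bc).le (div_pos h0 ba) (div_pos hη bb) (hF _ (mul_nonneg hκ h0.le))
    (hF _ (mul_nonneg hκ hη.le))
  obtain ⟨pa, pb⟩ := pen_le_of_min h0 h1 hu (div_pos hd bc).le (div_pos h0 ba).le
    (div_pos hη bb).le (mul_nonneg hκ h0.le) (mul_nonneg hκ hη.le) hθ0 hθ1 hε.le hε1
    (by linarith) c1 c2' Bn hC.sA hC.sB hmin
  rw [← hP] at pa pb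
  have hΛ : ∀ i, -Real.log (pC i) ≤ Bd := fun i => by
    have h := noise_eig (Phi_psd (beam u K) (kron_state hC.sA hC.sB).1) hθ1.le hC.dC i
    rw [c2] at h
    have := Real.log_le_log (by positivity) h
    rw [← inv_div, Real.log_inv] at this
    linarith
  obtain ⟨r, hr⟩ : ∃ r, r = √((w ^ K)⁻¹ / ε) := ⟨_, rfl⟩
  have r0 : 0 ≤ r := by rw [hr]; positivity
  obtain ⟨E, hE⟩ : ∃ E, E = ε * ((Ca + Cb) / (1 - d)) + θ * Bd ^ 2 * (6 * T)
    + Bd ^ 4 * r * (2 * T * ((Na + Nb) * √P)) := ⟨_, rfl⟩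
  have E0 : 0 ≤ E := by rw [hE]; positivity
  have main := fun j => core hV h0 h1 (beam_mode hu K j) hNa hNb hNc hd0 hd1 hθ0 hθ1 hC B1 c1 c1
    c2' c2' (f1 j) (f1 j) (f2 j) hΛ (E := E) (by
      rw [leakA_sq hu, leakB_sq hu, ex_kron_left _ _ hC.sB.2, ex_kron_right _ _ hC.sA.2, ← hT]
      have a1 := hCa n K j ((1 - (1 - d) * (1 - θ)) * η) ε A hε.le hC.sA
      have a2 := hCb n K j ((1 - (1 - d) * (1 - θ)) * (1 - η)) ε B hε.le hC.sB
      have a3 := mul_le_mul_of_nonneg_left (sqrt_top_le hw hε P0 BK hC.sA.1 pa j) hNa.le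
      have a4 := mul_le_mul_of_nonneg_left (sqrt_top_le hw hε P0 BK hC.sB.1 pb j) hNb.le
      rw [← hr] at a3 a4
      have a5 := div_le_div_of_nonneg_right (add_le_add a1 a2) hd.le
      have a6 := mul_le_mul_of_nonneg_left (add_le_add a3 a4)
        (show 0 ≤ 2 * T * Bd ^ 3 by positivity)
      rw [hE]
      refine (add_le_add (add_le_add a5 le_rfl) a6).trans (le_of_eq ?_)
      ring)
  have hs := out_state hV hθ0.le hθ1.le hC.sA hC.sB
  refine ⟨out (beam u K) θ A B, 4 / d * E, hs, by positivity, ?_, fun j X => ?_,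
    fun A' B' hA' hB' => le_trans ?_ (hmin A' B' hA' hB')⟩
  · rw [← hr, mul_assoc]
    refine mul_le_mul_of_nonneg_left ?_ (by positivity)
    have x1 : 0 ≤ (Ca + Cb) / (1 - d) := by positivity
    have x2 : 0 ≤ 6 * T := by positivity
    have x3 : 0 ≤ 2 * T * ((Na + Nb) * √P) := by positivity
    have y2 : 0 ≤ θ * Bd ^ 2 := by positivity
    have y3 : 0 ≤ Bd ^ 4 * r := by positivity
    rw [hE]
    generalize (Ca + Cb) / (1 - d) = s₁ at *
    generalize 6 * T = s₂ at *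
    generalize 2 * T * ((Na + Nb) * √P) = s₃ at *
    generalize θ * Bd ^ 2 = t₂ at *
    generalize Bd ^ 4 * r = t₃ at *
    have := mul_nonneg x1 y2
    have := mul_nonneg x1 y3
    have := mul_nonneg x2 hε.le
    have := mul_nonneg x2 y3
    have := mul_nonneg x3 hε.le
    have := mul_nonneg x3 y2
    linarith
  · have h := (main j).2 X
    rw [div_mul_eq_mul_div, div_mul_eq_mul_div, le_div_iff₀ hd0]
    linarith
  · refine lower_GG h0 h1 hu hNa hNb hd0 hd1 hθ0 hθ1 hε.le (by linarith) hC.sA hC.sB fun j => ?_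
    have h := (main j).1
    rw [div_mul_eq_mul_div, le_div_iff₀ hd0]
    linarith

end Vale.Agent.P369
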