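import Vale.Agent.P369.MinFix
import Vale.Agent.P369.End2

/-! P369 task MinVal: the finite-dimensional inequality for inputs supported at levels `≤ m`.
Plan. Take `w, C` from `minfix`. Put `θ K = (1/2)^(K+1)`, `Bd K = (n+1) (2K+2)^(n+1)`
(`log ((2K+2)^n / θ) ≤ n (2K+2) + (K+1) ≤ Bd`). For fixed `ε`, `θ Bd²`, `θ Bd` and
`Bd⁴ √((w^K)⁻¹/ε)` tend to `0` as `K → ∞` (`tendsto_pow_const_mul_const_pow_of_abs_lt_one`, with
ratio `1/2` and `√(w⁻¹)`; bound `2K+2 ≤ 4K` or shift the index). For each `i : ℕ` let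
`ε i = 1/(i+1)` and choose `K i ≥ max m i` with these three quantities `≤ 1/(i+1)`; get `ρ i`, `J i`
with `J i → 0`; `endgame` with `M i = 2 K i + 1`. For test states `A`, `B`:
`GG ≤ RHS + (1-d)/bet Nc * θ (1 + Bd) + θ n m + 2 ε n w^m` by `ent_noise_le` (`out` unfolds to its
form; `Phi_state`, `kron_state`, `beam_iso`, `card_box`), `ex_add`, `ex_smul`, `ex_le_of_supp`, and
`1 - (1-d)(1-θ) ≤ d + θ`. Choose `i` large (`Eventually.exists`). -/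

namespace Vale.Agent.P369

open Matrix Vale.Agent.P358 Complex Filter Topology
open scoped ComplexOrder Kronecker

variable {n : ℕ} {η : ℝ} {u : Occ n × Occ n → Occ n × Occ n → ℂ}

theorem lim_minval (k : ℕ) (c : ℝ) {r : ℝ} (h0 : 0 < r) (h1 : r < 1) :
    Tendsto (fun K : ℕ => c * (((K : ℝ) + 1) ^ k * r ^ (K + 1))) atTop (𝓝 0) := by
  have h := ((tendsto_pow_const_mul_const_pow_of_abs_lt_one k
    (r := r) (by rwa [abs_of_pos h0])).comp (tendsto_add_atTop_nat 1)).const_mul c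
  simpa [Function.comp_def] using h

theorem param_minval (n : ℕ) {w ε κ : ℝ} (hw : 1 < w) (hε : 0 < ε) (hκ : 0 < κ) (m : ℕ) :
    ∃ (K : ℕ) (θ Bd : ℝ), m ≤ K ∧ 0 < θ ∧ θ < 1 ∧ 1 ≤ Bd ∧ (2 * (K : ℝ) + 2) ^ (n + 1) ≤ Bd ∧
      Real.log ((2 * (K : ℝ) + 2) ^ n / θ) ≤ Bd ∧ θ * Bd ^ 2 ≤ κ ∧
      Bd ^ 4 * √((w ^ K)⁻¹ / ε) ≤ κ := by
  have hw0 : 0 < w := zero_lt_one.trans hw
  have hr0 : 0 < √w⁻¹ := Real.sqrt_pos.2 (inv_pos.2 hw0)
  have hr1 : √w⁻¹ < 1 := by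
    rw [Real.sqrt_lt' one_pos, one_pow]
    exact inv_lt_one_of_one_lt₀ hw
  have hs : 0 < √ε := Real.sqrt_pos.2 hε
  have t1 := lim_minval ((n + 1) * 2) ((((n : ℝ) + 1) * 2 ^ (n + 1)) ^ 2) (r := 1 / 2)
    (by norm_num) (by norm_num)
  have t2 := lim_minval ((n + 1) * 4) ((((n : ℝ) + 1) * 2 ^ (n + 1)) ^ 4 / (√w⁻¹ * √ε)) hr0 hr1
  obtain ⟨K, ⟨k1, k2⟩, k3⟩ := (((t1.eventually (gt_mem_nhds hκ)).and
    (t2.eventually (gt_mem_nhds hκ))).and (eventually_ge_atTop m)).exists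
  have hK : (0 : ℝ) ≤ K := Nat.cast_nonneg K
  have hn : (0 : ℝ) ≤ n := Nat.cast_nonneg n
  have h2 : (1 : ℝ) ≤ 2 * K + 2 := by linarith
  have h3 : (1 : ℝ) ≤ (2 * K + 2) ^ (n + 1) := one_le_pow₀ h2
  have e0 : (2 * (K : ℝ) + 2) ^ (n + 1) = 2 ^ (n + 1) * ((K : ℝ) + 1) ^ (n + 1) := by
    rw [← mul_pow]; congr 1; ring
  refine ⟨K, (1 / 2) ^ (K + 1), ((n : ℝ) + 1) * (2 * K + 2) ^ (n + 1), k3, by positivity,
    pow_lt_one₀ (by norm_num) (by norm_num) (by omega), by nlinarith, by nlinarith, ?_, ?_, ?_⟩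
  · rw [Real.log_div (by positivity) (by positivity), Real.log_pow, Real.log_pow, one_div,
      Real.log_inv]
    have a1 : Real.log (2 * (K : ℝ) + 2) ≤ 2 * K + 2 :=
      (Real.log_le_sub_one_of_pos (by linarith)).trans (by linarith)
    have a2 : Real.log 2 ≤ 2 := (Real.log_le_sub_one_of_pos (by norm_num)).trans (by norm_num)
    have a3 : 2 * (K : ℝ) + 2 ≤ (2 * K + 2) ^ (n + 1) := le_self_pow₀ h2 (by omega)
    push_cast
    nlinarith [mul_le_mul_of_nonneg_left a1 hn, mul_le_mul_of_nonneg_left a2 (add_nonneg hK zero_le_one),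
      mul_le_mul_of_nonneg_left a3 (add_nonneg hn zero_le_one)]
  · refine le_of_eq_of_le ?_ k1.le
    rw [e0, pow_mul]
    ring
  · refine le_of_eq_of_le ?_ k2.le
    have e1 : √((w ^ K)⁻¹ / ε) = √w⁻¹ ^ K / √ε := by
      rw [Real.sqrt_div' _ hε.le, ← inv_pow, ← Real.sq_sqrt (inv_pos.2 hw0).le, ← pow_mul,
        mul_comm 2 K, pow_mul, Real.sqrt_sq (by positivity), Real.sqrt_sq hr0.le]
    rw [e0, e1, pow_mul, pow_succ (√w⁻¹) K]
    field_simp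

theorem GG_le_minval (h0 : 0 < η) (h1 : η < 1) (hu : Coef η u) {K m : ℕ} {τ la lb d ε θ Bd w κ : ℝ}
    (hτ : 0 ≤ τ) (hd0 : 0 < d) (hw : 1 < w) (hε : 0 < ε) (hεκ : ε ≤ κ) (hθ0 : 0 < θ) (hθ1 : θ < 1)
    (hB : 1 ≤ Bd) (hl : Real.log ((2 * (K : ℝ) + 2) ^ n / θ) ≤ Bd) (hκ : θ * Bd ^ 2 ≤ κ)
    {A B : Matrix (Box n K) (Box n K) ℂ} (hA : IsState A) (hB' : IsState B)
    (sA : ∀ k, (∃ i, m < emb k i) → A k k = 0) (sB : ∀ k, (∃ i, m < emb k i) → B k k = 0) :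
    GG (beam u K) θ τ la lb
        ((((1 - (1 - d) * (1 - θ)) * η : ℝ) : ℂ) • nrg n K + (ε : ℂ) • pen n K w)
        ((((1 - (1 - d) * (1 - θ)) * (1 - η) : ℝ) : ℂ) • nrg n K + (ε : ℂ) • pen n K w) A B ≤
      τ * ent (Phi (beam u K) (A ⊗ₖ B)) - la * ent A - lb * ent B +
        d * (η * ex A (nrg n K) + (1 - η) * ex B (nrg n K)) +
        (2 * τ + n * m + 2 * (n * w ^ m)) * κ := by
  have a1 := ent_noise_le (Phi_state (beam_iso hu K) (kron_state hA hB')) hθ0 hθ1.le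
  have e : (Fintype.card (Box n (2 * K + 1)) : ℝ) = (2 * (K : ℝ) + 2) ^ n := by
    rw [card_box]; push_cast; congr 1; ring
  have a2 : ent (out (beam u K) θ A B) ≤ ent (Phi (beam u K) (A ⊗ₖ B)) + 2 * κ := by
    refine a1.trans ?_
    rw [e]
    have : θ * (1 + Real.log ((2 * (K : ℝ) + 2) ^ n / θ)) ≤ θ * (Bd ^ 2 + Bd ^ 2) := by
      gcongr
      · exact one_le_pow₀ hB
      · exact hl.trans (le_self_pow₀ hB (by norm_num))
    linarith
  obtain ⟨b1, b2⟩ := ex_le_of_supp hA sA hw.le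
  obtain ⟨b3, b4⟩ := ex_le_of_supp hB' sB hw.le
  have c1 := ex_nonneg hA.1 (nrg_psd (n := n) (K := K))
  have c2 := ex_nonneg hB'.1 (nrg_psd (n := n) (K := K))
  have hθκ : θ ≤ κ := le_trans (le_mul_of_one_le_right hθ0.le (one_le_pow₀ hB)) hκ
  have hη' := sub_pos.2 h1
  have hnm : (0 : ℝ) ≤ n * m := by positivity
  have hw0 : 0 < w := zero_lt_one.trans hw
  have hnw : (0 : ℝ) ≤ n * w ^ m := by positivity
  rw [GG, ex_add, ex_add, ex_smul, ex_smul, ex_smul, ex_smul]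
  have hS0 : 0 ≤ η * ex A (nrg n K) + (1 - η) * ex B (nrg n K) := by positivity
  have hS1 : η * ex A (nrg n K) + (1 - η) * ex B (nrg n K) ≤ n * m := by
    nlinarith [mul_le_mul_of_nonneg_left b1 h0.le, mul_le_mul_of_nonneg_left b3 hη'.le]
  have d1 := mul_le_mul hθκ hS1 hS0 (hθ0.le.trans hθκ)
  have d2 := mul_nonneg (mul_pos hd0 hθ0).le hS0
  have d3 := mul_le_mul_of_nonneg_left a2 hτ
  have d4 : ε * ex A (pen n K w) ≤ κ * (n * w ^ m) :=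
    (mul_le_mul_of_nonneg_left b2 hε.le).trans (mul_le_mul_of_nonneg_right hεκ hnw)
  have d5 : ε * ex B (pen n K w) ≤ κ * (n * w ^ m) :=
    (mul_le_mul_of_nonneg_left b4 hε.le).trans (mul_le_mul_of_nonneg_right hεκ hnw)
  linarith

theorem minval (h0 : 0 < η) (h1 : η < 1) (hu : Coef η u) {Na Nb Nc d : ℝ} (hNa : 0 < Na)
    (hNb : 0 < Nb) (hNc : Nc = η * Na + (1 - η) * Nb) (hd0 : 0 < d) (hd1 : d < 1) {δ : ℝ}
    (hδ : 0 < δ) (m : ℕ) :
    ∃ K, m ≤ K ∧ ∀ A B : Matrix (Box n K) (Box n K) ℂ, IsState A → IsState B →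
      (∀ k, (∃ i, m < emb k i) → A k k = 0) → (∀ k, (∃ i, m < emb k i) → B k k = 0) →
        (1 - d) * (n * (Real.log (1 + Nc) / bet Nc))
            - n * (η * (Real.log (1 + Na) / bet Na) + (1 - η) * (Real.log (1 + Nb) / bet Nb)) - δ
          ≤ (1 - d) / bet Nc * ent (Phi (beam u K) (A ⊗ₖ B)) - η / bet Na * ent A
            - (1 - η) / bet Nb * ent B + d * (η * ex A (nrg n K) + (1 - η) * ex B (nrg n K)) := by
  obtain ⟨w, C, hw, hC, hfix⟩ := minfix h0 h1 hu hNa hNb hNc hd0 hd1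
  have hNc0 : 0 < Nc := by
    rw [hNc]
    have := sub_pos.2 h1
    positivity
  have hτ : 0 ≤ (1 - d) / bet Nc := div_nonneg (sub_pos.2 hd1).le (bet_pos hNc0).le
  have hε : ∀ i : ℕ, (0 : ℝ) < 1 / ((i : ℝ) + 1) := fun i => by positivity
  have hε1 : ∀ i : ℕ, 1 / ((i : ℝ) + 1) ≤ 1 := fun i =>
    div_le_one_of_le₀ (by linarith [Nat.cast_nonneg (α := ℝ) i]) (by positivity)
  choose K θ Bd k1 k2 k3 k4 k5 k6 k7 k8 using fun i : ℕ => param_minval n hw (hε i) (hε i) (max m i)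
  choose ρ J r1 r2 r3 r4 r5 using fun i : ℕ =>
    hfix (K i) (1 / ((i : ℝ) + 1)) (θ i) (Bd i) (hε i) (hε1 i) (k2 i) (k3 i) (k5 i) (k6 i)
  have t0 := tendsto_one_div_add_atTop_nhds_zero_nat (𝕜 := ℝ)
  have hJ' : ∀ i : ℕ, J i ≤ 3 * C * (1 / ((i : ℝ) + 1)) := fun i => by
    refine (r3 i).trans ?_
    nlinarith [mul_le_mul_of_nonneg_left (k7 i) hC, mul_le_mul_of_nonneg_left (k8 i) hC]
  have hJ : Tendsto J atTop (𝓝 0) :=
    squeeze_zero r2 hJ' (by simpa using t0.const_mul (3 * C))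
  have hM : Tendsto (fun i => 2 * K i + 1) atTop atTop :=
    tendsto_atTop_mono (fun i => by have := (le_max_right m i).trans (k1 i); simp only [id]; omega)
      tendsto_id
  have hend := endgame hNc0 hM ρ r1 hJ r4 (half_pos hδ)
  have t1 : Tendsto (fun i : ℕ => n * J i +
      (2 * ((1 - d) / bet Nc) + n * m + 2 * (n * w ^ m)) * (1 / ((i : ℝ) + 1))) atTop (𝓝 0) := by
    simpa using (hJ.const_mul (n : ℝ)).add
      (t0.const_mul (2 * ((1 - d) / bet Nc) + n * m + 2 * (n * w ^ m)))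
  obtain ⟨i, i1, i2⟩ := (hend.and (t1.eventually (gt_mem_nhds (half_pos hδ)))).exists
  refine ⟨K i, (le_max_left m i).trans (k1 i), fun A B hA hB sA sB => ?_⟩
  have g1 := (r5 i A B hA hB).trans (GG_le_minval h0 h1 hu hτ hd0 hw (hε i) le_rfl (k2 i) (k3 i)
    (k4 i) (k6 i) (k7 i) hA hB sA sB)
  have g2 := mul_le_mul_of_nonneg_left i1 (sub_pos.2 hd1).le
  have g3 := mul_pos hd0 (half_pos hδ)
  linarith

end Vale.Agent.P369
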