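import Vale.Agent.P369.Lm

/-! P369 task Net1: closure properties of `Contr`.
Plan. `dual`: for `u`, put `y = Mᴴ *ᵥ u`, `v j = y j / g j`, `w = M *ᵥ v`,
`T = ∑ (g j)⁻¹ |y j|² = Re ⟨y, v⟩ = Re ⟨u, w⟩` and `2 Re (conj u w) ≤ f⁻¹ |u|² + f |w|²`, so
`2 T ≤ ∑ f⁻¹ |u|² + ∑ g |v|² = ∑ f⁻¹ |u|² + T`.
`integral`: `intervalIntegral.integral_finsetSum`, `integral_mul_const`, `integral_mono_on`.
`series`, `series2`: dual, then `integral` / `add` for `Mᴴ`, then dual again (`Mᴴᴴ = M`);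
positivity of the integral by `intervalIntegral.intervalIntegral_pos_of_pos_on`.
`lm`: `series` for `(1-θ) f₀ + θ f₁` and `integral_inv_lm`. `dlm`: dual, `lm`, dual, `lm_inv`. -/

namespace Vale.Agent.P369

open Matrix Filter Topology Set

variable {K C : Type} [Fintype K] [Fintype C] {M : Matrix K C ℂ} {f f' f₀ f₁ : K → ℝ}
  {g g' g₀ g₁ : C → ℝ}

theorem amgm_net1 {a : ℝ} (ha : 0 < a) (u w : ℂ) :
    2 * (star u * w).re ≤ a⁻¹ * Complex.normSq u + a * Complex.normSq w := by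
  have h : a⁻¹ * Complex.normSq u + a * Complex.normSq w - 2 * (star u * w).re
      = a⁻¹ * ((u.re - a * w.re) ^ 2 + (u.im - a * w.im) ^ 2) := by
    simp only [Complex.normSq_apply, Complex.star_def, Complex.mul_re, Complex.conj_re,
      Complex.conj_im]
    field_simp
    ring
  have h2 : 0 ≤ a⁻¹ * ((u.re - a * w.re) ^ 2 + (u.im - a * w.im) ^ 2) := by positivity
  linarith

theorem Contr.dual (hf : ∀ i, 0 < f i) (hg : ∀ j, 0 < g j) (h : Contr M f g) :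
    Contr Mᴴ (fun j => (g j)⁻¹) (fun i => (f i)⁻¹) := by
  intro u
  set y := Mᴴ *ᵥ u with hy
  set v : C → ℂ := fun j => (((g j)⁻¹ : ℝ) : ℂ) * y j with hv
  have h1 := h v
  have h2 : star y ⬝ᵥ v = star u ⬝ᵥ (M *ᵥ v) := by
    rw [hy, Matrix.star_mulVec, Matrix.conjTranspose_conjTranspose, Matrix.dotProduct_mulVec]
  have h3 : (star y ⬝ᵥ v).re = ∑ j, (g j)⁻¹ * Complex.normSq (y j) := by
    unfold dotProduct
    rw [Complex.re_sum]
    refine Finset.sum_congr rfl fun j _ => ?_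
    simp only [hv, Pi.star_apply, Complex.normSq_apply, Complex.star_def, Complex.mul_re,
      Complex.conj_re, Complex.conj_im, Complex.mul_im, Complex.ofReal_re, Complex.ofReal_im]
    ring
  have h4 : ∑ j, g j * Complex.normSq (v j) = ∑ j, (g j)⁻¹ * Complex.normSq (y j) := by
    refine Finset.sum_congr rfl fun j _ => ?_
    have := (hg j).ne'
    simp only [hv, Complex.normSq_mul, Complex.normSq_ofReal]
    field_simp
  have h5 : 2 * (star u ⬝ᵥ (M *ᵥ v)).re ≤ ∑ i, (f i)⁻¹ * Complex.normSq (u i)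
      + ∑ i, f i * Complex.normSq ((M *ᵥ v) i) := by
    unfold dotProduct
    rw [Complex.re_sum, Finset.mul_sum, ← Finset.sum_add_distrib]
    exact Finset.sum_le_sum fun i _ => amgm_net1 (hf i) _ _
  rw [← h2, h3] at h5
  linarith

theorem Contr.add (h₀ : Contr M f₀ g₀) (h₁ : Contr M f₁ g₁) :
    Contr M (fun i => f₀ i + f₁ i) (fun j => g₀ j + g₁ j) := by
  intro v
  simp only [add_mul, Finset.sum_add_distrib]
  exact add_le_add (h₀ v) (h₁ v)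

theorem Contr.smul {c : ℝ} (hc : 0 ≤ c) (h : Contr M f g) :
    Contr M (fun i => c * f i) (fun j => c * g j) := by
  intro v
  simp only [mul_assoc, ← Finset.mul_sum]
  exact mul_le_mul_of_nonneg_left (h v) hc

theorem Contr.mono (hf : ∀ i, f' i ≤ f i) (hg : ∀ j, g j ≤ g' j) (h : Contr M f g) :
    Contr M f' g' := by
  intro v
  refine le_trans (Finset.sum_le_sum fun i _ => ?_) ((h v).trans (Finset.sum_le_sum fun j _ => ?_))
  · exact mul_le_mul_of_nonneg_right (hf i) (Complex.normSq_nonneg _)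
  · exact mul_le_mul_of_nonneg_right (hg j) (Complex.normSq_nonneg _)

theorem Contr.congr (hf : ∀ i, f' i = f i) (hg : ∀ j, g' j = g j) (h : Contr M f g) :
    Contr M f' g' := h.mono (fun i => (hf i).le) (fun j => (hg j).ge)

theorem int_sum_net1 {F : ℝ → K → ℝ} (hF : ∀ i, ContinuousOn (fun θ => F θ i) (Icc 0 1))
    (c : K → ℝ) : ∑ i, (∫ θ in (0 : ℝ)..1, F θ i) * c i = ∫ θ in (0 : ℝ)..1, ∑ i, F θ i * c i := by
  rw [intervalIntegral.integral_finsetSum]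
  · refine Finset.sum_congr rfl fun i _ => ?_
    rw [intervalIntegral.integral_mul_const]
  · intro i _
    exact ((hF i).mul continuousOn_const).intervalIntegrable_of_Icc zero_le_one

theorem Contr.integral {F : ℝ → K → ℝ} {G : ℝ → C → ℝ}
    (hF : ∀ i, ContinuousOn (fun θ => F θ i) (Icc 0 1))
    (hG : ∀ j, ContinuousOn (fun θ => G θ j) (Icc 0 1))
    (h : ∀ θ ∈ Icc (0 : ℝ) 1, Contr M (F θ) (G θ)) :
    Contr M (fun i => ∫ θ in (0 : ℝ)..1, F θ i) (fun j => ∫ θ in (0 : ℝ)..1, G θ j) := by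
  intro v
  rw [int_sum_net1 hF, int_sum_net1 hG]
  refine intervalIntegral.integral_mono_on zero_le_one ?_ ?_ fun θ hθ => h θ hθ v
  · exact (continuousOn_finsetSum _ fun i _ =>
      (hF i).mul continuousOn_const).intervalIntegrable_of_Icc zero_le_one
  · exact (continuousOn_finsetSum _ fun i _ =>
      (hG i).mul continuousOn_const).intervalIntegrable_of_Icc zero_le_one

theorem int_pos_net1 {F : ℝ → ℝ} (hF : ContinuousOn F (Icc 0 1))
    (pF : ∀ θ ∈ Icc (0 : ℝ) 1, 0 < F θ) : 0 < ∫ θ in (0 : ℝ)..1, F θ :=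
  intervalIntegral.intervalIntegral_pos_of_pos_on (hF.intervalIntegrable_of_Icc zero_le_one)
    (fun θ hθ => pF θ (Ioo_subset_Icc_self hθ)) zero_lt_one

theorem Contr.series {F : ℝ → K → ℝ} {G : ℝ → C → ℝ}
    (hF : ∀ i, ContinuousOn (fun θ => F θ i) (Icc 0 1))
    (hG : ∀ j, ContinuousOn (fun θ => G θ j) (Icc 0 1))
    (pF : ∀ θ ∈ Icc (0 : ℝ) 1, ∀ i, 0 < F θ i) (pG : ∀ θ ∈ Icc (0 : ℝ) 1, ∀ j, 0 < G θ j)
    (h : ∀ θ ∈ Icc (0 : ℝ) 1, Contr M (F θ) (G θ)) :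
    Contr M (fun i => (∫ θ in (0 : ℝ)..1, (F θ i)⁻¹)⁻¹)
      (fun j => (∫ θ in (0 : ℝ)..1, (G θ j)⁻¹)⁻¹) := by
  have hF' : ∀ i, ContinuousOn (fun θ => (F θ i)⁻¹) (Icc 0 1) := fun i =>
    (hF i).inv₀ fun θ hθ => (pF θ hθ i).ne'
  have hG' : ∀ j, ContinuousOn (fun θ => (G θ j)⁻¹) (Icc 0 1) := fun j =>
    (hG j).inv₀ fun θ hθ => (pG θ hθ j).ne'
  have h1 := Contr.integral (M := Mᴴ) (F := fun θ j => (G θ j)⁻¹) (G := fun θ i => (F θ i)⁻¹)
    hG' hF' fun θ hθ => (h θ hθ).dual (pF θ hθ) (pG θ hθ)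
  have h2 := h1.dual (fun j => int_pos_net1 (hG' j) fun θ hθ => inv_pos.2 (pG θ hθ j))
    (fun i => int_pos_net1 (hF' i) fun θ hθ => inv_pos.2 (pF θ hθ i))
  rwa [Matrix.conjTranspose_conjTranspose] at h2

theorem Contr.series2 (hf₀ : ∀ i, 0 < f₀ i) (hf₁ : ∀ i, 0 < f₁ i) (hg₀ : ∀ j, 0 < g₀ j)
    (hg₁ : ∀ j, 0 < g₁ j) (h₀ : Contr M f₀ g₀) (h₁ : Contr M f₁ g₁) :
    Contr M (fun i => ((f₀ i)⁻¹ + (f₁ i)⁻¹)⁻¹) (fun j => ((g₀ j)⁻¹ + (g₁ j)⁻¹)⁻¹) := by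
  have h2 := ((h₀.dual hf₀ hg₀).add (h₁.dual hf₁ hg₁)).dual
    (fun j => add_pos (inv_pos.2 (hg₀ j)) (inv_pos.2 (hg₁ j)))
    (fun i => add_pos (inv_pos.2 (hf₀ i)) (inv_pos.2 (hf₁ i)))
  rwa [Matrix.conjTranspose_conjTranspose] at h2

theorem Contr.limit {F : ℕ → K → ℝ} {G : ℕ → C → ℝ}
    (hF : ∀ i, Tendsto (fun n => F n i) atTop (𝓝 (f i)))
    (hG : ∀ j, Tendsto (fun n => G n j) atTop (𝓝 (g j))) (h : ∀ n, Contr M (F n) (G n)) :
    Contr M f g := by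
  intro v
  exact le_of_tendsto_of_tendsto' (tendsto_finsetSum _ fun i _ => (hF i).mul_const _)
    (tendsto_finsetSum _ fun j _ => (hG j).mul_const _) fun n => h n v

theorem conv_pos_net1 {a b θ : ℝ} (ha : 0 < a) (hb : 0 < b) (hθ : θ ∈ Icc (0 : ℝ) 1) :
    0 < (1 - θ) * a + θ * b := by
  obtain ⟨h0, h1⟩ := hθ
  rcases h0.eq_or_lt with h | h
  · subst h
    simpa using ha
  · have : 0 ≤ (1 - θ) * a := mul_nonneg (by linarith) ha.le
    have := mul_pos h hb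
    linarith

theorem Contr.lm (hf₀ : ∀ i, 0 < f₀ i) (hf₁ : ∀ i, 0 < f₁ i) (hg₀ : ∀ j, 0 < g₀ j)
    (hg₁ : ∀ j, 0 < g₁ j) (h₀ : Contr M f₀ g₀) (h₁ : Contr M f₁ g₁) :
    Contr M (fun i => lm (f₀ i) (f₁ i)) (fun j => lm (g₀ j) (g₁ j)) := by
  have h := Contr.series (M := M) (F := fun θ i => (1 - θ) * f₀ i + θ * f₁ i)
    (G := fun θ j => (1 - θ) * g₀ j + θ * g₁ j) (fun i => by fun_prop) (fun j => by fun_prop)
    (fun θ hθ i => conv_pos_net1 (hf₀ i) (hf₁ i) hθ)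
    (fun θ hθ j => conv_pos_net1 (hg₀ j) (hg₁ j) hθ)
    (fun θ hθ => (h₀.smul (sub_nonneg.2 hθ.2)).add (h₁.smul hθ.1))
  refine h.congr (fun i => ?_) (fun j => ?_)
  · rw [integral_inv_lm (hf₀ i) (hf₁ i), inv_inv]
  · rw [integral_inv_lm (hg₀ j) (hg₁ j), inv_inv]

theorem Contr.dlm (hf₀ : ∀ i, 0 < f₀ i) (hf₁ : ∀ i, 0 < f₁ i) (hg₀ : ∀ j, 0 < g₀ j)
    (hg₁ : ∀ j, 0 < g₁ j) (h₀ : Contr M f₀ g₀) (h₁ : Contr M f₁ g₁) :
    Contr M (fun i => f₀ i * f₁ i / P369.lm (f₀ i) (f₁ i))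
      (fun j => g₀ j * g₁ j / P369.lm (g₀ j) (g₁ j)) := by
  have h1 := Contr.lm (fun j => inv_pos.2 (hg₀ j)) (fun j => inv_pos.2 (hg₁ j))
    (fun i => inv_pos.2 (hf₀ i)) (fun i => inv_pos.2 (hf₁ i)) (h₀.dual hf₀ hg₀) (h₁.dual hf₁ hg₁)
  have h2 := h1.dual (fun j => lm_pos (inv_pos.2 (hg₀ j)) (inv_pos.2 (hg₁ j)))
    (fun i => lm_pos (inv_pos.2 (hf₀ i)) (inv_pos.2 (hf₁ i)))
  rw [Matrix.conjTranspose_conjTranspose] at h2
  exact h2.congr (fun i => (lm_inv (hf₀ i) (hf₁ i)).symm) (fun j => (lm_inv (hg₀ j) (hg₁ j)).symm)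

end Vale.Agent.P369
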