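import Vale.Agent.P369.Net1

/-! P369 task Net2: the iterates `wn`, `Gn`, `avg` are positive, continuous, and preserve contraction.
Plan. `wn_pos_cont` by induction. Continuity of the parametric integral on `Ioi 0`: replace `θ` by
`max 0 (min θ 1)` (`intervalIntegral.integral_congr`), work on the subtype `Ioi 0`
(`continuousOn_iff_continuous_restrict`) and use
`intervalIntegral.continuous_parametric_intervalIntegral_of_continuous'`.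
`IsMean` closure lemmas to prove first:
* `id`: `IsMean id` (`f₀ * (f₁/f₀) = f₁`);
* `avgOf`: if `IsMean m` and `Contr f₀ g₀`, `Contr f₁ g₁`, `Contr f₂ g₂` then for each `θ`,
  `(1-θ) f₁ + θ f₂` contracts (`add`, `smul`), so `f₀ m (((1-θ) f₁ + θ f₂)/f₀)` contracts, and
  `Contr.series` gives `f₀ / ∫ (m ((1-θ) (f₁/f₀) + θ (f₂/f₀)))⁻¹`;
* `dual`: `IsMean m → IsMean (fun r => r / m r)`: apply the hypothesis to `Mᴴ` with the pair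
  `(g₁⁻¹, g₀⁻¹)` on the left and `(f₁⁻¹, f₀⁻¹)` on the right (ratio `f₀⁻¹ / f₁⁻¹ = f₁ / f₀`), then
  `Contr.dual` back: `(f₁⁻¹ * m r)⁻¹ = f₀ * (r / m r)`;
* `series`: `IsMean v → IsMean (fun r => 2 * (r⁻¹ + (v r)⁻¹)⁻¹)` (`series2`, `smul`).
Induction: `v n r = r * wn n r` is a mean: `v 0 = id`; `(Gn n r)⁻¹ = 2 * (r⁻¹ + (v n r)⁻¹)⁻¹`;
`(wn (n+1) r)⁻¹ = (avg n 1 r)⁻¹` is a mean by `avgOf` with `f₁ = f₀`; `v (n+1) = r / (wn (n+1))⁻¹`. -/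

namespace Vale.Agent.P369

open Matrix Filter Topology Set

theorem seg_pos_net2 {r₁ r₂ θ : ℝ} (h₁ : 0 < r₁) (h₂ : 0 < r₂) (hθ : θ ∈ Icc (0 : ℝ) 1) :
    0 < (1 - θ) * r₁ + θ * r₂ := by
  obtain ⟨a, b⟩ := hθ
  rcases eq_or_lt_of_le a with h | h
  · rw [← h]; simpa using h₁
  · have := mul_pos h h₂
    have := mul_nonneg (sub_nonneg.2 b) h₁.le
    linarith

theorem seg_cont_net2 {G : ℝ → ℝ} (hG : ContinuousOn G (Ioi 0)) {r₁ r₂ : ℝ} (h₁ : 0 < r₁)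
    (h₂ : 0 < r₂) : ContinuousOn (fun θ => G ((1 - θ) * r₁ + θ * r₂)) (Icc 0 1) :=
  hG.comp (by fun_prop) fun _ hθ => seg_pos_net2 h₁ h₂ hθ

theorem av_pos_net2 {G : ℝ → ℝ} (hp : ∀ r, 0 < r → 0 < G r) (hG : ContinuousOn G (Ioi 0))
    {r₁ r₂ : ℝ} (h₁ : 0 < r₁) (h₂ : 0 < r₂) :
    0 < ∫ θ in (0 : ℝ)..1, G ((1 - θ) * r₁ + θ * r₂) := by
  refine intervalIntegral.intervalIntegral_pos_of_pos_on ?_ (fun θ hθ => ?_) one_pos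
  · refine ContinuousOn.intervalIntegrable ?_
    rw [uIcc_of_le zero_le_one]
    exact seg_cont_net2 hG h₁ h₂
  · exact hp _ (seg_pos_net2 h₁ h₂ (Ioo_subset_Icc_self hθ))

theorem av_cont_net2 {G : ℝ → ℝ} (hG : ContinuousOn G (Ioi 0)) :
    ContinuousOn (fun r => ∫ θ in (0 : ℝ)..1, G ((1 - θ) * 1 + θ * r)) (Ioi 0) := by
  have hm : ∀ θ : ℝ, max 0 (min θ 1) ∈ Icc (0 : ℝ) 1 := fun θ =>
    ⟨le_max_left _ _, max_le zero_le_one (min_le_right _ _)⟩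
  have e : ∀ r : ℝ, ∫ θ in (0 : ℝ)..1, G ((1 - θ) * 1 + θ * r) =
      ∫ θ in (0 : ℝ)..1, G ((1 - max 0 (min θ 1)) * 1 + max 0 (min θ 1) * r) := fun r => by
    refine intervalIntegral.integral_congr fun θ hθ => ?_
    rw [uIcc_of_le zero_le_one] at hθ
    simp only [min_eq_left hθ.2, max_eq_right hθ.1]
  simp only [e]
  rw [continuousOn_iff_continuous_domRestrict]
  refine intervalIntegral.continuous_parametric_intervalIntegral_of_continuous'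
    (f := fun (r : Ioi (0 : ℝ)) θ => G ((1 - max 0 (min θ 1)) * 1 + max 0 (min θ 1) * r.1)) ?_ 0 1
  exact hG.comp_continuous (f := fun p : Ioi (0 : ℝ) × ℝ =>
    (1 - max 0 (min p.2 1)) * 1 + max 0 (min p.2 1) * p.1.1) (by fun_prop)
    fun p => seg_pos_net2 one_pos p.1.2 (hm p.2)

theorem Gn_step_net2 {n : ℕ} (h : (∀ r, 0 < r → 0 < wn n r) ∧ ContinuousOn (wn n) (Ioi 0)) :
    (∀ r, 0 < r → 0 < Gn n r) ∧ ContinuousOn (Gn n) (Ioi 0) := by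
  refine ⟨fun r hr => ?_, ?_⟩
  · have := h.1 r hr
    unfold Gn
    positivity
  · unfold Gn
    exact (continuousOn_const.add (h.2.inv₀ fun r hr => (h.1 r hr).ne')).div (by fun_prop)
      fun r hr => (mul_pos two_pos hr).ne'

theorem wn_pos_cont (n : ℕ) :
    (∀ r, 0 < r → 0 < wn n r) ∧ ContinuousOn (wn n) (Ioi 0) := by
  induction n with
  | zero => exact ⟨fun _ _ => one_pos, continuousOn_const⟩
  | succ n ih =>
    have h := Gn_step_net2 ih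
    exact ⟨fun r hr => av_pos_net2 h.1 h.2 one_pos hr, av_cont_net2 h.2⟩

theorem Gn_pos (n : ℕ) {r : ℝ} (hr : 0 < r) : 0 < Gn n r :=
  (Gn_step_net2 (wn_pos_cont n)).1 r hr

theorem Gn_continuousOn (n : ℕ) : ContinuousOn (Gn n) (Ioi 0) :=
  (Gn_step_net2 (wn_pos_cont n)).2

theorem avg_pos (n : ℕ) {r₁ r₂ : ℝ} (h₁ : 0 < r₁) (h₂ : 0 < r₂) : 0 < avg n r₁ r₂ :=
  av_pos_net2 (fun _ hr => Gn_pos n hr) (Gn_continuousOn n) h₁ h₂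

theorem mean_congr_net2 {m m' : ℝ → ℝ} (e : ∀ r, 0 < r → m' r = m r) (h : IsMean m) :
    IsMean m' := by
  refine ⟨fun r hr => by rw [e r hr]; exact h.1 r hr, h.2.1.congr fun r hr => e r hr, ?_⟩
  intro K C _ _ M f₀ f₁ g₀ g₁ hf₀ hf₁ hg₀ hg₁ h₀ h₁
  exact (h.2.2 K C M f₀ f₁ g₀ g₁ hf₀ hf₁ hg₀ hg₁ h₀ h₁).congr
    (fun i => by rw [e _ (div_pos (hf₁ i) (hf₀ i))]) fun j => by rw [e _ (div_pos (hg₁ j) (hg₀ j))]

theorem mean_id_net2 : IsMean fun r => r := by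
  refine ⟨fun r hr => hr, continuousOn_id, ?_⟩
  intro K C _ _ M f₀ f₁ g₀ g₁ hf₀ _ hg₀ _ _ h₁
  exact h₁.congr (fun i => mul_div_cancel₀ _ (hf₀ i).ne') fun j => mul_div_cancel₀ _ (hg₀ j).ne'

theorem mean_dual_net2 {m : ℝ → ℝ} (h : IsMean m) : IsMean fun r => r / m r := by
  refine ⟨fun r hr => div_pos hr (h.1 r hr),
    continuousOn_id.div h.2.1 fun r hr => (h.1 r hr).ne', ?_⟩
  intro K C _ _ M f₀ f₁ g₀ g₁ hf₀ hf₁ hg₀ hg₁ h₀ h₁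
  have e : ∀ a b : ℝ, a⁻¹ / b⁻¹ = b / a := fun a b => by rw [inv_div_inv]
  have h2 := h.2.2 C K Mᴴ (fun j => (g₁ j)⁻¹) (fun j => (g₀ j)⁻¹) (fun i => (f₁ i)⁻¹)
    (fun i => (f₀ i)⁻¹) (fun j => inv_pos.2 (hg₁ j)) (fun j => inv_pos.2 (hg₀ j))
    (fun i => inv_pos.2 (hf₁ i)) (fun i => inv_pos.2 (hf₀ i)) (h₁.dual hf₁ hg₁) (h₀.dual hf₀ hg₀)
  simp only [e] at h2
  have h3 := h2.dual
    (fun j => mul_pos (inv_pos.2 (hg₁ j)) (h.1 _ (div_pos (hg₁ j) (hg₀ j))))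
    fun i => mul_pos (inv_pos.2 (hf₁ i)) (h.1 _ (div_pos (hf₁ i) (hf₀ i)))
  rw [conjTranspose_conjTranspose] at h3
  have e2 : ∀ a b c : ℝ, 0 < a → a * (b / a / c) = (b⁻¹ * c)⁻¹ := fun a b c ha => by
    rw [mul_inv, inv_inv, div_div, mul_div_assoc', mul_div_mul_left _ _ ha.ne', div_eq_mul_inv]
  exact h3.congr (fun i => e2 _ _ _ (hf₀ i)) fun j => e2 _ _ _ (hg₀ j)

theorem mean_series_net2 {v : ℝ → ℝ} (h : IsMean v) :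
    IsMean fun r => 2 * (r⁻¹ + (v r)⁻¹)⁻¹ := by
  refine ⟨fun r hr => ?_, ?_, ?_⟩
  · have := h.1 r hr
    positivity
  · refine continuousOn_const.mul (ContinuousOn.inv₀ ((continuousOn_id.inv₀ fun r hr =>
      (mem_Ioi.1 hr).ne').add (h.2.1.inv₀ fun r hr => (h.1 r hr).ne')) fun r hr => ?_)
    have := h.1 r hr
    have := mem_Ioi.1 hr
    positivity
  · intro K C _ _ M f₀ f₁ g₀ g₁ hf₀ hf₁ hg₀ hg₁ h₀ h₁
    have h2 := h.2.2 K C M f₀ f₁ g₀ g₁ hf₀ hf₁ hg₀ hg₁ h₀ h₁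
    have h3 := (Contr.series2 hf₁ (fun i => mul_pos (hf₀ i) (h.1 _ (div_pos (hf₁ i) (hf₀ i)))) hg₁
      (fun j => mul_pos (hg₀ j) (h.1 _ (div_pos (hg₁ j) (hg₀ j)))) h₁ h2).smul (c := 2) zero_le_two
    have e : ∀ a b c : ℝ, 0 < a → 0 < b → 0 < c →
        a * (2 * ((b / a)⁻¹ + c⁻¹)⁻¹) = 2 * (b⁻¹ + (a * c)⁻¹)⁻¹ := fun a b c ha hb hc => by
      field_simp
    exact h3.congr (fun i => e _ _ _ (hf₀ i) (hf₁ i) (h.1 _ (div_pos (hf₁ i) (hf₀ i))))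
      fun j => e _ _ _ (hg₀ j) (hg₁ j) (h.1 _ (div_pos (hg₁ j) (hg₀ j)))

theorem mean_avg_net2 {m : ℝ → ℝ} (h : IsMean m) {K C : Type} [Fintype K] [Fintype C]
    {M : Matrix K C ℂ}
    {f₀ f₁ f₂ : K → ℝ} {g₀ g₁ g₂ : C → ℝ} (hf₀ : ∀ i, 0 < f₀ i) (hf₁ : ∀ i, 0 < f₁ i)
    (hf₂ : ∀ i, 0 < f₂ i) (hg₀ : ∀ j, 0 < g₀ j) (hg₁ : ∀ j, 0 < g₁ j) (hg₂ : ∀ j, 0 < g₂ j)
    (h₀ : Contr M f₀ g₀) (h₁ : Contr M f₁ g₁) (h₂ : Contr M f₂ g₂) :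
    Contr M
      (fun i => f₀ i * (∫ θ in (0 : ℝ)..1, (m ((1 - θ) * (f₁ i / f₀ i) + θ * (f₂ i / f₀ i)))⁻¹)⁻¹)
      (fun j => g₀ j *
        (∫ θ in (0 : ℝ)..1, (m ((1 - θ) * (g₁ j / g₀ j) + θ * (g₂ j / g₀ j)))⁻¹)⁻¹) := by
  have e : ∀ a b c θ : ℝ, ((1 - θ) * b + θ * c) / a = (1 - θ) * (b / a) + θ * (c / a) :=
    fun a b c θ => by ring
  have h3 := Contr.series (M := M)
    (F := fun θ i => f₀ i * m ((1 - θ) * (f₁ i / f₀ i) + θ * (f₂ i / f₀ i)))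
    (G := fun θ j => g₀ j * m ((1 - θ) * (g₁ j / g₀ j) + θ * (g₂ j / g₀ j)))
    (fun i => continuousOn_const.mul
      (seg_cont_net2 h.2.1 (div_pos (hf₁ i) (hf₀ i)) (div_pos (hf₂ i) (hf₀ i))))
    (fun j => continuousOn_const.mul
      (seg_cont_net2 h.2.1 (div_pos (hg₁ j) (hg₀ j)) (div_pos (hg₂ j) (hg₀ j))))
    (fun θ hθ i => mul_pos (hf₀ i)
      (h.1 _ (seg_pos_net2 (div_pos (hf₁ i) (hf₀ i)) (div_pos (hf₂ i) (hf₀ i)) hθ)))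
    (fun θ hθ j => mul_pos (hg₀ j)
      (h.1 _ (seg_pos_net2 (div_pos (hg₁ j) (hg₀ j)) (div_pos (hg₂ j) (hg₀ j)) hθ)))
    (fun θ hθ => by
      have h4 := h.2.2 K C M f₀ (fun i => (1 - θ) * f₁ i + θ * f₂ i) g₀
        (fun j => (1 - θ) * g₁ j + θ * g₂ j) hf₀ (fun i => seg_pos_net2 (hf₁ i) (hf₂ i) hθ) hg₀
        (fun j => seg_pos_net2 (hg₁ j) (hg₂ j) hθ) h₀
        ((h₁.smul (sub_nonneg.2 hθ.2)).add (h₂.smul hθ.1))
      simpa only [e] using h4)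
  have e2 : ∀ (a : ℝ) (u : ℝ → ℝ), a * (∫ θ in (0 : ℝ)..1, (u θ)⁻¹)⁻¹ =
      (∫ θ in (0 : ℝ)..1, (a * u θ)⁻¹)⁻¹ := fun a u => by
    simp only [mul_inv, intervalIntegral.integral_const_mul, inv_inv]
  exact h3.congr (fun i => e2 _ _) fun j => e2 _ _

theorem mean_Gn_net2 {n : ℕ} (h : IsMean fun r => r * wn n r) :
    IsMean fun r => (Gn n r)⁻¹ := by
  refine mean_congr_net2 (fun r hr => ?_) (mean_series_net2 h)
  have := (wn_pos_cont n).1 r hr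
  unfold Gn
  field_simp

theorem mean_v_net2 (n : ℕ) : IsMean fun r => r * wn n r := by
  induction n with
  | zero => exact mean_congr_net2 (fun r _ => mul_one r) mean_id_net2
  | succ n ih =>
    have h := mean_Gn_net2 ih
    have h2 : IsMean fun r => (wn (n + 1) r)⁻¹ := by
      refine ⟨fun r hr => inv_pos.2 ((wn_pos_cont _).1 r hr),
        (wn_pos_cont _).2.inv₀ fun r hr => ((wn_pos_cont _).1 r hr).ne', ?_⟩
      intro K C _ _ M f₀ f₁ g₀ g₁ hf₀ hf₁ hg₀ hg₁ h₀ h₁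
      refine (mean_avg_net2 h hf₀ hf₀ hf₁ hg₀ hg₀ hg₁ h₀ h₀ h₁).congr (fun i => ?_) fun j => ?_
      · simp only [inv_inv, div_self (hf₀ i).ne', wn_succ, avg]
      · simp only [inv_inv, div_self (hg₀ j).ne', wn_succ, avg]
    exact mean_congr_net2 (fun r _ => by rw [div_inv_eq_mul]) (mean_dual_net2 h2)

theorem isMean_Gn (n : ℕ) : IsMean (fun r => (Gn n r)⁻¹) := mean_Gn_net2 (mean_v_net2 n)

theorem contr_avg (n : ℕ) {K C : Type} [Fintype K] [Fintype C] {M : Matrix K C ℂ}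
    {f₀ f₁ f₂ : K → ℝ} {g₀ g₁ g₂ : C → ℝ} (hf₀ : ∀ i, 0 < f₀ i) (hf₁ : ∀ i, 0 < f₁ i)
    (hf₂ : ∀ i, 0 < f₂ i) (hg₀ : ∀ j, 0 < g₀ j) (hg₁ : ∀ j, 0 < g₁ j) (hg₂ : ∀ j, 0 < g₂ j)
    (h₀ : Contr M f₀ g₀) (h₁ : Contr M f₁ g₁) (h₂ : Contr M f₂ g₂) :
    Contr M (fun i => f₀ i * (avg n (f₁ i / f₀ i) (f₂ i / f₀ i))⁻¹)
      (fun j => g₀ j * (avg n (g₁ j / g₀ j) (g₂ j / g₀ j))⁻¹) := by
  refine (mean_avg_net2 (isMean_Gn n) hf₀ hf₁ hf₂ hg₀ hg₁ hg₂ h₀ h₁ h₂).congr (fun i => ?_)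
    fun j => ?_
  · simp only [inv_inv, avg]
  · simp only [inv_inv, avg]

end Vale.Agent.P369
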