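import Vale.Agent.P369.Net2

/-! P369 task Net3: convergence of the iteration along the curve
`φ(z) = z cosh z / sinh z`, `r(z) = (z / sinh z)^2`, `z > 0`.
Plan. Put `A n ρ = ∫ s in ρ..1, Gn n s`; `(r₂ - r₁) * avg n r₁ r₂ = A n r₁ - A n r₂`
(`intervalIntegral.integral_comp_mul_add` or the FTC), so `(1 - ρ) * wn (n+1) ρ = A n ρ`;
`HasDerivAt (A n) (-Gn n ρ) ρ` for `ρ > 0` (`Gn_continuousOn`).
Facts: `0 < r < 1` (`Real.self_lt_sinh_iff`), `φ' = (φ - r)/z`, `r' = -2 r (φ - 1)/z`, `φ, r → 1`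
as `z → 0+` (from the derivative of `sinh` at `0`), `1 < φ` (`z cosh z - sinh z` has derivative
`z sinh z > 0`), `3 ≤ 2 φ + r` (derivative `2 φ (1 - r)/z ≥ 0`), i.e. `w := (φ-1)/(1-r) ≥ 1/2`;
`r` decreasing; on `(0, Z]`: `φ - 1 ≤ c₀ (1 - r)` when `3 ≤ 2 c₀ r(Z)` (compare derivatives, using
`φ - r = (φ-1) + (1-r) ≤ 3 (φ-1)`). `wn n ρ ≥ 1/2` for `0 < ρ ≤ 1` (`Gn ≥ 1/(2ρ) ≥ 1/2`).
A comparison lemma does all the monotonicity steps: if `F' ≥ 0` on `(0, Z]` and `F → 0` at `0+`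
then `0 ≤ F` on `(0, Z]`.
Main induction on `(0, Z]`, with `W n z = wn n (r z)`, `c n = 1 + (2/3)^n (c₀ - 1)`, `c₀ ≥ 2`:
`W n ≤ c n * w` and `w ≤ c n * W n`. Step: if `u ≤ c u'`, `0 < u' ≤ 2`, `1 ≤ c` then
`1 + u ≤ (1 + (2/3)(c-1)) (1 + u')`; the derivative of `A n (r z)` is `(1 + (W n)⁻¹)(φ-1)/z`, that
of `φ` is `(1 + w⁻¹)(φ-1)/z`; hence `A n (r z) ≤ c (n+1) (φ-1)` and `φ - 1 ≤ c (n+1) A n (r z)`;
divide by `1 - r`. So `A n (r z) → φ z - 1` (also for the point `(1,1)`, where `A n 1 = 0`).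
Final: if `r₁ ≠ r₂` take `γ = (φ₁ - φ₂)/(r₂ - r₁)`, and `γ ≥ 1/2` since `avg ≥ 1/2`; if `r₁ = r₂`,
`avg n r₂ r₂ = Gn n r₂ → (1 + w⁻¹)/(2 r₂)` and `φ₁ = φ₂` by uniqueness of limits. -/

namespace Vale.Agent.P369

open Filter Topology Set

noncomputable def ph_net3 (z : ℝ) : ℝ := z * Real.cosh z / Real.sinh z

noncomputable def rr_net3 (z : ℝ) : ℝ := (z / Real.sinh z) ^ 2

noncomputable def AA_net3 (n : ℕ) (ρ : ℝ) : ℝ := ∫ s in ρ..1, Gn n s

lemma cmp_net3 {F F' : ℝ → ℝ} {Z : ℝ} (hF : ∀ z ∈ Ioc 0 Z, HasDerivAt F (F' z) z)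
    (h0 : ∀ z ∈ Ioc 0 Z, 0 ≤ F' z) (hl : Tendsto F (𝓝[>] 0) (𝓝 0)) :
    ∀ z ∈ Ioc 0 Z, 0 ≤ F z := by
  have hm : MonotoneOn F (Ioc 0 Z) := by
    refine monotoneOn_of_deriv_nonneg (convex_Ioc 0 Z)
      (fun z hz => (hF z hz).continuousAt.continuousWithinAt)
      (fun z hz => (hF z (interior_subset hz)).differentiableAt.differentiableWithinAt)
      fun z hz => ?_
    rw [(hF z (interior_subset hz)).deriv]
    exact h0 z (interior_subset hz)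
  intro z hz
  refine le_of_tendsto hl ?_
  filter_upwards [Ioc_mem_nhdsGT hz.1] with t ht
  exact hm ⟨ht.1, ht.2.trans hz.2⟩ hz ht.2

lemma intble_net3 (n : ℕ) {a b : ℝ} (ha : 0 < a) (hb : 0 < b) :
    IntervalIntegrable (Gn n) MeasureTheory.volume a b :=
  ((Gn_continuousOn n).mono fun _ hx => lt_of_lt_of_le (lt_min ha hb) hx.1).intervalIntegrable

lemma AA_deriv_net3 (n : ℕ) {ρ : ℝ} (h : 0 < ρ) : HasDerivAt (AA_net3 n) (-Gn n ρ) ρ :=
  intervalIntegral.integral_hasDerivAt_left (intble_net3 n h one_pos)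
    ((Gn_continuousOn n).stronglyMeasurableAtFilter isOpen_Ioi ρ h)
    ((Gn_continuousOn n).continuousAt (Ioi_mem_nhds h))

lemma avg_eq_net3 (n : ℕ) {r₁ r₂ : ℝ} (h₁ : 0 < r₁) (h₂ : 0 < r₂) :
    (r₂ - r₁) * avg n r₁ r₂ = AA_net3 n r₁ - AA_net3 n r₂ := by
  have h := intervalIntegral.mul_integral_comp_mul_add (f := Gn n) (a := 0) (b := 1)
    (r₂ - r₁) r₁
  have h2 : avg n r₁ r₂ = ∫ x in (0 : ℝ)..1, Gn n ((r₂ - r₁) * x + r₁) := by
    unfold avg; congr 1; funext x; congr 1; ring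
  rw [h2, h, mul_zero, zero_add, mul_one, sub_add_cancel, AA_net3, AA_net3,
    ← intervalIntegral.integral_add_adjacent_intervals (intble_net3 n h₁ h₂)
      (intble_net3 n h₂ one_pos)]
  ring

lemma Gn_ge_net3 (n : ℕ) {s : ℝ} (h0 : 0 < s) (h1 : s ≤ 1) : 1 / 2 ≤ Gn n s := by
  have h := inv_pos.mpr ((wn_pos_cont n).1 s h0)
  rw [Gn, le_div_iff₀ (by positivity)]
  linarith

lemma avg_ge_net3 (n : ℕ) {r₁ r₂ : ℝ} (h₁ : 0 < r₁) (h₁' : r₁ ≤ 1) (h₂ : 0 < r₂) (h₂' : r₂ ≤ 1) :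
    1 / 2 ≤ avg n r₁ r₂ := by
  have hpos : ∀ θ ∈ Icc (0 : ℝ) 1, 0 < (1 - θ) * r₁ + θ * r₂ ∧ (1 - θ) * r₁ + θ * r₂ ≤ 1 := by
    intro θ hθ
    have a1 : 0 ≤ 1 - θ := by linarith [hθ.2]
    constructor
    · rcases le_total r₁ r₂ with h | h <;> nlinarith [hθ.1]
    · nlinarith [hθ.1]
  have hc : ContinuousOn (fun θ : ℝ => Gn n ((1 - θ) * r₁ + θ * r₂)) (Icc 0 1) :=
    (Gn_continuousOn n).comp (by fun_prop) fun θ hθ => (hpos θ hθ).1
  have h := intervalIntegral.integral_mono_on (μ := MeasureTheory.volume) zero_le_one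
    (intervalIntegrable_const (c := (1 / 2 : ℝ)))
    (ContinuousOn.intervalIntegrable_of_Icc zero_le_one hc)
    fun θ hθ => Gn_ge_net3 n (hpos θ hθ).1 (hpos θ hθ).2
  simpa [avg] using h

lemma wn_ge_net3 : ∀ (n : ℕ) {s : ℝ}, 0 < s → s ≤ 1 → 1 / 2 ≤ wn n s
  | 0, _, _, _ => by norm_num [wn]
  | n + 1, _, h0, h1 => avg_ge_net3 n one_pos le_rfl h0 h1

lemma ratio_tendsto_net3 : Tendsto (fun z => z / Real.sinh z) (𝓝[>] 0) (𝓝 1) := by
  have h := (hasDerivAt_iff_tendsto_slope.mp (Real.hasDerivAt_sinh 0)).mono_left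
    (nhdsGT_le_nhdsNE 0)
  rw [Real.cosh_zero] at h
  have h2 := h.inv₀ one_ne_zero
  rw [inv_one] at h2
  refine h2.congr fun z => ?_
  simp [slope_def_field]

lemma ph_tendsto_net3 : Tendsto ph_net3 (𝓝[>] 0) (𝓝 1) := by
  have h1 : Tendsto Real.cosh (𝓝[>] 0) (𝓝 1) := by
    simpa using (Real.continuous_cosh.tendsto 0).mono_left nhdsWithin_le_nhds
  have h := ratio_tendsto_net3.mul h1
  rw [mul_one] at h
  refine h.congr fun z => ?_
  rw [ph_net3]; ring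

lemma rr_tendsto_net3 : Tendsto rr_net3 (𝓝[>] 0) (𝓝 1) := by
  have h := ratio_tendsto_net3.pow 2
  rw [one_pow] at h
  exact h

lemma rr_mem_net3 {z : ℝ} (hz : 0 < z) : 0 < rr_net3 z ∧ rr_net3 z < 1 := by
  have h1 : z < Real.sinh z := Real.self_lt_sinh_iff.mpr hz
  have h2 : 0 < z / Real.sinh z := div_pos hz (hz.trans h1)
  exact ⟨pow_pos h2 2, pow_lt_one₀ h2.le ((div_lt_one (hz.trans h1)).mpr h1) two_ne_zero⟩

lemma ph_deriv_net3 {z : ℝ} (hz : 0 < z) :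
    HasDerivAt ph_net3 ((ph_net3 z - rr_net3 z) / z) z := by
  have hs : Real.sinh z ≠ 0 := (Real.sinh_pos_iff.mpr hz).ne'
  have h := ((hasDerivAt_id z).mul (Real.hasDerivAt_cosh z)).div (Real.hasDerivAt_sinh z) hs
  refine HasDerivAt.congr_deriv (f := ph_net3) h ?_
  have h2 := Real.cosh_sq z
  simp only [ph_net3, rr_net3, id, Pi.mul_apply]
  field_simp
  linear_combination (-z) * h2

lemma rr_deriv_net3 {z : ℝ} (hz : 0 < z) :
    HasDerivAt rr_net3 (-2 * rr_net3 z * (ph_net3 z - 1) / z) z := by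
  have hs : Real.sinh z ≠ 0 := (Real.sinh_pos_iff.mpr hz).ne'
  have h := ((hasDerivAt_id z).div (Real.hasDerivAt_sinh z) hs).pow 2
  refine HasDerivAt.congr_deriv (f := rr_net3) h ?_
  simp only [ph_net3, rr_net3, id, Pi.div_apply, Nat.add_one_sub_one, pow_one, Nat.cast_ofNat]
  field_simp
  ring

lemma sinh_lt_net3 {z : ℝ} (hz : 0 < z) : Real.sinh z < z * Real.cosh z := by
  have hm : StrictMonoOn (fun z => z * Real.cosh z - Real.sinh z) (Ici 0) := by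
    refine strictMonoOn_of_deriv_pos (convex_Ici 0) (by fun_prop) fun x hx => ?_
    rw [interior_Ici] at hx
    have h := ((hasDerivAt_id x).mul (Real.hasDerivAt_cosh x)).sub (Real.hasDerivAt_sinh x)
    have h2 : deriv (fun z => z * Real.cosh z - Real.sinh z) x = _ := h.deriv
    rw [h2]
    have := mul_pos hx (Real.sinh_pos_iff.mpr hx)
    simpa using this
  have := hm (mem_Ici.mpr le_rfl) (mem_Ici.mpr hz.le) hz
  simpa using this

lemma one_lt_ph_net3 {z : ℝ} (hz : 0 < z) : 1 < ph_net3 z :=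
  (one_lt_div (Real.sinh_pos_iff.mpr hz)).mpr (sinh_lt_net3 hz)

lemma three_le_net3 {z : ℝ} (hz : 0 < z) : 1 - rr_net3 z ≤ 2 * (ph_net3 z - 1) := by
  have h := cmp_net3 (F := fun z => 2 * ph_net3 z + rr_net3 z - 3)
    (F' := fun z => 2 * ((ph_net3 z - rr_net3 z) / z) + -2 * rr_net3 z * (ph_net3 z - 1) / z)
    (Z := z) (fun x hx => (((ph_deriv_net3 hx.1).const_mul 2).add (rr_deriv_net3 hx.1)).sub_const 3)
    (fun x hx => ?_) ?_ z ⟨hz, le_rfl⟩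
  · linarith
  · have h1 := one_lt_ph_net3 hx.1
    have h2 := (rr_mem_net3 hx.1).2
    have h3 : 2 * ((ph_net3 x - rr_net3 x) / x) + -2 * rr_net3 x * (ph_net3 x - 1) / x
        = 2 * ph_net3 x * (1 - rr_net3 x) / x := by ring
    rw [h3]
    exact div_nonneg (mul_nonneg (by linarith) (by linarith)) hx.1.le
  · have := ((ph_tendsto_net3.const_mul 2).add rr_tendsto_net3).sub_const 3
    norm_num at this
    exact this

lemma upper_net3 (Z : ℝ) : ∀ z ∈ Ioc 0 Z,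
    ph_net3 z - 1 ≤ 2 * Real.cosh Z ^ 2 * (1 - rr_net3 z) := by
  intro z hz
  have h := cmp_net3 (F := fun z => 2 * Real.cosh Z ^ 2 * (1 - rr_net3 z) - (ph_net3 z - 1))
    (F' := fun z => 2 * Real.cosh Z ^ 2 * (-(-2 * rr_net3 z * (ph_net3 z - 1) / z))
      - (ph_net3 z - rr_net3 z) / z) (Z := Z)
    (fun x hx => (((rr_deriv_net3 hx.1).const_sub 1).const_mul _).sub
      ((ph_deriv_net3 hx.1).sub_const 1)) (fun x hx => ?_) ?_ z hz
  · linarith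
  · have h1 := one_lt_ph_net3 hx.1
    have h2 := three_le_net3 hx.1
    have hs := Real.sinh_pos_iff.mpr hx.1
    have h4 : Real.cosh x ≤ Real.cosh Z := by
      rw [Real.cosh_le_cosh, abs_of_pos hx.1, abs_of_pos (hx.1.trans_le hx.2)]; exact hx.2
    have h5 : Real.sinh x ≤ x * Real.cosh Z :=
      (sinh_lt_net3 hx.1).le.trans (mul_le_mul_of_nonneg_left h4 hx.1.le)
    have h6 : 1 ≤ Real.cosh Z ^ 2 * rr_net3 x := by
      rw [rr_net3, ← mul_pow]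
      refine one_le_pow₀ ?_
      rw [← mul_div_assoc, le_div_iff₀ hs]; linarith
    have h3 : 2 * Real.cosh Z ^ 2 * (-(-2 * rr_net3 x * (ph_net3 x - 1) / x))
        - (ph_net3 x - rr_net3 x) / x = (4 * (Real.cosh Z ^ 2 * rr_net3 x) * (ph_net3 x - 1)
          - (ph_net3 x - rr_net3 x)) / x := by ring
    rw [h3]
    refine div_nonneg ?_ hx.1.le
    nlinarith
  · have := ((rr_tendsto_net3.const_sub 1).const_mul (2 * Real.cosh Z ^ 2)).sub
      (ph_tendsto_net3.sub_const 1)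
    simpa using this

lemma step_net3 {a b c : ℝ} (ha : 0 < a) (hb : 1 / 2 ≤ b) (hc : 1 ≤ c) (h : b ≤ c * a) :
    1 + a⁻¹ ≤ (1 + 2 / 3 * (c - 1)) * (1 + b⁻¹) := by
  have hb0 : 0 < b := by linarith
  have h1 : a⁻¹ ≤ c * b⁻¹ := by
    rw [← div_eq_mul_inv, le_div_iff₀ hb0, inv_mul_le_iff₀ ha]; linarith
  have h2 : b⁻¹ ≤ 2 := by rw [inv_le_comm₀ hb0 two_pos]; linarith
  nlinarith

lemma AA_comp_deriv_net3 (n : ℕ) {z : ℝ} (hz : 0 < z) :
    HasDerivAt (fun z => AA_net3 n (rr_net3 z))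
      ((1 + (wn n (rr_net3 z))⁻¹) * ((ph_net3 z - 1) / z)) z := by
  have h0 := (rr_mem_net3 hz).1
  refine ((AA_deriv_net3 n h0).comp z (rr_deriv_net3 hz)).congr_deriv ?_
  rw [Gn]
  field_simp

lemma AA_comp_tendsto_net3 (n : ℕ) :
    Tendsto (fun z => AA_net3 n (rr_net3 z)) (𝓝[>] 0) (𝓝 0) := by
  have h := (AA_deriv_net3 n one_pos).continuousAt.tendsto.comp rr_tendsto_net3
  rwa [show AA_net3 n 1 = 0 from intervalIntegral.integral_same] at h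

noncomputable def ww_net3 (z : ℝ) : ℝ := (ph_net3 z - 1) / (1 - rr_net3 z)

lemma ww_ge_net3 {z : ℝ} (hz : 0 < z) : 1 / 2 ≤ ww_net3 z := by
  have h1 := three_le_net3 hz
  rw [ww_net3, le_div_iff₀ (by linarith [(rr_mem_net3 hz).2])]
  linarith

lemma ph_deriv'_net3 {z : ℝ} (hz : 0 < z) :
    HasDerivAt ph_net3 ((1 + (ww_net3 z)⁻¹) * ((ph_net3 z - 1) / z)) z := by
  refine (ph_deriv_net3 hz).congr_deriv ?_
  have h1 : ph_net3 z - 1 ≠ 0 := by linarith [one_lt_ph_net3 hz]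
  rw [ww_net3, inv_div]
  field_simp
  ring

lemma succ_net3 {Z c : ℝ} (n : ℕ) (hc : 1 ≤ c) (h : ∀ z ∈ Ioc 0 Z,
    wn n (rr_net3 z) ≤ c * ww_net3 z ∧ ww_net3 z ≤ c * wn n (rr_net3 z)) : ∀ z ∈ Ioc 0 Z,
    wn (n + 1) (rr_net3 z) ≤ (1 + 2 / 3 * (c - 1)) * ww_net3 z ∧
      ww_net3 z ≤ (1 + 2 / 3 * (c - 1)) * wn (n + 1) (rr_net3 z) := by
  set c' := 1 + 2 / 3 * (c - 1) with hc'
  have hq : ∀ x ∈ Ioc (0 : ℝ) Z, 0 ≤ (ph_net3 x - 1) / x := fun x hx =>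
    div_nonneg (by linarith [one_lt_ph_net3 hx.1]) hx.1.le
  have hW : ∀ x ∈ Ioc (0 : ℝ) Z, 1 / 2 ≤ wn n (rr_net3 x) := fun x hx =>
    wn_ge_net3 n (rr_mem_net3 hx.1).1 (rr_mem_net3 hx.1).2.le
  have h1 := cmp_net3 (F := fun z => c' * (ph_net3 z - 1) - AA_net3 n (rr_net3 z)) (Z := Z)
    (fun x hx => (((ph_deriv'_net3 hx.1).sub_const 1).const_mul c').sub
      (AA_comp_deriv_net3 n hx.1)) (fun x hx => by
        have := mul_le_mul_of_nonneg_right (step_net3 (by linarith [hW x hx]) (ww_ge_net3 hx.1)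
          hc (h x hx).2) (hq x hx)
        rw [← hc'] at this
        linarith)
    (by simpa using ((ph_tendsto_net3.sub_const 1).const_mul c').sub (AA_comp_tendsto_net3 n))
  have h2 := cmp_net3 (F := fun z => c' * AA_net3 n (rr_net3 z) - (ph_net3 z - 1)) (Z := Z)
    (fun x hx => ((AA_comp_deriv_net3 n hx.1).const_mul c').sub
      ((ph_deriv'_net3 hx.1).sub_const 1)) (fun x hx => by
        have := mul_le_mul_of_nonneg_right (step_net3 (by linarith [ww_ge_net3 hx.1]) (hW x hx)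
          hc (h x hx).1) (hq x hx)
        rw [← hc'] at this
        linarith)
    (by simpa using ((AA_comp_tendsto_net3 n).const_mul c').sub (ph_tendsto_net3.sub_const 1))
  intro z hz
  obtain ⟨r0, r1⟩ := rr_mem_net3 hz.1
  have h3 := avg_eq_net3 n one_pos r0
  rw [show AA_net3 n 1 = 0 from intervalIntegral.integral_same, ← wn_succ] at h3
  have h4 := h1 z hz
  have h5 := h2 z hz
  have h6 : 0 < 1 - rr_net3 z := by linarith
  constructor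
  · rw [ww_net3, ← mul_div_assoc, le_div_iff₀ h6]; linarith
  · rw [ww_net3, div_le_iff₀ h6]
    have : AA_net3 n (rr_net3 z) = wn (n + 1) (rr_net3 z) * (1 - rr_net3 z) := by linarith
    rw [mul_assoc, ← this]; linarith

lemma wn_tendsto_net3 {Z : ℝ} (hZ : 0 < Z) :
    Tendsto (fun n => wn n (rr_net3 Z)) atTop (𝓝 (ww_net3 Z)) := by
  have hc0 : 1 ≤ Real.cosh Z ^ 2 := one_le_pow₀ (Real.one_le_cosh Z)
  have hc : ∀ n : ℕ, 1 ≤ 1 + (2 / 3 : ℝ) ^ n * (2 * Real.cosh Z ^ 2 - 1) := fun n =>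
    le_add_of_nonneg_right (mul_nonneg (by positivity) (by linarith))
  have key : ∀ n : ℕ, ∀ z ∈ Ioc 0 Z,
      wn n (rr_net3 z) ≤ (1 + (2 / 3 : ℝ) ^ n * (2 * Real.cosh Z ^ 2 - 1)) * ww_net3 z ∧
      ww_net3 z ≤ (1 + (2 / 3 : ℝ) ^ n * (2 * Real.cosh Z ^ 2 - 1)) * wn n (rr_net3 z) := by
    intro n
    induction n with
    | zero =>
      intro z hz
      have h1 := ww_ge_net3 hz.1
      have h2 := upper_net3 Z z hz
      simp only [wn, pow_zero, one_mul, add_sub_cancel, mul_one]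
      refine ⟨by nlinarith, ?_⟩
      rwa [ww_net3, div_le_iff₀ (by linarith [(rr_mem_net3 hz.1).2])]
    | succ n ih =>
      have h := succ_net3 n (hc n) ih
      have e : 1 + 2 / 3 * (1 + (2 / 3 : ℝ) ^ n * (2 * Real.cosh Z ^ 2 - 1) - 1)
          = 1 + (2 / 3 : ℝ) ^ (n + 1) * (2 * Real.cosh Z ^ 2 - 1) := by ring
      rwa [e] at h
  have hl : Tendsto (fun n : ℕ => 1 + (2 / 3 : ℝ) ^ n * (2 * Real.cosh Z ^ 2 - 1)) atTop (𝓝 1) := by
    simpa using ((tendsto_pow_atTop_nhds_zero_of_lt_one (r := (2 / 3 : ℝ)) (by norm_num)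
      (by norm_num)).mul_const (2 * Real.cosh Z ^ 2 - 1)).const_add 1
  refine tendsto_of_tendsto_of_tendsto_of_le_of_le
    (g := fun n : ℕ => ww_net3 Z / (1 + (2 / 3 : ℝ) ^ n * (2 * Real.cosh Z ^ 2 - 1)))
    (h := fun n : ℕ => (1 + (2 / 3 : ℝ) ^ n * (2 * Real.cosh Z ^ 2 - 1)) * ww_net3 Z)
    (by simpa [Pi.div_def] using (tendsto_const_nhds (x := ww_net3 Z)).div hl one_ne_zero)
    (by simpa using hl.mul_const (ww_net3 Z)) (fun n => ?_) fun n => (key n Z ⟨hZ, le_rfl⟩).1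
  have := (key n Z ⟨hZ, le_rfl⟩).2
  exact (div_le_iff₀' (by linarith [hc n])).mpr this

lemma AA_tendsto_net3 {φ r : ℝ} (h : OnCurve φ r) :
    0 < r ∧ r ≤ 1 ∧ Tendsto (fun n => AA_net3 n r) atTop (𝓝 (φ - 1)) := by
  rcases h with ⟨rfl, rfl⟩ | ⟨z, hz, rfl, rfl⟩
  · refine ⟨one_pos, le_rfl, ?_⟩
    simp [AA_net3]
  · obtain ⟨r0, r1⟩ := rr_mem_net3 hz
    refine ⟨r0, r1.le, ?_⟩
    have h1 := ((wn_tendsto_net3 hz).comp (tendsto_add_atTop_nat 1)).mul_const (1 - rr_net3 z)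
    rw [ww_net3, div_mul_cancel₀ _ (by linarith)] at h1
    refine h1.congr fun n => ?_
    have h3 := avg_eq_net3 n one_pos r0
    rw [show AA_net3 n 1 = 0 from intervalIntegral.integral_same, ← wn_succ] at h3
    change wn (n + 1) (rr_net3 z) * (1 - rr_net3 z) = AA_net3 n (rr_net3 z)
    linarith

theorem avg_tendsto {φ₁ r₁ φ₂ r₂ : ℝ} (h₁ : OnCurve φ₁ r₁)
    (h₂ : ∃ z : ℝ, 0 < z ∧ φ₂ = z * Real.cosh z / Real.sinh z ∧ r₂ = (z / Real.sinh z) ^ 2) :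
    ∃ γ : ℝ, 0 < γ ∧ Tendsto (fun n => avg n r₁ r₂) atTop (𝓝 γ) ∧
      γ * (r₂ - r₁) = φ₁ - φ₂ := by
  obtain ⟨a0, a1, a2⟩ := AA_tendsto_net3 h₁
  obtain ⟨b0, b1, b2⟩ := AA_tendsto_net3 (Or.inr h₂ : OnCurve φ₂ r₂)
  by_cases h : r₁ = r₂
  · subst h
    obtain ⟨z, hz, -, hr⟩ := h₂
    have hw := ww_ge_net3 hz
    have h1 : Tendsto (fun n => wn n r₁) atTop (𝓝 (ww_net3 z)) := hr ▸ wn_tendsto_net3 hz
    refine ⟨(1 + (ww_net3 z)⁻¹) / (2 * r₁), by positivity, ?_, ?_⟩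
    · refine (((h1.inv₀ (by linarith)).const_add 1).div_const (2 * r₁)).congr fun n => ?_
      have : ∀ θ : ℝ, (1 - θ) * r₁ + θ * r₁ = r₁ := fun θ => by ring
      simp [avg, this, Gn]
    · have := tendsto_nhds_unique a2 b2
      linarith
  · have hd : r₂ - r₁ ≠ 0 := sub_ne_zero.mpr (Ne.symm h)
    have h1 : Tendsto (fun n => avg n r₁ r₂) atTop (𝓝 ((φ₁ - 1 - (φ₂ - 1)) / (r₂ - r₁))) := by
      refine ((a2.sub b2).div_const (r₂ - r₁)).congr fun n => ?_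
      rw [← avg_eq_net3 n a0 b0, mul_div_cancel_left₀ _ hd]
    refine ⟨_, ?_, h1, ?_⟩
    · have := ge_of_tendsto' h1 fun n => avg_ge_net3 n a0 a1 b0 b1
      linarith
    · rw [div_mul_cancel₀ _ hd]; ring

end Vale.Agent.P369
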