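import Vale.Agent.P369.BoxK
import Vale.Agent.P369.Ent

/-! P369 task Op1: density operators, their truncations, and lower semicontinuity of the entropy.
Plan. `ρ.IsPositive ↔ 0 ≤ ρ` (`ContinuousLinearMap.nonneg_iff_isPositive`); spectrum in `[0, ‖ρ‖]`
(`spectrum_nonneg_of_nonneg`, `spectrum.norm_le_norm_of_mem`). `inner_cfc_le`: if `f x ≤ s x + t` on
the spectrum then `cfc f ρ ≤ cfc (fun x => s * x + t) ρ = s • ρ + t • 1` (`cfc_mono`, `cfc_add`,
`cfc_const_mul`, `cfc_id'`, `cfc_const`; handle a trivial `H` separately if needed), then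
`ContinuousLinearMap.le_def` / `IsPositive.re_inner_nonneg_right`.
`jensen_op`: `negMulLog_le_tangent` with `t = λ` if `λ > 0`; for `λ = 0` the bound is `≤ t` for all `t`.
`summable_entropy`: `-‖ρ‖ ρ k k ≤ d k ≤ negMulLog (ρ k k) ≤ ρ k k |k| + exp (-|k|)`
(`summable_exp_neg`). For a vector `v` on the box put `φ v = ∑_{k, emb k ≤ m} v k • e (emb k)`; then
`star v ⬝ᵥ (cut (mel e T) K m *ᵥ v) = ⟨φ v, T (φ v)⟩` for every operator `T`, `‖φ v‖² ≤ ∑ |v k|²`.
`cut_ent`: with `Dg X U λ` for `X = cut (mel e ρ) K m` and the columns `v i` of `U`: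
`negMulLog (λ i) ≥ ⟨φ i, (-ρ log ρ) φ i⟩ = (Uᴴ cut (mel e (negMulLogOp ρ)) K m U) i i`, the sum is the trace
(`sum_re_conj`), i.e. the partial sum over `boxF n m` (`trace_cut`); `tendsto_boxF`. -/

namespace Vale.Agent.P369

open Matrix Vale.Agent.P358 Complex Filter Topology
open scoped ComplexOrder

variable {n : ℕ} {H : Type} [NormedAddCommGroup H] [InnerProductSpace ℂ H] [CompleteSpace H]
  {e : HilbertBasis (Occ n) ℂ H} {ρ : H →L[ℂ] H}

theorem inner_cfc_le (hρ : ρ.IsPositive) {f : ℝ → ℝ} (hf : Continuous f) {s t : ℝ}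
    (h : ∀ x, 0 ≤ x → x ≤ ‖ρ‖ → f x ≤ s * x + t) (φ : H) :
    (inner ℂ φ (cfc f ρ φ)).re ≤ s * (inner ℂ φ (ρ φ)).re + t * ‖φ‖ ^ 2 := by
  have h0 : 0 ≤ ρ := (ContinuousLinearMap.nonneg_iff_isPositive ρ).mpr hρ
  have hsa : IsSelfAdjoint ρ := hρ.isSelfAdjoint
  rcases subsingleton_or_nontrivial H with hH | hH
  · rw [Subsingleton.elim φ 0]; simp
  have h1 : cfc f ρ ≤ cfc (fun x : ℝ => s * x + t) ρ := by
    refine cfc_mono (fun x hx => h x (spectrum_nonneg_of_nonneg h0 hx) ?_) hf.continuousOn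
      (by fun_prop)
    exact (Real.le_norm_self x).trans (spectrum.norm_le_norm_of_mem hx)
  rw [cfc_add_const t (fun x : ℝ => s * x) ρ, cfc_const_mul_id s ρ,
    Algebra.algebraMap_eq_smul_one] at h1
  have h2 := ((ContinuousLinearMap.le_def _ _).mp h1).re_inner_nonneg_right φ
  have e : (s • ρ + t • (1 : H →L[ℂ] H) - cfc f ρ) φ
      = (s : ℂ) • ρ φ + (t : ℂ) • φ - cfc f ρ φ := rfl
  rw [e, inner_sub_right, inner_add_right, inner_smul_right, inner_smul_right,
    inner_self_eq_norm_sq_to_K] at h2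
  simp only [RCLike.re_to_complex, sub_re, add_re, re_ofReal_mul, coe_algebraMap, ← ofReal_pow,
    ofReal_re] at h2
  linarith

theorem le_inner_cfc (hρ : ρ.IsPositive) {f : ℝ → ℝ} (hf : Continuous f) {s t : ℝ}
    (h : ∀ x, 0 ≤ x → x ≤ ‖ρ‖ → s * x + t ≤ f x) (φ : H) :
    s * (inner ℂ φ (ρ φ)).re + t * ‖φ‖ ^ 2 ≤ (inner ℂ φ (cfc f ρ φ)).re := by
  have h1 := inner_cfc_le hρ (f := fun x => -f x) (by fun_prop) (s := -s) (t := -t)
    (fun x h0 hx => by linarith [h x h0 hx]) φ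
  rw [cfc_neg, _root_.neg_apply, inner_neg_right, neg_re] at h1
  linarith

theorem jensen_op (hρ : ρ.IsPositive) (φ : H) (hφ : ‖φ‖ ≤ 1) :
    (inner ℂ φ (negMulLogOp ρ φ)).re ≤ Real.negMulLog (inner ℂ φ (ρ φ)).re := by
  have h0 : 0 ≤ (inner ℂ φ (ρ φ)).re := hρ.re_inner_nonneg_right φ
  have h1 : ∀ t : ℝ, 0 < t → (inner ℂ φ (negMulLogOp ρ φ)).re
      ≤ (-Real.log t - 1) * (inner ℂ φ (ρ φ)).re + t := by
    intro t ht
    have h2 := inner_cfc_le hρ Real.continuous_negMulLog (s := -Real.log t - 1) (t := t)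
      (fun x hx _ => by linarith [negMulLog_le_tangent hx ht]) φ
    have h3 : t * ‖φ‖ ^ 2 ≤ t := mul_le_of_le_one_right ht.le (pow_le_one₀ (norm_nonneg _) hφ)
    exact h2.trans (by linarith)
  rcases h0.eq_or_lt with h | h
  · rw [← h, Real.negMulLog_zero]
    refine le_of_forall_pos_le_add fun t ht => ?_
    simpa [← h] using h1 t ht
  · have := h1 _ h
    rw [Real.negMulLog]
    linarith

theorem mel_diag_nonneg (hρ : ρ.IsPositive) (k : Occ n) : 0 ≤ (mel e ρ k k).re := by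
  exact hρ.re_inner_nonneg_right (e k)

theorem hasSum_diag (hρ : IsDensity e ρ) : HasSum (fun k => (mel e ρ k k).re) 1 := by
  simpa using Complex.hasSum_re hρ.2

theorem summable_entropy (hρ : IsDensity e ρ) (hE : FiniteEnergy e ρ) :
    Summable fun k => (mel e (negMulLogOp ρ) k k).re := by
  have h1 := ((hasSum_diag hρ).summable.mul_left ‖ρ‖).add
    (Summable.add hE (summable_exp_neg (n := n) one_pos))
  refine Summable.of_norm_bounded h1 fun k => ?_
  have hk : ‖e k‖ = 1 := e.orthonormal.1 k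
  have h0 := mel_diag_nonneg (e := e) hρ.1 k
  have h2 : (mel e (negMulLogOp ρ) k k).re ≤ Real.negMulLog (mel e ρ k k).re :=
    jensen_op hρ.1 (e k) hk.le
  have h3 := negMulLog_le_tangent h0 (Real.exp_pos (-1 * ∑ j, (k j : ℝ)))
  rw [Real.log_exp] at h3
  have h4 : -‖ρ‖ * (mel e ρ k k).re + 0 * ‖e k‖ ^ 2 ≤ (mel e (negMulLogOp ρ) k k).re :=
    le_inner_cfc hρ.1 Real.continuous_negMulLog (fun x hx hx' => by
      have := mul_le_mul_of_nonneg_left ((Real.log_le_self hx).trans hx') hx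
      rw [Real.negMulLog]
      linarith) (e k)
  have h5 := mul_nonneg (norm_nonneg ρ) h0
  have h6 : 0 ≤ (∑ j, (k j : ℝ)) * (mel e ρ k k).re := mul_nonneg (by positivity) h0
  have h7 := Real.exp_pos (-1 * ∑ j, (k j : ℝ))
  rw [Real.norm_eq_abs, abs_le]
  constructor <;> linarith

/-- the vector with the coordinates `v`, cut at level `m` -/
noncomputable def vec (e : HilbertBasis (Occ n) ℂ H) {K : ℕ} (m : ℕ) (v : Box n K → ℂ) : H :=
  ∑ k, if ∀ i, emb k i ≤ m then v k • e (emb k) else 0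

theorem inner_vec (T : H →L[ℂ] H) {K : ℕ} (m : ℕ) (v w : Box n K → ℂ) :
    inner ℂ (vec e m v) (T (vec e m w)) = star v ⬝ᵥ (cut (mel e T) K m *ᵥ w) := by
  simp only [vec, map_sum, sum_inner, inner_sum, dotProduct, mulVec, Finset.mul_sum]
  rw [Finset.sum_comm]
  refine Finset.sum_congr rfl fun k _ => Finset.sum_congr rfl fun l _ => ?_
  by_cases hk : ∀ i, emb k i ≤ m
  · by_cases hl : ∀ i, emb l i ≤ m
    · rw [if_pos hk, if_pos hl, map_smul, inner_smul_left, inner_smul_right, cut, of_apply,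
        if_pos ⟨hk, hl⟩, mul_comm (w l)]
      rfl
    · rw [if_neg hl, map_zero, inner_zero_right, cut, of_apply, if_neg fun h => hl h.2, zero_mul,
        mul_zero]
  · rw [if_neg hk, inner_zero_left, cut, of_apply, if_neg fun h => hk h.1, zero_mul, mul_zero]

theorem norm_vec_sq_le {K : ℕ} (m : ℕ) (v : Box n K → ℂ) :
    ‖vec e m v‖ ^ 2 ≤ ∑ k, normSq (v k) := by
  have ho : Orthonormal ℂ (e ∘ (emb : Box n K → Occ n)) := e.orthonormal.comp _ emb_inj
  have e1 : vec e m v = ∑ k, (if ∀ i, emb k i ≤ m then v k else 0) • (e ∘ emb) k :=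
    Finset.sum_congr rfl fun k _ => by split_ifs <;> simp
  rw [@norm_sq_eq_re_inner ℂ, e1, ho.inner_sum, RCLike.re_to_complex, re_sum]
  refine Finset.sum_le_sum fun k _ => ?_
  rw [← normSq_eq_conj_mul_self, ofReal_re]
  split_ifs
  · exact le_rfl
  · simpa using normSq_nonneg _

theorem cut_psd (hρ : ρ.IsPositive) (K m : ℕ) : (cut (mel e ρ) K m).PosSemidef := by
  refine PosSemidef.of_dotProduct_mulVec_nonneg ?_ fun v => ?_
  · ext k l
    rw [conjTranspose_apply, cut, of_apply, of_apply]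
    by_cases h : (∀ i, emb k i ≤ m) ∧ ∀ i, emb l i ≤ m
    · rw [if_pos h, if_pos h.symm, mel, mel, coord, coord, RCLike.star_def, inner_conj_symm,
        hρ.inner_left_eq_inner_right]
    · rw [if_neg h, if_neg fun h' => h h'.symm, star_zero]
  · rw [← inner_vec]
    exact hρ.inner_nonneg_right _

theorem normSq_mel_le (hρ : ρ.IsPositive) (k l : Occ n) :
    normSq (mel e ρ k l) ≤ (mel e ρ k k).re * (mel e ρ l l).re := by
  have hk : ∀ j, k j ≤ Finset.univ.sup k + Finset.univ.sup l := fun j =>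
    (Finset.le_sup (f := k) (Finset.mem_univ j)).trans (Nat.le_add_right _ _)
  have hl : ∀ j, l j ≤ Finset.univ.sup k + Finset.univ.sup l := fun j =>
    (Finset.le_sup (f := l) (Finset.mem_univ j)).trans (Nat.le_add_left _ _)
  generalize Finset.univ.sup k + Finset.univ.sup l = K at hk hl
  obtain ⟨k', rfl⟩ := exists_emb hk
  obtain ⟨l', rfl⟩ := exists_emb hl
  have h := normSq_entry_le (cut_psd (e := e) hρ K K) k' l'
  simp only [cut, of_apply] at h
  rwa [if_pos ⟨hk, hl⟩, if_pos ⟨hk, hk⟩, if_pos ⟨hl, hl⟩] at h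

theorem trace_cut (f : Occ n → Occ n → ℂ) {K m : ℕ} (h : m ≤ K) :
    (cut f K m).trace = ∑ y ∈ boxF n m, f y y := by
  have h1 : (cut f K m).trace = ∑ k : Box n K, (fun y => if y ∈ boxF n m then f y y else 0) (emb k) :=
    Finset.sum_congr rfl fun k _ => by simp only [diag_apply, cut, of_apply, and_self, mem_boxF]
  rw [h1, sum_box (fun y => if y ∈ boxF n m then f y y else 0), Finset.sum_ite_mem, Finset.inter_eq_right.mpr]
  intro y hy
  rw [mem_boxF] at hy ⊢
  exact fun j => (hy j).trans h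

theorem tendsto_box_op1 {f : Occ n → ℝ} {a : ℝ} (h : HasSum f a) :
    Tendsto (fun m => ∑ y ∈ boxF n m, f y) atTop (𝓝 a) :=
  Tendsto.comp (g := fun s : Finset (Occ n) => ∑ y ∈ s, f y) h (tendsto_boxF n)

theorem cut_trace (hρ : IsDensity e ρ) {K : ℕ → ℕ} (hK : ∀ m, m ≤ K m) :
    Tendsto (fun m => (cut (mel e ρ) (K m) m).trace.re) atTop (𝓝 1) := by
  simp only [fun m => trace_cut (mel e ρ) (hK m), re_sum]
  exact tendsto_box_op1 (hasSum_diag hρ)

theorem cut_nrg (hρ : IsDensity e ρ) (hE : FiniteEnergy e ρ) (K m : ℕ) :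
    ex (cut (mel e ρ) K m) (nrg n K) ≤ ∑' k : Occ n, (∑ j, (k j : ℝ)) * (mel e ρ k k).re := by
  have h0 : ∀ k : Occ n, 0 ≤ (∑ j, (k j : ℝ)) * (mel e ρ k k).re := fun k =>
    mul_nonneg (by positivity) (mel_diag_nonneg hρ.1 k)
  refine le_trans ?_ (Summable.sum_le_tsum (boxF n K) (fun k _ => h0 k) hE)
  rw [nrg, ex_diagonal, ← sum_box]
  refine Finset.sum_le_sum fun k _ => ?_
  rw [cut, of_apply]
  split_ifs
  · rw [mul_comm]
  · simpa using h0 (emb k)

theorem cut_ent (hρ : IsDensity e ρ) (hE : FiniteEnergy e ρ) {K : ℕ → ℕ} (hK : ∀ m, m ≤ K m)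
    {δ : ℝ} (hδ : 0 < δ) :
    ∀ᶠ m in atTop, entropy e ρ - δ ≤ ent (cut (mel e ρ) (K m) m) := by
  have h1 : Tendsto (fun m => ∑ y ∈ boxF n m, (mel e (negMulLogOp ρ) y y).re) atTop
      (𝓝 (entropy e ρ)) := tendsto_box_op1 (summable_entropy hρ hE).hasSum
  filter_upwards [h1.eventually (lt_mem_nhds (sub_lt_self _ hδ))] with m hm
  refine hm.le.trans ?_
  obtain ⟨U, w, hU⟩ := exists_dg (cut_psd (e := e) hρ.1 (K m) m).isHermitian
  have h2 : ∀ (T : H →L[ℂ] H) i, (Uᴴ * cut (mel e T) (K m) m * U) i i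
      = inner ℂ (vec e m fun k => U k i) (T (vec e m fun k => U k i)) := by
    intro T i
    rw [inner_vec, Matrix.mul_assoc]
    rfl
  rw [← re_sum, ← trace_cut _ (hK m), ← sum_re_conj _ hU.r, hU.ent_eq]
  refine Finset.sum_le_sum fun i _ => ?_
  rw [← hU.re_conj i, h2, h2]
  refine jensen_op hρ.1 _ ?_
  have h3 := norm_vec_sq_le (e := e) m fun k => U k i
  rw [col_normSq hU.l] at h3
  exact (sq_le_one_iff₀ (norm_nonneg _)).mp h3

end Vale.Agent.P369
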