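import Vale.Agent.P369.Op1

/-! P369 task Op2: compressions of a density operator have almost smaller entropy.
Plan. Let `c = 3/2 + log (‖ρ‖ + 1)`, `f x = negMulLog x + c x ≥ 0` and `G x = x f x` on `[0, ‖ρ‖]`;
`G` is convex there (`G'' = 2c - 3 - 2 log x ≥ 0`); only the tangent inequality is needed:
`G λ + G'(λ)(x - λ) ≤ G x` for `0 < λ ≤ ‖ρ‖`, `0 ≤ x ≤ ‖ρ‖`, `G'(λ) = (2c - 1) λ - 2 λ log λ`
(`ConvexOn` + `HasDerivAt`, or directly: with `x = λ y` it reads
`λ² ((c - log λ)(y-1)² + y - 1 - y² log y) ≥ 0` with `c - log λ ≥ 3/2`, and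
`y² log y ≤ (3/2)(y-1)² + y - 1` must only hold for `λ y ≤ ‖ρ‖`; the `ConvexOn` route is safer).
`sum_inner_le`: for `T ≥ 0` with summable diagonal and an orthonormal finite family `u i`:
`T = R R`, `R = cfc √ T` self-adjoint; `⟨u, T u⟩ = ‖R u‖² = ∑' |⟨e k, R u⟩|² = ∑' |⟨R (e k), u⟩|²`
and Bessel `∑ i |⟨u i, R (e k)⟩|² ≤ ‖R (e k)‖² = T k k`.
`compress`: `Dg X U λ` for `X = cut (mel e ρ) m m`; `φ i = vec e m (column i)` are orthonormal
(`inner_vec` with `T = 1`, or directly) with `⟨φ i, ρ φ j⟩ = λ i [i = j]`; on `{i | 0 < λ i}` put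
`u i = (√(λ i))⁻¹ • S φ i`, `S = cfc √ ρ`; orthonormal; `⟨u i, cfc f ρ (u i)⟩ = ⟨φ i, cfc G ρ φ i⟩/λ i`
(`cfc_mul`, `cfc_congr`) `≥ G (λ i)/λ i = f (λ i)` (`le_inner_cfc`); `f 0 = 0`;
`cfc f ρ = negMulLogOp ρ + c • ρ` has diagonal sum `entropy e ρ + c`. -/

namespace Vale.Agent.P369

open Matrix Vale.Agent.P358 Complex Filter Topology
open scoped ComplexOrder

variable {n : ℕ} {H : Type} [NormedAddCommGroup H] [InnerProductSpace ℂ H] [CompleteSpace H]
  {e : HilbertBasis (Occ n) ℂ H} {ρ : H →L[ℂ] H}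

theorem spec_op2 (hρ : ρ.IsPositive) {x : ℝ} (hx : x ∈ spectrum ℝ ρ) : 0 ≤ x ∧ x ≤ ‖ρ‖ := by
  refine ⟨spectrum_nonneg_of_nonneg ((ContinuousLinearMap.nonneg_iff_isPositive ρ).2 hρ) hx, ?_⟩
  refine (le_abs_self x).trans ((spectrum.norm_le_norm_mul_of_mem hx).trans ?_)
  exact mul_le_of_le_one_right (norm_nonneg _) ContinuousLinearMap.norm_id_le

theorem sqrt_op2 (hρ : ρ.IsPositive) {f : ℝ → ℝ} (hf : Continuous f) (a b : H) :
    inner ℂ (cfc Real.sqrt ρ a) (cfc f ρ (cfc Real.sqrt ρ b))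
      = inner ℂ a (cfc (fun x => x * f x) ρ b) := by
  have h1 : IsSelfAdjoint (cfc Real.sqrt ρ) := cfc_predicate _ _
  have h2 : cfc (fun x => x * f x) ρ = cfc Real.sqrt ρ * (cfc f ρ * cfc Real.sqrt ρ) := by
    rw [← cfc_mul f Real.sqrt ρ hf.continuousOn Real.continuous_sqrt.continuousOn,
      ← cfc_mul Real.sqrt (fun x => f x * √x) ρ Real.continuous_sqrt.continuousOn
        (hf.mul Real.continuous_sqrt).continuousOn]
    refine cfc_congr fun x hx => ?_
    show x * f x = √x * (f x * √x)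
    rw [mul_left_comm, Real.mul_self_sqrt (spec_op2 hρ hx).1, mul_comm]
  rw [h2]
  exact h1.isSymmetric a _

theorem sqrt_one_op2 (hρ : ρ.IsPositive) (a b : H) :
    inner ℂ (cfc Real.sqrt ρ a) (cfc Real.sqrt ρ b) = inner ℂ a (ρ b) := by
  have hs := hρ.isSelfAdjoint
  have h := sqrt_op2 hρ (f := fun _ => 1) continuous_const a b
  simp only [mul_one] at h
  rwa [cfc_const_one ℝ ρ, cfc_id' ℝ ρ] at h

theorem sum_inner_le {T : H →L[ℂ] H} (hT : T.IsPositive) {s : ℝ}
    (hs : HasSum (fun k => (mel e T k k).re) s) {ι : Type} [Fintype ι] {u : ι → H}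
    (hu : Orthonormal ℂ u) : ∑ i, (inner ℂ (u i) (T (u i))).re ≤ s := by
  have h1 : IsSelfAdjoint (cfc Real.sqrt T) := cfc_predicate _ _
  have h2 : ∀ i, HasSum (fun k => ‖inner ℂ (u i) (cfc Real.sqrt T (e k))‖ ^ 2)
      (inner ℂ (u i) (T (u i))).re := fun i => by
    have h := Complex.hasSum_re (e.hasSum_inner_mul_inner (cfc Real.sqrt T (u i))
      (cfc Real.sqrt T (u i)))
    rw [sqrt_one_op2 hT] at h
    refine h.congr fun S => Finset.sum_congr rfl fun k _ => ?_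
    have h3 : inner ℂ (cfc Real.sqrt T (u i)) (e k) = inner ℂ (u i) (cfc Real.sqrt T (e k)) :=
      h1.isSymmetric _ _
    beta_reduce
    rw [← inner_conj_symm (e k), h3, mul_conj, ofReal_re, normSq_eq_norm_sq]
  refine hasSum_le (fun k => ?_) (hasSum_sum fun i _ => h2 i) hs
  refine (hu.sum_inner_products_le _).trans (le_of_eq ?_)
  rw [@norm_sq_eq_re_inner ℂ, sqrt_one_op2 hT]
  rfl

theorem tangent_op2 {c l x : ℝ} (hl : 0 < l) (hx : 0 ≤ x) (h1 : l + 2 ≤ c) (h2 : x + 2 ≤ c) :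
    (2 * c * l - l - 2 * l * Real.log l) * x + l ^ 2 * (Real.log l + 1 - c)
      ≤ x * (Real.negMulLog x + c * x) := by
  have a1 := Real.log_le_sub_one_of_pos hl
  rcases hx.eq_or_lt with rfl | hx
  · have : 0 ≤ l ^ 2 * (c - 1 - Real.log l) := mul_nonneg (sq_nonneg _) (by linarith)
    simp only [mul_zero, zero_mul]
    linarith
  have a2 := Real.log_le_sub_one_of_pos hx
  have a3 : l * (Real.log x - Real.log l) ≤ x - l := by
    have h := Real.log_le_sub_one_of_pos (div_pos hx hl)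
    rw [Real.log_div hx.ne' hl.ne'] at h
    have h' := mul_le_mul_of_nonneg_left h hl.le
    rwa [mul_sub l (x / l), mul_div_cancel₀ _ hl.ne', mul_one] at h'
  rw [Real.negMulLog]
  rcases le_total x l with h | h
  · have b1 : 0 ≤ (c - Real.log l - 2) * (x - l) ^ 2 := mul_nonneg (by linarith) (sq_nonneg _)
    have b2 : x ^ 2 * (l * (Real.log x - Real.log l)) ≤ x ^ 2 * (x - l) :=
      mul_le_mul_of_nonneg_left a3 (sq_nonneg _)
    have b3 : 0 ≤ (l - x) * (x - l) ^ 2 := mul_nonneg (by linarith) (sq_nonneg _)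
    refine le_of_mul_le_mul_left ?_ hl
    have b4 := mul_nonneg hl.le b1
    linarith
  · have b1 : 0 ≤ (c - Real.log x - 2) * (x - l) ^ 2 := mul_nonneg (by linarith) (sq_nonneg _)
    have b2 : (2 * x - l) * (l * (Real.log x - Real.log l)) ≤ (2 * x - l) * (x - l) :=
      mul_le_mul_of_nonneg_left a3 (by linarith)
    linarith

theorem col_op2 (T : H →L[ℂ] H) (m : ℕ) (U : Matrix (Box n m) (Box n m) ℂ) (i j : Box n m) :
    inner ℂ (vec e m fun k => U k i) (T (vec e m fun k => U k j))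
      = (Uᴴ * cut (mel e T) m m * U) i j := by
  rw [inner_vec, Matrix.mul_assoc]
  rfl

theorem compress (hρ : IsDensity e ρ) (hE : FiniteEnergy e ρ) :
    ∃ c : ℝ, 0 ≤ c ∧ ∀ m : ℕ,
      ent (cut (mel e ρ) m m) + c * (cut (mel e ρ) m m).trace.re ≤ entropy e ρ + c := by
  refine ⟨‖ρ‖ + 2, by positivity, fun m => ?_⟩
  set c := ‖ρ‖ + 2 with hc
  have hs := hρ.1.isSelfAdjoint
  have hf : Continuous fun x => Real.negMulLog x + c * x :=
    Real.continuous_negMulLog.add (continuous_const.mul continuous_id)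
  have hT : (cfc (fun x => Real.negMulLog x + c * x) ρ).IsPositive := by
    refine (ContinuousLinearMap.nonneg_iff_isPositive _).1 (cfc_nonneg fun x hx => ?_)
    obtain ⟨h0, h1⟩ := spec_op2 hρ.1 hx
    have h2 := mul_le_mul_of_nonneg_left (Real.log_le_self h0) h0
    have h3 := mul_le_mul_of_nonneg_left h1 h0
    rw [Real.negMulLog]
    linarith
  have hsum : HasSum (fun k => (mel e (cfc (fun x => Real.negMulLog x + c * x) ρ) k k).re)
      (entropy e ρ + c) := by
    have h := (summable_entropy hρ hE).hasSum.add ((hasSum_diag hρ).mul_left c)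
    rw [mul_one] at h
    refine h.congr fun S => Finset.sum_congr rfl fun k _ => ?_
    beta_reduce
    rw [cfc_add ρ Real.negMulLog (fun x => c * x) Real.continuous_negMulLog.continuousOn
      (continuous_const.mul continuous_id).continuousOn, cfc_const_mul_id c ρ]
    simp only [mel, coord, negMulLogOp, ContinuousLinearMap.add_apply,
      ContinuousLinearMap.smul_apply, inner_add_right, add_re]
    rw [← coe_smul, inner_smul_right, re_ofReal_mul]
  obtain ⟨U, l, h⟩ := exists_dg (cut_psd (e := e) hρ.1 m m).isHermitian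
  have hl := h.nonneg (cut_psd hρ.1 m m)
  set φ : Box n m → H := fun i => vec e m fun k => U k i
  have hφ : ∀ i j, inner ℂ (φ i) (ρ (φ j)) = if i = j then (l i : ℂ) else 0 := fun i j => by
    rw [col_op2, h.conj, diagonal_apply]
  have hn : ∀ i, ‖φ i‖ ^ 2 ≤ 1 := fun i => (norm_vec_sq_le m _).trans (col_normSq h.l i).le
  have hlρ : ∀ i, l i ≤ ‖ρ‖ := fun i => by
    have h1 : l i = (inner ℂ (φ i) (ρ (φ i))).re := by rw [hφ, if_pos rfl, ofReal_re]
    have h2 := (re_le_norm _).trans (norm_inner_le_norm (𝕜 := ℂ) (φ i) (ρ (φ i)))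
    have h3 := mul_le_mul_of_nonneg_left (ρ.le_opNorm (φ i)) (norm_nonneg (φ i))
    have h4 := mul_le_mul_of_nonneg_left (hn i) (norm_nonneg ρ)
    linarith
  have hq : ∀ i, 0 < l i →
      (((√(l i))⁻¹ : ℝ) : ℂ) * ((((√(l i))⁻¹ : ℝ) : ℂ) * (l i : ℂ)) = 1 := fun i hi => by
    rw [← ofReal_mul, ← ofReal_mul, ← mul_assoc, ← mul_inv, Real.mul_self_sqrt hi.le,
      inv_mul_cancel₀ hi.ne', ofReal_one]
  have hu : Orthonormal ℂ fun i : {i // 0 < l i} =>
      (((√(l i))⁻¹ : ℝ) : ℂ) • cfc Real.sqrt ρ (φ i) := by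
    rw [orthonormal_iff_ite]
    intro i j
    rw [inner_smul_left, inner_smul_right, sqrt_one_op2 hρ.1, hφ, conj_ofReal]
    by_cases hij : i = j
    · subst hij
      rw [if_pos rfl, if_pos rfl, hq _ i.2]
    · rw [if_neg hij, if_neg (fun h => hij (Subtype.ext h)), mul_zero, mul_zero]
  refine le_trans ?_ (sum_inner_le hT hsum hu)
  rw [h.ent_eq, h.trace_re, Finset.mul_sum, ← Finset.sum_add_distrib,
    ← Finset.sum_filter_of_ne (p := fun i => 0 < l i) fun i _ hi =>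
      (hl i).lt_of_ne fun h0 => hi (by rw [← h0]; simp),
    Finset.sum_subtype (p := fun i => 0 < l i) _ (fun i => by simp)]
  refine Finset.sum_le_sum fun i _ => ?_
  have hi := i.2
  rw [map_smul, inner_smul_left, inner_smul_right, sqrt_op2 hρ.1 hf, conj_ofReal, re_ofReal_mul,
    re_ofReal_mul, ← mul_assoc, ← mul_inv, Real.mul_self_sqrt hi.le, le_inv_mul_iff₀ hi]
  refine le_trans ?_ (le_inner_cfc hρ.1 (continuous_id.mul hf)
    (fun x h0 h1 => tangent_op2 hi h0 (by linarith [hlρ i]) (by linarith)) (φ i))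
  rw [hφ, if_pos rfl, ofReal_re, Real.negMulLog]
  have h1 : 0 ≤ l i ^ 2 * (c - 1 - Real.log (l i)) :=
    mul_nonneg (sq_nonneg _) (by linarith [hlρ i, Real.log_le_self hi.le])
  have h2 := mul_le_mul_of_nonneg_left (hn i) h1
  linarith

end Vale.Agent.P369
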